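import Vale.Agent.P032.St6

/-! Basic facts on open colourings. -/

namespace Vale.Agent.P032.BasA

open Set Metric Real Filter Topology

theorem e_re (θ : ℝ) : (e θ).re = cos θ := by simp [e, Complex.exp_ofReal_mul_I_re]

theorem e_im (θ : ℝ) : (e θ).im = sin θ := by simp [e, Complex.exp_ofReal_mul_I_im]

theorem e_norm (θ : ℝ) : ‖e θ‖ = 1 := by simp [e, Complex.norm_exp_ofReal_mul_I]

theorem e_cont : Continuous e := by
  unfold e
  fun_prop

theorem nsq (z : ℂ) : ‖z‖ ^ 2 = z.re ^ 2 + z.im ^ 2 := by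
  rw [Complex.sq_norm, Complex.normSq_apply]
  ring

theorem lt_one_of {z : ℂ} (h : z.re ^ 2 + z.im ^ 2 < 1) : ‖z‖ < 1 := by
  rw [← nsq] at h
  nlinarith [norm_nonneg z]

theorem one_lt_of {z : ℂ} (h : 1 < z.re ^ 2 + z.im ^ 2) : 1 < ‖z‖ := by
  rw [← nsq] at h
  nlinarith [norm_nonneg z]

theorem sgn {g : ℝ → ℝ} {g' a r : ℝ} (h : HasDerivAt g g' a) (h0 : g' ≠ 0) (hr : 0 < r) :
    (∃ s ∈ ball a r, g s < g a) ∧ ∃ s ∈ ball a r, g a < g s := by
  constructor
  · by_contra hh
    push Not at hh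
    have : IsLocalMin g a := eventually_of_mem (ball_mem_nhds a hr) hh
    exact h0 (this.hasDerivAt_eq_zero h)
  · by_contra hh
    push Not at hh
    have : IsLocalMax g a := eventually_of_mem (ball_mem_nhds a hr) hh
    exact h0 (this.hasDerivAt_eq_zero h)

theorem closed_ev {X : Type*} [TopologicalSpace X] {s : Set X} (hs : IsClosed s) (x : X) :
    ∀ᶠ z in 𝓝 x, z ∈ s → x ∈ s := by
  by_cases hx : x ∈ s
  · exact Eventually.of_forall fun _ _ => hx
  · exact eventually_of_mem (hs.isOpen_compl.mem_nhds hx) fun z hz h => (hz h).elim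

variable {C : Fin 5 → Set ℂ}

theorem cover (h : OCol C) (x : ℂ) : ∃ j, x ∈ F C j := by
  have := h.2.2.2 x
  rw [closure_iUnion_of_finite] at this
  exact mem_iUnion.1 this

theorem e0 (h : OCol C) (j : Fin 5) (x : ℂ) (hx : x ∈ F C j) (p : ℂ) (hp : p ∈ C j) :
    ‖x - p‖ ≠ 1 := by
  intro h1
  obtain ⟨r, hr, hb⟩ := Metric.isOpen_iff.1 (h.1 j) p hp
  obtain ⟨x', hx', hd⟩ := Metric.mem_closure_iff.1 hx r hr
  refine h.2.1 j x' hx' (p + (x' - x)) (hb ?_) ?_
  · rw [mem_ball, dist_eq_norm, add_sub_cancel_left, ← dist_eq_norm, dist_comm]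
    exact hd
  · rw [← h1]
    congr 1
    ring

theorem e1 (h : OCol C) (j : Fin 5) (K : Set ℂ) (hK : K ⊆ F C j) (hc : IsPreconnected K)
    (k : ℂ) (hk : k ∈ K) (k' : ℂ) (hk' : k' ∈ K) (p : ℂ) (h1 : ‖p - k‖ < 1) (h2 : 1 < ‖p - k'‖) :
    p ∉ F C j := by
  intro hp
  have ho : IsOpen {z : ℂ | ‖z - k‖ < 1 ∧ 1 < ‖z - k'‖} :=
    (isOpen_lt (f := fun z : ℂ => ‖z - k‖) (by fun_prop) continuous_const).inter
      (isOpen_lt (g := fun z : ℂ => ‖z - k'‖) continuous_const (by fun_prop))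
  obtain ⟨q, hq, hqC⟩ := mem_closure_iff.1 hp _ ho ⟨h1, h2⟩
  have := hc.intermediate_value hk hk' (f := fun z => ‖q - z‖) (by fun_prop)
  obtain ⟨z, hz, hz1⟩ := this ⟨hq.1.le, hq.2.le⟩
  refine e0 h j z (hK hz) q hqC ?_
  rw [norm_sub_rev]
  exact hz1

theorem curve (h : OCol C) (j : Fin 5) {γ : ℝ → ℂ} (hγ : Continuous γ) {a r g' : ℝ} (hr : 0 < r)
    (hK : ∀ s ∈ ball a r, γ s ∈ F C j) {p : ℂ}
    (hd : HasDerivAt (fun s => (p - γ s).re ^ 2 + (p - γ s).im ^ 2) g' a) (h0 : g' ≠ 0)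
    (h1 : (p - γ a).re ^ 2 + (p - γ a).im ^ 2 = 1) : p ∉ F C j := by
  obtain ⟨⟨s, hs, h2⟩, s', hs', h3⟩ := sgn hd h0 hr
  rw [h1] at h2 h3
  exact e1 h j (γ '' ball a r) (by rintro _ ⟨t, ht, rfl⟩; exact hK t ht)
    ((convex_ball a r).isPreconnected.image γ hγ.continuousOn) (γ s) ⟨s, hs, rfl⟩ (γ s')
    ⟨s', hs', rfl⟩ p (lt_one_of h2) (one_lt_of h3)

theorem closedH (y : ℂ) (j : Fin 5) : IsClosed (H C y j) :=
  isClosed_closure.preimage (continuous_const.add e_cont)

theorem arc (h : OCol C) (y : ℂ) (j : Fin 5) (α β : ℝ) (hα : α ∈ U C y j)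
    (hs : sin (α - β) ≠ 0) : y + e α + e β ∉ F C j := by
  obtain ⟨r, hr, hb⟩ := Metric.isOpen_iff.1 isOpen_interior α hα
  refine curve h j (γ := fun s => y + e s) (continuous_const.add e_cont) (a := α)
    (g' := 2 * sin (α - β)) hr (fun s hs => (interior_subset (hb hs) : s ∈ H C y j)) ?_
    (by positivity) ?_
  · have e1 : (fun s => (y + e α + e β - (y + e s)).re ^ 2 + (y + e α + e β - (y + e s)).im ^ 2) =
        fun s => (cos α + cos β - cos s) ^ 2 + (sin α + sin β - sin s) ^ 2 := by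
      funext s
      simp only [Complex.sub_re, Complex.add_re, Complex.sub_im, Complex.add_im, e_re, e_im]
      ring
    rw [e1]
    have := (((hasDerivAt_cos α).const_sub (cos α + cos β)).pow 2).add
      (((hasDerivAt_sin α).const_sub (sin α + sin β)).pow 2)
    refine HasDerivAt.congr_deriv this ?_
    rw [sin_sub]
    push_cast
    ring
  · simp only [Complex.sub_re, Complex.add_re, Complex.sub_im, Complex.add_im, e_re, e_im]
    linarith [sin_sq_add_cos_sq β]

theorem hex (α : ℝ) : e (α + π / 3) = e α + e (α + 2 * (π / 3)) ∧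
    e (α - π / 3) = e α + e (α - 2 * (π / 3)) := by
  have c2 : cos (2 * (π / 3)) = -(1 / 2) := by
    rw [cos_two_mul, cos_pi_div_three]
    norm_num
  have s2 : sin (2 * (π / 3)) = sin (π / 3) := by
    rw [sin_two_mul, cos_pi_div_three]
    ring
  constructor <;> apply Complex.ext <;>
    simp only [Complex.add_re, Complex.add_im, e_re, e_im, cos_add, sin_add, cos_sub, sin_sub, c2,
      s2, cos_pi_div_three] <;> ring

theorem l1 (h : OCol C) (y : ℂ) (j : Fin 5) (α : ℝ) (hα : α ∈ U C y j) :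
    α + π / 3 ∉ H C y j ∧ α - π / 3 ∉ H C y j := by
  have s2 : sin (2 * (π / 3)) ≠ 0 :=
    (sin_pos_of_pos_of_lt_pi (by positivity) (by linarith [pi_pos])).ne'
  constructor
  · have := arc h y j α (α + 2 * (π / 3)) hα (by
      rw [sub_add_cancel_left, sin_neg]
      exact neg_ne_zero.2 s2)
    change y + e (α + π / 3) ∉ F C j
    rwa [(hex α).1, ← add_assoc]
  · have := arc h y j α (α - 2 * (π / 3)) hα (by rwa [sub_sub_cancel])
    change y + e (α - π / 3) ∉ F C j
    rwa [(hex α).2, ← add_assoc]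

theorem seg (h : OCol C) (y n : ℂ) (j : Fin 5) (r φ : ℝ) (hr : 0 < r)
    (hK : ∀ t : ℝ, |t| < r → y + t * n ∈ F C j) (h0 : (n * (starRingEnd ℂ) (e φ)).re ≠ 0) :
    φ ∉ H C y j := by
  refine curve h j (γ := fun t : ℝ => y + t * n) (by fun_prop) (a := 0)
    (g' := -2 * (n * (starRingEnd ℂ) (e φ)).re) hr
    (fun s hs => hK s (by simpa using hs)) ?_ (mul_ne_zero (by norm_num) h0) ?_
  · have e1 : (fun s : ℝ => (y + e φ - (y + s * n)).re ^ 2 + (y + e φ - (y + s * n)).im ^ 2) =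
        fun s => (cos φ - s * n.re) ^ 2 + (sin φ - s * n.im) ^ 2 := by
      funext s
      simp [e_re, e_im]
    rw [e1]
    have := ((((hasDerivAt_id (0 : ℝ)).mul_const n.re).const_sub (cos φ)).pow 2).add
      ((((hasDerivAt_id (0 : ℝ)).mul_const n.im).const_sub (sin φ)).pow 2)
    refine HasDerivAt.congr_deriv this ?_
    simp [e_re, e_im]
    ring
  · simp [e_re, e_im]

theorem gen (y : ℂ) : Dense (Gen C y) := by
  have key : ∀ j, Dense ((H C y j)ᶜ ∪ U C y j) := by
    intro j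
    rw [dense_iff_inter_open]
    intro V hV ⟨x, hx⟩
    by_cases hs : V ⊆ H C y j
    · exact ⟨x, hx, Or.inr (interior_maximal hs hV hx)⟩
    · obtain ⟨z, hz, hz'⟩ := not_subset.1 hs
      exact ⟨z, hz, Or.inl hz'⟩
  have := dense_iInter_of_isOpen (ι := ℤ × Fin 5)
    (f := fun k => (fun θ : ℝ => θ + k.1 * (π / 3)) ⁻¹' ((H C y k.2)ᶜ ∪ U C y k.2))
    (fun k => ((closedH y k.2).isOpen_compl.union isOpen_interior).preimage (by fun_prop))
    (fun k => (key k.2).preimage (isOpenMap_add_right _))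
  refine this.mono fun θ hθ k j hk => ?_
  exact (mem_iInter.1 hθ (k, j)).resolve_left (fun hh => hh hk)

theorem side (h : OCol C) (S : Set (Fin 5)) (K : Set ℂ) (hK : ∀ j ∈ S, K ⊆ F C j)
    (hc : IsPreconnected K) (y : ℂ) (hy : y ∈ K) (k : ℂ) (hk : k ∈ K) (hne : k ≠ y) (θ : ℝ) :
    ∃ j, j ∉ S ∧ θ ∈ H C y j := by
  set B : Set ℂ := ⋃ j, {z | j ∉ S ∧ z ∈ F C j} with hB
  have hBc : IsClosed B := isClosed_iUnion_of_finite fun j =>
    (isClosed_const).inter isClosed_closure
  have hin : ∀ p a b, a ∈ K → b ∈ K → ‖p - a‖ < 1 → 1 < ‖p - b‖ → p ∈ B := by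
    intro p a b ha hb h1 h2
    obtain ⟨j, hj⟩ := cover h p
    exact mem_iUnion.2 ⟨j, fun hS => e1 h j K (hK j hS) hc a ha b hb p h1 h2 hj, hj⟩
  have lim : ∀ v : ℂ, (∀ᶠ t : ℝ in 𝓝[>] 0, y + e θ + t * v ∈ B) → y + e θ ∈ B := by
    intro v hv
    have ht : Tendsto (fun t : ℝ => y + e θ + t * v) (𝓝[>] 0) (𝓝 (y + e θ)) := by
      have : Continuous fun t : ℝ => y + e θ + t * v := by fun_prop
      simpa using (this.tendsto 0).mono_left nhdsWithin_le_nhds
    exact hBc.mem_of_tendsto ht hv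
  have small : ∀ᶠ t : ℝ in 𝓝[>] 0, t ∈ Ioo (0 : ℝ) 1 := Ioo_mem_nhdsGT one_pos
  have cont : ∀ v : ℂ, Tendsto (fun t : ℝ => ‖y + e θ + t * v - k‖) (𝓝[>] 0)
      (𝓝 ‖y + e θ - k‖) := by
    intro v
    have : Continuous fun t : ℝ => ‖y + e θ + t * v - k‖ := by fun_prop
    simpa using (this.tendsto 0).mono_left nhdsWithin_le_nhds
  have sc := sin_sq_add_cos_sq θ
  suffices y + e θ ∈ B by simpa [hB, H] using this
  rcases lt_trichotomy ‖y + e θ - k‖ 1 with h1 | h1 | h1
  · refine lim (e θ) ?_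
    filter_upwards [small, (cont (e θ)).eventually_lt_const h1] with t ht h2
    refine hin _ k y hk hy h2 (one_lt_of ?_)
    have : (y + e θ + t * e θ - y).re ^ 2 + (y + e θ + t * e θ - y).im ^ 2 =
        (1 + t) ^ 2 * (sin θ ^ 2 + cos θ ^ 2) := by
      simp only [Complex.sub_re, Complex.sub_im, Complex.add_re, Complex.add_im, e_re, e_im,
          Complex.re_ofReal_mul, Complex.im_ofReal_mul]
      ring
    rw [this, sc]
    nlinarith [ht.1]
  · refine lim (y - k) ?_
    filter_upwards [small] with t ht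
    have h2 := nsq (y + e θ - k)
    rw [h1] at h2
    have h3 : 0 < (y.re - k.re) ^ 2 + (y.im - k.im) ^ 2 := by
      have := nsq (y - k)
      have h4 : 0 < ‖y - k‖ := norm_pos_iff.2 (sub_ne_zero.2 hne.symm)
      simp only [Complex.sub_re, Complex.sub_im] at this
      rw [← this]
      positivity
    simp only [Complex.sub_re, Complex.sub_im, Complex.add_re, Complex.add_im, e_re, e_im] at h2
    have h5 := mul_pos (mul_pos ht.1 (sub_pos.2 ht.2)) h3
    have h6 := mul_pos (mul_pos ht.1 (show 0 < 1 + t by linarith [ht.1])) h3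
    have h7 : 2 * (cos θ * (y.re - k.re) + sin θ * (y.im - k.im)) =
        -((y.re - k.re) ^ 2 + (y.im - k.im) ^ 2) := by linarith
    refine hin _ y k hy hk (lt_one_of ?_) (one_lt_of ?_)
    · have : (y + e θ + t * (y - k) - y).re ^ 2 + (y + e θ + t * (y - k) - y).im ^ 2 =
          (sin θ ^ 2 + cos θ ^ 2) + t * (2 * (cos θ * (y.re - k.re) + sin θ * (y.im - k.im))) +
            t ^ 2 * ((y.re - k.re) ^ 2 + (y.im - k.im) ^ 2) := by
        simp only [Complex.sub_re, Complex.sub_im, Complex.add_re, Complex.add_im, e_re, e_im,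
          Complex.re_ofReal_mul, Complex.im_ofReal_mul]
        ring
      rw [this, h7, sc]
      linarith
    · have : (y + e θ + t * (y - k) - k).re ^ 2 + (y + e θ + t * (y - k) - k).im ^ 2 =
          (sin θ ^ 2 + cos θ ^ 2) +
            (1 + t) * (2 * (cos θ * (y.re - k.re) + sin θ * (y.im - k.im))) +
            (1 + t) ^ 2 * ((y.re - k.re) ^ 2 + (y.im - k.im) ^ 2) := by
        simp only [Complex.sub_re, Complex.sub_im, Complex.add_re, Complex.add_im, e_re, e_im,
          Complex.re_ofReal_mul, Complex.im_ofReal_mul]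
        ring
      rw [this, h7, sc]
      linarith
  · refine lim (-e θ) ?_
    filter_upwards [small, (cont (-e θ)).eventually_const_lt h1] with t ht h2
    refine hin _ y k hy hk (lt_one_of ?_) h2
    have : (y + e θ + t * -e θ - y).re ^ 2 + (y + e θ + t * -e θ - y).im ^ 2 =
        (1 - t) ^ 2 * (sin θ ^ 2 + cos θ ^ 2) := by
      simp only [Complex.sub_re, Complex.sub_im, Complex.add_re, Complex.add_im, e_re, e_im,
        Complex.re_ofReal_mul, Complex.im_ofReal_mul, Complex.neg_re, Complex.neg_im]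
      ring
    rw [this, sc]
    nlinarith [ht.1, ht.2, mul_pos ht.1 (show 0 < 2 - t by linarith [ht.2])]

theorem edge_closed (a b : Fin 5) : IsClosed {y | Edge C y a b} := by
  have : {y | Edge C y a b} = {_y | a ≠ b} ∩ (F C a ∩ (F C b ∩
      ⋂ θ, ⋃ j, {y | j ≠ a ∧ j ≠ b ∧ y + e θ ∈ F C j})) := by
    ext y
    simp [Edge, H]
  rw [this]
  refine isClosed_const.inter (isClosed_closure.inter (isClosed_closure.inter
    (isClosed_iInter fun θ => isClosed_iUnion_of_finite fun j => ?_)))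
  exact isClosed_const.inter (isClosed_const.inter
    (isClosed_closure.preimage (continuous_id.add continuous_const)))

end Vale.Agent.P032.BasA

namespace Vale.Agent.P032

open Set Metric Filter Topology

theorem bas : BasStmt := by
  intro C h
  refine ⟨h, BasA.cover h, BasA.e0 h, ?_, ?_, ?_, BasA.e1 h, BasA.closedH, BasA.arc h, BasA.l1 h,
    BasA.seg h, BasA.gen, BasA.side h, ?_⟩
  · intro i j hij x hx
    exact Set.disjoint_left.1 ((h.2.2.1 hij).closure_right (h.1 i)) hx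
  · intro x r hr
    obtain ⟨p, hp, hp'⟩ := h.2.2.2.exists_mem_open isOpen_ball ⟨x, mem_ball_self hr⟩
    obtain ⟨j, hj⟩ := mem_iUnion.1 hp
    exact ⟨j, p, hj, hp'⟩
  · intro x
    exact Metric.eventually_nhds_iff_ball.1
      (eventually_all.2 fun j => BasA.closed_ev (s := F C j) isClosed_closure x)
  · intro y
    exact Metric.eventually_nhds_iff_ball.1
      (eventually_all.2 fun a => eventually_all.2 fun b =>
        BasA.closed_ev (BasA.edge_closed (C := C) a b) y)

end Vale.Agent.P032
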