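import Mathlib

/-! Basic objects: algebraic numbers, their unit circle and their character group. -/

namespace Vale.Agent.P032

open MeasureTheory Filter Topology ComplexConjugate

/-- The field of complex algebraic numbers. -/
abbrev E : Type := algebraicClosure ℚ ℂ

instance : Countable E := by
  have := (Algebraic.countable ℚ ℂ).to_subtype
  exact Function.Injective.countable
    (f := fun x : E => (⟨x.1, (mem_algebraicClosure_iff).1 x.2⟩ : {x : ℂ | IsAlgebraic ℚ x}))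
    fun x y h => Subtype.ext (by simpa using h)

theorem mem_of_pow {x : ℂ} {n : ℕ} (hn : 0 < n) (h : x ^ n ∈ algebraicClosure ℚ ℂ) :
    x ∈ algebraicClosure ℚ ℂ :=
  mem_algebraicClosure_iff.2 (IsAlgebraic.of_pow hn (mem_algebraicClosure_iff.1 h))

/-- Complex conjugation. -/
noncomputable def cj (x : E) : E :=
  ⟨conj x.1, mem_algebraicClosure_iff.2
    ((mem_algebraicClosure_iff.1 x.2).algHom ((Complex.conjAe.restrictScalars ℚ).toAlgHom))⟩

@[simp] theorem coe_cj (x : E) : ((cj x : E) : ℂ) = conj (x : ℂ) := rfl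

/-- The imaginary unit. -/
noncomputable def iE : E := ⟨Complex.I, mem_of_pow two_pos (by
  rw [Complex.I_sq]; exact neg_mem (one_mem _))⟩

@[simp] theorem coe_iE : ((iE : E) : ℂ) = Complex.I := rfl

/-- The unit circle. -/
def T : Subgroup Eˣ where
  carrier := {u | ‖((u : E) : ℂ)‖ = 1}
  mul_mem' := fun {a b} ha hb => by
    simp only [Set.mem_ofPred_eq, Units.val_mul, MulMemClass.coe_mul, norm_mul] at *
    rw [ha, hb, one_mul]
  one_mem' := by simp
  inv_mem' := fun {a} ha => by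
    simp only [Set.mem_ofPred_eq, Units.val_inv_eq_inv_val, IntermediateField.coe_inv,
      norm_inv] at *
    rw [ha, inv_one]

instance : Countable Eˣ := Units.val_injective.countable

/-- An element of the circle as a number. -/
noncomputable def tE : T →* E := (Units.coeHom E).comp T.subtype

theorem norm_tE (t : T) : ‖((tE t : E) : ℂ)‖ = 1 := t.2

theorem tE_inj : Function.Injective tE := fun _ _ h => Subtype.ext (Units.ext h)

theorem exists_tE {a : E} (h : ‖(a : ℂ)‖ = 1) : ∃ t : T, tE t = a := by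
  have h0 : a ≠ 0 := by
    rintro rfl
    simp at h
  exact ⟨⟨Units.mk0 a h0, h⟩, rfl⟩

theorem exists_root (x : E) {n : ℕ} (hn : 0 < n) : ∃ y : E, y ^ n = x := by
  obtain ⟨y, hy⟩ := IsAlgClosed.exists_pow_nat_eq (x : ℂ) hn
  exact ⟨⟨y, mem_of_pow hn (hy ▸ x.2)⟩, Subtype.ext hy⟩

theorem pow_surj {n : ℕ} (hn : 0 < n) : Function.Surjective (powMonoidHom n : T →* T) := by
  intro t
  obtain ⟨y, hy⟩ := exists_root (tE t) hn
  have h1 : ‖(y : ℂ)‖ ^ n = 1 := by
    rw [← norm_pow, ← norm_tE t, ← hy]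
    rfl
  obtain ⟨r, rfl⟩ := exists_tE ((pow_eq_one_iff_of_nonneg (norm_nonneg _) hn.ne').1 h1)
  exact ⟨r, tE_inj (by rw [← hy]; exact map_pow tE r n)⟩

theorem exists_rot {a b : E} (h : ‖(a : ℂ)‖ = ‖(b : ℂ)‖) : ∃ u : T, a = tE u * b := by
  by_cases hb : b = 0
  · subst hb
    have : (a : ℂ) = 0 := by simpa using h
    exact ⟨1, by rw [mul_zero]; exact Subtype.ext this⟩
  · have hb' : (b : ℂ) ≠ 0 := fun e => hb (Subtype.ext e)
    obtain ⟨u, hu⟩ := exists_tE (a := a / b) (by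
      rw [IntermediateField.coe_div, norm_div, h, div_self (norm_ne_zero_iff.2 hb')])
    exact ⟨u, by rw [hu, div_mul_cancel₀ _ hb]⟩

theorem real_mem {r : ℝ} (h : ((r : ℂ) ^ 2) ∈ algebraicClosure ℚ ℂ) :
    ∃ y : E, (y : ℂ) = r := ⟨⟨r, mem_of_pow two_pos h⟩, rfl⟩

theorem exists_norm (z : E) : ∃ y : E, (y : ℂ) = (‖(z : ℂ)‖ : ℝ) := by
  refine real_mem ?_
  rw [← Complex.mul_conj']
  exact (z * cj z).2

theorem two_sum {z w : E} (h : ‖(z : ℂ)‖ ≤ 2 * ‖(w : ℂ)‖) :
    ∃ t t' : T, z = tE t * w + tE t' * w := by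
  obtain ⟨a, ha⟩ := exists_norm z
  obtain ⟨b, hb⟩ := exists_norm w
  have h0 : 0 ≤ ‖(w : ℂ)‖ ^ 2 - (‖(z : ℂ)‖ / 2) ^ 2 := by
    nlinarith [norm_nonneg (z : ℂ), norm_nonneg (w : ℂ)]
  obtain ⟨s, hs⟩ := real_mem (r := √(‖(w : ℂ)‖ ^ 2 - (‖(z : ℂ)‖ / 2) ^ 2)) (by
    rw [← Complex.ofReal_pow, Real.sq_sqrt h0]
    have : (((‖(w : ℂ)‖ ^ 2 - (‖(z : ℂ)‖ / 2) ^ 2 : ℝ)) : ℂ) = ((b ^ 2 - (a / 2) ^ 2 : E) : ℂ) := by
      push_cast
      rw [ha, hb]
      rfl
    rw [this]
    exact Subtype.property _)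
  obtain ⟨u, hu⟩ := exists_rot (a := z) (b := a) (by rw [ha]; simp)
  have key : ∀ e : ℝ, e ^ 2 = 1 → ∀ y : E, (y : ℂ) = (a : ℂ) / 2 + e * s * Complex.I →
      ‖((tE u * y : E) : ℂ)‖ = ‖(w : ℂ)‖ := fun e he y hy => by
    rw [MulMemClass.coe_mul, norm_mul, norm_tE, one_mul, hy, ha, hs]
    have : ((‖(z : ℂ)‖ : ℝ) : ℂ) / 2 + e * (√(‖(w : ℂ)‖ ^ 2 - (‖(z : ℂ)‖ / 2) ^ 2) : ℝ) * Complex.I
        = ((‖(z : ℂ)‖ / 2 : ℝ) : ℂ) +
          ((e * √(‖(w : ℂ)‖ ^ 2 - (‖(z : ℂ)‖ / 2) ^ 2) : ℝ) : ℂ) * Complex.I := by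
      push_cast; ring
    rw [this, Complex.norm_add_mul_I, mul_pow, he, Real.sq_sqrt h0]
    rw [one_mul, add_sub_cancel, Real.sqrt_sq (norm_nonneg _)]
  obtain ⟨t, ht⟩ := exists_rot (key 1 (by norm_num) (a / 2 + s * iE) (by push_cast; simp; rfl))
  obtain ⟨t', ht'⟩ := exists_rot (key (-1) (by norm_num) (a / 2 - s * iE) (by
    push_cast; simp [sub_eq_add_neg]; rfl))
  refine ⟨t, t', ?_⟩
  rw [← ht, ← ht', hu]
  ring

/-- The character group. -/
def Γ : Type := E →+ UnitAddCircle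

noncomputable instance : AddCommGroup Γ := inferInstanceAs (AddCommGroup (E →+ UnitAddCircle))

/-- A character as a homomorphism. -/
def Γ.hom (χ : Γ) : E →+ UnitAddCircle := χ

theorem Γ.ext {χ χ' : Γ} (h : ∀ z, χ.hom z = χ'.hom z) : χ = χ' := AddMonoidHom.ext h

@[simp] theorem Γ.add_hom (χ χ' : Γ) (z : E) : (χ + χ').hom z = χ.hom z + χ'.hom z := rfl
@[simp] theorem Γ.zero_hom (z : E) : (0 : Γ).hom z = 0 := rfl
@[simp] theorem Γ.neg_hom (χ : Γ) (z : E) : (-χ).hom z = -χ.hom z := rfl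

noncomputable instance : SMul E Γ := ⟨fun a χ => χ.hom.comp (AddMonoidHom.mulLeft a)⟩

@[simp] theorem Γ.smul_hom (a : E) (χ : Γ) (z : E) : (a • χ).hom z = χ.hom (a * z) := rfl

noncomputable instance : Module E Γ where
  one_smul χ := Γ.ext fun z => by simp
  mul_smul a b χ := Γ.ext fun z => by simp [mul_left_comm, mul_assoc]
  smul_zero a := Γ.ext fun z => by simp
  smul_add a χ χ' := Γ.ext fun z => by simp
  add_smul a b χ := Γ.ext fun z => by simp [add_mul]
  zero_smul χ := Γ.ext fun z => by simp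

noncomputable instance : TopologicalSpace Γ :=
  TopologicalSpace.induced (fun χ : Γ => (χ.hom : E → UnitAddCircle)) inferInstance

theorem Γ.isEmbedding : IsEmbedding fun χ : Γ => (χ.hom : E → UnitAddCircle) :=
  ⟨⟨rfl⟩, fun _ _ h => Γ.ext (congrFun h)⟩

theorem Γ.continuous_hom (z : E) : Continuous fun χ : Γ => χ.hom z :=
  (continuous_apply z).comp Γ.isEmbedding.continuous

theorem Γ.continuous_iff {X : Type*} [TopologicalSpace X] {g : X → Γ} :
    Continuous g ↔ ∀ z, Continuous fun x => (g x).hom z := by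
  rw [Γ.isEmbedding.continuous_iff, continuous_pi_iff]
  rfl

instance : CompactSpace Γ := by
  refine IsClosedEmbedding.compactSpace ⟨Γ.isEmbedding, ?_⟩
  have : Set.range (fun χ : Γ => (χ.hom : E → UnitAddCircle))
      = ⋂ x, ⋂ y, {g : E → UnitAddCircle | g (x + y) = g x + g y} := by
    ext g
    simp only [Set.mem_range, Set.mem_iInter, Set.mem_ofPred_eq]
    constructor
    · rintro ⟨χ, rfl⟩ x y
      exact map_add χ.hom x y
    · intro h
      exact ⟨AddMonoidHom.mk' g h, rfl⟩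
  rw [this]
  exact isClosed_iInter fun x => isClosed_iInter fun y =>
    isClosed_eq (continuous_apply _) (by fun_prop)

instance : T2Space Γ := Γ.isEmbedding.t2Space
instance : SecondCountableTopology Γ := Γ.isEmbedding.secondCountableTopology
instance : TopologicalSpace.MetrizableSpace Γ := Γ.isEmbedding.metrizableSpace

instance : IsTopologicalAddGroup Γ where
  continuous_add := Γ.continuous_iff.2 fun z =>
    ((Γ.continuous_hom z).comp continuous_fst).add ((Γ.continuous_hom z).comp continuous_snd)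
  continuous_neg := Γ.continuous_iff.2 fun z => (Γ.continuous_hom z).neg

instance : ContinuousConstSMul E Γ :=
  ⟨fun a => Γ.continuous_iff.2 fun z => Γ.continuous_hom (a * z)⟩

noncomputable instance : MeasurableSpace Γ := borel Γ
instance : BorelSpace Γ := ⟨rfl⟩

/-- The value of a character. -/
noncomputable def f (w : E) (χ : Γ) : ℂ := AddCircle.toCircle (χ.hom w)

theorem f_add_left (w w' : E) (χ : Γ) : f (w + w') χ = f w χ * f w' χ := by
  simp [f, AddCircle.toCircle_add]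

theorem f_add_right (w : E) (χ χ' : Γ) : f w (χ + χ') = f w χ * f w χ' := by
  simp [f, AddCircle.toCircle_add]

theorem f_smul (w a : E) (χ : Γ) : f w (a • χ) = f (a * w) χ := rfl

@[simp] theorem f_zero_left (χ : Γ) : f 0 χ = 1 := by simp [f]

@[simp] theorem f_zero_right (w : E) : f w 0 = 1 := by simp [f]

theorem norm_f (w : E) (χ : Γ) : ‖f w χ‖ = 1 := Circle.norm_coe _

theorem f_neg_left (w : E) (χ : Γ) : f (-w) χ = conj (f w χ) := by
  rw [f, map_neg, AddCircle.toCircle_neg, Circle.coe_inv_eq_conj, f]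

theorem f_neg_right (w : E) (χ : Γ) : f w (-χ) = conj (f w χ) := by
  rw [f, Γ.neg_hom, AddCircle.toCircle_neg, Circle.coe_inv_eq_conj, f]

theorem f_sub_left (w w' : E) (χ : Γ) : f (w - w') χ = f w χ * conj (f w' χ) := by
  rw [sub_eq_add_neg, f_add_left, f_neg_left]

theorem f_sub_right (w : E) (χ χ' : Γ) : f w (χ - χ') = f w χ * conj (f w χ') := by
  rw [sub_eq_add_neg, f_add_right, f_neg_right]

theorem continuous_f (w : E) : Continuous (f w) :=
  continuous_subtype_val.comp (AddCircle.continuous_toCircle.comp (Γ.continuous_hom w))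

/-- Characters that are continuous for the Euclidean topology. -/
def Cont : Submodule E Γ where
  carrier := {χ | ∀ ε > 0, ∃ δ > 0, ∀ z : E, ‖(z : ℂ)‖ < δ → ‖f z χ - 1‖ ≤ ε}
  zero_mem' := fun ε hε => ⟨1, one_pos, fun z _ => by simp [hε.le]⟩
  add_mem' := fun {a b} ha hb ε hε => by
    obtain ⟨d1, h1, ha⟩ := ha (ε / 2) (by positivity)
    obtain ⟨d2, h2, hb⟩ := hb (ε / 2) (by positivity)
    refine ⟨min d1 d2, lt_min h1 h2, fun z hz => ?_⟩
    have e : f z (a + b) - 1 = f z a * (f z b - 1) + (f z a - 1) := by rw [f_add_right]; ring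
    have := norm_add_le (f z a * (f z b - 1)) (f z a - 1)
    rw [norm_mul, norm_f, one_mul] at this
    rw [e]
    linarith [ha z (hz.trans_le (min_le_left _ _)), hb z (hz.trans_le (min_le_right _ _))]
  smul_mem' := fun c χ h ε hε => by
    obtain ⟨d, hd, h⟩ := h ε hε
    refine ⟨d / (‖(c : ℂ)‖ + 1), by positivity, fun z hz => h (c * z) ?_⟩
    rw [lt_div_iff₀ (by positivity)] at hz
    rw [MulMemClass.coe_mul, norm_mul]
    nlinarith [norm_nonneg (z : ℂ), norm_nonneg (c : ℂ)]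

theorem mem_Cont {χ : Γ} :
    χ ∈ Cont ↔ ∀ ε > 0, ∃ δ > 0, ∀ z : E, ‖(z : ℂ)‖ < δ → ‖f z χ - 1‖ ≤ ε := Iff.rfl

theorem measurableSet_Cont : MeasurableSet (Cont : Set Γ) := by
  have : (Cont : Set Γ) = ⋂ n : ℕ, ⋃ m : ℕ, ⋂ z : E,
      {χ | ‖(z : ℂ)‖ < 1 / ((m : ℝ) + 1) → ‖f z χ - 1‖ ≤ 1 / ((n : ℝ) + 1)} := by
    ext χ
    simp only [Set.mem_iInter, Set.mem_iUnion, Set.mem_ofPred_eq, SetLike.mem_coe, mem_Cont]
    constructor
    · intro h n
      obtain ⟨d, hd, h⟩ := h (1 / ((n : ℝ) + 1)) (by positivity)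
      obtain ⟨m, hm⟩ := exists_nat_one_div_lt hd
      exact ⟨m, fun z hz => h z (hz.trans hm)⟩
    · intro h ε hε
      obtain ⟨n, hn⟩ := exists_nat_one_div_lt hε
      obtain ⟨m, hm⟩ := h n
      exact ⟨_, by positivity, fun z hz => (hm z hz).trans hn.le⟩
  rw [this]
  refine MeasurableSet.iInter fun n => MeasurableSet.iUnion fun m => MeasurableSet.iInter fun z => ?_
  by_cases hz : ‖(z : ℂ)‖ < 1 / ((m : ℝ) + 1)
  · simp only [hz, forall_true_left]
    exact (isClosed_le ((continuous_f z).sub continuous_const).norm continuous_const).measurableSet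
  · simp only [hz, IsEmpty.forall_iff, Set.ofPred_true, MeasurableSet.univ]

end Vale.Agent.P032
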