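import Vale.Agent.P032.St6

/-! Four-cycles of the adjacency relation. -/

namespace Vale.Agent.P032

open Set Metric Real Filter Topology

namespace C4

/-- Admissible patterns. -/
def val (P : Fin 6 → Fin 3) : Prop := ∀ k, P k ≠ P (k + 1) ∧ ¬(P k = 1 ∧ P (k + 3) = 2)

instance (P : Fin 6 → Fin 3) : Decidable (val P) := by unfold val; infer_instance

/-- Classes of patterns. -/
def cls (P : Fin 6 → Fin 3) : Fin 6 → Fin 3 :=
  if ∀ k, P (k + 3) = P k then P else if P 0 = 0 ∨ P 2 = 0 ∨ P 4 = 0 then 0 else 1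

/-- Compatible patterns. -/
def cmp (P Q : Fin 6 → Fin 3) : Prop := ∀ k, P k = Q (k + 1) → P k = 0

instance (P Q : Fin 6 → Fin 3) : Decidable (cmp P Q) := by unfold cmp; infer_instance

/-- The two exceptional pairs. -/
def exc (P Q : Fin 6 → Fin 3) : Prop :=
  (P 0 = 2 ∧ P 1 = 0 ∧ P 2 = 2 ∧ P 3 = 0 ∧ P 4 = 2 ∧ P 5 = 0 ∧ Q 1 = 1 ∧ Q 3 = 1 ∧ Q 5 = 1) ∨
  (P 0 = 0 ∧ P 1 = 2 ∧ P 2 = 0 ∧ P 3 = 2 ∧ P 4 = 0 ∧ P 5 = 2 ∧ Q 0 = 1 ∧ Q 2 = 1 ∧ Q 4 = 1)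

instance (P Q : Fin 6 → Fin 3) : Decidable (exc P Q) := by unfold exc; infer_instance

theorem fin1 : ∀ P, val P → cls (fun k => P (k + 1)) ≠ cls P := by decide +kernel

/-- The classification of compatible pairs. -/
def ok (P Q : Fin 6 → Fin 3) : Prop := cmp P Q → cmp Q P → cls P ≠ cls Q → exc P Q ∨ exc Q P

instance (P Q : Fin 6 → Fin 3) : Decidable (ok P Q) := by unfold ok; infer_instance

theorem fin2 : ∀ P, val P → ∀ Q, val Q → ok P Q := by decide +kernel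

theorem e_eq (θ : ℝ) : e θ = ⟨cos θ, sin θ⟩ :=
  Complex.ext (Complex.exp_ofReal_mul_I_re θ) (Complex.exp_ofReal_mul_I_im θ)

theorem e_per (θ : ℝ) : e (θ + 2 * π) = e θ := by simp [e_eq]

/-- Points of a ray. -/
noncomputable def ray (y : ℂ) (α s : ℝ) : ℂ := y + (2 * sin s : ℝ) * Complex.I * e α

theorem ray_cont (y : ℂ) (α : ℝ) : Continuous (ray y α) := by unfold ray; fun_prop

theorem ray_zero (y : ℂ) (α : ℝ) : ray y α 0 = y := by simp [ray]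

theorem ray_eq (y : ℂ) (α s : ℝ) : ray y α s = y + e (α + s) + e (α + π - s) := by
  have : α + π - s = α - s + π := by ring
  rw [ray, add_assoc, this]
  congr 1
  apply Complex.ext <;> simp [e_eq, sin_add, cos_add, sin_sub, cos_sub, -Complex.ofReal_sin] <;> ring

theorem ray_sq (y : ℂ) (α s φ : ℝ) :
    ‖y + e φ - ray y α s‖ ^ 2 = 1 + 4 * sin s * (sin (α - φ) + sin s) := by
  rw [ray, add_sub_add_left_eq_sub, Complex.sq_norm, Complex.normSq_apply]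
  simp [e_eq, sin_sub, -Complex.ofReal_sin]
  linear_combination (1 : ℝ) * cos_sq_add_sin_sq φ + 4 * sin s ^ 2 * cos_sq_add_sin_sq α

variable {C : Fin 5 → Set ℂ}

theorem fb (h : Bas C) {y : ℂ} {x : Fin 5} {α α' φ r r' : ℝ} (r0 : 0 < r) (r0' : 0 < r')
    (h1 : ∀ s ∈ Icc 0 r, ray y α s ∈ F C x) (h2 : ∀ s ∈ Icc 0 r', ray y α' s ∈ F C x)
    (s1 : sin (α - φ) < 0) (s2 : 0 < sin (α' - φ)) : φ ∉ H C y x := by
  have a : ∀ᶠ s in 𝓝[>] (0 : ℝ), s < r ∧ s < r' ∧ s < π ∧ sin (α - φ) + sin s < 0 :=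
    eventually_nhdsWithin_of_eventually_nhds ((gt_mem_nhds r0 : ∀ᶠ s in 𝓝 _, s < r).and
      ((gt_mem_nhds r0' : ∀ᶠ s in 𝓝 _, s < r').and ((gt_mem_nhds pi_pos : ∀ᶠ s in 𝓝 _, s < π).and
        ((continuous_const.add continuous_sin).continuousAt.eventually_lt continuousAt_const
          (by simpa using s1)))))
  obtain ⟨s, ⟨b1, b2, b3, b4⟩, b5⟩ := (a.and self_mem_nhdsWithin).exists
  have b5 : 0 < s := b5
  have b6 := sin_pos_of_pos_of_lt_pi b5 b3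
  refine h.e1 x (ray y α '' Icc 0 r ∪ ray y α' '' Icc 0 r') ?_ ?_ (ray y α s)
    (.inl ⟨s, ⟨b5.le, b1.le⟩, rfl⟩) (ray y α' s) (.inr ⟨s, ⟨b5.le, b2.le⟩, rfl⟩) _ ?_ ?_
  · rintro _ (⟨t, ht, rfl⟩ | ⟨t, ht, rfl⟩)
    exacts [h1 t ht, h2 t ht]
  · exact (isPreconnected_Icc.image _ (ray_cont y α).continuousOn).union y
      ⟨0, ⟨le_rfl, r0.le⟩, ray_zero _ _⟩ ⟨0, ⟨le_rfl, r0'.le⟩, ray_zero _ _⟩
      (isPreconnected_Icc.image _ (ray_cont y α').continuousOn)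
  · refine lt_of_pow_lt_pow_left₀ 2 zero_le_one ?_
    rw [ray_sq]
    nlinarith [mul_pos_of_neg_of_neg (neg_lt_zero.2 b6) b4]
  · refine lt_of_pow_lt_pow_left₀ 2 (norm_nonneg _) ?_
    rw [ray_sq]
    nlinarith [mul_pos b6 (add_pos s2 b6)]

theorem five {v : Fin 5 → Fin 5} (hv : Function.Injective v) (j : Fin 5) :
    j = v 0 ∨ j = v 1 ∨ j = v 2 ∨ j = v 3 ∨ j = v 4 := by
  obtain ⟨i, rfl⟩ := Finite.injective_iff_surjective.1 hv j
  fin_cases i <;> simp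

theorem exists_ray (hz : ZStmt) (h : Bas C) {y : ℂ} {v : Fin 5 → Fin 5}
    (hv : Function.Injective v) (ya : y ∈ F C (v 0)) (yc : y ∈ F C (v 2))
    (hn : ¬Edge C y (v 0) (v 2)) {α : ℝ} (h1 : α ∈ U C y (v 1) ∩ U C y (v 3))
    (h2 : α + π ∈ U C y (v 4)) :
    ∃ x, (x = v 0 ∨ x = v 2) ∧ ∃ r > 0, ∀ s ∈ Icc 0 r, ray y α s ∈ F C x := by
  obtain ⟨ρ, ρ0, hρ⟩ := h.edge_usc y
  have a : ∀ᶠ s in 𝓝 (0 : ℝ), s < 1 ∧ α + s ∈ U C y (v 1) ∩ U C y (v 3) ∧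
      α + π - s ∈ U C y (v 4) ∧ ray y α s ∈ ball y ρ :=
    (gt_mem_nhds one_pos : ∀ᶠ s in 𝓝 (0 : ℝ), s < 1).and (Eventually.and
      ((continuous_const_add α).continuousAt.eventually
        ((isOpen_interior.inter isOpen_interior).mem_nhds (by simpa [U] using h1)))
      (Eventually.and ((continuous_const.sub continuous_id).continuousAt.eventually
        (isOpen_interior.mem_nhds (by simpa [U] using h2)))
      ((ray_cont y α).continuousAt.eventually (isOpen_ball.mem_nhds (by simpa [ray_zero])))))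
  obtain ⟨r, r0, hr⟩ := Metric.eventually_nhds_iff.1 a
  have b : ∀ s ∈ Ioc 0 (r / 2), ∀ j, ray y α s ∈ F C j → j = v 0 ∨ j = v 2 := fun s hs j hj => by
    obtain ⟨c1, c2, c3, -⟩ := hr (y := s)
      (by rw [dist_zero_right, norm_of_nonneg hs.1.le]; linarith [hs.2])
    have d : sin (2 * s) ≠ 0 :=
      (sin_pos_of_pos_of_lt_pi (by linarith [hs.1]) (by linarith [pi_gt_three])).ne'
    have d1 : sin (α + s - (α + π - s)) ≠ 0 := by
      rwa [show α + s - (α + π - s) = 2 * s - π by ring, sin_sub_pi, neg_ne_zero]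
    have d2 : sin (α + π - s - (α + s)) ≠ 0 := by
      rwa [show α + π - s - (α + s) = π - 2 * s by ring, sin_pi_sub]
    rw [ray_eq] at hj
    rcases five hv j with rfl | rfl | rfl | rfl | rfl
    · exact .inl rfl
    · exact absurd hj (h.arc y _ _ _ c2.1 d1)
    · exact .inr rfl
    · exact absurd hj (h.arc y _ _ _ c2.2 d1)
    · exact absurd (add_right_comm y _ _ ▸ hj) (h.arc y _ _ _ c3 d2)
  have c := isPreconnected_iff_subset_of_disjoint_closed.1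
    (isPreconnected_Ioc.image _ (ray_cont y α).continuousOn : IsPreconnected (_ '' Ioc 0 (r / 2)))
    (F C (v 0)) (F C (v 2)) isClosed_closure isClosed_closure (by
      rintro _ ⟨s, hs, rfl⟩
      obtain ⟨j, hj⟩ := h.cover (ray y α s)
      rcases b s hs j hj with rfl | rfl
      exacts [.inl hj, .inr hj]) (eq_empty_of_forall_notMem (by
      rintro _ ⟨⟨s, hs, rfl⟩, c1, c2⟩
      refine hn (hρ _ (hr (y := s) ?_).2.2.2 _ _
        (hz C h _ _ _ (fun c => absurd (hv c) (by decide)) c1 c2 (b s hs)))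
      rw [dist_zero_right, norm_of_nonneg hs.1.le]; linarith [hs.2]))
  have d : ∀ x, y ∈ F C x → ray y α '' Ioc 0 (r / 2) ⊆ F C x →
      ∃ r > 0, ∀ s ∈ Icc 0 r, ray y α s ∈ F C x := fun x hy hx =>
    ⟨r / 2, half_pos r0, fun s hs => hs.1.eq_or_lt.elim (fun c => by rwa [← c, ray_zero])
      fun c => hx ⟨s, ⟨c, hs.2⟩, rfl⟩⟩
  exact c.elim (fun c => ⟨_, .inl rfl, d _ ya c⟩) fun c => ⟨_, .inr rfl, d _ yc c⟩

theorem core (hz : ZStmt) (h : Bas C) {y : ℂ} {v : Fin 5 → Fin 5}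
    (hv : Function.Injective v) (ya : y ∈ F C (v 0)) (yc : y ∈ F C (v 2))
    (hn : ¬Edge C y (v 0) (v 2)) {α β : ℝ} (hd : |α - β| < 1) (n : ℤ)
    (h1 : ∀ m : ℤ, m = n ∨ m = n + 2 ∨ m = n + 4 →
      α + m * (π / 3) ∈ U C y (v 1) ∩ U C y (v 3) ∧ α + (m + 3 : ℤ) * (π / 3) ∈ U C y (v 4) ∧
      β + (m + 1 : ℤ) * (π / 3) ∈ U C y (v 0) ∩ U C y (v 2)) : False := by
  have r : ∀ m : ℤ, m = n ∨ m = n + 2 ∨ m = n + 4 → _ := fun m hm =>
    exists_ray hz h hv ya yc hn (h1 m hm).1 (by convert (h1 m hm).2.1 using 1; push_cast; ring)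
  obtain ⟨x0, a0, r0, b0, c0⟩ := r n (.inl rfl)
  obtain ⟨x1, a1, r1, b1, c1⟩ := r (n + 2) (.inr (.inl rfl))
  obtain ⟨x2, a2, r2, b2, c2⟩ := r (n + 4) (.inr (.inr rfl))
  rw [abs_lt] at hd
  have p1 : sin (α - β - π / 3) < 0 :=
    sin_neg_of_neg_of_neg_pi_lt (by linarith [pi_gt_three]) (by linarith [pi_gt_three])
  have p2 : 0 < sin (α - β + π / 3) :=
    sin_pos_of_pos_of_lt_pi (by linarith [pi_gt_three]) (by linarith [pi_gt_three])
  have k : ∀ m : ℤ, m = n ∨ m = n + 2 ∨ m = n + 4 → ∀ x, x = v 0 ∨ x = v 2 →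
      β + (m + 1 : ℤ) * (π / 3) ∈ H C y x := fun m hm x hx => by
    rcases hx with rfl | rfl
    exacts [interior_subset (h1 m hm).2.2.1, interior_subset (h1 m hm).2.2.2]
  have n1 : x0 ≠ x1 := fun c => fb h b0 b1 c0 (c ▸ c1)
    (by convert p1 using 2; push_cast; ring) (by convert p2 using 2; push_cast; ring)
    (k n (.inl rfl) x0 a0)
  have n2 : x1 ≠ x2 := fun c => fb h b1 b2 c1 (c ▸ c2)
    (by convert p1 using 2; push_cast; ring) (by convert p2 using 2; push_cast; ring)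
    (k (n + 2) (.inr (.inl rfl)) x1 a1)
  have n3 : x2 ≠ x0 := fun c => fb h b2 b0 c2 (c ▸ c0)
    (by convert p1 using 2; push_cast; ring)
    (by rw [← sin_add_two_pi]; convert p2 using 2; push_cast; ring)
    (k (n + 4) (.inr (.inr rfl)) x2 a2)
  rcases a0 with rfl | rfl <;> rcases a1 with rfl | rfl <;> rcases a2 with a | a <;> simp_all

theorem swap {v : Fin 5 → Fin 5} (hv : Function.Injective v) :
    Function.Injective ![v 1, v 2, v 3, v 0, v 4] := by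
  have : ![v 1, v 2, v 3, v 0, v 4] = v ∘ ![1, 2, 3, 0, 4] := by
    funext i
    fin_cases i <;> rfl
  rw [this]
  exact hv.comp (by decide)

theorem gen_add {y : ℂ} {θ : ℝ} (h : θ ∈ Gen C y) : θ + π / 3 ∈ Gen C y := fun k j => by
  have := h (k + 1) j
  rwa [show θ + ((k + 1 : ℤ) : ℝ) * (π / 3) = θ + π / 3 + k * (π / 3) by push_cast; ring] at this

end C4

open C4

theorem c4 (hz : ZStmt) (h2 : TwoStmt) (hw : WFStmt) (hab : ABStmt) (ha : AltStmt) : C4Stmt := by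
  classical
  intro C h y v hv e1 e2 e3 e4
  by_contra! hc
  have ne : ∀ i j, i ≠ j → v i ≠ v j := fun i j c => hv.ne c
  have tri : ∀ θ, θ ∉ H C y (v 4) → θ ∉ H C y (v 0) ∩ H C y (v 2) →
      θ ∈ H C y (v 1) ∩ H C y (v 3) := fun θ a b => by
    obtain ⟨j1, a1, b1, c1⟩ := e1.2.2.2 θ
    obtain ⟨j2, a2, b2, c2⟩ := e2.2.2.2 θ
    obtain ⟨j3, a3, b3, c3⟩ := e3.2.2.2 θ
    obtain ⟨j4, a4, b4, c4⟩ := e4.2.2.2 θ
    have := five hv j1
    have := five hv j2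
    have := five hv j3
    have := five hv j4
    rw [mem_inter_iff] at *
    grind
  let T : ℝ → Fin 3 := fun θ =>
    if θ ∈ H C y (v 4) then 0 else if θ ∈ H C y (v 0) ∩ H C y (v 2) then 1 else 2
  let Z : ℝ → ℤ → Fin 3 := fun θ n => T (θ + n * (π / 3))
  have per : ∀ θ n, Z θ (n + 6) = Z θ n := fun θ n => by
    have : θ + ((n + 6 : ℤ) : ℝ) * (π / 3) = θ + n * (π / 3) + 2 * π := by push_cast; ring
    simp only [Z, T, this, H, mem_ofPred_eq, mem_inter_iff, e_per]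
  have z0 : ∀ θ ∈ Gen C y, ∀ n, Z θ n = 0 → θ + n * (π / 3) ∈ U C y (v 4) := fun θ g n c => by
    refine g n _ ?_
    by_contra a
    simp only [Z, T, a, if_false] at c
    split_ifs at c <;> exact absurd c (by decide)
  have z1 : ∀ θ ∈ Gen C y, ∀ n, Z θ n = 1 → θ + n * (π / 3) ∈ U C y (v 0) ∩ U C y (v 2) :=
    fun θ g n c => by
      simp only [Z, T] at c
      split_ifs at c with a b
      exacts [absurd c (by decide), ⟨g n _ b.1, g n _ b.2⟩, absurd c (by decide)]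
  have z2 : ∀ θ ∈ Gen C y, ∀ n, Z θ n = 2 → θ + n * (π / 3) ∈ U C y (v 1) ∩ U C y (v 3) :=
    fun θ g n c => by
      simp only [Z, T] at c
      split_ifs at c with a b
      exacts [absurd c (by decide), absurd c (by decide),
        ⟨g n _ (tri _ a b).1, g n _ (tri _ a b).2⟩]
  have g0 : ∀ θ ∈ Gen C y, ∀ j, θ ∈ H C y j → θ ∈ U C y j := fun θ g j => by
    simpa using g 0 j
  have cl := h.closedH y
  obtain ⟨β, β1, β2⟩ : ∃ β ∈ Gen C y, β ∈ U C y (v 1) ∩ U C y (v 3) := by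
    obtain ⟨θ, a, b⟩ := (h.gen y).inter_open_nonempty _
      ((cl (v 4)).union ((cl (v 0)).inter (cl (v 2)))).isOpen_compl
      (hc.1.imp fun θ c d => d.elim c.1 c.2)
    have := tri θ (fun c => a (.inl c)) fun c => a (.inr c)
    exact ⟨θ, b, g0 θ b _ this.1, g0 θ b _ this.2⟩
  obtain ⟨α, α1, α2, α3⟩ : ∃ α ∈ Gen C y, α ∈ U C y (v 0) ∩ U C y (v 2) ∧ α ∉ H C y (v 4) := by
    obtain ⟨θ, a, b⟩ := (h.gen y).inter_open_nonempty _
      ((cl (v 4)).union ((cl (v 1)).inter (cl (v 3)))).isOpen_compl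
      (hc.2.imp fun θ c d => d.elim c.1 c.2)
    have : θ ∈ H C y (v 0) ∩ H C y (v 2) := by_contra fun c =>
      a (.inr (tri θ (fun c => a (.inl c)) c))
    exact ⟨θ, b, ⟨g0 θ b _ this.1, g0 θ b _ this.2⟩, fun c => a (.inl c)⟩
  have hn : ¬Edge C y (v 0) (v 2) := fun c => by
    obtain ⟨j, a, b, c⟩ := c.2.2.2 α
    exact h2 C h y _ _ _ α (ne 0 2 (by decide)) b.symm a.symm α2.1 α2.2 (g0 α α1 j c)
  let pat : ℝ → Fin 6 → Fin 3 := fun θ k => Z θ (k : ℕ)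
  have pa : ∀ θ (k : Fin 6), pat θ (k + 1) = Z θ ((k : ℕ) + 1) ∧
      pat θ (k + 3) = Z θ ((k : ℕ) + 3) := fun θ k => by
    fin_cases k
    exacts [⟨rfl, rfl⟩, ⟨rfl, rfl⟩, ⟨rfl, rfl⟩, ⟨rfl, (per θ 0).symm⟩, ⟨rfl, (per θ 1).symm⟩,
      ⟨(per θ 0).symm, (per θ 2).symm⟩]
  have sh : ∀ (θ : ℝ) (n : ℤ), θ + ((n + 1 : ℤ) : ℝ) * (π / 3) = θ + n * (π / 3) + π / 3 :=
    fun θ n => by push_cast; ring
  have tc : ∀ x : Fin 3, x = 0 ∨ x = 1 ∨ x = 2 := by decide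
  have va : ∀ θ ∈ Gen C y, val (pat θ) := fun θ g k => by
    rw [(pa θ k).1, (pa θ k).2]
    refine ⟨fun c => ?_, fun c => ha C h y v hv fun φ g' => ?_⟩
    · rcases tc (pat θ k) with a | a | a
      · exact (h.l1 y _ _ (z0 θ g _ a)).1 (sh θ _ ▸ interior_subset (z0 θ g _ (c ▸ a)))
      · exact (h.l1 y _ _ (z1 θ g _ a).1).1 (sh θ _ ▸ interior_subset (z1 θ g _ (c ▸ a)).1)
      · exact (h.l1 y _ _ (z2 θ g _ a).1).1 (sh θ _ ▸ interior_subset (z2 θ g _ (c ▸ a)).1)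
    · have a := hab C h y v hv _ (z1 θ g _ c.1)
        (by convert z2 θ g _ c.2 using 1; push_cast; ring) φ
      by_cases b : φ ∈ H C y (v 0) ∩ H C y (v 2)
      · exact .inl ⟨g0 φ g' _ b.1, g0 φ g' _ b.2⟩
      · exact .inr ⟨g0 φ g' _ (tri φ a b).1, g0 φ g' _ (tri φ a b).2⟩
  let S : (Fin 6 → Fin 3) → Set ℝ := fun P => {θ | θ ∈ Gen C y ∧ pat θ = P}
  have cu : ∀ p : (Fin 6 → Fin 3) → Prop, ∀ θ ∈ closure {θ | θ ∈ Gen C y ∧ p (pat θ)},
      ∃ P, p P ∧ θ ∈ closure (S P) := fun p θ c => by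
    have : {θ | θ ∈ Gen C y ∧ p (pat θ)} = ⋃ P : {P // p P}, S P := by
      ext θ
      simp only [S, mem_ofPred_eq, mem_iUnion]
      exact ⟨fun a => ⟨⟨_, a.2⟩, a.1, rfl⟩, fun ⟨P, a, b⟩ => ⟨a, b ▸ P.2⟩⟩
    rw [this, closure_iUnion_of_finite, mem_iUnion] at c
    obtain ⟨P, c⟩ := c
    exact ⟨P, P.2, c⟩
  obtain ⟨θ, -, t1, t2⟩ := isPreconnected_closed_iff.1 isPreconnected_univ
    (closure {θ | θ ∈ Gen C y ∧ cls (pat θ) = cls (pat α)})
    (closure {θ | θ ∈ Gen C y ∧ cls (pat θ) ≠ cls (pat α)}) isClosed_closure isClosed_closure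
    (fun θ _ => by
      rw [← closure_union]
      exact closure_mono (fun φ g => (em _).imp (fun c => ⟨g, c⟩) fun c => ⟨g, c⟩) (h.gen y θ))
    ⟨α, trivial, subset_closure ⟨α1, rfl⟩⟩
    ⟨α + π / 3, trivial, subset_closure ⟨gen_add α1, by
      convert fin1 _ (va α α1) using 2
      funext k
      rw [(pa α k).1]
      simp only [pat, Z]
      congr 1
      push_cast
      ring⟩⟩
  obtain ⟨P, p1, p2⟩ := cu (fun P => cls P = cls (pat α)) θ t1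
  obtain ⟨Q, q1, q2⟩ := cu (fun P => cls P ≠ cls (pat α)) θ t2
  have vv : ∀ P, θ ∈ closure (S P) → val P := fun P c => by
    obtain ⟨t, a, rfl⟩ := closure_nonempty_iff.1 ⟨θ, c⟩
    exact va t a
  have cm : ∀ P Q, θ ∈ closure (S P) → θ ∈ closure (S Q) → cmp P Q := fun P Q a b k c => by
    have m : ∀ (A : Set ℝ) (x : Fin 3), P k = x →
        (∀ θ ∈ Gen C y, ∀ n, Z θ n = x → θ + n * (π / 3) ∈ A) →
        θ + ((k : ℕ) : ℤ) * (π / 3) ∈ closure A ∧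
          θ + ((k : ℕ) : ℤ) * (π / 3) + π / 3 ∈ closure A := fun A x hx hA =>
      ⟨map_mem_closure (f := fun t : ℝ => t + ((k : ℕ) : ℤ) * (π / 3)) (by fun_prop) a
          fun t g => hA t g.1 _ (by rw [← hx, ← g.2]),
        sh θ _ ▸ map_mem_closure (f := fun t : ℝ => t + ((k : ℕ) + 1 : ℤ) * (π / 3)) (by fun_prop) b
          fun t g => hA t g.1 _ (by rw [← hx, c, ← g.2, (pa t k).1])⟩
    rcases tc (P k) with d | d | d
    · exact d
    · exact (hw C h y v hv _ β (m _ 1 d z1).1 (m _ 1 d z1).2 β2).elim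
    · exact (hw C h y _ (swap hv) _ α (m _ 2 d z2).1 (m _ 2 d z2).2 α2.symm).elim
  have fi : ∀ P Q, θ ∈ closure (S P) → θ ∈ closure (S Q) → ¬exc P Q := fun P Q a b c => by
    obtain ⟨s, ⟨s1, rfl⟩, s2⟩ := Metric.mem_closure_iff.1 a _ one_half_pos
    obtain ⟨t, ⟨t1, rfl⟩, t2⟩ := Metric.mem_closure_iff.1 b _ one_half_pos
    have d : |s - t| < 1 := by
      rw [← Real.dist_eq]
      linarith [dist_triangle_left s t θ]
    rcases c with ⟨c0, c1, c2, c3, c4, c5, d1, d2, d3⟩ | ⟨c0, c1, c2, c3, c4, c5, d1, d2, d3⟩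
    · refine core hz h hv e1.2.1 e3.2.1 hn d 0 ?_
      rintro _ (rfl | rfl | rfl)
      exacts [⟨z2 s s1 _ c0, z0 s s1 _ c3, z1 t t1 _ d1⟩, ⟨z2 s s1 _ c2, z0 s s1 _ c5, z1 t t1 _ d2⟩,
        ⟨z2 s s1 _ c4, z0 s s1 _ ((per s 1).trans c1), z1 t t1 _ d3⟩]
    · refine core hz h hv e1.2.1 e3.2.1 hn d 1 ?_
      rintro _ (rfl | rfl | rfl)
      exacts [⟨z2 s s1 _ c1, z0 s s1 _ c4, z1 t t1 _ d2⟩,
        ⟨z2 s s1 _ c3, z0 s s1 _ ((per s 0).trans c0), z1 t t1 _ d3⟩,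
        ⟨z2 s s1 _ c5, z0 s s1 _ ((per s 2).trans c2), z1 t t1 _ ((per t 0).trans d1)⟩]
  exact (fin2 P (vv P p2) Q (vv Q q2) (cm P Q p2 q2) (cm Q P q2 p2)
    fun c => q1 (c ▸ p1)).elim (fi P Q p2 q2) (fi Q P q2 p2)

end Vale.Agent.P032
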