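import Vale.Agent.P032.EL

/-! No five-cycles. -/

namespace Vale.Agent.P032.C5

open Set Metric Real Filter Topology EL

variable {C : Fin 5 → Set ℂ} {y : ℂ} {v : Fin 5 → Fin 5}

theorem gen_add {θ : ℝ} (h : θ ∈ Gen C y) : θ + π / 3 ∈ Gen C y := fun k j => by
  have := h (k + 1) j
  rwa [show θ + ((k + 1 : ℤ) : ℝ) * (π / 3) = θ + π / 3 + k * (π / 3) by push_cast; ring] at this

theorem f1 : ∀ P : Fin 5 → Bool, (∀ a b c, a ≠ b → b ≠ c → a ≠ c → P a → P b → ¬P c) →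
    (∀ i, ∃ k, k ≠ i ∧ k ≠ i + 1 ∧ P k) → ∃ i, P i ∧ P (i + 2) := by decide +kernel

/-- Disjoint pairs. -/
def Dj (i j : Fin 5) : Prop := i ≠ j ∧ i ≠ j + 2 ∧ i + 2 ≠ j

instance : DecidableRel Dj := fun i j => by unfold Dj; infer_instance

theorem f2 : ∀ a b, Dj a b → ∀ c, Dj b c → ∀ d, Dj c d → ∀ e, Dj d e → ∀ f, Dj e f → Dj f a →
    d = a + 1 ∨ a = d + 1 ∨ e = b + 1 ∨ b = e + 1 := by decide +kernel

theorem f3 : ∀ i a b, Dj a b → a ≠ i + 4 → a + 2 ≠ i + 4 → b ≠ i + 4 → b + 2 ≠ i + 4 →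
    a = i ∨ a = i + 1 := by decide +kernel

theorem pair (h2 : TwoStmt) (B : Bas C) (hv : Function.Injective v)
    (h : ∀ i, Edge C y (v i) (v (i + 1))) {θ : ℝ} (hθ : θ ∈ Gen C y) :
    ∃ i, θ ∈ U C y (v i) ∧ θ ∈ U C y (v (i + 2)) := by
  classical
  have h0 := hθ 0
  simp only [Int.cast_zero, zero_mul, add_zero] at h0
  simpa using f1 (fun i => decide (θ ∈ U C y (v i))) (fun a b c hab hbc hac ha hb hc =>
    h2 C B y _ _ _ θ (hv.ne hab) (hv.ne hbc) (hv.ne hac) (by simpa using ha) (by simpa using hb)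
      (by simpa using hc)) fun i => by
    obtain ⟨j, j1, j2, j3⟩ := (h i).2.2.2 θ
    obtain ⟨k, rfl⟩ := Finite.injective_iff_surjective.1 hv j
    exact ⟨k, fun e => j1 (e ▸ rfl), fun e => j2 (e ▸ rfl), by simpa using h0 _ j3⟩

theorem dj (B : Bas C) {θ : ℝ} {i j : Fin 5} (hi : θ ∈ U C y (v i) ∧ θ ∈ U C y (v (i + 2)))
    (hj : θ + π / 3 ∈ U C y (v j) ∧ θ + π / 3 ∈ U C y (v (j + 2))) : Dj i j :=
  ⟨fun e => (B.l1 y _ θ hi.1).1 (e ▸ U_sub hj.1), fun e => (B.l1 y _ θ hi.1).1 (e ▸ U_sub hj.2),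
    fun e => (B.l1 y _ θ hi.2).1 (e ▸ U_sub hj.1)⟩

end Vale.Agent.P032.C5

namespace Vale.Agent.P032

open Set Metric Real Filter Topology EL C5

theorem c5 (h2 : TwoStmt) (hab : ABStmt) (halt : AltStmt) : C5Stmt := by
  rintro C B y ⟨v, hv, h⟩
  have hv' : ∀ i, Function.Injective fun k => v (i + k) := fun i =>
    hv.comp (add_right_injective i)
  have key : ∀ α i j, (α ∈ U C y (v i) ∧ α ∈ U C y (v (i + 2))) →
      (α + π ∈ U C y (v j) ∧ α + π ∈ U C y (v (j + 2))) → j = i + 1 →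
      ∃ i, ∀ φ, φ ∉ H C y (v (i + 4)) := by
    rintro α i _ h1 h2 rfl
    exact ⟨i, hab C B y _ (hv' i) α ⟨by simpa using h1.1, h1.2⟩
      ⟨h2.1, by rw [add_assoc i] at h2; exact h2.2⟩⟩
  obtain ⟨i, hi⟩ : ∃ i, ∀ φ, φ ∉ H C y (v (i + 4)) := by
    obtain ⟨θ, g0⟩ := (B.gen y).nonempty
    have g1 := gen_add g0
    have g2 := gen_add g1
    have g3 := gen_add g2
    have g4 := gen_add g3
    have g5 := gen_add g4
    obtain ⟨a, ha⟩ := pair h2 B hv h g0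
    obtain ⟨b, hb⟩ := pair h2 B hv h g1
    obtain ⟨c, hc⟩ := pair h2 B hv h g2
    obtain ⟨d, hd⟩ := pair h2 B hv h g3
    obtain ⟨e, he⟩ := pair h2 B hv h g4
    obtain ⟨f, hf⟩ := pair h2 B hv h g5
    have ha' := ha
    have hb' := hb
    rw [← U_per, ← @U_per _ _ (v (_ + 2))] at ha' hb'
    rcases f2 a b (dj B ha hb) c (dj B hb hc) d (dj B hc hd) e (dj B hd he) f (dj B he hf)
      (dj B hf (by convert ha' using 2 <;> ring)) with k | k | k | k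
    · exact key _ _ _ ha (by convert hd using 2 <;> ring) k
    · exact key _ _ _ hd (by convert ha' using 2 <;> ring) k
    · exact key _ _ _ hb (by convert he using 2 <;> ring) k
    · exact key _ _ _ he (by convert hb' using 2 <;> ring) k
  refine halt C B y _ (hv' i) fun θ g0 => ?_
  obtain ⟨a, ha⟩ := pair h2 B hv h g0
  obtain ⟨b, hb⟩ := pair h2 B hv h (gen_add g0)
  rcases f3 i a b (dj B ha hb) (fun e => hi _ (e ▸ U_sub ha.1)) (fun e => hi _ (e ▸ U_sub ha.2))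
    (fun e => hi _ (e ▸ U_sub hb.1)) (fun e => hi _ (e ▸ U_sub hb.2)) with rfl | rfl
  · exact Or.inl ⟨by simpa using ha.1, ha.2⟩
  · exact Or.inr ⟨ha.1, by rw [add_assoc i] at ha; exact ha.2⟩

end Vale.Agent.P032
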