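import Vale.Agent.P032.Max

/-! Wild invariant measures form a closed set. -/

namespace Vale.Agent.P032

open MeasureTheory Filter Topology Finset Function ComplexConjugate
open scoped BoundedContinuousFunction NNReal ENNReal

/-- Closed conditions satisfied by limit laws of orbits. -/
structure Lam (Λ : Measure Om) : Prop where
  inv : Inv (Λ.map fun x => x 0)
  pair : ∀ i j, i ≠ j → Λ.map (fun x => (x i, x j)) = Λ.map fun x => (x 0, x 1)
  l1 : ∀ i (α : E), Λ.map (fun x => x (i + 2) - α ^ 2 • x i)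
    = Λ.map fun x => cj α • x (i + 2) + (1 - α * cj α) • x (i + 1) - α • x i
  l3 : ∀ g : Γ →ᵇ ℝ, (∀ y, 0 ≤ g y) → ∀ w, w ≠ 0 →
    ∫ x, g (x 1) * (f w (x 0)).re ∂Λ ≤ 3 / 4 * ∫ x, g (x 1) ∂Λ

theorem vander {A B C : Γ} {a b c : E} (hab : a ≠ b) (hac : a ≠ c) (hbc : b ≠ c)
    (ha : A + a • B + a ^ 2 • C ∈ Cont) (hb : A + b • B + b ^ 2 • C ∈ Cont)
    (hc : A + c • B + c ^ 2 • C ∈ Cont) : A ∈ Cont ∧ B ∈ Cont ∧ C ∈ Cont := by
  have key : ∀ b, a ≠ b → A + b • B + b ^ 2 • C ∈ Cont → B + (a + b) • C ∈ Cont := fun b h hb => by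
    refine (Cont.smul_mem_iff (sub_ne_zero.2 h)).1 ?_
    have e : (a - b) • (B + (a + b) • C) = A + a • B + a ^ 2 • C - (A + b • B + b ^ 2 • C) := by
      module
    rw [e]
    exact Cont.sub_mem ha hb
  have hC : C ∈ Cont := by
    refine (Cont.smul_mem_iff (sub_ne_zero.2 hbc)).1 ?_
    have e : (b - c) • C = B + (a + b) • C - (B + (a + c) • C) := by module
    rw [e]
    exact Cont.sub_mem (key b hab hb) (key c hac hc)
  have hB : B ∈ Cont := (Cont.add_mem_iff_left (Cont.smul_mem _ hC)).1 (key b hab hb)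
  exact ⟨(Cont.add_mem_iff_left (Cont.smul_mem _ hB)).1
    ((Cont.add_mem_iff_left (Cont.smul_mem _ hC)).1 ha), hB, hC⟩

/-- The event that a coordinate is continuous. -/
def Cs (j : ℕ) : Set Om := {x | x j ∈ Cont}

theorem meas_Cs (j : ℕ) : MeasurableSet (Cs j) := measurable_pi_apply j measurableSet_Cont

theorem iE_sq : iE ^ 2 = -1 := Subtype.ext (by simp)

theorem cj_nat (k : ℕ) : cj ((k : E) + iE) = k - iE := Subtype.ext (by simp [sub_eq_add_neg])

variable {Λ : Measure Om} [IsProbabilityMeasure Λ]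

omit [IsProbabilityMeasure Λ] in
theorem Lam.two (h : Lam Λ) {i j : ℕ} (hij : i ≠ j) {S : Set (Γ × Γ)} (hS : MeasurableSet S) :
    Λ {x | (x i, x j) ∈ S} = Λ {x | (x 0, x 1) ∈ S} := by
  have hp : ∀ i j, Measurable fun x : Om => (x i, x j) := fun i j => by fun_prop
  have := congrArg (fun m => m S) (h.pair i j hij)
  simp only [Measure.map_apply (hp _ _) hS] at this
  exact this

omit [IsProbabilityMeasure Λ] in
theorem Lam.a2 (h : Lam Λ) {i j : ℕ} (hij : i ≠ j) : Λ (Cs i ∩ Cs j) = Λ (Cs 0 ∩ Cs 1) :=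
  h.two hij (measurableSet_Cont.prod measurableSet_Cont)

omit [IsProbabilityMeasure Λ] in
theorem Lam.a1 (h : Lam Λ) (i : ℕ) : Λ (Cs i) = Λ (Cs 0) :=
  h.two (Nat.succ_ne_self i).symm (measurable_fst measurableSet_Cont)

theorem berg {s : ℕ → Set Om} {Z : Set Om} (hs : ∀ i, MeasurableSet (s i)) (hZ : MeasurableSet Z)
    {r : ℝ≥0∞} (hr : ∀ i, r ≤ Λ (s i))
    (h : ∀ a b c, a ≠ b → a ≠ c → b ≠ c → Λ ((s a ∩ s b ∩ s c) \ Z) = 0) : r ≤ Λ Z := by
  by_contra H
  obtain ⟨t, ht, h1⟩ := bergelson (μ := Λ) (fun i => (hs i).diff hZ)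
    (tsub_pos_iff_not_le.2 H).ne' fun i => (tsub_le_tsub_right (hr i) _).trans le_measure_sdiff
  obtain ⟨u, hu, hc⟩ := ht.exists_subset_card_eq 3
  obtain ⟨a, b, c, hab, hac, hbc, rfl⟩ := card_eq_three.1 hc
  refine (h1 hu (finite_toSet _)).ne' (measure_mono_null (fun x hx => ?_) (h a b c hab hac hbc))
  simp only [Set.mem_iInter] at hx
  exact ⟨⟨⟨(hx a (by simp)).1, (hx b (by simp)).1⟩, (hx c (by simp)).1⟩, (hx a (by simp)).2⟩

theorem Lam.three (h : Lam Λ) (i : ℕ) : ∀ᵐ x ∂Λ, x ∈ Cs i ∩ Cs (i + 1) → x ∈ Cs (i + 2) := by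
  have m1 : ∀ α : E, Measurable fun x : Om => x (i + 2) - α ^ 2 • x i := fun α => by fun_prop
  have m2 : ∀ α : E, Measurable fun x : Om =>
      cj α • x (i + 2) + (1 - α * cj α) • x (i + 1) - α • x i := fun α => by fun_prop
  have hZ := ((meas_Cs i).inter (meas_Cs (i + 1))).inter (meas_Cs (i + 2))
  have h1 := berg (Λ := Λ) (r := Λ (Cs i ∩ Cs (i + 1)))
    (fun k : ℕ => m2 ((k : E) + iE) measurableSet_Cont) hZ (fun k => ?_) fun a b c hab hac hbc => ?_
  · filter_upwards [ae_eq_of_subset_of_measure_ge Set.inter_subset_left h1 hZ.nullMeasurableSet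
      (measure_ne_top _ _)] with x hx hx2
    exact ((iff_of_eq hx).2 hx2).2
  · rw [← Measure.map_apply (m2 _) measurableSet_Cont, ← h.l1,
      Measure.map_apply (m1 _) measurableSet_Cont, h.a2 (by omega),
      ← h.a2 (show i ≠ i + 2 by omega)]
    exact measure_mono fun x hx => Cont.sub_mem hx.2 (Cont.smul_mem _ hx.1)
  · refine measure_mono_null (fun x hx => hx.2 ?_) measure_empty
    have e : ∀ k : ℕ, cj ((k : E) + iE) • x (i + 2) + (1 - ((k : E) + iE) * cj ((k : E) + iE))
        • x (i + 1) - ((k : E) + iE) • x i = -iE • (x (i + 2) + x i) + (k : E) • (x (i + 2) - x i)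
          + (k : E) ^ 2 • (-x (i + 1)) := fun k => by
      rw [cj_nat, show 1 - ((k : E) + iE) * (k - iE) = -(k : E) ^ 2 by
        linear_combination iE_sq]
      module
    obtain ⟨⟨⟨ha, hb⟩, hc⟩, -⟩ := hx
    simp only [Set.mem_preimage, e, SetLike.mem_coe] at ha hb hc
    obtain ⟨h1, h2, h3⟩ := vander (Nat.cast_injective.ne hab) (Nat.cast_injective.ne hac)
      (Nat.cast_injective.ne hbc) ha hb hc
    have hi : -iE ≠ 0 := fun e => by
      have := iE_sq
      rw [neg_eq_zero.1 e] at this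
      norm_num at this
    have h4 := (Cont.smul_mem_iff hi).1 h1
    have h5 : x i ∈ Cont := by
      refine (Cont.smul_mem_iff (two_ne_zero (α := E))).1 ?_
      have e : (2 : E) • x i = x (i + 2) + x i - (x (i + 2) - x i) := by module
      rw [e]
      exact Cont.sub_mem h4 h2
    exact ⟨⟨h5, Cont.neg_mem_iff.1 h3⟩, (Cont.add_mem_iff_left h5).1 h4⟩

theorem Lam.all (h : Lam Λ) : ∀ᵐ x ∂Λ, x ∈ Cs 0 ∩ Cs 1 → ∀ j, x ∈ Cs j := by
  filter_upwards [ae_all_iff.2 h.three] with x hx h0
  have : ∀ j, x ∈ Cs j ∩ Cs (j + 1) := fun j => by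
    induction j with
    | zero => exact h0
    | succ j ih => exact ⟨ih.2, hx j ih⟩
  exact fun j => (this j).1

theorem Lam.sub (h : Lam Λ) : ∀ᵐ x ∂Λ, x ∈ Cs 1 → x ∈ Cs 0 := by
  have hZ := (meas_Cs 0).inter (meas_Cs 1)
  have h1 := berg (Λ := Λ) (r := Λ (Cs 1)) meas_Cs hZ
    (fun i => ((h.a1 1).trans (h.a1 i).symm).le) fun a b c hab _ _ => by
      have h2 := ae_eq_of_ae_subset_of_measure_ge (s := Cs 0 ∩ Cs 1) (t := Cs a ∩ Cs b)
        (h.all.mono fun x hx h0 => ⟨hx h0 a, hx h0 b⟩) (h.a2 hab).le hZ.nullMeasurableSet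
        (measure_ne_top _ _)
      exact measure_mono_null (Set.sdiff_subset_sdiff_left Set.inter_subset_left)
        (ae_eq_set.1 h2).2
  filter_upwards [ae_eq_of_subset_of_measure_ge Set.inter_subset_right h1 hZ.nullMeasurableSet
    (measure_ne_top _ _)] with x hx hx2
  exact ((iff_of_eq hx).2 hx2).1

theorem tendsto_cont {χ : Γ} (h : χ ∈ Cont) :
    Tendsto (fun n : ℕ => f (1 / ((n : E) + 1)) χ) atTop (𝓝 1) := by
  rw [Metric.tendsto_atTop]
  intro ε hε
  obtain ⟨δ, hδ, h⟩ := h (ε / 2) (half_pos hε)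
  obtain ⟨N, hN⟩ := exists_nat_one_div_lt hδ
  refine ⟨N, fun n hn => ?_⟩
  rw [dist_eq_norm]
  refine (h _ (lt_of_le_of_lt ?_ hN)).trans_lt (half_lt_self hε)
  have e : ((1 / ((n : E) + 1) : E) : ℂ) = ((1 / ((n : ℝ) + 1) : ℝ) : ℂ) := by
    push_cast
    rfl
  rw [e, Complex.norm_real, Real.norm_of_nonneg (by positivity)]
  exact Nat.one_div_le_one_div hn

theorem Lam.null (h : Lam Λ) {K : Set Γ} (hK : IsClosed K) (hC : K ⊆ Cont) :
    Λ {x | x 1 ∈ K} = 0 := by
  let g : ℕ → Γ →ᵇ ℝ := fun n => BoundedContinuousFunction.mkOfCompact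
    ⟨fun y => hK.apprSeq n y, NNReal.continuous_coe.comp (hK.apprSeq n).continuous⟩
  have g0 : ∀ n y, 0 ≤ g n y := fun n y => (hK.apprSeq n y).2
  have g1 : ∀ n y, |g n y| ≤ 1 := fun n y => by
    rw [abs_of_nonneg (g0 n y)]
    exact_mod_cast HasOuterApproxClosed.apprSeq_apply_le_one hK n y
  have hf : ∀ w χ, |(f w χ).re| ≤ 1 := fun w χ => (Complex.abs_re_le_norm _).trans (norm_f _ _).le
  have mf : ∀ w, Measurable fun x : Om => (f w (x 0)).re := fun w =>
    (Complex.continuous_re.comp (continuous_f w)).measurable.comp (measurable_pi_apply 0)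
  have hS : MeasurableSet {x : Om | x 1 ∈ K} := measurable_pi_apply 1 hK.measurableSet
  have h1 := tendsto_integral_of_dominated_convergence (μ := Λ)
    (F := fun n x => g n (x 1) * (f (1 / ((n : E) + 1)) (x 0)).re - 3 / 4 * g n (x 1))
    (f := {x : Om | x 1 ∈ K}.indicator fun _ => (1 / 4 : ℝ)) (fun _ => 1 * 1 + 3 / 4 * 1)
    (fun n => (((meas_g _ 1).mul (mf _)).sub ((meas_g _ 1).const_mul _)).aestronglyMeasurable)
    (integrable_const _) (fun n => Eventually.of_forall fun x => (abs_sub _ _).trans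
      (add_le_add (abs_mul_le (g1 _ _) (hf _ _)) (abs_mul_le (by norm_num) (g1 _ _)))) (by
      filter_upwards [h.sub] with x hx
      have t1 : Tendsto (fun n => g n (x 1)) atTop
          (𝓝 ((K.indicator (fun _ => (1 : ℝ≥0)) (x 1) : ℝ≥0) : ℝ)) :=
        (NNReal.continuous_coe.tendsto _).comp
          (tendsto_pi_nhds.1 (HasOuterApproxClosed.tendsto_apprSeq hK) (x 1))
      by_cases hxK : x 1 ∈ K
      · rw [Set.indicator_of_mem hxK] at t1
        rw [Set.indicator_of_mem (show x ∈ {x : Om | x 1 ∈ K} from hxK)]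
        have := (t1.mul ((Complex.continuous_re.tendsto _).comp (tendsto_cont (hx (hC hxK))))).sub
          (t1.const_mul (3 / 4))
        norm_num at this ⊢
        exact this
      · rw [Set.indicator_of_notMem hxK] at t1
        rw [Set.indicator_of_notMem (show x ∉ {x : Om | x 1 ∈ K} from hxK)]
        have := (bdd_le_mul_tendsto_zero' 1 (Eventually.of_forall fun n : ℕ =>
          hf (1 / ((n : E) + 1)) (x 0)) t1).sub (t1.const_mul (3 / 4))
        simpa [mul_comm] using this)
  have h2 := le_of_tendsto' (b := 0) h1 fun n => by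
    have i1 : Integrable (fun x : Om => g n (x 1) * (f (1 / ((n : E) + 1)) (x 0)).re) Λ :=
      int_bdd Λ ((meas_g _ 1).mul (mf _)) fun x => abs_mul_le (g1 _ _) (hf _ _)
    rw [integral_sub i1
      ((int_bdd Λ (meas_g _ 1) fun x => g1 _ _).const_mul _), integral_const_mul, sub_nonpos]
    exact h.l3 _ (g0 n) _ (one_div_ne_zero (Nat.cast_add_one_ne_zero n))
  rw [integral_indicator_const _ hS, smul_eq_mul] at h2
  rw [← measureReal_eq_zero_iff]
  linarith [measureReal_nonneg (μ := Λ) (s := {x : Om | x 1 ∈ K})]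

theorem Lam.wild (h : Lam Λ) : Wild (Λ.map fun x => x 0) := by
  rw [Wild, Measure.map_apply (measurable_pi_apply 0) measurableSet_Cont]
  refine (h.a1 1).symm.trans ?_
  refine (Measure.map_apply (measurable_pi_apply 1) measurableSet_Cont).symm.trans ?_
  rw [measurableSet_Cont.measure_eq_iSup_isClosed_of_ne_top (measure_ne_top _ _)]
  simp only [ENNReal.iSup_eq_zero]
  intro K h1 h2
  rw [Measure.map_apply (measurable_pi_apply 1) h2.measurableSet]
  exact h.null h2 h1

theorem closed_eq {Y : Type} [TopologicalSpace Y] [MeasurableSpace Y] [BorelSpace Y]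
    [HasOuterApproxClosed Y] {φ ψ : Om → Y} (hφ : Continuous φ) (hψ : Continuous ψ) :
    IsClosed {a : ProbabilityMeasure Om | (a : Measure Om).map φ = (a : Measure Om).map ψ} := by
  have : {a : ProbabilityMeasure Om | (a : Measure Om).map φ = (a : Measure Om).map ψ}
      = {a | a.map hφ.measurable.aemeasurable = a.map hψ.measurable.aemeasurable} := by
    ext a
    exact ⟨fun h => Subtype.ext h, fun h => congrArg Subtype.val h⟩
  rw [this]
  exact isClosed_eq (ProbabilityMeasure.continuous_map hφ) (ProbabilityMeasure.continuous_map hψ)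

theorem cont_int' {F : Om → ℝ} (hF : Continuous F) :
    Continuous fun a : ProbabilityMeasure Om => ∫ x, F x ∂(a : Measure Om) :=
  cont_int (BoundedContinuousFunction.mkOfCompact ⟨F, hF⟩)

theorem closed_lam : IsClosed {a : ProbabilityMeasure Om | Lam a} := by
  have : {a : ProbabilityMeasure Om | Lam a} = {a : ProbabilityMeasure Om |
      (∀ t : T, a.map (continuous_apply 0).measurable.aemeasurable ∈ {b : ProbabilityMeasure Γ |
        MeasurePreserving (fun χ => tE t • χ) (b : Measure Γ) b}) ∧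
      (∀ i j, i ≠ j → (a : Measure Om).map (fun x => (x i, x j))
        = (a : Measure Om).map fun x => (x 0, x 1)) ∧
      (∀ i (α : E), (a : Measure Om).map (fun x => x (i + 2) - α ^ 2 • x i) = (a : Measure Om).map
        fun x => cj α • x (i + 2) + (1 - α * cj α) • x (i + 1) - α • x i) ∧
      ∀ g : Γ →ᵇ ℝ, (∀ y, 0 ≤ g y) → ∀ w, w ≠ 0 → ∫ x, g (x 1) * (f w (x 0)).re ∂(a : Measure Om)
        ≤ 3 / 4 * ∫ x, g (x 1) ∂(a : Measure Om)} := by
    ext a
    exact ⟨fun h => ⟨h.1, h.2, h.3, h.4⟩, fun h => ⟨h.1, h.2.1, h.2.2.1, h.2.2.2⟩⟩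
  rw [this]
  simp only [Set.ofPred_and, Set.ofPred_forall]
  refine (isClosed_iInter fun t => (closed_mp (continuous_const_smul _)).preimage
    (ProbabilityMeasure.continuous_map (continuous_apply 0))).inter
    ((isClosed_iInter fun i => isClosed_iInter fun j => isClosed_iInter fun _ =>
      closed_eq (by fun_prop) (by fun_prop)).inter
    ((isClosed_iInter fun i => isClosed_iInter fun α => closed_eq (by fun_prop) (by fun_prop)).inter
    (isClosed_iInter fun g => isClosed_iInter fun _ => isClosed_iInter fun w =>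
      isClosed_iInter fun _ => isClosed_le (cont_int' ?_) ((cont_int' ?_).const_mul _))))
  · exact (g.continuous.comp (continuous_apply 1)).mul
      (Complex.continuous_re.comp ((continuous_f w).comp (continuous_apply 0)))
  · exact g.continuous.comp (continuous_apply 1)

theorem surj_div {i j : ℕ} (h : i ≠ j) :
    Surjective (powMonoidHom j / powMonoidHom i : T →* T) := by
  intro t
  rcases lt_or_gt_of_ne h with h | h
  · obtain ⟨n, rfl⟩ := Nat.exists_eq_add_of_lt h
    obtain ⟨s, rfl⟩ := pow_surj (Nat.succ_pos n) t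
    exact ⟨s, by simp [add_assoc, pow_add]⟩
  · obtain ⟨n, rfl⟩ := Nat.exists_eq_add_of_lt h
    obtain ⟨s, hs⟩ := pow_surj (Nat.succ_pos n) t⁻¹
    refine ⟨s, inv_injective ?_⟩
    rw [← hs]
    simp [add_assoc, pow_add]

theorem flip_norm (t : T) (α : E) : ‖((tE t ^ 2 - α ^ 2 : E) : ℂ)‖
    = ‖((cj α * tE t ^ 2 + (1 - α * cj α) * tE t - α : E) : ℂ)‖ := by
  have h1 : ((tE t : E) : ℂ) * conj ((tE t : E) : ℂ) = 1 := by
    rw [Complex.mul_conj', norm_tE]
    simp
  have e1 : ((tE t ^ 2 - α ^ 2 : E) : ℂ) = ((tE t : E) - α) * ((tE t : E) + α) := by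
    push_cast
    ring
  have e2 : ((cj α * tE t ^ 2 + (1 - α * cj α) * tE t - α : E) : ℂ)
      = ((tE t : E) - α) * ((tE t : E) * conj (((tE t : E) : ℂ) + α)) := by
    push_cast
    rw [map_add, mul_add, h1, coe_cj]
    ring
  rw [e1, e2, norm_mul, norm_mul, norm_mul, norm_tE, one_mul, Complex.norm_conj]

theorem Inv.act {ν : Measure Γ} (hi : Inv ν) : Act ν fun t χ => tE t • χ :=
  ⟨hi, fun a b x => by rw [map_mul, mul_smul], fun x => by rw [map_one, one_smul]⟩

theorem bm_g (g : Γ →ᵇ ℝ) : BM fun χ => (g χ : ℂ) :=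
  ⟨Complex.measurable_ofReal.comp g.continuous.measurable, ‖g‖, fun χ => by
    rw [Complex.norm_real]
    exact abs_g g χ⟩

theorem exists_lam (hl : LimStmt) (he : ErgStmt) (hq : QStmt) (ν : ProbabilityMeasure Γ)
    (hi : Inv ν) (hw : Wild ν) : ∃ a : ProbabilityMeasure Om, Lam a ∧
      (a : Measure Om).map (fun x => x 0) = ν := by
  have ho : ∀ t : T, Continuous fun (χ : Γ) (j : ℕ) => tE (t ^ j) • χ := fun t => by fun_prop
  obtain ⟨a, ha⟩ := hl T Om fun t => ν.map (ho t).measurable.aemeasurable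
  have hR : ∀ F : Om → ℝ, Continuous F → HasM (fun t : T =>
      ((∫ χ, F (fun j => tE (t ^ j) • χ) ∂(ν : Measure Γ) : ℝ) : ℂ))
      ((∫ x, F x ∂(a : Measure Om) : ℝ) : ℂ) := fun F hF => by
    have := ha (fun x => (F x : ℂ)) (Complex.continuous_ofReal.comp hF)
    simp only [integral_complex_ofReal] at this
    refine this.congr fun t => congrArg _ ?_
    exact integral_map (ho t).measurable.aemeasurable hF.measurable.aestronglyMeasurable
  have hE : ∀ F G : Om → ℝ, Continuous F → Continuous G →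
      (∀ t : T, ∫ χ, F (fun j => tE (t ^ j) • χ) ∂(ν : Measure Γ)
        = ∫ χ, G (fun j => tE (t ^ j) • χ) ∂(ν : Measure Γ)) →
      ∫ x, F x ∂(a : Measure Om) = ∫ x, G x ∂(a : Measure Om) := fun F G hF hG e =>
    Complex.ofReal_injective (((hR F hF).congr fun t => congrArg _ (e t)).unique (hR G hG))
  have h0 : (a : Measure Om).map (fun x => x 0) = ν := by
    refine ext_of_forall_integral_eq_of_IsFiniteMeasure fun g => ?_
    rw [integral_map (measurable_pi_apply 0).aemeasurable g.continuous.aestronglyMeasurable]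
    refine Complex.ofReal_injective ((hR _ (g.continuous.comp (continuous_apply 0))).unique ?_)
    simpa using HasM.const (A := T) _
  refine ⟨a, ⟨h0 ▸ hi, fun i j hij => ?_, fun i α => ?_, fun g hg => ?_⟩, h0⟩
  · refine Measure.ext_of_integral_mul_boundedContinuousFunction fun g k => ?_
    obtain ⟨c, hc, -⟩ := he Γ ν _ hi.act _ _ (bm_g g) (bm_g k)
    have key : ∀ i j, i ≠ j → ((∫ p, g p.1 * k p.2 ∂((a : Measure Om).map fun x => (x i, x j)) : ℝ)
        : ℂ) = c := fun i j hij => by
      rw [integral_map (by fun_prop) (by fun_prop)]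
      refine (hR (fun x => g (x i) * k (x j)) (by fun_prop)).unique
        ((hc _ (surj_div hij)).congr fun t => ?_)
      simp only [← Complex.ofReal_mul, integral_complex_ofReal]
      rw [← mp_int (hi (t ^ i)) (by fun_prop)]
      simp only [smul_smul, ← map_mul, MonoidHom.div_apply, powMonoidHom_apply, div_mul_cancel]
    exact Complex.ofReal_injective ((key i j hij).trans (key 0 1 (by omega)).symm)
  · refine ext_of_forall_integral_eq_of_IsFiniteMeasure fun g => ?_
    rw [integral_map (by fun_prop) g.continuous.aestronglyMeasurable,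
      integral_map (by fun_prop) g.continuous.aestronglyMeasurable]
    refine hE _ _ (by fun_prop) (by fun_prop) fun t => ?_
    obtain ⟨u, hu⟩ := exists_rot (flip_norm t α)
    rw [← mp_int (hi u) (F := fun χ => g (cj α • tE (t ^ (i + 2)) • χ
      + (1 - α * cj α) • tE (t ^ (i + 1)) • χ - α • tE (t ^ i) • χ)) (by fun_prop)]
    refine integral_congr_ae (Eventually.of_forall fun χ => congrArg g ?_)
    simp only [smul_smul, ← sub_smul, ← add_smul, map_pow]
    congr 1
    linear_combination tE t ^ i * hu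
  · have cf : ∀ w, Continuous fun χ => (f w χ).re := fun w =>
      Complex.continuous_re.comp (continuous_f w)
    refine hq Om a (fun x => x 0) (fun x => g (x 1)) ‖g‖ (measurable_pi_apply 0) (meas_g g 1)
      (fun x => hg _) (fun x => (le_abs_self _).trans (abs_g g _)) ?_ fun u w => ?_
    · rw [← Measure.map_apply (measurable_pi_apply 0) measurableSet_Cont, h0]
      exact hw
    have c1 : ∀ w, Continuous fun x : Om => g (x 1) * (f w (x 0)).re := fun w =>
      (g.continuous.comp (continuous_apply 1)).mul ((cf w).comp (continuous_apply 0))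
    refine Complex.ofReal_injective ((hR _ (c1 _)).unique
      (((hR _ (c1 w)).shift (C := ‖g‖ * 1) (fun t => ?_) u⁻¹).congr fun t => congrArg _ ?_))
    · rw [Complex.norm_real]
      have := norm_integral_le_of_norm_le_const (μ := (ν : Measure Γ))
        (f := fun χ => g (tE (t ^ 1) • χ) * (f w (tE (t ^ 0) • χ)).re) (C := ‖g‖ * 1)
        (Eventually.of_forall fun χ =>
          abs_mul_le (abs_g _ _) ((Complex.abs_re_le_norm _).trans (norm_f _ _).le))
      simpa using this
    · simp only [pow_zero, pow_one, map_one, one_smul]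
      rw [← mp_int (hi u) (F := fun χ => g (tE (u⁻¹ * t) • χ) * (f w χ).re)
        ((g.continuous.comp (continuous_const_smul _)).mul (cf w)).measurable]
      simp only [smul_smul, ← map_mul, f_smul, mul_comm u⁻¹, inv_mul_cancel_right]

theorem closed (hl : LimStmt) (he : ErgStmt) (hq : QStmt) : ClosedStmt := by
  have : {ν : ProbabilityMeasure Γ | Inv ν ∧ Wild ν} = (fun a : ProbabilityMeasure Om =>
      a.map (continuous_apply 0).measurable.aemeasurable) '' {a | Lam a} := by
    ext ν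
    constructor
    · intro h
      obtain ⟨a, ha, e⟩ := exists_lam hl he hq ν h.1 h.2
      exact ⟨a, ha, Subtype.ext e⟩
    · rintro ⟨a, ha, rfl⟩
      exact ⟨ha.inv, ha.wild⟩
  rw [ClosedStmt, this]
  exact (closed_lam.isCompact.image
    (ProbabilityMeasure.continuous_map (continuous_apply 0))).isClosed

end Vale.Agent.P032
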