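import Vale.Agent.P032.St6

/-! Cutting compact sets into clopen pieces. -/

namespace Vale.Agent.P032

open Set Metric Filter Topology

theorem cut : CutStmt := by
  intro A S S' hA hS hS' h
  have : CompactSpace A := isCompact_iff_compactSpace.1 hA
  have h1 : ∀ x : A, x.1 ∈ S → ∃ Z : Set A, IsClopen Z ∧ x ∈ Z ∧ Disjoint Z ((↑) ⁻¹' S') := by
    intro x hx
    have e : (↑) ⁻¹' S' ∩ ⋂ s : {s : Set A // IsClopen s ∧ x ∈ s}, s.1 = ∅ := by
      rw [← connectedComponent_eq_iInter_isClopen, eq_empty_iff_forall_notMem]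
      intro z hz
      exact h ((↑) '' connectedComponent x) (by rintro _ ⟨w, -, rfl⟩; exact w.2)
        (isPreconnected_connectedComponent.image _ continuous_subtype_val.continuousOn)
        ⟨x, ⟨x, mem_connectedComponent, rfl⟩, hx⟩ ⟨z, ⟨z, hz.2, rfl⟩, hz.1⟩
    obtain ⟨u, hu⟩ := (hS'.preimage continuous_subtype_val).isCompact.elim_finite_subfamily_closed
      _ (fun s => s.2.1.isClosed) e
    exact ⟨⋂ s ∈ u, s.1, isClopen_biInter_finset fun s _ => s.2.1, mem_iInter₂.2 fun s _ => s.2.2,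
      (disjoint_iff_inter_eq_empty.2 hu).symm⟩
  choose! Z hZ using h1
  obtain ⟨t, ht, hc⟩ := (hS.preimage (continuous_subtype_val (p := (· ∈ A)))).isCompact.elim_nhds_subcover
    Z fun x hx => (hZ x hx).1.isOpen.mem_nhds (hZ x hx).2.1
  have hW : IsClopen (⋃ x ∈ t, Z x) := isClopen_biUnion_finset fun x hx => (hZ x (ht x hx)).1
  refine ⟨(↑) '' ⋃ x ∈ t, Z x, (↑) '' (⋃ x ∈ t, Z x)ᶜ,
    hW.isClosed.isCompact.image continuous_subtype_val,
    hW.compl.isClosed.isCompact.image continuous_subtype_val,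
    (disjoint_image_iff Subtype.val_injective).2 disjoint_compl_right, ?_, ?_, ?_⟩
  · rw [← image_union, union_compl_self, Subtype.coe_image_univ]
  · rw [disjoint_left]
    rintro _ ⟨w, hw, rfl⟩ h'
    obtain ⟨x, hx, hw⟩ := mem_iUnion₂.1 hw
    exact disjoint_left.1 (hZ x (ht x hx)).2.2 hw h'
  · rw [disjoint_left]
    rintro _ ⟨w, hw, rfl⟩ h'
    exact hw (hc h')

namespace T2

theorem gap {A B : Set ℂ} (hA : IsCompact A) (hB : IsClosed B) (h : Disjoint A B) :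
    ∀ᶠ ε in 𝓝[>] (0 : ℝ), ∀ p ∈ A, ∀ q ∈ B, 3 * ε < dist q p := by
  obtain ⟨δ, hδ, hs⟩ := hA.exists_thickening_subset_open hB.isOpen_compl h.subset_compl_right
  filter_upwards [Ioo_mem_nhdsGT (show (0 : ℝ) < δ / 3 by positivity)] with ε hε p hp q hq
  by_contra! c
  exact hs (mem_thickening_iff.2 ⟨p, hp, by linarith [hε.2]⟩) hq

theorem loc {A : Set ℂ} (hA : IsCompact A) (r : ℂ → ℝ)
    (h : ∀ a ∈ A, ∀ K ⊆ A, IsPreconnected K → a ∈ K → K ⊆ ball a (r a)) :
    ∃ (t : Finset ℂ) (P Q : ℂ → Set ℂ), (∀ a ∈ t, a ∈ A ∧ IsCompact (P a) ∧ IsCompact (Q a) ∧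
      Disjoint (P a) (Q a) ∧ P a ∪ Q a = A ∧ P a ⊆ ball a (r a)) ∧ ∀ x ∈ A, ∃ a ∈ t, x ∈ P a := by
  have h1 := fun a (ha : a ∈ A) => cut A {a} (ball a (r a))ᶜ hA isClosed_singleton
    isOpen_ball.isClosed_compl fun K hK hc ⟨x, hx, e⟩ ⟨z, hz, hz'⟩ =>
      hz' (h a ha K hK hc (mem_singleton_iff.1 e ▸ hx) hz)
  choose! P Q h1 h2 h3 h4 h5 h6 using h1
  obtain ⟨t, ht, hc⟩ := hA.elim_nhds_subcover (fun a => (Q a)ᶜ) fun a ha =>
    (h2 a ha).isClosed.isOpen_compl.mem_nhds (disjoint_singleton_right.1 (h6 a ha))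
  refine ⟨t, P, Q, fun a ha => ⟨ht a ha, h1 a (ht a ha), h2 a (ht a ha), h3 a (ht a ha),
    h4 a (ht a ha), disjoint_compl_right_iff_subset.1 (h5 a (ht a ha))⟩, fun x hx => ?_⟩
  obtain ⟨a, ha, hx'⟩ := mem_iUnion₂.1 (hc hx)
  exact ⟨a, ha, ((h4 a (ht a ha)).ge hx).resolve_right hx'⟩

theorem two {A B : Set ℂ} (hA : IsCompact A) (hB : IsCompact B) (h : IsTotallyDisconnected A)
    (h' : IsTotallyDisconnected B) : IsTotallyDisconnected (A ∪ B) := by
  intro K₀ hK₀ hc₀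
  by_cases c : K₀ ⊆ A
  · exact h _ c hc₀
  obtain ⟨x, hx₀, hxA⟩ := not_subset.1 c
  refine subsingleton_of_forall_eq x fun z hz₀ => ?_
  by_contra hzx
  have hK : closure K₀ ⊆ A ∪ B := closure_minimal hK₀ (hA.union hB).isClosed
  have hc := hc₀.closure
  have hx := subset_closure hx₀
  have hz := subset_closure hz₀
  have hk : IsClosed (closure K₀) := isClosed_closure
  generalize closure K₀ = K at hK hc hx hz hk
  obtain ⟨ρ₀, h0, hb⟩ := Metric.nhds_basis_closedBall.mem_iff.1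
    (hA.isClosed.isOpen_compl.mem_nhds hxA)
  have hρ : 0 < min ρ₀ (dist z x) := lt_min h0 (dist_pos.2 hzx)
  set ρ := min ρ₀ (dist z x) with hρ'
  obtain ⟨D, D', d1, d2, d3, d4, d5, d6⟩ := cut (K ∩ closedBall x ρ) {x} (sphere x ρ)
    ((isCompact_closedBall x ρ).inter_left hk) isClosed_singleton isClosed_sphere
    fun L hL hc ⟨a, ha, e⟩ ⟨b, hb', e'⟩ => by
      have := h' L (fun w hw => (hK (hL hw).1).resolve_left
        (hb (closedBall_subset_closedBall (min_le_left _ _) (hL hw).2))) hc ha hb'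
      rw [← this, mem_singleton_iff.1 e, mem_sphere, dist_self] at e'
      exact hρ.ne e'
  obtain ⟨w, -, w1, w2⟩ := isPreconnected_closed_iff.1 hc D (D' ∪ (ball x ρ)ᶜ) d1.isClosed
    (d2.isClosed.union isOpen_ball.isClosed_compl) (fun w hw => by
      by_cases c : w ∈ ball x ρ
      · exact (d4.ge ⟨hw, ball_subset_closedBall c⟩).imp_right .inl
      · exact .inr (.inr c))
    ⟨x, hx, (d4.ge ⟨hx, mem_closedBall_self hρ.le⟩).resolve_right (disjoint_singleton_right.1 d6)⟩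
    ⟨z, hz, .inr fun c => (mem_ball.1 c).not_ge (min_le_right _ _)⟩
  rcases w2 with w2 | w2
  · exact disjoint_left.1 d3 w1 w2
  · exact disjoint_left.1 d5 w1 (le_antisymm (d4.le (.inl w1)).2 (not_lt.1 w2))

theorem fin {ι : Type} (T : ι → Set ℂ) (h : ∀ i, IsCompact (T i))
    (h' : ∀ i, IsTotallyDisconnected (T i)) (s : Finset ι) :
    IsTotallyDisconnected (⋃ i ∈ s, T i) := by
  classical
  induction s using Finset.induction_on with
  | empty => simpa using isTotallyDisconnected_empty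
  | insert a s _ ih =>
    rw [Finset.set_biUnion_insert]
    exact two (h a) (s.isCompact_biUnion fun i _ => h i) (h' a) ih

end T2

open T2

theorem chain : ChainStmt := by
  intro A hA h
  obtain ⟨t, P, Q, h1, h2⟩ := loc hA (fun _ => 3 / 2) fun a _ K hK hc ha z hz =>
    (h K hK hc z hz a ha).trans_lt (by norm_num)
  obtain ⟨ε, ⟨e1, e2⟩, e0⟩ := ((((eventually_all_finset t).2 fun a ha =>
    gap (h1 a ha).2.1 (h1 a ha).2.2.1.isClosed (h1 a ha).2.2.2.1).and
    (Ioo_mem_nhdsGT (show (0 : ℝ) < 1 / 4 by norm_num))).and self_mem_nhdsWithin).exists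
  refine ⟨ε, e0, fun x y ⟨x', hx, dx⟩ hxy => ?_⟩
  obtain ⟨a, ha, hxa⟩ := h2 x' hx
  obtain ⟨y', hy, dy⟩ : ∃ y' ∈ P a, dist y y' ≤ ε := by
    induction hxy with
    | refl => exact ⟨x', hxa, dx⟩
    | @tail p q _ hpq ih =>
      obtain ⟨p', hp, dp⟩ := ih
      obtain ⟨⟨q', hq, dq⟩, d⟩ := hpq
      refine ⟨q', ((h1 a ha).2.2.2.2.1.ge hq).resolve_right fun c => ?_, dq⟩
      linarith [e1 a ha p' hp q' c, dist_triangle4 q' q p p', dist_comm q q', dist_comm p q]
  have b1 := mem_ball.1 ((h1 a ha).2.2.2.2.2 hxa)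
  have b2 := mem_ball.1 ((h1 a ha).2.2.2.2.2 hy)
  linarith [dist_triangle4 x x' y' y, dist_triangle_right x' y' a, dist_comm y y', e2.2]

theorem piece : PieceStmt := by
  intro ι _ T hT hT' r hr
  cases nonempty_fintype ι
  have hA : IsCompact (⋃ i, T i) := isCompact_iUnion hT
  have hD : IsTotallyDisconnected (⋃ i, T i) := by simpa using fin T hT hT' Finset.univ
  generalize ⋃ i, T i = A at hA hD
  obtain ⟨t, P, Q, h1, h2⟩ := loc hA r fun a _ K hK hc ha z hz => by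
    rw [hD K hK hc hz ha]
    exact mem_ball_self (hr a)
  let y : Fin t.card → ℂ := fun i => t.equivFin.symm i
  have hy : ∀ i, y i ∈ t := fun i => (t.equivFin.symm i).2
  let R : Fin t.card → Set ℂ := fun i => P (y i) ∩ ⋂ j, ⋂ _ : j < i, Q (y j)
  have r1 : ∀ i, IsCompact (R i) := fun i => (h1 _ (hy i)).2.1.inter_right
    (isClosed_iInter fun j => isClosed_iInter fun _ => (h1 _ (hy j)).2.2.1.isClosed)
  have r2 : ∀ i j, i ≠ j → Disjoint (R i) (R j) := by
    have : ∀ i j, i < j → Disjoint (R i) (R j) := fun i j h => disjoint_left.2 fun x a b =>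
      disjoint_left.1 (h1 _ (hy i)).2.2.2.1 a.1 (mem_iInter₂.1 b.2 i h)
    exact fun i j h => h.lt_or_gt.elim (this i j) fun h => (this j i h).symm
  have r3 : ∀ x ∈ A, ∃ i, x ∈ R i := by
    intro x hx
    obtain ⟨a, ha, hxa⟩ := h2 x hx
    obtain ⟨i, hi, hm⟩ := (wellFounded_lt (α := Fin t.card)).has_min {i | x ∈ P (y i)}
      ⟨t.equivFin ⟨a, ha⟩, by simpa [y] using hxa⟩
    exact ⟨i, hi, mem_iInter₂.2 fun j hj =>
      ((h1 _ (hy j)).2.2.2.2.1.ge hx).resolve_left fun c => hm j c hj⟩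
  obtain ⟨ε, e1, e0⟩ := ((eventually_all.2 fun i => eventually_all.2 fun j =>
    eventually_all.2 fun h : i ≠ j => gap (r1 i) (r1 j).isClosed (r2 i j h)).and
    self_mem_nhdsWithin).exists
  let V : Fin t.card → Set ℂ := fun i => thickening ε (R i) ∩ ball (y i) (r (y i))
  have v1 : ∀ i, R i ⊆ V i := fun i x hx =>
    ⟨self_subset_thickening e0 _ hx, (h1 _ (hy i)).2.2.2.2.2 hx.1⟩
  have v2 : ∀ i j x, x ∈ V i → x ∈ V j → i = j := fun i j x a b => by
    by_contra c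
    obtain ⟨p, hp, dp⟩ := mem_thickening_iff.1 a.1
    obtain ⟨q, hq, dq⟩ := mem_thickening_iff.1 b.1
    have : (0 : ℝ) < ε := e0
    linarith [e1 i j c p hp q hq, dist_triangle_left q p x]
  choose f f0 f1 _ using fun i => exists_continuous_zero_one_of_isClosed (r1 i).isClosed
    (isOpen_thickening.inter isOpen_ball : IsOpen (V i)).isClosed_compl
    (disjoint_compl_right_iff_subset.2 (v1 i))
  have v3 : ∀ i x, 2 * f i x ≤ 1 → x ∈ V i := fun i x h => by
    by_contra c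
    rw [f1 i c] at h
    norm_num at h
  refine ⟨t.card, y, fun i x => 2 * f i x, fun i => (h1 _ (hy i)).1, fun i => by fun_prop,
    fun i x h => (v3 i x h).2, fun i j x a b => v2 i j x (v3 i x a) (v3 j x b), fun x hx => ?_⟩
  obtain ⟨i, hi⟩ := r3 x hx
  have z : 2 * f i x ≤ 0 := by simp [f0 i hi]
  refine ⟨⟨i, z⟩, fun j => ?_⟩
  by_cases c : 2 * f j x ≤ 1
  · exact .inl (v2 i j x (v1 i hi) (v3 j x c) ▸ z)
  · exact .inr (not_le.1 c)

end Vale.Agent.P032
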