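import Vale.Agent.P032.Stmts

/-! From weak measurable colourings to proper colourings with measurable classes. -/

namespace Vale.Agent.P032

open MeasureTheory Filter Topology Metric
open scoped ENNReal

/-- Relative measure of `B` in a disc. -/
noncomputable def dens (B : Set ℂ) (x : ℂ) (r : ℝ) : ℝ≥0∞ :=
  volume (B ∩ closedBall x r) / volume (closedBall x r)

theorem vol_ne_zero (x : ℂ) {r : ℝ} (hr : 0 < r) : volume (closedBall x r) ≠ 0 :=
  (measure_closedBall_pos volume x hr).ne'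

theorem dens_mul (B : Set ℂ) (x : ℂ) {r : ℝ} (hr : 0 < r) :
    volume (B ∩ closedBall x r) = dens B x r * volume (closedBall (0 : ℂ) r) := by
  rw [dens, ← Measure.addHaar_closedBall_center volume x r,
    ENNReal.div_mul_cancel (vol_ne_zero x hr) measure_closedBall_lt_top.ne]

theorem not_dens_pair {B : Set ℂ} (hB : MeasurableSet B)
    (h : ∀ᵐ θ : ℝ, ∀ᵐ x : ℂ, ¬(x ∈ B ∧ x + Complex.exp (θ * Complex.I) ∈ B)) {x y : ℂ}
    (hxy : ‖x - y‖ = 1) (hx : Tendsto (dens B x) (𝓝[>] 0) (𝓝 1))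
    (hy : Tendsto (dens B y) (𝓝[>] 0) (𝓝 1)) : False := by
  have h34 : ENNReal.ofReal (3 / 4) < 1 := ENNReal.ofReal_lt_one.2 (by norm_num)
  obtain ⟨r, ⟨h1, h2⟩, hr⟩ := (((hx.eventually (lt_mem_nhds h34)).and
    (hy.eventually (lt_mem_nhds h34))).and self_mem_nhdsWithin).exists
  have hr : 0 < r := hr
  rw [norm_sub_rev, Complex.norm_eq_one_iff] at hxy
  obtain ⟨θ0, h0⟩ := hxy
  obtain ⟨θ, hθ, hg⟩ := (Measure.dense_of_ae h).inter_open_nonempty
    {θ : ℝ | ‖y - x - Complex.exp (θ * Complex.I)‖ < r / 5}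
    (isOpen_lt (by fun_prop) continuous_const) ⟨θ0, by simp [h0, hr]⟩
  set w := Complex.exp (θ * Complex.I)
  have hθ : ‖y - x - w‖ < r / 5 := hθ
  have hd : AEDisjoint volume (B ∩ closedBall x r) ((· + w) ⁻¹' (B ∩ closedBall y r)) := by
    refine measure_mono_null (fun z hz => ?_) (ae_iff.1 hg)
    exact not_not.2 ⟨hz.1.1, hz.2.1⟩
  have hs : B ∩ closedBall x r ∪ (· + w) ⁻¹' (B ∩ closedBall y r) ⊆ closedBall x (6 / 5 * r) := by
    rintro z (hz | hz)
    · exact closedBall_subset_closedBall (by linarith) hz.2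
    · have := mem_closedBall_iff_norm.1 hz.2
      rw [mem_closedBall_iff_norm]
      have e : z - x = (z + w - y) + (y - x - w) := by ring
      rw [e]
      linarith [norm_add_le (z + w - y) (y - x - w)]
  have hm := measure_mono (μ := volume) hs
  rw [measure_union₀ ((hB.inter measurableSet_closedBall).preimage
    (measurable_add_const w)).nullMeasurableSet hd, measure_preimage_add_right, dens_mul B x hr,
    dens_mul B y hr, ← add_mul, Complex.volume_closedBall, Complex.volume_closedBall,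
    ENNReal.ofReal_mul (by norm_num), mul_pow, mul_assoc, ← Complex.volume_closedBall 0,
    ENNReal.mul_le_mul_iff_left (vol_ne_zero 0 hr) measure_closedBall_lt_top.ne] at hm
  have h3 := (add_le_add h1.le h2.le).trans hm
  rw [← ENNReal.ofReal_add (by norm_num) (by norm_num), ← ENNReal.ofReal_pow (by norm_num),
    ENNReal.ofReal_le_ofReal_iff (by norm_num)] at h3
  norm_num at h3

theorem det : DetStmt := by
  classical
  intro k A ⟨hA, hcov, hθ⟩
  let B : Fin k → Set ℂ := disjointed A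
  have hB : ∀ i, MeasurableSet (B i) := fun i => by
    rw [show B i = _ from disjointed_eq_inter_compl A i]
    exact (hA i).inter (MeasurableSet.iInter fun j => MeasurableSet.iInter fun _ => (hA j).compl)
  have hBA : ∀ i, B i ⊆ A i := disjointed_subset A
  have hdis : Pairwise (Function.onFun Disjoint B) := disjoint_disjointed A
  have hcB : ∀ᵐ x : ℂ, ∃ i, x ∈ B i := by
    filter_upwards [hcov] with x hx
    rwa [← Set.mem_iUnion, ← iUnion_disjointed, Set.mem_iUnion] at hx
  have hden : ∀ᵐ x : ℂ, ∀ i, Tendsto (dens (B i) x) (𝓝[>] 0) (𝓝 ((B i).indicator 1 x)) :=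
    ae_all_iff.2 fun i => Besicovitch.ae_tendsto_measure_inter_div_of_measurableSet volume (hB i)
  have hfin : ∀ F : Finset ℂ, ∃ c : ℂ → Fin k, (∀ x ∈ F, ∀ y ∈ F, ‖x - y‖ = 1 → c x ≠ c y) ∧
      ∀ x ∈ F, ¬Tendsto (dens (B (c x)) x) (𝓝[>] 0) (𝓝 0) := by
    intro F
    let P : Finset (ℂ × Fin k) :=
      (F ×ˢ Finset.univ).filter fun p => Tendsto (dens (B p.2) p.1) (𝓝[>] 0) (𝓝 0)
    have h1 : Tendsto (fun r => ∑ p ∈ P, dens (B p.2) p.1 r) (𝓝[>] 0) (𝓝 0) := by
      simpa using tendsto_finsetSum P fun p hp => (Finset.mem_filter.1 hp).2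
    obtain ⟨r, h2, hr⟩ := ((h1.eventually (gt_mem_nhds zero_lt_one)).and self_mem_nhdsWithin).exists
    have hr : 0 < r := hr
    have h3 : ∀ᵐ v : ℂ, ∀ x ∈ F, ∃ i, x + v ∈ B i ∧
        Tendsto (dens (B i) (x + v)) (𝓝[>] 0) (𝓝 1) := by
      refine (Filter.eventually_all_finset F).2 fun x _ => ?_
      filter_upwards [(measurePreserving_add_left volume x).quasiMeasurePreserving.ae
        (hcB.and hden)] with v ⟨⟨i, hi⟩, hv⟩
      exact ⟨i, hi, by simpa [hi] using hv i⟩
    obtain ⟨v, hv, hv0, hvP⟩ : ∃ v, (∀ x ∈ F, ∃ i, x + v ∈ B i ∧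
        Tendsto (dens (B i) (x + v)) (𝓝[>] 0) (𝓝 1)) ∧ v ∈ closedBall (0 : ℂ) r ∧
        ∀ p ∈ P, p.1 + v ∉ B p.2 := by
      by_contra hcon
      have h4 : closedBall (0 : ℂ) r ≤ᵐ[volume]
          (⋃ p ∈ P, (p.1 + ·) ⁻¹' (B p.2 ∩ closedBall p.1 r) : Set ℂ) := by
        filter_upwards [h3] with v hv hv0
        by_contra hn
        refine hcon ⟨v, hv, hv0, fun p hp hb => hn (Set.mem_biUnion hp ⟨hb, ?_⟩)⟩
        simpa using (show v ∈ closedBall (0 : ℂ) r from hv0)
      have h5 := (measure_mono_ae h4).trans (measure_biUnion_finset_le _ _)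
      simp only [measure_preimage_add, dens_mul _ _ hr, ← Finset.sum_mul] at h5
      have h6 := ENNReal.mul_lt_mul_left (vol_ne_zero 0 hr) measure_closedBall_lt_top.ne h2
      rw [one_mul] at h6
      exact absurd h5 (not_le.2 h6)
    obtain ⟨_, i0, -⟩ := hcB.exists
    choose! c hc1 hc2 using hv
    refine ⟨fun x => if hx : x ∈ F then c x hx else i0, fun x hx y hy hxy e => ?_, fun x hx h => ?_⟩
    · simp only [hx, hy, dif_pos] at e
      refine not_dens_pair (hB (c x hx)) ?_ (x := x + v) (y := y + v) (by simpa using hxy)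
        (hc2 x hx) (e ▸ hc2 y hy)
      filter_upwards [hθ (c x hx)] with θ h
      filter_upwards [h] with z hz hz'
      exact hz ⟨hBA _ hz'.1, hBA _ hz'.2⟩
    · simp only [hx, dif_pos] at h
      exact hvP (x, c x hx) (Finset.mem_filter.2 ⟨by simp [hx], h⟩) (hc1 x hx)
  choose g hg1 hg2 using hfin
  obtain ⟨c, hc⟩ := Finset.rado_selection g
  refine ⟨c, fun x y hxy => ?_, fun i => (hB i).nullMeasurableSet.congr ?_⟩
  · obtain ⟨t, ht, e⟩ := hc {x, y}
    rw [e x (by simp), e y (by simp)]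
    exact hg1 t x (ht (by simp)) y (ht (by simp)) hxy
  · filter_upwards [hden] with x hx
    obtain ⟨t, ht, e⟩ := hc {x}
    have h1 : x ∈ B (c x) := by
      by_contra hn
      refine hg2 t x (ht (by simp)) ?_
      rw [← e x (by simp)]
      simpa [hn] using hx (c x)
    refine propext ⟨fun h => ?_, fun h => ?_⟩
    · by_contra hn
      exact Set.disjoint_left.1 (hdis hn) h1 h
    · exact (show c x = i from h) ▸ h1

end Vale.Agent.P032
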