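import Vale.Agent.P032.St6

/-! Centres of two-coloured circles are isolated. -/

namespace Vale.Agent.P032

open Set Metric Real Filter Topology

namespace D

theorem e_re (a : ℝ) : (e a).re = cos a := Complex.exp_ofReal_mul_I_re a

theorem e_im (a : ℝ) : (e a).im = sin a := Complex.exp_ofReal_mul_I_im a

theorem e_cont : Continuous e := by unfold e; fun_prop

theorem nrm (a b : ℝ) : ‖e a + e b‖ ^ 2 = 2 + 2 * cos (a - b) := by
  rw [Complex.sq_norm, Complex.normSq_apply, cos_sub]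
  simp only [Complex.add_re, Complex.add_im, e_re, e_im]
  nlinarith [sin_sq_add_cos_sq a, sin_sq_add_cos_sq b]

theorem rh (a : ℝ) : e (a + π / 3) + e (a - π / 3) = e a := by
  apply Complex.ext <;>
    simp only [Complex.add_re, Complex.add_im, e_re, e_im, cos_add, cos_sub, sin_add, sin_sub,
      cos_pi_div_three] <;> ring

theorem ex_e {z : ℂ} (h : ‖z‖ = 1) : ∃ θ, z = e θ :=
  ⟨z.arg, by simpa [h, e] using (Complex.norm_mul_exp_arg_mul_I z).symm⟩

theorem dir (u : ℝ) (w : ℂ) (h0 : w ≠ 0) (h : ‖w‖ < 1 / 2) :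
    ∃ v, (v = u ∨ v = u + π / 3 + π / 3 ∨ v = u - π / 3 - π / 3) ∧ ‖e v - w‖ < 1 := by
  by_contra! hn
  have key : ∀ v, 1 ≤ ‖e v - w‖ → 2 * (w.re * cos v + w.im * sin v) ≤ ‖w‖ ^ 2 := by
    intro v hv
    have : 1 ≤ ‖e v - w‖ ^ 2 := by nlinarith
    rw [Complex.sq_norm, Complex.normSq_apply] at this ⊢
    simp only [Complex.sub_re, Complex.sub_im, e_re, e_im] at this
    nlinarith [sin_sq_add_cos_sq v]
  have a := key _ (hn _ (.inl rfl))
  have b := key _ (hn _ (.inr (.inl rfl)))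
  have c := key _ (hn _ (.inr (.inr rfl)))
  have hp : 0 < ‖w‖ ^ 2 := by positivity
  have hs : ‖w‖ ^ 2 < 1 / 4 := by nlinarith [norm_nonneg w]
  have hw : ‖w‖ ^ 2 = w.re ^ 2 + w.im ^ 2 := by
    rw [Complex.sq_norm, Complex.normSq_apply]; ring
  simp only [cos_add, cos_sub, sin_add, sin_sub, cos_pi_div_three, sin_pi_div_three] at b c
  have s3 : √3 * √3 = 3 := mul_self_sqrt (by norm_num)
  set s := √3
  set X := w.re * cos u + w.im * sin u with hX
  set Z := w.im * cos u - w.re * sin u with hZ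
  have e1 : X ^ 2 + Z ^ 2 = ‖w‖ ^ 2 := by
    rw [hw, hX, hZ]; nlinarith [sin_sq_add_cos_sq u]
  have b' : -X + s * Z ≤ ‖w‖ ^ 2 := by
    refine le_of_eq_of_le ?_ b
    rw [hX, hZ]; linear_combination (w.re * cos u + w.im * sin u) / 2 * s3
  have c' : -X - s * Z ≤ ‖w‖ ^ 2 := by
    refine le_of_eq_of_le ?_ c
    rw [hX, hZ]; linear_combination (w.re * cos u + w.im * sin u) / 2 * s3
  set N := ‖w‖ ^ 2
  have x2 : X ^ 2 ≤ N ^ 2 := sq_le_sq' (by linarith) (by linarith)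
  have z2 : (s * Z) ^ 2 ≤ (3 / 2 * N) ^ 2 := sq_le_sq' (by linarith) (by linarith)
  have z3 : (s * Z) ^ 2 = 3 * Z ^ 2 := by rw [mul_pow, sq s, s3]
  nlinarith

variable {C : Fin 5 → Set ℂ}

theorem step (hC : Bas C) {d d' : Fin 5} {y w : ℂ} {u ρ : ℝ} (hρ : 0 < ρ) (hρ1 : ρ < 1)
    (hA : ∀ θ ∈ U C y d, θ + π / 3 ∈ U C y d') (hB : ∀ θ ∈ U C y d', θ - π / 3 ∈ U C y d)
    (hu : u ∈ closure (U C y d)) (hI : Ioo u (u + ρ) ⊆ U C y d') (h1 : ‖e u - w‖ < 1)
    (h2 : 1 < ‖e (u + π / 3) + e (u + ρ / 2 - π / 3) - w‖) : y + w ∉ Y C d d' := by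
  intro hY
  have := e_cont
  let G : ℝ → ℝ → ℝ := fun t b => ‖e (t + π / 3) + e (b - π / 3) - w‖
  have c1 : ∀ b, Continuous fun t => G t b := fun b => by simp only [G]; fun_prop
  have c2 : ∀ t, Continuous (G t) := fun t => by simp only [G]; fun_prop
  have ev : ∀ᶠ t in 𝓝 u, G t u < 1 ∧ 1 < G t (u + ρ / 2) ∧ t ∈ ball u (ρ / 2) :=
    ((c1 u).continuousAt.eventually_lt continuousAt_const (by simpa only [G, rh] using h1)).and
      ((continuousAt_const.eventually_lt (c1 _).continuousAt h2).and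
        (ball_mem_nhds u (half_pos hρ)))
  obtain ⟨t, ⟨g1, g2, g3⟩, ht⟩ := mem_closure_iff_nhds.1 hu _ ev
  obtain ⟨b, hb, gb⟩ := intermediate_value_Ioo (a := u) (b := u + ρ / 2) (by linarith)
    (c2 t).continuousOn ⟨g1, g2⟩
  obtain ⟨θ, hθ⟩ := ex_e gb
  rw [mem_ball, Real.dist_eq, abs_lt] at g3
  have hs : sin (t + π / 3 - (b - π / 3)) ≠ 0 :=
    (sin_pos_of_pos_of_lt_pi (by linarith [pi_gt_three, hb.1, hb.2])
      (by linarith [pi_gt_three, hb.1, hb.2])).ne'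
  have hp : y + w + e θ = y + e (t + π / 3) + e (b - π / 3) := by rw [← hθ]; ring
  rcases hY θ with h | h
  · refine hC.arc y d (b - π / 3) (t + π / 3) (hB _ (hI ⟨hb.1, by linarith [hb.2]⟩))
      (by rwa [← neg_sub, sin_neg, neg_ne_zero]) ?_
    rw [add_right_comm, ← hp]
    exact h
  · refine hC.arc y d' _ _ (hA _ ht) hs ?_
    rw [← hp]
    exact h

end D

open D in
theorem disc (hy : YStmt) : DiscStmt := by
  intro C hC d d' hd y hY
  obtain ⟨a1, a2, a3, a4, θ₀, h0⟩ := hy C hC d d' hd y hY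
  obtain ⟨s, hs⟩ : (U C y d).Nonempty := closure_nonempty_iff.1 ⟨_, (h0 0).1⟩
  have hπ := pi_pos
  have hs' := (a3 s).1 hs
  have hne : (U C y d ∩ Icc s (s + π / 3)).Nonempty := ⟨s, hs, le_rfl, by linarith⟩
  have hbd : BddAbove (U C y d ∩ Icc s (s + π / 3)) := ⟨_, fun t ht => ht.2.2⟩
  set u := sSup (U C y d ∩ Icc s (s + π / 3)) with hu
  have uc : u ∈ closure (U C y d) := closure_mono inter_subset_left (csSup_mem_closure hne hbd)
  have ul : s ≤ u := le_csSup hbd ⟨hs, le_rfl, by linarith⟩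
  have ur : u ≤ s + π / 3 := csSup_le hne fun t ht => ht.2.2
  have ult : u < s + π / 3 := by
    refine lt_of_le_of_ne ur fun h => ?_
    obtain ⟨t, h1, h2⟩ := mem_closure_iff.1 uc _ isOpen_interior (h ▸ hs')
    exact (a2 t).1 h1 (interior_subset h2)
  have hI : Ioo u (s + π / 3) ⊆ U C y d' := by
    refine interior_maximal (fun t ht => ?_) isOpen_Ioo
    by_contra h
    exact absurd (le_csSup hbd ⟨(a1 t).2 h, by linarith [ht.1], ht.2.le⟩) (not_le.2 ht.1)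
  obtain ⟨ρ, r0, r1, r2⟩ : ∃ ρ, 0 < ρ ∧ ρ < 1 ∧ ρ ≤ s + π / 3 - u :=
    ⟨min (1 / 2) (s + π / 3 - u), lt_min (by norm_num) (by linarith),
      (min_le_left _ _).trans_lt (by norm_num), min_le_right _ _⟩
  have hI' : Ioo u (u + ρ) ⊆ U C y d' := (Ioo_subset_Ioo_right (by linarith)).trans hI
  set m := √(2 + 2 * cos (2 * π / 3 - ρ / 2)) with hm
  have m1 : 1 < m := by
    apply lt_sqrt_of_sq_lt
    have : cos (2 * π / 3) < cos (2 * π / 3 - ρ / 2) :=
      cos_lt_cos_of_nonneg_of_le_pi (by linarith [pi_gt_three]) (by linarith) (by linarith)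
    rw [show 2 * π / 3 = π - π / 3 by ring, cos_pi_sub, cos_pi_div_three] at this
    rw [show 2 * π / 3 = π - π / 3 by ring]
    linarith
  have mv : ∀ v, ‖e (v + π / 3) + e (v + ρ / 2 - π / 3)‖ = m := fun v => by
    rw [hm, ← sqrt_sq (norm_nonneg _), nrm]
    congr 4
    ring
  refine ⟨min (1 / 2) (m - 1), lt_min (by norm_num) (by linarith), fun x hx hxY => ?_⟩
  by_contra hxy
  rw [mem_ball, dist_eq_norm, lt_min_iff] at hx
  obtain ⟨v, hv, h1⟩ := dir u (x - y) (sub_ne_zero.2 hxy) hx.1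
  have hB : ∀ θ ∈ U C y d', θ - π / 3 ∈ U C y d := fun θ h => (a3 _).2 (by simpa using h)
  have hB' : ∀ θ ∈ U C y d, θ - π / 3 ∈ U C y d' := fun θ h => (a4 _).2 (by simpa using h)
  have sh : ∀ c : ℝ, (∀ θ ∈ U C y d, θ + c ∈ U C y d) → (∀ θ ∈ U C y d', θ + c ∈ U C y d') →
      u + c ∈ closure (U C y d) ∧ Ioo (u + c) (u + c + ρ) ⊆ U C y d' := fun c h h' =>
    ⟨map_mem_closure (f := (· + c)) (by fun_prop) uc h, fun t ht => by
      simpa using h' (t - c) (hI' ⟨by linarith [ht.1], by linarith [ht.2]⟩)⟩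
  have hv' : v ∈ closure (U C y d) ∧ Ioo v (v + ρ) ⊆ U C y d' := by
    rcases hv with rfl | rfl | rfl
    · exact ⟨uc, hI'⟩
    · rw [add_assoc u]
      exact sh _ (fun θ h => add_assoc θ _ _ ▸ (a4 _).1 ((a3 _).1 h))
        fun θ h => add_assoc θ _ _ ▸ (a3 _).1 ((a4 _).1 h)
    · rw [sub_sub, sub_eq_add_neg]
      exact sh _ (fun θ h => by rw [← sub_eq_add_neg, ← sub_sub]; exact hB _ (hB' _ h))
        fun θ h => by rw [← sub_eq_add_neg, ← sub_sub]; exact hB' _ (hB _ h)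
  refine step hC r0 r1 (fun θ h => (a3 θ).1 h) hB hv'.1 hv'.2 h1 ?_ (by simpa using hxY)
  have := norm_sub_norm_le (e (v + π / 3) + e (v + ρ / 2 - π / 3)) (x - y)
  rw [mv] at this
  linarith [hx.2]

end Vale.Agent.P032
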