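import Vale.Agent.P032.St6

/-! Elementary lemmas on unit vectors. -/

namespace Vale.Agent.P032.EL

open Set Metric Real Filter Topology

theorem norm_e (θ : ℝ) : ‖e θ‖ = 1 := Complex.norm_exp_ofReal_mul_I θ

theorem e_re (θ : ℝ) : (e θ).re = cos θ := Complex.exp_ofReal_mul_I_re θ

theorem e_im (θ : ℝ) : (e θ).im = sin θ := Complex.exp_ofReal_mul_I_im θ

@[fun_prop] theorem cont_e : Continuous e := by unfold e; fun_prop

theorem e_per (θ : ℝ) : e (θ + 2 * π) = e θ := by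
  apply Complex.ext <;> simp [e_re, e_im]

theorem H_per {C : Fin 5 → Set ℂ} {y : ℂ} {j : Fin 5} {θ : ℝ} : θ + 2 * π ∈ H C y j ↔ θ ∈ H C y j := by
  simp only [H, mem_ofPred_eq, e_per]

theorem mem_U {C : Fin 5 → Set ℂ} {y : ℂ} {j : Fin 5} {θ : ℝ} :
    θ ∈ U C y j ↔ ∀ᶠ t in 𝓝 θ, t ∈ H C y j := mem_interior_iff_mem_nhds

theorem ev_shift {p : ℝ → Prop} {θ : ℝ} (a : ℝ) (h : ∀ᶠ t in 𝓝 (θ + a), p t) :
    ∀ᶠ t in 𝓝 θ, p (t + a) := (continuous_add_const a).continuousAt.eventually h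

theorem U_per {C : Fin 5 → Set ℂ} {y : ℂ} {j : Fin 5} {θ : ℝ} :
    θ + 2 * π ∈ U C y j ↔ θ ∈ U C y j := by
  rw [mem_U, mem_U]
  refine ⟨fun h => (ev_shift _ h).mono fun t ht => H_per.1 ht, fun h => ?_⟩
  have h' : ∀ᶠ t in 𝓝 (θ + 2 * π + -(2 * π)), t ∈ H C y j := by simpa using h
  refine (ev_shift _ h').mono fun t ht => ?_
  rw [← H_per] at ht
  simpa using ht

theorem U_sub {C : Fin 5 → Set ℂ} {y : ℂ} {j : Fin 5} : U C y j ⊆ H C y j := interior_subset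

theorem U_open {C : Fin 5 → Set ℂ} {y : ℂ} {j : Fin 5} : IsOpen (U C y j) := isOpen_interior

theorem F_closed {C : Fin 5 → Set ℂ} {j : Fin 5} : IsClosed (F C j) := isClosed_closure

theorem nearO {C : Fin 5 → Set ℂ} (B : Bas C) {O : Set ℂ} {x : ℂ} (h : O ∈ 𝓝 x) :
    ∃ j, ∃ p ∈ C j, p ∈ O := by
  obtain ⟨r, hr, h⟩ := Metric.mem_nhds_iff.1 h
  obtain ⟨j, p, hp, hp'⟩ := B.near x r hr
  exact ⟨j, p, hp, h hp'⟩

theorem sq_three (a b c : ℝ) :
    ‖e a - e b - e c‖ ^ 2 = 3 - 2 * cos (a - b) - 2 * cos (a - c) + 2 * cos (b - c) := by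
  rw [Complex.sq_norm, Complex.normSq_apply]
  simp only [Complex.sub_re, Complex.sub_im, e_re, e_im, cos_sub]
  nlinarith [sin_sq_add_cos_sq a, sin_sq_add_cos_sq b, sin_sq_add_cos_sq c]

theorem sq_two (a b : ℝ) : ‖e a + e b‖ ^ 2 = 2 + 2 * cos (a - b) := by
  rw [Complex.sq_norm, Complex.normSq_apply]
  simp only [Complex.add_re, Complex.add_im, e_re, e_im, cos_sub]
  nlinarith [sin_sq_add_cos_sq a, sin_sq_add_cos_sq b]

theorem ivt_pert {g : ℝ → ℂ} (hg : Continuous g) {d0 : ℂ} {s t τ : ℝ} (hs : |s| ≤ τ) (ht : |t| ≤ τ)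
    (h1 : ‖d0 + g s‖ < 1) (h2 : 1 < ‖d0 + g t‖) :
    ∃ ε > 0, ∀ d, ‖d - d0‖ < ε → ∃ u, |u| ≤ τ ∧ ‖d + g u‖ = 1 := by
  refine ⟨min (1 - ‖d0 + g s‖) (‖d0 + g t‖ - 1), lt_min (by linarith) (by linarith),
    fun d hd => ?_⟩
  rw [lt_min_iff] at hd
  have a1 : ‖d + g s‖ ≤ ‖d - d0‖ + ‖d0 + g s‖ := by
    have := norm_add_le (d - d0) (d0 + g s)
    rwa [← add_assoc, sub_add_cancel] at this
  have a2 : ‖d0 + g t‖ ≤ ‖d - d0‖ + ‖d + g t‖ := by
    rw [norm_sub_rev]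
    have := norm_add_le (d0 - d) (d + g t)
    rwa [← add_assoc, sub_add_cancel] at this
  obtain ⟨u, hu, e⟩ := (isPreconnected_Icc (a := -τ) (b := τ)).intermediate_value
    (abs_le.1 hs) (abs_le.1 ht) (f := fun u => ‖d + g u‖) (by fun_prop)
    (show (1 : ℝ) ∈ Icc _ _ from ⟨by linarith, by linarith⟩)
  exact ⟨u, abs_le.2 hu, e⟩

theorem cross {α β τ : ℝ} (h : sin (α - β) ≠ 0) (hτ : 0 < τ) :
    ∃ ε > 0, ∀ d, ‖d - (e α - e β)‖ < ε → ∃ t, |t| ≤ τ ∧ ‖d - e (α + t)‖ = 1 := by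
  have hσ := abs_pos.2 h
  set t := min τ (|sin (α - β)| / 2) with ht
  have t0 : 0 < t := lt_min hτ (by linarith)
  have t1 : t ≤ |sin (α - β)| / 2 := min_le_right _ _
  have t2 : t ≤ 1 / 2 := by linarith [abs_sin_le_one (α - β)]
  have t3 : |t| ≤ τ := by rw [abs_of_pos t0]; exact min_le_left _ _
  have t4 : |-t| ≤ τ := by rwa [abs_neg]
  have s1 := sin_gt_sub_cube t0
  have s2 := one_sub_sq_div_two_le_cos (x := t)
  have s3 : (1 - cos (α - β)) * (1 - cos t) < |sin (α - β)| * sin t := by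
    have := neg_one_le_cos (α - β)
    have := cos_le_one t
    have := cos_le_one (α - β)
    have k1 : (1 - cos (α - β)) * (1 - cos t) ≤ t ^ 2 := by nlinarith
    have k2 : t / 2 < sin t := by nlinarith
    nlinarith
  have s4 : 0 ≤ (1 - cos (α - β)) * (1 - cos t) :=
    mul_nonneg (by linarith [cos_le_one (α - β)]) (by linarith [cos_le_one t])
  have key : ∀ u, ‖e α - e β + -e (α + u)‖ ^ 2 =
      1 + 2 * ((1 - cos (α - β)) * (1 - cos u) - sin (α - β) * sin u) := fun u => by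
    rw [← sub_eq_add_neg, sq_three, show α - (α + u) = -u by ring,
      show β - (α + u) = -(α - β + u) by ring, cos_neg, cos_neg, cos_add]
    ring
  have lt1 : ∀ z : ℂ, ‖z‖ ^ 2 < 1 → ‖z‖ < 1 := fun z hz => by nlinarith [norm_nonneg z]
  have gt1 : ∀ z : ℂ, 1 < ‖z‖ ^ 2 → 1 < ‖z‖ := fun z hz => by nlinarith [norm_nonneg z]
  simp only [sub_eq_add_neg _ (e (α + _))]
  have s5 : 0 < sin t := by nlinarith
  rcases h.lt_or_gt with h | h
  · rw [abs_of_neg h] at s3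
    exact ivt_pert (g := fun u => -e (α + u)) (by fun_prop) t4 t3
      (lt1 _ (by rw [key, sin_neg, cos_neg]; linarith)) (gt1 _ (by rw [key]; nlinarith))
  · rw [abs_of_pos h] at s3
    exact ivt_pert (g := fun u => -e (α + u)) (by fun_prop) t3 t4
      (lt1 _ (by rw [key]; linarith)) (gt1 _ (by rw [key, sin_neg, cos_neg]; nlinarith))

end Vale.Agent.P032.EL
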