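import Vale.Agent.P032.Mean

/-! The mean ergodic theorem along surjective endomorphisms. -/

namespace Vale.Agent.P032

open MeasureTheory Filter Topology ComplexConjugate
open scoped InnerProductSpace

theorem erg_abs {H : Type*} [NormedAddCommGroup H] [InnerProductSpace ℂ H] [CompleteSpace H]
    (π : T → H →ₗᵢ[ℂ] H) (hm : ∀ a b v, π (a * b) v = π b (π a v)) (v : H) :
    ∃ w, (∀ t, π t w = w) ∧ ∀ σ : T →* T, Function.Surjective σ →
      ∀ x, HasM (fun t => ⟪x, π (σ t) v⟫_ℂ) ⟪x, w⟫_ℂ := by
  let Fx : Submodule ℂ H :=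
    { carrier := {y | ∀ t, π t y = y}
      add_mem' := fun ha hb t => by rw [map_add, ha t, hb t]
      zero_mem' := fun t => map_zero _
      smul_mem' := fun c _ h t => by rw [map_smul, h t] }
  have hF : IsClosed (Fx : Set H) := by
    change IsClosed {y | ∀ t, π t y = y}
    rw [Set.ofPred_forall]
    exact isClosed_iInter fun t => isClosed_eq (π t).continuous continuous_id
  have := hF.completeSpace_coe
  have bd : ∀ x y s, ‖⟪x, π s y⟫_ℂ‖ ≤ ‖x‖ * ‖y‖ := fun x y s =>
    (norm_inner_le_norm _ _).trans_eq (by rw [(π s).norm_map])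
  have wF := Fx.starProjection_apply_mem v
  refine ⟨Fx.starProjection v, wF, fun σ hσ x => ?_⟩
  let K : Submodule ℂ H :=
    { carrier := {y | ∀ x, HasM (fun t => ⟪x, π (σ t) y⟫_ℂ) 0}
      add_mem' := fun ha hb x => by simpa [inner_add_right] using (ha x).add (hb x)
      zero_mem' := fun x => by simpa using HasM.const (A := T) 0
      smul_mem' := fun c _ h x => by simpa [inner_smul_right] using (h x).const_mul c }
  have hK : IsClosed (K : Set H) := by
    refine isClosed_of_closure_subset fun y hy x => ?_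
    obtain ⟨c, hc⟩ := HasM.exists_of_bdd fun t => bd x y (σ t)
    suffices c = 0 from this ▸ hc
    rw [← norm_le_zero_iff]
    refine le_of_forall_pos_le_add fun ε hε => ?_
    obtain ⟨z, hz, e⟩ := Metric.mem_closure_iff.1 hy (ε / (‖x‖ + 1)) (by positivity)
    have := (hc.sub (hz x)).norm_le_const (C := ‖x‖ * ‖y - z‖) fun t => by
      rw [← inner_sub_right, ← map_sub]
      exact bd _ _ _
    rw [dist_eq_norm, lt_div_iff₀ (by positivity)] at e
    rw [sub_zero] at this
    nlinarith [norm_nonneg (y - z)]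
  have := hK.completeSpace_coe
  have k : Kᗮ ≤ Fx := fun u hu s => by
    obtain ⟨b, rfl⟩ := hσ s
    have h1 : π (σ b) u - u ∈ K := fun x => by
      obtain ⟨c, hc⟩ := HasM.exists_of_bdd fun t => bd x u (σ t)
      have := (hc.shift (fun t => bd x u (σ t)) b).sub hc
      rw [sub_self] at this
      exact this.congr fun t => by rw [map_mul, hm, map_sub, inner_sub_right]
    have h2 := (Submodule.mem_orthogonal _ _).1 hu _ h1
    rw [inner_sub_left, sub_eq_zero] at h2
    refine eq_of_norm_le_re_inner_eq_norm_sq (𝕜 := ℂ) ((π _).norm_map u).le ?_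
    rw [h2, inner_self_eq_norm_sq]
  have h3 : v - Fx.starProjection v ∈ K := by
    rw [← K.orthogonal_orthogonal]
    exact Submodule.orthogonal_le k (Fx.sub_starProjection_mem_orthogonal v)
  have := (h3 x).add (HasM.const ⟪x, Fx.starProjection v⟫_ℂ)
  rw [zero_add] at this
  exact this.congr fun t => by rw [map_sub, wF, inner_sub_right, sub_add_cancel]

theorem BM.memLp {X : Type} [MeasurableSpace X] {μ : Measure X} [IsFiniteMeasure μ] {F : X → ℂ}
    (h : BM F) : MemLp F 2 μ := by
  obtain ⟨h1, C, h2⟩ := h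
  exact MemLp.of_bound h1.aestronglyMeasurable C (Eventually.of_forall h2)

theorem BM.conj {X : Type} [MeasurableSpace X] {F : X → ℂ} (h : BM F) :
    BM fun x => conj (F x) := by
  obtain ⟨h1, C, h2⟩ := h
  exact ⟨Complex.continuous_conj.measurable.comp h1, C, fun x => by
    rw [Complex.norm_conj]; exact h2 x⟩

theorem erg : ErgStmt := by
  intro X _ μ _ S hS F G hF hG
  let π : T → Lp ℂ 2 μ →ₗᵢ[ℂ] Lp ℂ 2 μ := fun t => Lp.compMeasurePreservingₗᵢ ℂ (S t) (hS.mp t)
  have hπ : ∀ t v, π t v =ᵐ[μ] v ∘ S t := fun t v => Lp.coeFn_compMeasurePreserving v (hS.mp t)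
  obtain ⟨w, w1, w2⟩ := erg_abs π (fun a b v => by
    refine Lp.ext ((hπ _ _).trans (EventuallyEq.trans ?_ (hπ _ _).symm))
    refine EventuallyEq.trans ?_ ((hS.mp b).quasiMeasurePreserving.ae_eq_comp (hπ a v)).symm
    exact Eventually.of_forall fun x => congrArg v (hS.mul a b x)) (hG.memLp.toLp G)
  have k : ∀ (F : X → ℂ) (hF : BM F) (h : Lp ℂ 2 μ) (g : X → ℂ), h =ᵐ[μ] g →
      ⟪hF.conj.memLp.toLp _, h⟫_ℂ = ∫ x, F x * g x ∂μ := fun F hF h g e => by
    rw [L2.inner_def]
    refine integral_congr_ae ?_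
    filter_upwards [e, (hF.conj.memLp (μ := μ)).coeFn_toLp] with x h1 h2
    rw [h1, h2]
    simp [mul_comm]
  have k2 : ∀ (F : X → ℂ) (hF : BM F) (σ : T →* T), Function.Surjective σ →
      HasM (fun t => ∫ x, F x * G (S (σ t) x) ∂μ) ⟪hF.conj.memLp.toLp _, w⟫_ℂ :=
    fun F hF σ hσ => (w2 σ hσ _).congr fun t => k F hF _ _ ((hπ _ _).trans
      ((hS.mp _).quasiMeasurePreserving.ae_eq_comp hG.memLp.coeFn_toLp))
  refine ⟨_, k2 F hF, fun he => ?_⟩
  have wm : Measurable w := (Lp.stronglyMeasurable w).measurable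
  have wi : ∀ᵐ x ∂μ, ∀ t, w (S t x) = w x := ae_all_iff.2 fun t => by
    have := hπ t w
    rw [w1] at this
    exact this.symm
  obtain ⟨c, hc⟩ : ∃ c, (w : X → ℂ) =ᵐ[μ] Function.const X c := by
    refine exists_eventuallyEq_const_of_forall_separating MeasurableSet fun U hU => ?_
    have m : MeasurableSet (⋂ t, S t ⁻¹' (w ⁻¹' U)) :=
      MeasurableSet.iInter fun t => (hS.mp t).measurable (wm hU)
    rcases he _ m (fun u => by
      ext x
      simp only [Set.mem_preimage, Set.mem_iInter, ← hS.mul]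
      exact ⟨fun h t => by simpa using h (t * u⁻¹), fun h t => h _⟩) with h | h
    · right
      filter_upwards [wi, measure_eq_zero_iff_ae_notMem.1 h] with x h1 h2 h3
      exact h2 (Set.mem_iInter.2 fun t => by rw [Set.mem_preimage, Set.mem_preimage, h1]; exact h3)
    · left
      filter_upwards [wi, (mem_ae_iff_prob_eq_one m).2 h] with x h1 h2
      have := Set.mem_iInter.1 h2 1
      rwa [Set.mem_preimage, Set.mem_preimage, h1] at this
  have b1 : BM fun _ : X => (1 : ℂ) := ⟨measurable_const, 1, fun _ => by simp⟩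
  have e := (k2 _ b1 (MonoidHom.id T) Function.surjective_id).unique
    ((HasM.const (∫ x, G x ∂μ)).congr fun t => by
      simp only [one_mul, MonoidHom.id_apply]
      rw [← integral_map (hS.mp t).measurable.aemeasurable hG.1.aestronglyMeasurable,
        (hS.mp t).map_eq])
  rw [k _ b1 _ _ hc] at e
  rw [k F hF _ _ hc, ← e]
  simp [integral_mul_const]

end Vale.Agent.P032
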