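import Vale.Agent.P032.Mean

/-! Two general lemmas: positivity of exchangeable correlations and minimal faces. -/

namespace Vale.Agent.P032

open MeasureTheory Filter Topology Finset

theorem psd_sum {G : ℕ → ℕ → ℝ} {C c : ℝ} (h0 : ∀ N, 0 ≤ ∑ i ∈ range N, ∑ j ∈ range N, G i j)
    (hd : ∀ i, G i i ≤ C) (hc : ∀ i j, i ≠ j → G i j = c) : 0 ≤ c := by
  by_contra H
  push Not at H
  obtain ⟨N, hN⟩ := exists_nat_gt ((C - c) / -c)
  rw [div_lt_iff₀ (by linarith)] at hN
  have h1 : ∀ i ∈ range (N + 1), ∑ j ∈ range (N + 1), G i j ≤ C - c + N * c := fun i hi => by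
    have : ∑ j ∈ range (N + 1), G i j = G i i + ∑ j ∈ (range (N + 1)).erase i, c := by
      rw [← add_sum_erase _ _ hi]
      congr 1
      exact sum_congr rfl fun j hj => hc i j (ne_of_mem_erase hj).symm
    rw [this, sum_const, card_erase_of_mem hi, card_range, nsmul_eq_mul]
    simp only [add_tsub_cancel_right]
    linarith [hd i]
  have h2 := sum_le_sum h1
  rw [sum_const, card_range, nsmul_eq_mul] at h2
  have h3 : (0 : ℝ) < ((N + 1 : ℕ) : ℝ) := by positivity
  nlinarith [h0 (N + 1)]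

theorem int_bdd {X : Type} [MeasurableSpace X] (μ : Measure X) [IsFiniteMeasure μ] {U : X → ℝ}
    {C : ℝ} (hm : Measurable U) (hb : ∀ x, |U x| ≤ C) : Integrable U μ :=
  Integrable.of_bound hm.aestronglyMeasurable C (Eventually.of_forall hb)

theorem abs_mul_le {a b C D : ℝ} (ha : |a| ≤ C) (hb : |b| ≤ D) : |a * b| ≤ C * D := by
  rw [abs_mul]
  exact mul_le_mul ha hb (abs_nonneg _) ((abs_nonneg _).trans ha)

/-- Off-diagonal correlations of an exchangeable family are nonnegative. -/
theorem psd {X : Type} [MeasurableSpace X] (μ : Measure X) [IsProbabilityMeasure μ]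
    {U : ℕ → X → ℝ} {C c : ℝ} (hm : ∀ i, Measurable (U i)) (hb : ∀ i x, |U i x| ≤ C)
    (hc : ∀ i j, i ≠ j → ∫ x, U i x * U j x ∂μ = c) : 0 ≤ c := by
  have hi : ∀ i j, Integrable (fun x => U i x * U j x) μ := fun i j =>
    int_bdd μ ((hm i).mul (hm j)) fun x => abs_mul_le (hb i x) (hb j x)
  refine psd_sum (G := fun i j => ∫ x, U i x * U j x ∂μ) (C := C * C) (fun N => ?_)
    (fun i => ?_) hc
  · simp only [← integral_finsetSum _ fun j _ => hi _ j]
    rw [← integral_finsetSum _ fun i _ => integrable_finsetSum _ fun j _ => hi i j]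
    refine integral_nonneg fun x => ?_
    simp only [← sum_mul_sum]
    exact mul_self_nonneg _
  · have := integral_mono (hi i i) (integrable_const (C * C))
      fun x => (le_abs_self _).trans (abs_mul_le (hb i x) (hb i x))
    simpa using this

theorem psd_zero {X : Type} [MeasurableSpace X] (μ : Measure X) [IsProbabilityMeasure μ]
    {U : ℕ → X → ℝ} {H : X → ℝ} {C D m : ℝ} (hm : ∀ i, Measurable (U i))
    (hb : ∀ i x, |U i x| ≤ C) (hH : Measurable H) (hD : ∀ x, |H x| ≤ D)
    (hc : ∀ i j, i ≠ j → ∫ x, U i x * U j x ∂μ = 0) (h1 : ∀ i, ∫ x, U i x * H x ∂μ = m) :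
    m = 0 := by
  have key : ∀ l : ℝ, 0 ≤ -2 * l * m + l ^ 2 * ∫ x, H x * H x ∂μ := fun l => by
    refine psd μ (U := fun i x => U i x - l * H x) (C := C + |l| * D)
      (fun i => (hm i).sub (hH.const_mul l))
      (fun i x => (abs_sub _ _).trans (add_le_add (hb i x) (abs_mul_le le_rfl (hD x))))
      fun i j hij => ?_
    have i1 : Integrable (fun x => U i x * U j x) μ :=
      int_bdd μ ((hm i).mul (hm j)) fun x => abs_mul_le (hb i x) (hb j x)
    have i2 : ∀ i, Integrable (fun x => l * (U i x * H x)) μ := fun i =>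
      (int_bdd μ ((hm i).mul hH) fun x => abs_mul_le (hb i x) (hD x)).const_mul l
    have i3 : Integrable (fun x => l ^ 2 * (H x * H x)) μ :=
      (int_bdd μ (hH.mul hH) fun x => abs_mul_le (hD x) (hD x)).const_mul _
    have i4 : Integrable (fun x => U i x * U j x - l * (U i x * H x)) μ := i1.sub (i2 i)
    have i5 : Integrable (fun x => U i x * U j x - l * (U i x * H x) - l * (U j x * H x)) μ :=
      i4.sub (i2 j)
    have e : ∀ x, (U i x - l * H x) * (U j x - l * H x) = U i x * U j x - l * (U i x * H x)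
        - l * (U j x * H x) + l ^ 2 * (H x * H x) := fun x => by ring
    simp only [e]
    rw [integral_add i5 i3, integral_sub i4 (i2 j), integral_sub i1 (i2 i), integral_const_mul,
      integral_const_mul, integral_const_mul, hc i j hij, h1, h1]
    ring
  set a := ∫ x, H x * H x ∂μ
  have ha : 0 ≤ a := integral_nonneg fun x => mul_self_nonneg _
  have h2 := key (m / (a + 1))
  have h3 : -2 * (m / (a + 1)) * m + (m / (a + 1)) ^ 2 * a = -(m ^ 2 * (a + 2)) / (a + 1) ^ 2 := by
    field_simp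
    ring
  rw [h3, le_div_iff₀ (by positivity)] at h2
  nlinarith [sq_nonneg m]

section Face

variable {P : Type} [TopologicalSpace P] [CompactSpace P] (R : P → P → Prop)

/-- Closed nonempty sets stable under a relation. -/
def Face (F : Set P) : Prop := IsClosed F ∧ F.Nonempty ∧ ∀ a ∈ F, ∀ b, R a b → b ∈ F

/-- Functionals that cannot decrease along both branches. -/
def Conv (l : P → ℝ) : Prop := Continuous l ∧ ∀ a b, R a b → ∃ c, R a c ∧ ∃ p : ℝ, 0 < p ∧ p ≤ 1 ∧
  l a ≤ p * l b + (1 - p) * l c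

variable {R}

theorem Face.argmax {F : Set P} (hF : Face R F) {l : P → ℝ} (hl : Conv R l) :
    Face R {a ∈ F | ∀ b ∈ F, l b ≤ l a} := by
  obtain ⟨h1, h2, h3⟩ := hF
  refine ⟨?_, ?_, fun a ha b hab => ⟨h3 a ha.1 b hab, fun d hd => ?_⟩⟩
  · have : {a ∈ F | ∀ b ∈ F, l b ≤ l a} = F ∩ ⋂ b ∈ F, {a | l b ≤ l a} := by
      ext a
      simp
    rw [this]
    exact h1.inter (isClosed_biInter fun b _ => isClosed_le continuous_const hl.1)
  · obtain ⟨a, ha, hm⟩ := h1.isCompact.exists_isMaxOn h2 hl.1.continuousOn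
    exact ⟨a, ha, fun b hb => hm hb⟩
  · obtain ⟨c, hc, p, hp, hp1, h⟩ := hl.2 a b hab
    have h4 := ha.2 c (h3 a ha.1 c hc)
    have h5 : l a ≤ l b := by
      by_contra H
      push Not at H
      nlinarith
    exact (ha.2 d hd).trans h5

theorem Face.exists_min {F : Set P} (hF : Face R F) :
    ∃ G ⊆ F, Face R G ∧ ∀ l, Conv R l → ∀ a ∈ G, ∀ b ∈ G, l a = l b := by
  obtain ⟨G, hG, hm⟩ := zorn_superset_nonempty {G | Face R G} (fun c hc hch hne => by
    have : Nonempty c := hne.to_subtype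
    refine ⟨⋂₀ c, ⟨isClosed_sInter fun s hs => (hc hs).1, ?_, fun a ha b hab s hs =>
      (hc hs).2.2 a (ha s hs) b hab⟩, fun s hs => Set.sInter_subset_of_mem hs⟩
    exact IsCompact.nonempty_sInter_of_directed_nonempty_isCompact_isClosed
      (IsChain.directedOn hch.symm) (fun s hs => (hc hs).2.1)
      (fun s hs => (hc hs).1.isCompact) fun s hs => (hc hs).1) F hF
  refine ⟨G, hG, hm.prop, fun l hl a ha b hb => ?_⟩
  have h1 := hm.le_of_le (Face.argmax hm.prop hl) fun x hx => hx.1
  exact le_antisymm ((h1 hb).2 a ha) ((h1 ha).2 b hb)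

end Face

end Vale.Agent.P032
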