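import Vale.Agent.P032.Mean

/-! WP F: the final counting argument. -/

namespace Vale.Agent.P032

open MeasureTheory Filter Topology ComplexConjugate Finset

namespace Fn

variable {X : Type} [MeasurableSpace X] {μ : Measure X} [IsProbabilityMeasure μ] {S : T → X → X}
  {F G : X → ℝ}

/-- Measurable functions with values in the unit interval. -/
structure U (F : X → ℝ) : Prop where
  meas : Measurable F
  nonneg : ∀ x, 0 ≤ F x
  le_one : ∀ x, F x ≤ 1

theorem U.intg (h : U F) : Integrable F μ :=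
  Integrable.of_bound h.meas.aestronglyMeasurable 1 (ae_of_all _ fun x => by
    rw [Real.norm_of_nonneg (h.nonneg x)]
    exact h.le_one x)

theorem U.mul (h : U F) (h' : U G) : U fun x => F x * G x :=
  ⟨h.meas.mul h'.meas, fun x => mul_nonneg (h.nonneg x) (h'.nonneg x),
    fun x => mul_le_one₀ (h.le_one x) (h'.nonneg x) (h'.le_one x)⟩

omit [IsProbabilityMeasure μ] in
theorem U.comp (h : U F) (hS : Act μ S) (t : T) : U fun x => F (S t x) :=
  ⟨h.meas.comp (hS.mp t).measurable, fun _ => h.nonneg _, fun _ => h.le_one _⟩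

theorem U.abs_sub (h : U F) (h' : U G) : U fun x => |F x - G x| :=
  ⟨(h.meas.sub h'.meas).abs, fun _ => abs_nonneg _, fun x => abs_le.2
    ⟨by linarith [h.nonneg x, h'.le_one x], by linarith [h'.nonneg x, h.le_one x]⟩⟩

theorem U.one_sub (h : U F) : U fun x => 1 - F x :=
  ⟨measurable_const.sub h.meas, fun x => by linarith [h.le_one x], fun x => by linarith [h.nonneg x]⟩

omit [IsProbabilityMeasure μ] in
theorem U.int_nonneg (h : U F) : 0 ≤ ∫ x, F x ∂μ := integral_nonneg h.nonneg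

theorem U.int_le_one (h : U F) : ∫ x, F x ∂μ ≤ 1 := by
  simpa using integral_mono (μ := μ) h.intg (integrable_const (1 : ℝ)) h.le_one

theorem U.bm (h : U F) : BM fun x => (F x : ℂ) :=
  ⟨Complex.measurable_ofReal.comp h.meas, 1, fun x => by
    rw [Complex.norm_real, Real.norm_of_nonneg (h.nonneg x)]
    exact h.le_one x⟩

omit [IsProbabilityMeasure μ] in
theorem U.int_comp (h : U F) (hS : Act μ S) (t : T) : ∫ x, F (S t x) ∂μ = ∫ x, F x ∂μ := by
  rw [← integral_map (hS.mp t).measurable.aemeasurable h.meas.aestronglyMeasurable,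
    (hS.mp t).map_eq]

/-- Means of real functions. -/
def HM (g : T → ℝ) (c : ℝ) : Prop := HasM (fun t => (g t : ℂ)) (c : ℂ)

theorem HM.le {g h : T → ℝ} {c d : ℝ} (h1 : HM g c) (h2 : HM h d) (H : ∀ a, g a ≤ h a) : c ≤ d :=
  HasM.real_le h1 h2 H

theorem HM.add {g h : T → ℝ} {c d : ℝ} (h1 : HM g c) (h2 : HM h d) :
    HM (fun t => g t + h t) (c + d) := by
  simpa only [HM, Complex.ofReal_add] using HasM.add h1 h2

theorem HM.sub {g h : T → ℝ} {c d : ℝ} (h1 : HM g c) (h2 : HM h d) :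
    HM (fun t => g t - h t) (c - d) := by
  simpa only [HM, Complex.ofReal_sub] using HasM.sub h1 h2

theorem HM.const (c : ℝ) : HM (fun _ => c) c := HasM.const _

theorem HM.congr {g h : T → ℝ} {c : ℝ} (h1 : HM g c) (e : ∀ a, g a = h a) : HM h c :=
  (funext e : g = h) ▸ h1

theorem HM.shift {g : T → ℝ} {c : ℝ} (C : ℝ) (H : ∀ a, |g a| ≤ C) (h1 : HM g c) (b : T) :
    HM (fun a => g (b * a)) c :=
  HasM.shift (g := fun t => (g t : ℂ)) (C := C) (fun a => by
    rw [Complex.norm_real, Real.norm_eq_abs]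
    exact H a) h1 b

theorem erg1 (he : ErgStmt) (hS : Act μ S) (hE : Erg μ S) (hF : U F) (hG : U G) (σ : T →* T)
    (hσ : Function.Surjective σ) :
    HM (fun t => ∫ x, F x * G (S (σ t) x) ∂μ) ((∫ x, F x ∂μ) * ∫ x, G x ∂μ) := by
  obtain ⟨c, h1, h2⟩ := he X μ S hS _ _ hF.bm hG.bm
  have := h1 σ hσ
  rw [h2 hE] at this
  simpa only [HM, ← integral_complex_ofReal, Complex.ofReal_mul] using this

theorem erg0 (he : ErgStmt) (hS : Act μ S) (hE : Erg μ S) (hF : U F) (hG : U G) :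
    HM (fun t => ∫ x, F x * G (S t x) ∂μ) ((∫ x, F x ∂μ) * ∫ x, G x ∂μ) :=
  erg1 he hS hE hF hG (MonoidHom.id T) Function.surjective_id

theorem erg2 (he : ErgStmt) (hS : Act μ S) (hE : Erg μ S) (hF : U F) (hG : U G) (u : T) :
    HM (fun t => ∫ x, F (S t x) * G (S (u * t ^ 2) x) ∂μ) ((∫ x, F x ∂μ) * ∫ x, G x ∂μ) := by
  have := erg0 he hS hE hF (hG.comp hS u)
  rw [hG.int_comp hS] at this
  refine this.congr fun t => ?_
  rw [← (hF.mul ((hG.comp hS u).comp hS t)).int_comp hS t]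
  simp only [sq, hS.mul]

theorem pigeon (hS : Act μ S) (hF : U F) {p : ℝ} (hp : 0 ≤ p) (hy : p ≤ ∫ x, F x ∂μ) (N : ℕ)
    (hN : 2 < N * p ^ 2) (r : T) :
    ∃ j, 0 < j ∧ j ≤ N ∧ p ^ 2 / 2 ≤ ∫ x, F x * F (S (r ^ j) x) ∂μ := by
  by_contra H
  push Not at H
  set y := ∫ x, F x ∂μ
  have hu : ∀ i : ℕ, U fun x => F (S (r ^ i) x) := fun i => hF.comp hS _
  have off : ∀ i j : ℕ, i < j → j ≤ N →
      ∫ x, F (S (r ^ i) x) * F (S (r ^ j) x) ∂μ ≤ p ^ 2 / 2 := fun i j hij hj => by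
    refine le_trans (le_of_eq ?_) (H (j - i) (by omega) (by omega)).le
    rw [← (hF.mul (hu (j - i))).int_comp hS (r ^ i)]
    simp only [← hS.mul, ← pow_add, Nat.sub_add_cancel hij.le]
  have bd : ∀ i ∈ range N, ∀ j ∈ range N, ∫ x, F (S (r ^ i) x) * F (S (r ^ j) x) ∂μ ≤
      p ^ 2 / 2 + if i = j then 1 else 0 := fun i hi j hj => by
    rw [mem_range] at hi hj
    rcases lt_trichotomy i j with h | h | h
    · rw [if_neg h.ne, add_zero]
      exact off i j h hj.le
    · rw [if_pos h]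
      have := ((hu i).mul (hu j)).int_le_one (μ := μ)
      nlinarith [sq_nonneg p]
    · rw [if_neg h.ne', add_zero]
      simp only [mul_comm (F (S (r ^ i) _))]
      exact off j i h hi.le
  have h1 : ∫ x, (∑ i ∈ range N, F (S (r ^ i) x)) ∂μ = N * y := by
    rw [integral_finsetSum _ fun i _ => (hu i).intg]
    simp only [hF.int_comp hS, sum_const, card_range, nsmul_eq_mul]
    rfl
  have i2 : Integrable (fun x => ∑ i ∈ range N, ∑ j ∈ range N,
      F (S (r ^ i) x) * F (S (r ^ j) x)) μ :=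
    integrable_finsetSum _ fun i _ => integrable_finsetSum _ fun j _ => ((hu i).mul (hu j)).intg
  have h2 : ∫ x, (∑ i ∈ range N, ∑ j ∈ range N, F (S (r ^ i) x) * F (S (r ^ j) x)) ∂μ ≤
      N * (N * (p ^ 2 / 2) + 1) := by
    rw [integral_finsetSum _ fun i _ =>
      integrable_finsetSum _ fun j _ => ((hu i).mul (hu j)).intg]
    calc _ ≤ ∑ i ∈ range N, (N * (p ^ 2 / 2) + 1 : ℝ) := by
          refine sum_le_sum fun i hi => ?_
          rw [integral_finsetSum _ fun j _ => ((hu i).mul (hu j)).intg]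
          refine (sum_le_sum (bd i hi)).trans (le_of_eq ?_)
          rw [sum_add_distrib, sum_ite_eq, if_pos hi, sum_const, card_range, nsmul_eq_mul]
      _ = _ := by rw [sum_const, card_range, nsmul_eq_mul]
  have i1 : Integrable (fun x => ∑ i ∈ range N, F (S (r ^ i) x)) μ :=
    integrable_finsetSum _ fun i _ => (hu i).intg
  have h3 : ∫ x, (2 * (N * y) * (∑ i ∈ range N, F (S (r ^ i) x)) - (N * y) ^ 2) ∂μ ≤
      ∫ x, (∑ i ∈ range N, ∑ j ∈ range N, F (S (r ^ i) x) * F (S (r ^ j) x)) ∂μ := by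
    refine integral_mono ((i1.const_mul _).sub (integrable_const _)) i2 fun x => ?_
    simp only [← sum_mul_sum]
    nlinarith [sq_nonneg (∑ i ∈ range N, F (S (r ^ i) x) - N * y)]
  rw [integral_sub (i1.const_mul _) (integrable_const _), integral_const_mul, h1] at h3
  simp only [integral_const, probReal_univ, smul_eq_mul, one_mul] at h3
  have hN0 : (0 : ℝ) < N := by
    by_contra h
    nlinarith [sq_nonneg p]
  have h4 : (N * p) ^ 2 ≤ (N * y) ^ 2 :=
    pow_le_pow_left₀ (by positivity) (mul_le_mul_of_nonneg_left hy hN0.le) 2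
  have h5 : N * (N * p ^ 2) ≤ N * (N * (p ^ 2 / 2) + 1) := by nlinarith
  have := le_of_mul_le_mul_left h5 hN0
  linarith

theorem d_pow (hS : Act μ S) (hF : U F) (s : T) (n : ℕ) :
    ∫ x, |F x - F (S (s ^ n) x)| ∂μ ≤ n * ∫ x, |F x - F (S s x)| ∂μ := by
  induction n with
  | zero => simp [hS.one]
  | succ n ih =>
    have h1 := hF.abs_sub (hF.comp hS (s ^ n))
    have h2 := hF.abs_sub (hF.comp hS s)
    have h3 : ∫ x, |F x - F (S (s ^ (n + 1)) x)| ∂μ ≤
        ∫ x, (|F x - F (S (s ^ n) x)| + |F (S (s ^ n) x) - F (S s (S (s ^ n) x))|) ∂μ := by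
      refine integral_mono (hF.abs_sub (hF.comp hS _)).intg (h1.intg.add (h2.comp hS _).intg)
        fun x => ?_
      simp only [pow_succ', hS.mul]
      exact abs_sub_le _ _ _
    rw [integral_add h1.intg (h2.comp hS _).intg, h2.int_comp hS] at h3
    push_cast
    linarith

theorem core (he : ErgStmt) (hS : Act μ S) (hE : Erg μ S) {K Y : X → ℝ} (hK : U K) (hY : U Y)
    (u : T) {c ε p : ℝ} (hc : HM (fun t => ∫ x, K x * Y (S t x) * K (S (u * t ^ 2) x) ∂μ) c)
    (hε : (∫ x, K x ∂μ) * (∫ x, Y x ∂μ) - c ≤ ε) (hp : 0 < p) (hy : p ≤ ∫ x, Y x ∂μ) (N : ℕ)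
    (hN : 2 < N * p ^ 2) :
    (∫ x, K x ∂μ) * (1 - ∫ x, K x ∂μ) ≤ ε * (2 / p + N.factorial * (8 / p ^ 2)) := by
  set a := ∫ x, K x ∂μ with ha
  set y := ∫ x, Y x ∂μ with hy'
  let W : T → ℝ := fun t => (∫ x, K x * Y (S t x) ∂μ - ∫ x, K x * Y (S t x) * K (S (u * t ^ 2) x) ∂μ)
    + (∫ x, Y (S t x) * K (S (u * t ^ 2) x) ∂μ - ∫ x, K x * Y (S t x) * K (S (u * t ^ 2) x) ∂μ)
  have hW : HM W ((a * y - c) + (y * a - c)) :=
    ((erg0 he hS hE hK hY).sub hc).add ((erg2 he hS hE hY hK u).sub hc)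
  have low : ∀ (t : T) (g : X → ℝ), U g → (∀ x, g x ≤ Y (S t x) *
      (K x * (1 - K (S (u * t ^ 2) x)) + K (S (u * t ^ 2) x) * (1 - K x))) →
      ∫ x, g x ∂μ ≤ W t := fun t g hg h => by
    have i1 := (hK.mul (hY.comp hS t)).intg (μ := μ)
    have i2 := ((hK.mul (hY.comp hS t)).mul (hK.comp hS (u * t ^ 2))).intg (μ := μ)
    have i3 := ((hY.comp hS t).mul (hK.comp hS (u * t ^ 2))).intg (μ := μ)
    simp only [W]
    rw [← integral_sub i1 i2, ← integral_sub i3 i2, ← integral_add (i1.sub' i2) (i3.sub' i2)]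
    refine integral_mono hg.intg ((i1.sub i2).add (i3.sub i2)) fun x => (h x).trans (le_of_eq ?_)
    ring
  have hv : (∫ x, K x * (1 - K x) ∂μ) * y ≤ 2 * ε := by
    have := (erg0 he hS hE (hK.mul hK.one_sub) hY).le hW fun t =>
      low t _ ((hK.mul hK.one_sub).mul (hY.comp hS t)) fun x => by
        rw [mul_comm]
        refine mul_le_mul_of_nonneg_left ?_ (hY.nonneg _)
        have h1 := hK.nonneg x
        have h2 := hK.le_one x
        have h3 := hK.nonneg (S (u * t ^ 2) x)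
        have h4 := hK.le_one (S (u * t ^ 2) x)
        nlinarith [mul_nonneg (mul_nonneg h1 h1) (sub_nonneg.2 h4),
          mul_nonneg (mul_nonneg (sub_nonneg.2 h2) (sub_nonneg.2 h2)) h3]
    linarith
  have hD : ∀ t, ∫ x, Y (S t x) * |K x - K (S (u * t ^ 2) x)| ∂μ ≤ W t := fun t =>
    low t _ ((hY.comp hS t).mul (hK.abs_sub (hK.comp hS _))) fun x => by
      refine mul_le_mul_of_nonneg_left ?_ (hY.nonneg _)
      have h1 := hK.nonneg x
      have h2 := hK.le_one x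
      have h3 := hK.nonneg (S (u * t ^ 2) x)
      have h4 := hK.le_one (S (u * t ^ 2) x)
      rw [abs_le]
      constructor <;> nlinarith [mul_nonneg h1 (sub_nonneg.2 h4), mul_nonneg h3 (sub_nonneg.2 h2)]
  have hWb : ∀ t, |W t| ≤ 2 := fun t => by
    have i1 := hK.mul (hY.comp hS t)
    have i2 := (hK.mul (hY.comp hS t)).mul (hK.comp hS (u * t ^ 2))
    have i3 := (hY.comp hS t).mul (hK.comp hS (u * t ^ 2))
    rw [abs_le]
    simp only [W]
    constructor <;> linarith [i1.int_nonneg (μ := μ), i2.int_nonneg (μ := μ), i3.int_nonneg (μ := μ),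
      i1.int_le_one (μ := μ), i2.int_le_one (μ := μ), i3.int_le_one (μ := μ)]
  have hη : ∀ r : T, (∫ x, Y x * Y (S r x) ∂μ) * ∫ x, |K x - K (S (r ^ 2) x)| ∂μ ≤ 4 * ε :=
    fun r => by
    have g1 := hY.mul (hY.comp hS r)
    have g2 := hK.abs_sub (hK.comp hS (r ^ 2))
    have := (erg2 he hS hE g1 g2 u).le (hW.add (hW.shift 2 hWb r)) fun t => by
      refine le_trans ?_ (add_le_add (hD t) (hD (r * t)))
      have j1 := ((hY.comp hS t).mul (hK.abs_sub (hK.comp hS (u * t ^ 2)))).intg (μ := μ)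
      have j2 := ((hY.comp hS (r * t)).mul
        (hK.abs_sub (hK.comp hS (u * (r * t) ^ 2)))).intg (μ := μ)
      rw [← integral_add j1 j2]
      refine integral_mono ((g1.comp hS t).mul (g2.comp hS _)).intg (j1.add j2) fun x => ?_
      have e : r ^ 2 * (u * t ^ 2) = u * (r * t) ^ 2 := by
        rw [mul_pow, mul_left_comm]
      simp only [← hS.mul, e]
      have h1 := hY.nonneg (S t x)
      have h2 := hY.le_one (S t x)
      have h3 := hY.nonneg (S (r * t) x)
      have h4 := hY.le_one (S (r * t) x)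
      have h5 := abs_sub_le (K (S (u * t ^ 2) x)) (K x) (K (S (u * (r * t) ^ 2) x))
      rw [abs_sub_comm _ (K x)] at h5
      have h6 := abs_nonneg (K x - K (S (u * t ^ 2) x))
      have h7 := abs_nonneg (K x - K (S (u * (r * t) ^ 2) x))
      nlinarith [mul_le_mul_of_nonneg_left h5 (mul_nonneg h1 h3),
        mul_nonneg (mul_nonneg h1 (sub_nonneg.2 h4)) h6,
        mul_nonneg (mul_nonneg h3 (sub_nonneg.2 h2)) h7]
    linarith
  have hd : ∀ s : T, ∫ x, |K x - K (S s x)| ∂μ ≤ N.factorial * (8 / p ^ 2 * ε) := fun s => by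
    obtain ⟨r, rfl⟩ := pow_surj (n := 2 * N.factorial) (by positivity) s
    obtain ⟨j, hj0, hjN, hj⟩ := pigeon hS hY hp.le hy N hN r
    obtain ⟨m, hm⟩ := Nat.dvd_factorial hj0 hjN
    have e : powMonoidHom (2 * N.factorial) r = ((r ^ j) ^ 2) ^ m := by
      rw [powMonoidHom_apply, ← pow_mul, ← pow_mul, hm]
      congr 1
      ring
    rw [e]
    refine (d_pow hS hK _ m).trans ?_
    have h0 := (hK.abs_sub (hK.comp hS ((r ^ j) ^ 2))).int_nonneg (μ := μ)
    have h1 : ∫ x, |K x - K (S ((r ^ j) ^ 2) x)| ∂μ ≤ 8 / p ^ 2 * ε := by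
      rw [div_mul_eq_mul_div, le_div_iff₀ (by positivity)]
      nlinarith [hη (r ^ j), mul_le_mul_of_nonneg_right hj h0]
    have h2 : (m : ℝ) ≤ N.factorial := by
      rw [hm]
      exact_mod_cast Nat.le_mul_of_pos_left m hj0
    exact mul_le_mul h2 h1 h0 (Nat.cast_nonneg _)
  have fin := (erg0 he hS hE hK hK.one_sub).le
    (HM.const ((∫ x, K x * (1 - K x) ∂μ) + N.factorial * (8 / p ^ 2 * ε))) fun s => by
      refine le_trans ?_ (add_le_add_right (hd s) _)
      have j1 := (hK.mul hK.one_sub).intg (μ := μ)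
      have j2 := (hK.abs_sub (hK.comp hS s)).intg (μ := μ)
      rw [← integral_add j1 j2]
      refine integral_mono (hK.mul (hK.one_sub.comp hS s)).intg (j1.add j2) fun x => ?_
      have h1 := hK.nonneg x
      have h2 := hK.le_one x
      have h3 := le_abs_self (K x - K (S s x))
      have h4 := abs_nonneg (K x - K (S s x))
      simp only
      nlinarith [mul_le_mul_of_nonneg_left h3 h1, mul_nonneg (sub_nonneg.2 h2) h4]
  rw [integral_sub (integrable_const _) hK.intg] at fin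
  simp only [integral_const, probReal_univ, smul_eq_mul, one_mul] at fin
  have h0 := (hK.mul hK.one_sub).int_nonneg (μ := μ)
  have h1 : ∫ x, K x * (1 - K x) ∂μ ≤ ε * (2 / p) := by
    rw [← mul_div_assoc, le_div_iff₀ hp]
    nlinarith [mul_le_mul_of_nonneg_left hy h0]
  nlinarith

theorem pts : ∃ t : ℕ → T, Function.Injective t ∧
    ∀ n, ‖((tE (t n) : E) : ℂ) - 1‖ < 1 / 2 := by
  have hne : ∀ n : ℕ, ((n : ℂ) + 5 - Complex.I) ≠ 0 := fun n h => by
    simpa using congrArg Complex.im h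
  have : ∀ n : ℕ, ∃ t : T, ((tE t : E) : ℂ) = (n + 5 + Complex.I) / (n + 5 - Complex.I) := fun n => by
    have e : (((((n : E) + 5 + iE) / ((n : E) + 5 - iE) : E)) : ℂ) =
        (n + 5 + Complex.I) / (n + 5 - Complex.I) := by
      push_cast
      rfl
    obtain ⟨t, ht⟩ := exists_tE (a := ((n : E) + 5 + iE) / ((n : E) + 5 - iE)) (by
      rw [e, norm_div, div_eq_one_iff_eq (norm_ne_zero_iff.2 (hne n)), ← Complex.norm_conj]
      congr 1
      simp only [map_add, map_natCast, Complex.conj_I, map_ofNat, sub_eq_add_neg])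
    exact ⟨t, by rw [ht, e]⟩
  choose t ht using this
  refine ⟨t, fun n m h => ?_, fun n => ?_⟩
  · have h1 := ht n
    rw [h, ht m, div_eq_div_iff (hne m) (hne n)] at h1
    have h2 := congrArg Complex.im h1
    simp at h2
    have : (n : ℝ) = m := by linarith
    exact_mod_cast this
  · have e : ((n : ℂ) + 5 + Complex.I) / (n + 5 - Complex.I) - 1 =
        2 * Complex.I / (n + 5 - Complex.I) := by
      have := hne n
      field_simp
      ring
    have h1 := Complex.re_le_norm ((n : ℂ) + 5 - Complex.I)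
    simp only [Complex.sub_re, Complex.add_re, Complex.natCast_re, Complex.re_ofNat, Complex.I_re,
      sub_zero] at h1
    have h2 : (0 : ℝ) ≤ n := Nat.cast_nonneg n
    rw [ht, e, norm_div, div_lt_iff₀ (by linarith)]
    simp only [norm_mul, Complex.norm_ofNat, Complex.norm_I]
    linarith

end Fn

open Fn in
theorem fin (he : ErgStmt) : FinStmt := by
  intro X _ μ _ S k hS hE hk hq hstar h0 w hw
  have hU : ∀ w, U (k w) := fun w => ⟨hk.meas w, hk.nonneg w, hk.le_one w⟩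
  set κ : E → ℝ := fun w => ∫ x, k w x ∂μ with hκ
  have κ0 : ∀ w, 0 ≤ κ w := fun w => (hU w).int_nonneg
  have κ1 : ∀ w, κ w ≤ 1 := fun w => (hU w).int_le_one
  have rad : ∀ a b : E, ‖(a : ℂ)‖ = ‖(b : ℂ)‖ → κ a = κ b := fun a b h => by
    obtain ⟨u, rfl⟩ := exists_rot h
    exact (integral_congr_ae (hk.equi u b)).trans ((hU b).int_comp hS u)
  have nz : ∀ a : E, a ≠ 0 ↔ 0 < ‖(a : ℂ)‖ := fun a => by
    rw [norm_pos_iff]
    exact not_congr ⟨fun h => by rw [h]; rfl, fun h => Subtype.ext h⟩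
  let A : Set ℝ := {c | ∃ z z' : E, z ≠ 0 ∧ z' ≠ 0 ∧ ‖(z : ℂ)‖ ≠ ‖(z' : ℂ)‖ ∧ c = κ z * κ z'}
  have hA : BddAbove A := ⟨1, by
    rintro _ ⟨z, z', -, -, -, rfl⟩
    exact mul_le_one₀ (κ1 z) (κ0 z') (κ1 z')⟩
  have hP : ∀ z z' : E, z ≠ 0 → z' ≠ 0 → ‖(z : ℂ)‖ ≠ ‖(z' : ℂ)‖ → κ z * κ z' ≤ sSup A :=
    fun z z' h1 h2 h3 => le_csSup hA ⟨z, z', h1, h2, h3, rfl⟩
  have iden : ∀ z α : E, ∃ u : T, HM (fun t => ∫ x, k (-(α * z)) x * k ((1 - α * cj α) * z) (S t x) *
      k (-(α * z)) (S (u * t ^ 2) x) ∂μ) (κ z * κ (α ^ 2 * z)) := fun z α => by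
    obtain ⟨u, hu⟩ := exists_rot (a := cj α * z) (b := -(α * z)) (by simp)
    refine ⟨u, HM.congr (hk.iden z α) fun t => integral_congr_ae ?_⟩
    have := (hS.mp (t ^ 2)).quasiMeasurePreserving.ae_eq_comp (hk.equi u (-(α * z)))
    filter_upwards [this] with x hx
    rw [hu, hS.mul]
    exact congrArg _ hx
  have root : ∀ z z' : E, z ≠ 0 → ∃ α : E, α ^ 2 * z = z' := fun z z' hz => by
    obtain ⟨α, hα⟩ := exists_root (z' / z) two_pos
    exact ⟨α, by rw [hα, div_mul_cancel₀ _ hz]⟩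
  have nrm : ∀ z α : E, ‖((α ^ 2 * z : E) : ℂ)‖ = ‖(α : ℂ)‖ ^ 2 * ‖(z : ℂ)‖ := fun z α => by simp
  have nrm1 : ∀ z α : E, ‖((α * z : E) : ℂ)‖ = ‖(α : ℂ)‖ * ‖(z : ℂ)‖ := fun z α => by simp
  have nrm2 : ∀ z α : E, ‖(((1 - α * cj α) * z : E) : ℂ)‖ = |1 - ‖(α : ℂ)‖ ^ 2| * ‖(z : ℂ)‖ :=
    fun z α => by
    rw [nrm1, ← Real.norm_eq_abs, ← Complex.norm_real]
    congr 2
    push_cast
    rw [coe_cj, Complex.mul_conj']
  have mid : ∀ z α : E, κ z * κ (α ^ 2 * z) ≤ κ (α * z) ^ 2 := fun z α => by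
    obtain ⟨u, hu⟩ := iden z α
    have h1 := erg1 he hS hE (hU (-(α * z))) ((hU (-(α * z))).comp hS u) _ (pow_surj two_pos)
    rw [(hU _).int_comp hS] at h1
    have h2 := hu.le h1 fun t => by
      refine integral_mono (((hU _).mul ((hU _).comp hS t)).mul ((hU _).comp hS _)).intg
        ((hU _).mul (((hU _).comp hS u).comp hS _)).intg fun x => ?_
      simp only [powMonoidHom_apply, hS.mul]
      exact mul_le_mul_of_nonneg_right (mul_le_of_le_one_right (hk.nonneg _ _) (hk.le_one _ _))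
        (hk.nonneg _ _)
    rw [sq (κ _), ← rad (-(α * z)) (α * z) (by simp)]
    exact h2
  have good : ∀ c ∈ A, ∃ z α : E, z ≠ 0 ∧ α ≠ 0 ∧ ‖(α : ℂ)‖ ^ 2 ≠ 1 ∧
      ‖(α : ℂ)‖ ≠ |1 - ‖(α : ℂ)‖ ^ 2| ∧ c ≤ κ z * κ (α ^ 2 * z) := by
    rintro _ ⟨z, z', hz, hz', hn, rfl⟩
    obtain ⟨α, rfl⟩ := root z z' hz
    have hα : α ≠ 0 := by
      rintro rfl
      simp at hz'
    have hα1 : ‖(α : ℂ)‖ ^ 2 ≠ 1 := fun h => hn (by rw [nrm, h, one_mul])
    by_cases hg : ‖(α : ℂ)‖ = |1 - ‖(α : ℂ)‖ ^ 2|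
    swap
    · exact ⟨z, α, hz, hα, hα1, hg, le_rfl⟩
    obtain ⟨γ, hγ⟩ := exists_root α two_pos
    have hγ0 : γ ≠ 0 := by
      rintro rfl
      simp at hγ
      exact hα hγ.symm
    have hγn : ‖(γ : ℂ)‖ ^ 2 = ‖(α : ℂ)‖ := by
      rw [← hγ]
      simp
    have hγ1 : ‖(γ : ℂ)‖ ^ 2 ≠ 1 := fun h => hα1 (by rw [← hγn, h, one_pow])
    have hγg : ‖(γ : ℂ)‖ ≠ |1 - ‖(γ : ℂ)‖ ^ 2| := fun h => by
      have h1 := congrArg (· ^ 2) h
      have h2 := congrArg (· ^ 2) hg
      simp only [sq_abs, hγn] at h1 h2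
      have h3 : ‖(α : ℂ)‖ = 1 / 3 := by nlinarith
      rw [h3] at h1
      norm_num at h1
    have hm := mid z α
    have a0 := κ0 z
    have b0 := κ0 (α ^ 2 * z)
    have m0 := κ0 (α * z)
    rcases le_total (κ z) (κ (α ^ 2 * z)) with h | h
    · refine ⟨α * z, γ, mul_ne_zero hα hz, hγ0, hγ1, hγg, ?_⟩
      rw [hγ, ← mul_assoc, ← sq]
      refine mul_le_mul_of_nonneg_right ?_ b0
      exact (pow_le_pow_iff_left₀ a0 m0 two_ne_zero).1 (by nlinarith)
    · refine ⟨z, γ, hz, hγ0, hγ1, hγg, ?_⟩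
      rw [hγ]
      refine mul_le_mul_of_nonneg_left ?_ a0
      exact (pow_le_pow_iff_left₀ b0 m0 two_ne_zero).1 (by nlinarith)
  have hP0 : sSup A ≤ 0 := by
    by_contra hpos
    push Not at hpos
    set p := sSup A / 2 with hp
    have hp0 : 0 < p := by positivity
    obtain ⟨N, hN⟩ := exists_nat_gt (2 / p ^ 2)
    rw [div_lt_iff₀ (by positivity)] at hN
    set C : ℝ := 2 / p + N.factorial * (8 / p ^ 2) with hC
    have hC0 : 0 < C := by positivity
    set ε := min p (p / (8 * C)) with hε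
    have hε0 : 0 < ε := by positivity
    have hne : A.Nonempty := by
      by_contra h
      rw [Set.not_nonempty_iff_eq_empty.1 h, Real.sSup_empty] at hpos
      exact lt_irrefl _ hpos
    obtain ⟨c, hc, hc'⟩ := exists_lt_of_lt_csSup hne (show sSup A - ε < sSup A by linarith)
    obtain ⟨z, α, hz, hα, hα1, hg, hle⟩ := good c hc
    obtain ⟨u, hu⟩ := iden z α
    have hzn := (nz z).1 hz
    have hxy := hP (-(α * z)) ((1 - α * cj α) * z) (neg_ne_zero.2 (mul_ne_zero hα hz))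
      ((nz _).2 (by
        rw [nrm2]
        exact mul_pos (abs_pos.2 (sub_ne_zero.2 hα1.symm)) hzn))
      (by
        rw [nrm2, NegMemClass.coe_neg, norm_neg, nrm1]
        exact fun h => hg (mul_right_cancel₀ hzn.ne' h))
    have hlow : κ z * κ (α ^ 2 * z) ≤ κ (-(α * z)) * κ ((1 - α * cj α) * z) :=
      hu.le (erg0 he hS hE (hU _) (hU _)) fun t =>
        integral_mono (((hU _).mul ((hU _).comp hS t)).mul ((hU _).comp hS _)).intg
          ((hU _).mul ((hU _).comp hS t)).intg fun x =>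
          mul_le_of_le_one_right (mul_nonneg (hk.nonneg _ _) (hk.nonneg _ _)) (hk.le_one _ _)
    have e1 : ε ≤ p := min_le_left _ _
    have e2 : ε * C ≤ p / 8 := by
      refine (mul_le_mul_of_nonneg_right (min_le_right _ _) hC0.le).trans (le_of_eq ?_)
      field_simp
    have hx : p ≤ κ (-(α * z)) := by
      nlinarith [mul_le_of_le_one_right (κ0 (-(α * z))) (κ1 ((1 - α * cj α) * z))]
    have hy : p ≤ κ ((1 - α * cj α) * z) := by
      nlinarith [mul_le_of_le_one_left (κ0 ((1 - α * cj α) * z)) (κ1 (-(α * z)))]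
    have h1 := core he hS hE (hU _) (hU _) u hu (ε := ε) (by
      change κ _ * κ _ - _ ≤ _
      linarith) hp0 hy N hN
    have h2 := hq (-(α * z)) (neg_ne_zero.2 (mul_ne_zero hα hz))
    change κ _ * (1 - κ _) ≤ ε * C at h1
    change κ _ ≤ _ at h2
    nlinarith
  by_contra hκw
  have hpos : 0 < κ w := lt_of_le_of_ne (κ0 w) (Ne.symm hκw)
  obtain ⟨t, ht, ht'⟩ := pts
  obtain ⟨N, hN⟩ := exists_nat_gt (1 / κ w ^ 2)
  rw [div_lt_iff₀ (by positivity)] at hN
  have h1 := hstar w N fun i => t i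
  have h2 : ∀ i j : Fin N, κ ((tE (t i) - tE (t j)) * w) = if i = j then 1 else 0 := fun i j => by
    split_ifs with h
    · rw [h, sub_self, zero_mul]
      exact h0
    · have h3 : tE (t i) - tE (t j) ≠ 0 :=
        sub_ne_zero.2 fun e => h (Fin.ext (ht (tE_inj e)))
      have h4 : ‖((tE (t i) - tE (t j) : E) : ℂ)‖ < 1 := by
        have := norm_sub_le_norm_sub_add_norm_sub ((tE (t i) : E) : ℂ) 1 ((tE (t j) : E) : ℂ)
        rw [norm_sub_rev (1 : ℂ)] at this
        push_cast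
        linarith [ht' i, ht' j]
      have h5 := hP w ((tE (t i) - tE (t j)) * w) hw (mul_ne_zero h3 hw) (by
        rw [nrm1]
        nlinarith [(nz w).1 hw])
      nlinarith [κ0 ((tE (t i) - tE (t j)) * w)]
  change (N * κ w) ^ 2 ≤ ∑ i : Fin N, ∑ j : Fin N, κ ((tE (t i) - tE (t j)) * w) at h1
  simp only [h2, sum_ite_eq, mem_univ, if_true, sum_const, card_univ, Fintype.card_fin,
    nsmul_eq_mul, mul_one] at h1
  have hN0 : (0 : ℝ) < N := by
    by_contra h
    nlinarith [sq_nonneg (κ w)]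
  nlinarith

end Vale.Agent.P032
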