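import Vale.Agent.P032.K0

/-! The conditional correlation functions of an exchangeable sequence of characters. -/

namespace Vale.Agent.P032

open MeasureTheory Filter Topology ComplexConjugate Finset

namespace K

/-- The character of a difference of two coordinates. -/
noncomputable def Fp (w : E) (a b : ℕ) (x : ℕ → Γ) : ℂ := f w (x a - x b)

/-- The double shift. -/
def sh (x : ℕ → Γ) : ℕ → Γ := x ∘ fun n => n + 2

theorem meas_comp (σ : ℕ → ℕ) : Measurable fun x : ℕ → Γ => x ∘ σ :=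
  measurable_pi_lambda _ fun n => measurable_pi_apply (σ n)

theorem meas_sh : Measurable sh := meas_comp _

theorem bm_f (w : E) (a : ℕ) : BM fun x : ℕ → Γ => f w (x a) :=
  ⟨(continuous_f w).measurable.comp (measurable_pi_apply a), 1, fun _ => (norm_f _ _).le⟩

theorem bm_Fp (w : E) (a b : ℕ) : BM (Fp w a b) := by
  have := bm_mul (bm_f w a) (bm_conj (bm_f w b))
  simp only [← f_sub_right] at this
  exact this

theorem norm_Fp (w : E) (a b : ℕ) (x : ℕ → Γ) : ‖Fp w a b x‖ = 1 := norm_f _ _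

theorem Fp_smul (w u : E) (a b : ℕ) (x : ℕ → Γ) : Fp w a b (u • x) = Fp (u * w) a b x := by
  rw [Fp, Fp, Pi.smul_apply, Pi.smul_apply, ← smul_sub, f_smul]

variable {μ : Measure (ℕ → Γ)}

theorem act (h : Ex μ) : Act μ fun (t : T) x => tE t • x :=
  ⟨h.inv, fun a b x => by rw [map_mul, mul_smul], fun x => by rw [map_one, one_smul]⟩

theorem mp_sh (h : Ex μ) : MeasurePreserving sh μ μ := h.inj _ (add_left_injective 2)

variable [IsProbabilityMeasure μ]

theorem exists_k (h : Ex μ) (w : E) : ∃ k : (ℕ → Γ) → ℝ, Measurable k ∧ (∀ x, 0 ≤ k x) ∧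
    (∀ x, k x ≤ 1) ∧ ∀ u, BM u → ∫ x, (k x : ℂ) * u x ∂μ = ∫ x, Fp w 0 1 x * u (sh x) ∂μ := by
  obtain ⟨k, h1, h2, h3, h4⟩ := exists_adj (mp_sh h) (φ := fun x => (Fp w 0 1 x).re)
    (Complex.measurable_re.comp (bm_Fp w 0 1).1)
    (fun x => (Complex.abs_re_le_norm _).trans (norm_Fp _ _ _ _).le) (fun A hA => by
      have bA : BM fun x => ((A.indicator (1 : (ℕ → Γ) → ℝ) x : ℝ) : ℂ) :=
        bm_real (measurable_one.indicator hA) (fun x => by by_cases hx : x ∈ A <;> simp [hx])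
          (fun x => by by_cases hx : x ∈ A <;> simp [hx])
      have b1 := bm_mul (bm_Fp w 0 1) (bm_comp bA meas_sh)
      have e := integral_re (bm_int (μ := μ) b1)
      simp only [RCLike.re_to_complex, Complex.re_mul_ofReal] at e
      rw [e]
      refine (psd (μ := μ) (C := 1) (U := fun i x =>
        ((A.indicator (1 : (ℕ → Γ) → ℝ) (x ∘ fun n => 2 * n + 1) : ℝ) : ℂ) * f w (x (2 * i)))
        (fun i => (bm_mul (bm_comp bA (meas_comp _)) (bm_f w _)).1) (fun i x => ?_)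
        fun i j hij => le_of_eq ?_).1
      · rw [norm_mul, norm_f, mul_one]
        by_cases hx : (x ∘ fun n => 2 * n + 1) ∈ A <;> simp [hx]
      · rw [← int_comp (h.inj (fun n => if n = 0 then 2 * i else if n = 1 then 2 * j
          else 2 * (n - 2) + 1) fun a b e => by
            simp only at e
            split_ifs at e <;> omega) b1.1]
        congr 1
        refine integral_congr_ae (Eventually.of_forall fun x => ?_)
        have e1 : sh (x ∘ fun n => if n = 0 then 2 * i else if n = 1 then 2 * j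
            else 2 * (n - 2) + 1) = x ∘ fun n => 2 * n + 1 := by
          funext n
          simp [sh]
        simp only [e1, Fp, Function.comp_apply, f_sub_right]
        by_cases hx : (x ∘ fun n => 2 * n + 1) ∈ A <;> simp [hx])
  refine ⟨k, h1, h2, h3, fun u hu => ?_⟩
  have b1 := bm_mul (bm_Fp w 0 1) (bm_comp hu meas_sh)
  have b2 := bm_mul (bm_conj (bm_Fp w 0 1)) (bm_comp hu meas_sh)
  have e : ∫ x, conj (Fp w 0 1 x) * u (sh x) ∂μ = ∫ x, Fp w 0 1 x * u (sh x) ∂μ := by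
    rw [← int_comp (h.inj (fun n => if n = 0 then 1 else if n = 1 then 0 else n) fun a b e => by
      simp only at e
      split_ifs at e <;> omega) b1.1]
    refine integral_congr_ae (Eventually.of_forall fun x => ?_)
    have e1 : sh (x ∘ fun n => if n = 0 then 1 else if n = 1 then 0 else n) = sh x := by
      funext n
      simp [sh]
    simp only [e1, Fp, Function.comp_apply, f_sub_right]
    simp [mul_comm]
  have e2 : ∀ x, ((Fp w 0 1 x).re : ℂ) * u (sh x) =
      1 / 2 * (Fp w 0 1 x * u (sh x) + conj (Fp w 0 1 x) * u (sh x)) := fun x => by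
    rw [Complex.re_eq_add_conj]
    ring
  rw [h4 u hu]
  simp only [e2]
  rw [integral_const_mul, integral_add (bm_int b1) (bm_int b2), e]
  ring

theorem k_inv (h : Ex μ) {w : E} {k : (ℕ → Γ) → ℂ} (hk : BM k) (hr : ∀ x, conj (k x) = k x)
    (hu : ∀ u, BM u → ∫ x, k x * u x ∂μ = ∫ x, Fp w 0 1 x * u (sh x) ∂μ) {σ : ℕ → ℕ}
    (hσ : Function.Injective σ) : ∀ᵐ x ∂μ, k (x ∘ σ) = k x := by
  have hs := bm_comp hk (meas_comp σ)
  have e1 : ∫ x, k (x ∘ σ) * k (x ∘ σ) ∂μ = ∫ x, k x * k x ∂μ :=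
    int_comp (h.inj σ hσ) (bm_mul hk hk).1
  have e2 : ∫ x, k x * k (x ∘ σ) ∂μ = ∫ x, k x * k x ∂μ := by
    rw [hu _ hs, hu _ hk, ← int_comp (h.inj (fun n => if n < 2 then n else σ (n - 2) + 2)
      fun a b e => by
        simp only at e
        split_ifs at e
        · exact e
        · omega
        · omega
        · have := hσ (Nat.add_right_cancel e)
          omega) (bm_mul (bm_Fp w 0 1) (bm_comp hk meas_sh)).1]
    refine integral_congr_ae (Eventually.of_forall fun x => ?_)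
    have e1 : sh (x ∘ fun n => if n < 2 then n else σ (n - 2) + 2) = sh x ∘ σ := by
      funext n
      simp [sh]
    simp only [e1, Fp, Function.comp_apply]
    simp
  filter_upwards [ae_zero (μ := μ) (bm_sub hs hk) (by
    have e : ∀ x, (k (x ∘ σ) - k x) * conj (k (x ∘ σ) - k x) =
        k (x ∘ σ) * k (x ∘ σ) - k x * k (x ∘ σ) - (k x * k (x ∘ σ) - k x * k x) := fun x => by
      rw [map_sub, hr, hr]
      ring
    simp only [e]
    rw [integral_sub (bm_int (bm_sub (bm_mul hs hs) (bm_mul hk hs)))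
      (bm_int (bm_sub (bm_mul hk hs) (bm_mul hk hk))),
      integral_sub (bm_int (bm_mul hs hs)) (bm_int (bm_mul hk hs)),
      integral_sub (bm_int (bm_mul hk hs)) (bm_int (bm_mul hk hk)), e1, e2]
    simp)] with x hx
  exact sub_eq_zero.1 hx

theorem mixing (he : ErgStmt) (h : Ex μ) {w : E} {k : (ℕ → Γ) → ℂ} (hk : BM k)
    (hr : ∀ x, conj (k x) = k x)
    (hu : ∀ u, BM u → ∫ x, k x * u x ∂μ = ∫ x, Fp w 0 1 x * u (sh x) ∂μ) (σ : T →* T)
    (hσ : Function.Surjective σ) :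
    HasM (fun s => ((‖∫ x, (Fp w 0 1 x - k x) *
      conj (Fp w 0 1 (tE (σ s) • x) - k (tE (σ s) • x)) ∂μ‖ ^ 2 : ℝ) : ℂ)) 0 := by
  have hS := act h
  let G : ℕ → ℕ → (ℕ → Γ) → ℂ := fun a b x => Fp w a b x - k x
  have bG : ∀ a b, BM (G a b) := fun a b => bm_sub (bm_Fp w a b) hk
  obtain ⟨C, hC⟩ := hk.2
  have nG : ∀ a b x, ‖G a b x‖ ≤ 1 + C := fun a b x =>
    (norm_sub_le _ _).trans (add_le_add (norm_Fp _ _ _ _).le (hC x))
  have hG : ∀ ρ : ℕ → ℕ, Function.Injective ρ → ∀ᵐ x ∂μ, ∀ a b, G a b (x ∘ ρ) = G (ρ a) (ρ b) x :=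
    fun ρ hρ => by
    filter_upwards [k_inv h hk hr hu hρ] with x hx a b
    simp only [G, hx]
    rfl
  let U : T → ℕ → ℕ → (ℕ → Γ) → ℂ := fun s a b x => G a b x * conj (G a b (tE s • x))
  have bU : ∀ s a b, BM (U s a b) := fun s a b =>
    bm_mul (bG a b) (bm_conj (bm_comp (bG a b) (h.inv s).measurable))
  have hU : ∀ s, ∀ ρ : ℕ → ℕ, Function.Injective ρ →
      ∀ᵐ x ∂μ, ∀ a b, U s a b (x ∘ ρ) = U s (ρ a) (ρ b) x := fun s ρ hρ => by
    filter_upwards [hG ρ hρ, (h.inv s).quasiMeasurePreserving.ae (hG ρ hρ)] with x h1 h2 a b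
    simp only [U]
    rw [h1, ← h2]
    rfl
  have bH := bm_mul (bG 0 1) (bm_conj (bG 2 3))
  have iH : ∫ x, G 0 1 x * conj (G 2 3 x) ∂μ = 0 := by
    have b0 := bm_conj (bG 0 1)
    have e : ∫ x, G 0 1 x * conj (G 2 3 x) ∂μ = ∫ x, (Fp w 0 1 x * conj (G 0 1 (sh x)) -
        k (sh x) * conj (G 0 1 (sh x))) ∂μ := by
      refine integral_congr_ae ?_
      filter_upwards [hG _ (add_left_injective 2), k_inv h hk hr hu (add_left_injective 2)]
        with x h1 h2
      rw [sh, h1, h2, ← sub_mul]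
    rw [e, integral_sub (bm_int (bm_mul (bm_Fp w 0 1) (bm_comp b0 meas_sh)))
      (bm_int (bm_comp (bm_mul hk b0) meas_sh)), ← hu _ b0, int_comp (mp_sh h) (bm_mul hk b0).1,
      sub_self]
  obtain ⟨c, c1, c2⟩ := he _ μ _ hS _ _ bH (bm_conj bH)
  rw [c2 h.erg, iH, zero_mul] at c1
  have key : ∀ s, ‖∫ x, U s 0 1 x ∂μ‖ ^ 2 ≤ (∫ x, G 0 1 x * conj (G 2 3 x) *
      conj (G 0 1 (tE s • x) * conj (G 2 3 (tE s • x))) ∂μ).re := fun s => by
    refine (psd (μ := μ) (C := (1 + C) * (1 + C)) (U := fun i => U s (2 * i) (2 * i + 1))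
      (fun i => (bU _ _ _).1) (fun i x => ?_) fun i j hij => le_of_eq ?_).2 _ fun i => ?_
    · simp only [U]
      rw [norm_mul, Complex.norm_conj]
      exact mul_le_mul (nG _ _ _) (nG _ _ _) (norm_nonneg _) ((norm_nonneg _).trans (nG 0 0 x))
    · have hρ : Function.Injective fun n => if n < 2 then 2 * i + n else if n < 4 then
          2 * j + (n - 2) else 2 * i + 2 * j + n := fun a b e => by
        simp only at e
        split_ifs at e <;> omega
      have e : ∫ x, U s 0 1 x * conj (U s 2 3 x) ∂μ = ∫ x, G 0 1 x * conj (G 2 3 x) *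
          conj (G 0 1 (tE s • x) * conj (G 2 3 (tE s • x))) ∂μ := by
        refine integral_congr_ae (Eventually.of_forall fun x => ?_)
        simp only [U, map_mul]
        ring
      rw [← e, ← int_comp (h.inj _ hρ) (bm_mul (bU s 0 1) (bm_conj (bU s 2 3))).1]
      congr 1
      refine integral_congr_ae ?_
      filter_upwards [hU s _ hρ] with x hx
      rw [hx, hx]
      simp
    · rw [← int_comp (h.inj _ (add_right_injective (2 * i))) (bU s 0 1).1]
      refine integral_congr_ae ?_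
      filter_upwards [hU s _ (add_right_injective (2 * i))] with x hx
      rw [hx]
      simp
  obtain ⟨d, hd⟩ := HasM.exists_of_bdd (C := ((1 + C) * (1 + C)) ^ 2)
    (g := fun s => ((‖∫ x, U (σ s) 0 1 x ∂μ‖ ^ 2 : ℝ) : ℂ)) fun s => by
      rw [Complex.norm_real, Real.norm_of_nonneg (sq_nonneg _)]
      refine pow_le_pow_left₀ (norm_nonneg _) (norm_int_le fun x => ?_) 2
      simp only [U]
      rw [norm_mul, Complex.norm_conj]
      exact mul_le_mul (nG _ _ _) (nG _ _ _) (norm_nonneg _) ((norm_nonneg _).trans (nG 0 0 x))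
  have d1 := hd.re_le (c1 σ hσ) fun s => by
    rw [Complex.ofReal_re]
    exact key _
  have d2 := hd.norm_le hd fun s => by
    rw [Complex.norm_real, Real.norm_of_nonneg (sq_nonneg _)]
  rw [Complex.zero_re] at d1
  rwa [norm_le_zero_iff.1 (d2.trans d1)] at hd

theorem norm_PQ (t : T) (α z : E) :
    ‖((-(α * z) + tE t * ((1 - α * cj α) * z) + tE (t ^ 2) * (cj α * z) : E) : ℂ)‖ =
      ‖((-(α ^ 2 * z) + tE (t ^ 2) * z : E) : ℂ)‖ := by
  have h1 := norm_tE t
  rw [map_pow]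
  push_cast
  rw [coe_cj]
  generalize ((tE t : E) : ℂ) = s at h1 ⊢
  have h2 : s * conj s = 1 := by rw [Complex.mul_conj', h1]; simp
  have e1 : -((α : ℂ) * z) + s * ((1 - α * conj (α : ℂ)) * z) + s ^ 2 * (conj (α : ℂ) * z) =
      (s - α) * z * (s * conj (s + α)) := by
    rw [map_add, mul_add s, h2]
    ring
  have e2 : -((α : ℂ) ^ 2 * z) + s ^ 2 * z = (s - α) * z * (s + α) := by ring
  rw [e1, e2, norm_mul, norm_mul _ (s + α), norm_mul s, h1, one_mul, Complex.norm_conj]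

end K

open K in
theorem kk (he : ErgStmt) : KStmt := by
  intro μ _ h
  choose k k1 k2 k3 k4 using exists_k h
  have hS := act h
  have bk : ∀ w, BM fun x => (k w x : ℂ) := fun w => bm_real (k1 w) (k2 w) (k3 w)
  have ms : ∀ t : T, Measurable fun x : ℕ → Γ => tE t • x := fun t => (h.inv t).measurable
  have ik : ∀ w, ∫ x, Fp w 0 1 x ∂μ = ((∫ x, k w x ∂μ : ℝ) : ℂ) := fun w => by
    have := k4 w _ (bm_const 1)
    simp only [mul_one] at this
    rw [← this, integral_complex_ofReal]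
  have rot : ∀ a b : E, ‖(a : ℂ)‖ = ‖(b : ℂ)‖ → ∫ x, Fp a 0 1 x ∂μ = ∫ x, Fp b 0 1 x ∂μ :=
    fun a b hab => by
    obtain ⟨u, rfl⟩ := exists_rot hab
    rw [← int_comp (h.inv u) (bm_Fp b 0 1).1]
    simp only [Fp_smul]
  refine ⟨k, ⟨k1, k2, k3, fun u w => ?_, fun z α => ?_⟩, ik⟩
  · have hi : ∀ x : ℕ → Γ, tE u⁻¹ • tE u • x = x := fun x => by
      rw [← mul_smul, ← map_mul, inv_mul_cancel, map_one, one_smul]
    filter_upwards [ae_eq_of_test (μ := μ) (bk (tE u * w)) (bm_comp (bk w) (ms u)) fun v hv => by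
      have hv' := bm_comp hv (ms u⁻¹)
      have e1 := int_comp (h.inv u) (bm_mul (bk w) hv').1
      have e2 := int_comp (h.inv u) (bm_mul (bm_Fp w 0 1) (bm_comp hv' meas_sh)).1
      have e3 : ∀ x, sh (tE u • x) = tE u • sh x := fun x => rfl
      simp only [hi, e3, Fp_smul] at e1 e2
      rw [k4 _ _ hv, e1, e2, k4 _ _ hv']] with x hx
    exact_mod_cast hx
  · have mix := fun w => mixing he h (bk w) (fun x => Complex.conj_ofReal _) (k4 w)
    have bG := fun w => bm_sub (bm_Fp w 0 1) (bk w)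
    have s2 : Function.Surjective (powMonoidHom 2 : T →* T) := pow_surj two_pos
    have si : Function.Surjective (invMonoidHom : T →* T) := inv_surjective
    have s1 : Function.Surjective (MonoidHom.id T) := Function.surjective_id
    set a := -(α * z)
    set b := (1 - α * cj α) * z
    set c := cj α * z
    have v1 := vdc he hS h.erg (bm_Fp c 0 1) (bm_Fp b 0 1) (bG a)
      (invMonoidHom.comp (powMonoidHom 2)) (MonoidHom.id T) s1 (mix a _ (si.comp s2))
    have v2 := vdc he hS h.erg (bk a) (bm_Fp c 0 1) (bG b) (MonoidHom.id T) (MonoidHom.id T) s1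
      (mix b _ s1)
    have v3 := vdc he hS h.erg (bk a) (bk b) (bG c) (powMonoidHom 2) invMonoidHom si (mix c _ s2)
    obtain ⟨d, d1, d2⟩ := he _ μ _ hS _ _ (bm_Fp (-(α ^ 2 * z)) 0 1) (bm_Fp z 0 1)
    have v0 := d1 _ s2
    rw [d2 h.erg, rot (-(α ^ 2 * z)) (α ^ 2 * z) (by push_cast; rw [norm_neg]), ik, ik,
      ← Complex.ofReal_mul, mul_comm (∫ x, k (α ^ 2 * z) x ∂μ)] at v0
    have v := ((v0.sub v1).sub v2).sub v3
    rw [sub_zero, sub_zero, sub_zero] at v
    refine v.congr fun t => ?_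
    have b1 := bm_mul (bm_mul (bm_Fp a 0 1) (bm_comp (bm_Fp b 0 1) (ms t)))
      (bm_comp (bm_Fp c 0 1) (ms (t ^ 2)))
    have b2 := bm_mul (bm_mul (bk a) (bm_comp (bm_Fp b 0 1) (ms t)))
      (bm_comp (bm_Fp c 0 1) (ms (t ^ 2)))
    have b3 := bm_mul (bm_mul (bk a) (bm_comp (bk b) (ms t))) (bm_comp (bm_Fp c 0 1) (ms (t ^ 2)))
    have b4 := bm_mul (bm_mul (bk a) (bm_comp (bk b) (ms t))) (bm_comp (bk c) (ms (t ^ 2)))
    have e0 : ∫ x, Fp (-(α ^ 2 * z)) 0 1 x * Fp z 0 1 (tE (powMonoidHom 2 t) • x) ∂μ =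
        ∫ x, Fp a 0 1 x * Fp b 0 1 (tE t • x) * Fp c 0 1 (tE (t ^ 2) • x) ∂μ := by
      simp only [Fp_smul, powMonoidHom_apply]
      simp only [Fp, ← f_add_left]
      exact (rot _ _ (norm_PQ t α z)).symm
    have e1 : ∫ x, Fp c 0 1 x * ((Fp a 0 1 (tE ((invMonoidHom.comp (powMonoidHom 2)) t) • x) -
        k a (tE ((invMonoidHom.comp (powMonoidHom 2)) t) • x)) *
        Fp b 0 1 (tE ((invMonoidHom.comp (powMonoidHom 2)) t * MonoidHom.id T t) • x)) ∂μ =
        ∫ x, Fp a 0 1 x * Fp b 0 1 (tE t • x) * Fp c 0 1 (tE (t ^ 2) • x) ∂μ -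
          ∫ x, k a x * Fp b 0 1 (tE t • x) * Fp c 0 1 (tE (t ^ 2) • x) ∂μ := by
      rw [← integral_sub (bm_int b1) (bm_int b2), ← int_comp (h.inv (t ^ 2))
        (bm_mul (bm_Fp c 0 1) (bm_mul (bm_comp (bG a) (ms _)) (bm_comp (bm_Fp b 0 1) (ms _)))).1]
      refine integral_congr_ae (Eventually.of_forall fun x => ?_)
      have q1 : (t ^ 2)⁻¹ * t * t ^ 2 = t := by rw [mul_comm, mul_inv_cancel_left]
      simp only [MonoidHom.comp_apply, powMonoidHom_apply, invMonoidHom_apply, MonoidHom.id_apply,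
        ← mul_smul, ← map_mul, inv_mul_cancel, q1, map_one, one_smul]
      ring
    have e2 : ∫ x, (k a x : ℂ) * ((Fp b 0 1 (tE (MonoidHom.id T t) • x) -
        k b (tE (MonoidHom.id T t) • x)) *
        Fp c 0 1 (tE (MonoidHom.id T t * MonoidHom.id T t) • x)) ∂μ =
        ∫ x, k a x * Fp b 0 1 (tE t • x) * Fp c 0 1 (tE (t ^ 2) • x) ∂μ -
          ∫ x, (k a x : ℂ) * k b (tE t • x) * Fp c 0 1 (tE (t ^ 2) • x) ∂μ := by
      rw [← integral_sub (bm_int b2) (bm_int b3)]
      refine integral_congr_ae (Eventually.of_forall fun x => ?_)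
      simp only [MonoidHom.id_apply, ← sq]
      ring
    have e3 : ∫ x, (k a x : ℂ) * ((Fp c 0 1 (tE (powMonoidHom 2 t) • x) -
        k c (tE (powMonoidHom 2 t) • x)) * k b (tE (powMonoidHom 2 t * invMonoidHom t) • x)) ∂μ =
        ∫ x, (k a x : ℂ) * k b (tE t • x) * Fp c 0 1 (tE (t ^ 2) • x) ∂μ -
          ∫ x, (k a x : ℂ) * k b (tE t • x) * k c (tE (t ^ 2) • x) ∂μ := by
      rw [← integral_sub (bm_int b3) (bm_int b4)]
      refine integral_congr_ae (Eventually.of_forall fun x => ?_)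
      have q1 : t ^ 2 * t⁻¹ = t := by rw [sq, mul_inv_cancel_right]
      simp only [powMonoidHom_apply, invMonoidHom_apply, q1]
      ring
    rw [e0, e1, e2, e3, ← integral_complex_ofReal]
    push_cast
    ring

end Vale.Agent.P032
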