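import Vale.Agent.P032.Mean

/-! Bounded measurable functions, positive definiteness and the van der Corput lemma. -/

namespace Vale.Agent.P032.K

open MeasureTheory Filter Topology ComplexConjugate Finset

variable {X : Type} [MeasurableSpace X] {μ : Measure X} {F G : X → ℂ}

theorem bm_const (c : ℂ) : BM fun _ : X => c := ⟨measurable_const, ‖c‖, fun _ => le_rfl⟩

theorem bm_mul (hF : BM F) (hG : BM G) : BM fun x => F x * G x := by
  obtain ⟨m1, C, h1⟩ := hF
  obtain ⟨m2, D, h2⟩ := hG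
  refine ⟨m1.mul m2, C * D, fun x => ?_⟩
  rw [norm_mul]
  exact mul_le_mul (h1 x) (h2 x) (norm_nonneg _) ((norm_nonneg _).trans (h1 x))

theorem bm_sub (hF : BM F) (hG : BM G) : BM fun x => F x - G x := by
  obtain ⟨m1, C, h1⟩ := hF
  obtain ⟨m2, D, h2⟩ := hG
  exact ⟨m1.sub m2, C + D, fun x => (norm_sub_le _ _).trans (add_le_add (h1 x) (h2 x))⟩

theorem bm_conj (hF : BM F) : BM fun x => conj (F x) := by
  obtain ⟨m1, C, h1⟩ := hF
  exact ⟨Complex.continuous_conj.measurable.comp m1, C, fun x => by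
    rw [Complex.norm_conj]; exact h1 x⟩

theorem bm_comp (hF : BM F) {s : X → X} (hs : Measurable s) : BM fun x => F (s x) := by
  obtain ⟨m1, C, h1⟩ := hF
  exact ⟨m1.comp hs, C, fun x => h1 _⟩

theorem bm_real {k : X → ℝ} (hk : Measurable k) (h0 : ∀ x, 0 ≤ k x) (h1 : ∀ x, k x ≤ 1) :
    BM fun x => (k x : ℂ) :=
  ⟨Complex.measurable_ofReal.comp hk, 1, fun x => by
    rw [Complex.norm_real, Real.norm_of_nonneg (h0 x)]; exact h1 x⟩

theorem int_comp {s : X → X} (hs : MeasurePreserving s μ μ) (hF : Measurable F) :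
    ∫ x, F (s x) ∂μ = ∫ x, F x ∂μ := by
  conv_rhs => rw [← hs.map_eq]
  exact (integral_map hs.measurable.aemeasurable hF.aestronglyMeasurable).symm

variable [IsProbabilityMeasure μ]

theorem bm_int (hF : BM F) : Integrable F μ := by
  obtain ⟨m1, C, h1⟩ := hF
  exact Integrable.of_bound m1.aestronglyMeasurable C (Eventually.of_forall h1)

theorem norm_int_le {C : ℝ} (h : ∀ x, ‖F x‖ ≤ C) : ‖∫ x, F x ∂μ‖ ≤ C := by
  simpa using norm_integral_le_of_norm_le_const (μ := μ) (Eventually.of_forall h)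

theorem re_int_nonneg (hF : BM F) (h : ∀ x, 0 ≤ (F x).re) : 0 ≤ (∫ x, F x ∂μ).re := by
  have := integral_re (bm_int (μ := μ) hF)
  simp only [RCLike.re_to_complex] at this
  rw [← this]
  exact integral_nonneg h

theorem ae_zero (hF : BM F) (h : (∫ x, F x * conj (F x) ∂μ).re ≤ 0) : ∀ᵐ x ∂μ, F x = 0 := by
  have hi := bm_int (μ := μ) (bm_mul hF (bm_conj hF))
  have e := integral_re hi
  simp only [RCLike.re_to_complex] at e
  have hp : ∀ x, 0 ≤ (F x * conj (F x)).re := fun x => by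
    rw [Complex.mul_conj, Complex.ofReal_re]
    exact Complex.normSq_nonneg _
  have h0 := (integral_eq_zero_iff_of_nonneg hp hi.re).1
    (le_antisymm (e ▸ h) (integral_nonneg hp))
  filter_upwards [h0] with x hx
  simp only [RCLike.re_to_complex, Pi.zero_apply, Complex.mul_conj, Complex.ofReal_re] at hx
  exact Complex.normSq_eq_zero.1 hx

theorem ae_eq_of_test (hF : BM F) (hG : BM G)
    (h : ∀ u, BM u → ∫ x, F x * u x ∂μ = ∫ x, G x * u x ∂μ) : ∀ᵐ x ∂μ, F x = G x := by
  have hu := bm_conj (bm_sub hF hG)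
  filter_upwards [ae_zero (μ := μ) (bm_sub hF hG) (by
    simp only [sub_mul]
    rw [integral_sub (bm_int (bm_mul hF hu)) (bm_int (bm_mul hG hu)), h _ hu, sub_self]
    simp)] with x hx
  exact sub_eq_zero.1 hx

theorem cs (hF : BM F) (hG : BM G) {C : ℝ} (hC : ∀ x, ‖F x‖ ≤ C) :
    ‖∫ x, F x * G x ∂μ‖ ^ 2 ≤ C ^ 2 * (∫ x, G x * conj (G x) ∂μ).re := by
  set m := ∫ x, F x * G x ∂μ with hm
  have h1 := bm_mul (bm_const ((C ^ 2 : ℝ) : ℂ)) (bm_mul hG (bm_conj hG))
  have h2 := bm_mul (bm_const (2 * conj m)) (bm_mul hF hG)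
  have h3 := bm_const (X := X) (-((‖m‖ ^ 2 : ℝ) : ℂ))
  have h := re_int_nonneg (μ := μ) (bm_sub (bm_sub h1 h2) h3) fun x => by
    have a1 : ‖F x * G x‖ ^ 2 ≤ C ^ 2 * ‖G x‖ ^ 2 := by
      rw [norm_mul, mul_pow]
      exact mul_le_mul_of_nonneg_right (pow_le_pow_left₀ (norm_nonneg _) (hC x) 2) (sq_nonneg _)
    have a2 : (conj m * (F x * G x)).re ≤ ‖m‖ * ‖F x * G x‖ := by
      refine (Complex.re_le_norm _).trans ?_
      rw [norm_mul, Complex.norm_conj]
    have a3 : (2 * conj m * (F x * G x)).re = 2 * (conj m * (F x * G x)).re := by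
      rw [mul_assoc]
      simp
    rw [Complex.sub_re, Complex.sub_re, a3, Complex.mul_conj', ← Complex.ofReal_pow,
      Complex.re_ofReal_mul, Complex.neg_re, Complex.ofReal_re, Complex.ofReal_re]
    nlinarith [sq_nonneg (‖m‖ - ‖F x * G x‖)]
  rw [integral_sub (bm_int (bm_sub h1 h2)) (bm_int h3), integral_sub (bm_int h1) (bm_int h2),
    integral_const_mul, integral_const_mul, ← hm, integral_const, mul_assoc, Complex.conj_mul',
    ← Complex.ofReal_pow] at h
  simp only [probReal_univ, one_smul, Complex.sub_re, Complex.re_ofReal_mul, Complex.neg_re,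
    Complex.ofReal_re, Complex.re_ofNat, Complex.mul_re, Complex.im_ofNat, Complex.ofReal_im,
    zero_mul, sub_zero, mul_zero] at h
  linarith

theorem bm_sum {U : ℕ → X → ℂ} (hU : ∀ i, BM (U i)) (N : ℕ) :
    BM fun x => ∑ i ∈ range N, U i x := by
  induction N with
  | zero => simpa using bm_const (X := X) 0
  | succ n ih =>
    simpa [sum_range_succ] using bm_sub ih (bm_mul (bm_const (-1)) (hU n))

theorem cs_sum (hF : BM F) {C : ℝ} (hC : ∀ x, ‖F x‖ ≤ C) {U : ℕ → X → ℂ} (hU : ∀ i, BM (U i))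
    (N : ℕ) : ‖∑ i ∈ range N, ∫ x, F x * U i x ∂μ‖ ^ 2 ≤
      C ^ 2 * (∑ i ∈ range N, ∑ j ∈ range N, ∫ x, U i x * conj (U j x) ∂μ).re := by
  have h := cs (μ := μ) hF (bm_sum hU N) hC
  simp only [map_sum, sum_mul_sum] at h
  simp only [mul_sum] at h
  rw [integral_finset_sum _ fun i _ => bm_int (bm_mul hF (hU i)),
    integral_finset_sum _ fun i _ => integrable_finset_sum _ fun j _ =>
      bm_int (bm_mul (hU i) (bm_conj (hU j)))] at h
  simp only [integral_finset_sum _ fun j _ => bm_int (μ := μ) (bm_mul (hU _) (bm_conj (hU j)))] at h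
  exact h

theorem sum_sum_le {r : ℕ → ℕ → ℂ} {c D : ℝ} (h1 : ∀ i, (r i i).re ≤ D)
    (h2 : ∀ i j, i ≠ j → (r i j).re ≤ c) (N : ℕ) :
    (∑ i ∈ range N, ∑ j ∈ range N, r i j).re ≤ N ^ 2 * c + N * (D - c) := by
  have h : ∀ i ∈ range N, ∑ j ∈ range N, (r i j).re ≤ N * c + (D - c) := fun i hi => by
    calc ∑ j ∈ range N, (r i j).re ≤ ∑ j ∈ range N, (c + if i = j then D - c else 0) :=
          sum_le_sum fun j _ => by
            split_ifs with e
            · subst e
              linarith [h1 i]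
            · linarith [h2 i j e]
      _ = _ := by rw [sum_add_distrib, sum_ite_eq, if_pos hi]; simp
  simp only [Complex.re_sum]
  refine (sum_le_sum h).trans (le_of_eq ?_)
  rw [sum_const, card_range, nsmul_eq_mul]
  ring

theorem le_of_quad {a c D : ℝ} (h : ∀ N : ℕ, N ^ 2 * a ≤ N ^ 2 * c + N * D) : a ≤ c := by
  by_contra hc
  have hp : 0 < a - c := sub_pos.2 (not_le.1 hc)
  obtain ⟨N, hN⟩ := exists_nat_gt (|D| / (a - c))
  have h0 : (0 : ℝ) < N := lt_of_le_of_lt (by positivity) hN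
  rw [div_lt_iff₀ hp] at hN
  have := h N
  nlinarith [le_abs_self D, mul_pos h0 (sub_pos.2 hN)]

/-- Positive definiteness for exchangeable pairs. -/
theorem psd {U : ℕ → X → ℂ} (hU : ∀ i, Measurable (U i)) {C c : ℝ} (hC : ∀ i x, ‖U i x‖ ≤ C)
    (h : ∀ i j, i ≠ j → (∫ x, U i x * conj (U j x) ∂μ).re ≤ c) :
    0 ≤ c ∧ ∀ m, (∀ i, ∫ x, U i x ∂μ = m) → ‖m‖ ^ 2 ≤ c := by
  have key : ∀ N : ℕ, ‖∑ i ∈ range N, ∫ x, U i x ∂μ‖ ^ 2 ≤ N ^ 2 * c + N * (C * C - c) :=
    fun N => by
    have h1 := cs_sum (μ := μ) (bm_const 1) (C := 1) (fun _ => by simp)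
      (fun i => ⟨hU i, C, hC i⟩) N
    simp only [one_mul, one_pow] at h1
    refine h1.trans (sum_sum_le (fun i => (Complex.re_le_norm _).trans (norm_int_le fun x => ?_))
      h N)
    rw [norm_mul, Complex.norm_conj]
    exact mul_le_mul (hC i x) (hC i x) (norm_nonneg _) ((norm_nonneg _).trans (hC i x))
  refine ⟨le_of_quad (D := C * C - c) fun N => ?_, fun m hm => le_of_quad (D := C * C - c) fun N => ?_⟩
  · rw [mul_zero]
    exact (sq_nonneg _).trans (key N)
  · have := key N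
    simp only [hm, sum_const, card_range, nsmul_eq_mul, norm_mul, Complex.norm_natCast,
      mul_pow] at this
    exact this

theorem hasM_sq {g : T → ℂ} {h : T → ℂ} {c d : ℂ} (h1 : HasM g c) (h2 : HasM h d)
    (H : ∀ t, ‖g t‖ ^ 2 ≤ (h t).re) : ‖c‖ ^ 2 ≤ d.re := by
  have h3 := ((h1.const_mul (2 * conj c)).sub (HasM.const ((‖c‖ ^ 2 : ℝ) : ℂ))).re_le h2 fun t => by
    have a2 : (conj c * g t).re ≤ ‖c‖ * ‖g t‖ := by
      refine (Complex.re_le_norm _).trans ?_
      rw [norm_mul, Complex.norm_conj]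
    have a3 : (2 * conj c * g t).re = 2 * (conj c * g t).re := by
      rw [mul_assoc]
      simp
    rw [Complex.sub_re, a3, Complex.ofReal_re]
    nlinarith [sq_nonneg (‖c‖ - ‖g t‖), H t]
  rw [mul_assoc, Complex.conj_mul', ← Complex.ofReal_pow] at h3
  simp only [Complex.sub_re, Complex.ofReal_re, Complex.re_ofNat, Complex.mul_re, Complex.im_ofNat,
    Complex.ofReal_im, sub_zero, mul_zero] at h3
  linarith

/-- The van der Corput lemma. -/
theorem vdc0 {u : T → X → ℂ} (hu : ∀ t, Measurable (u t)) {C : ℝ} (hb : ∀ t x, ‖u t x‖ ≤ C)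
    (hF : BM F) (h : ∀ ε : ℝ, 0 < ε → ∀ s : Finset T, ∃ y, ∀ a ∈ s, ∃ c,
      HasM (fun t => ∫ x, u (a * t) x * conj (u (y * t) x) ∂μ) c ∧ ‖c‖ ≤ ε) :
    HasM (fun t => ∫ x, F x * u t x ∂μ) 0 := by
  obtain ⟨D, hD⟩ := hF.2
  have b1 : ∀ t, ‖∫ x, F x * u t x ∂μ‖ ≤ D * C := fun t => norm_int_le fun x => by
    rw [norm_mul]
    exact mul_le_mul (hD x) (hb t x) (norm_nonneg _) ((norm_nonneg _).trans (hD x))
  have b2 : ∀ a b, ‖∫ x, u a x * conj (u b x) ∂μ‖ ≤ C * C := fun a b => norm_int_le fun x => by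
    rw [norm_mul, Complex.norm_conj]
    exact mul_le_mul (hb a x) (hb b x) (norm_nonneg _) ((norm_nonneg _).trans (hb a x))
  obtain ⟨c, hc⟩ := HasM.exists_of_bdd b1
  choose r hr using fun a b : T => HasM.exists_of_bdd fun t => b2 (a * t) (b * t)
  have key : ∀ ε : ℝ, 0 < ε → ‖c‖ ^ 2 ≤ D ^ 2 * ε := fun ε hε => by
    have hs : ∀ a b, ‖r a b‖ ≤ ε → ‖r b a‖ ≤ ε := fun a b hab => by
      have e := (hr b a).unique ((hr a b).star_conj.congr fun t => by
        rw [← integral_conj]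
        simp only [map_mul, Complex.conj_conj, mul_comm])
      rwa [e, Complex.norm_conj]
    haveI : Std.Symm fun a b => ‖r a b‖ ≤ ε := ⟨hs⟩
    obtain ⟨s, -, hs⟩ := exists_seq_of_forall_finset_exists' (fun _ : T => True)
      (fun a b => ‖r a b‖ ≤ ε) fun s _ => by
        obtain ⟨y, hy⟩ := h ε hε s
        refine ⟨y, trivial, fun a ha => ?_⟩
        obtain ⟨c, h1, h2⟩ := hy a ha
        rwa [(hr a y).unique h1]
    refine le_of_quad (D := D ^ 2 * (C * C - ε)) fun N => ?_
    have h1 := HasM.sum (range N) fun i _ => hc.shift b1 (s i)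
    have h2 := (HasM.sum (range N) fun i _ => HasM.sum (range N) fun j _ =>
      hr (s i) (s j)).const_mul ((D ^ 2 : ℝ) : ℂ)
    have h3 := hasM_sq h1 h2 fun t => by
      rw [Complex.re_ofReal_mul]
      exact cs_sum hF hD (fun i => ⟨hu _, C, hb _⟩) N
    have h4 := sum_sum_le (r := fun i j => r (s i) (s j)) (D := C * C) (c := ε)
      (fun i => (Complex.re_le_norm _).trans ((hr _ _).norm_le_const fun t => b2 _ _))
      (fun i j hij => (Complex.re_le_norm _).trans (hs hij)) N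
    rw [Complex.re_ofReal_mul, sum_const, card_range, nsmul_eq_mul, norm_mul, Complex.norm_natCast,
      mul_pow] at h3
    nlinarith [mul_le_mul_of_nonneg_left h4 (sq_nonneg D)]
  have h0 : ‖c‖ ^ 2 ≤ 0 := le_of_forall_pos_le_add fun ε hε => by
    have := key (ε / (D ^ 2 + 1)) (by positivity)
    rw [mul_div_assoc', le_div_iff₀ (by positivity)] at this
    nlinarith [sq_nonneg ‖c‖, sq_nonneg D]
  rwa [norm_eq_zero.1 (pow_eq_zero_iff two_ne_zero |>.1 (le_antisymm h0 (sq_nonneg _)))] at hc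

theorem vdc (he : ErgStmt) {S : T → X → X} (hS : Act μ S) (hE : Erg μ S) {A B : X → ℂ}
    (hA : BM A) (hB : BM B) (hG : BM G) (σ τ : T →* T) (hτ : Function.Surjective τ)
    (h : HasM (fun s => ((‖∫ x, G x * conj (G (S (σ s) x)) ∂μ‖ ^ 2 : ℝ) : ℂ)) 0) :
    HasM (fun t => ∫ x, A x * (G (S (σ t) x) * B (S (σ t * τ t) x)) ∂μ) 0 := by
  obtain ⟨C, hC⟩ := hG.2
  obtain ⟨D, hD⟩ := hB.2
  have ms : ∀ t, Measurable (S t) := fun t => (hS.mp t).measurable
  have b1 : ∀ s, ‖∫ x, G x * conj (G (S s x)) ∂μ‖ ≤ C * C := fun s => norm_int_le fun x => by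
    rw [norm_mul, Complex.norm_conj]
    exact mul_le_mul (hC _) (hC _) (norm_nonneg _) ((norm_nonneg _).trans (hC x))
  refine vdc0 (u := fun t x => G (S (σ t) x) * B (S (σ t * τ t) x)) (C := C * D)
    (fun t => (hG.1.comp (ms _)).mul (hB.1.comp (ms _))) (fun t x => ?_) hA fun ε hε s => ?_
  · rw [norm_mul]
    exact mul_le_mul (hC _) (hD _) (norm_nonneg _) ((norm_nonneg _).trans (hC x))
  have hD1 : 0 < D * D + 1 := by nlinarith [mul_self_nonneg D]
  have h1 := HasM.sum s fun a _ => h.shift (C := (C * C) ^ 2) (fun t => by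
    rw [Complex.norm_real, Real.norm_of_nonneg (sq_nonneg _)]
    exact pow_le_pow_left₀ (norm_nonneg _) (b1 _) 2) a⁻¹
  simp only [← Complex.ofReal_sum] at h1
  obtain ⟨y, hy⟩ := h1.exists_lt (r := (ε / (D * D + 1)) ^ 2) (by simpa using by positivity)
  refine ⟨y, fun a ha => ?_⟩
  have p1 := bm_mul (bm_comp hG (ms (σ a))) (bm_conj (bm_comp hG (ms (σ y))))
  have p2 := bm_mul (bm_comp hB (ms (σ a * τ a))) (bm_conj (bm_comp hB (ms (σ y * τ y))))
  obtain ⟨c, c1, c2⟩ := he X μ S hS _ _ p1 p2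
  refine ⟨c, (c1 τ hτ).congr fun t => ?_, ?_⟩
  · rw [← int_comp (hS.mp (σ t)) (bm_mul p1 (bm_comp p2 (ms (τ t)))).1]
    refine integral_congr_ae (Eventually.of_forall fun x => ?_)
    simp only [← hS.mul, map_mul]
    rw [show σ a * τ a * (τ t * σ t) = σ a * σ t * (τ a * τ t) by ac_rfl,
      show σ y * τ y * (τ t * σ t) = σ y * σ t * (τ y * τ t) by ac_rfl]
    ring
  · have e : ∫ x, G (S (σ a) x) * conj (G (S (σ y) x)) ∂μ =
        ∫ x, G x * conj (G (S (σ (a⁻¹ * y)) x)) ∂μ := by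
      rw [← int_comp (hS.mp (σ a)) (bm_mul hG (bm_conj (bm_comp hG (ms _)))).1]
      simp only [← hS.mul, ← map_mul, inv_mul_cancel_comm]
    have q1 : ‖∫ x, G x * conj (G (S (σ (a⁻¹ * y)) x)) ∂μ‖ ≤ ε / (D * D + 1) :=
      (sq_le_sq₀ (norm_nonneg _) (by positivity)).1
        ((single_le_sum (f := fun a => ‖∫ x, G x * conj (G (S (σ (a⁻¹ * y)) x)) ∂μ‖ ^ 2)
          (fun _ _ => sq_nonneg _) ha).trans hy.le)
    have q2 : ‖∫ x, B (S (σ a * τ a) x) * conj (B (S (σ y * τ y) x)) ∂μ‖ ≤ D * D + 1 :=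
      norm_int_le fun x => by
        rw [norm_mul, Complex.norm_conj]
        linarith [mul_le_mul (hD (S (σ a * τ a) x)) (hD (S (σ y * τ y) x)) (norm_nonneg _)
          ((norm_nonneg _).trans (hD x))]
    rw [c2 hE, e, norm_mul]
    refine (mul_le_mul q1 q2 (norm_nonneg _) (by positivity)).trans (le_of_eq ?_)
    field_simp

/-- The adjoint of a Koopman isometry applied to a conditionally positive function. -/
theorem exists_adj {s : X → X} (hs : MeasurePreserving s μ μ) {φ : X → ℝ} (hφ : Measurable φ)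
    (hb : ∀ x, |φ x| ≤ 1)
    (hp : ∀ A, MeasurableSet A → 0 ≤ ∫ x, φ x * A.indicator 1 (s x) ∂μ) :
    ∃ k : X → ℝ, Measurable k ∧ (∀ x, 0 ≤ k x) ∧ (∀ x, k x ≤ 1) ∧
      ∀ h, BM h → ∫ x, (k x : ℂ) * h x ∂μ = ∫ x, (φ x : ℂ) * h (s x) ∂μ := by
  have h0 : ∀ x, 0 ≤ 1 + φ x := fun x => by linarith [(abs_le.1 (hb x)).1]
  have iφ : Integrable φ μ := Integrable.of_bound hφ.aestronglyMeasurable 1 (Eventually.of_forall hb)
  have i1 : Integrable (fun x => 1 + φ x) μ := (integrable_const 1).add iφ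
  haveI := isFiniteMeasure_withDensity_ofReal i1.2
  let ν := (μ.withDensity fun x => ENNReal.ofReal (1 + φ x)).map s
  have hν : ν ≪ μ := by
    have := (withDensity_absolutelyContinuous μ fun x => ENNReal.ofReal (1 + φ x)).map hs.measurable
    rwa [hs.map_eq] at this
  let r : X → ℝ := fun x => (ν.rnDeriv μ x).toReal
  have mr : Measurable r := (Measure.measurable_rnDeriv _ _).ennreal_toReal
  have ir : Integrable r μ := Measure.integrable_toReal_rnDeriv
  have key : ∀ (V : Type) [NormedAddCommGroup V] [NormedSpace ℝ V] (h : X → V),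
      StronglyMeasurable h → ∫ x, r x • h x ∂μ = ∫ x, (1 + φ x) • h (s x) ∂μ := by
    intro V _ _ h hh
    rw [integral_rnDeriv_smul hν, integral_map hs.measurable.aemeasurable hh.aestronglyMeasurable,
      integral_withDensity_eq_integral_toReal_smul (by fun_prop) (by simp)]
    simp only [ENNReal.toReal_ofReal (h0 _)]
  have hA : ∀ A, MeasurableSet A → ∫ x in A, r x ∂μ =
      μ.real A + ∫ x, φ x * A.indicator 1 (s x) ∂μ ∧
      ∫ x, φ x * A.indicator 1 (s x) ∂μ ≤ μ.real A := fun A hA => by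
    have m1 : Measurable (A.indicator (1 : X → ℝ)) := measurable_one.indicator hA
    have n1 : ∀ x, ‖A.indicator (1 : X → ℝ) x‖ ≤ 1 := fun x => by
      by_cases hx : x ∈ A <;> simp [hx]
    have j1 : Integrable (fun x => A.indicator (1 : X → ℝ) (s x)) μ :=
      Integrable.of_bound (m1.comp hs.measurable).aestronglyMeasurable 1
        (Eventually.of_forall fun x => n1 _)
    have j2 : Integrable (fun x => φ x * A.indicator (1 : X → ℝ) (s x)) μ :=
      iφ.mul_bdd (m1.comp hs.measurable).aestronglyMeasurable (Eventually.of_forall fun x => n1 _)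
    have e1 : ∫ x, A.indicator (1 : X → ℝ) (s x) ∂μ = μ.real A := by
      rw [← integral_map hs.measurable.aemeasurable m1.aestronglyMeasurable, hs.map_eq,
        integral_indicator_one hA]
    constructor
    · have := key ℝ _ m1.stronglyMeasurable
      simp only [smul_eq_mul, add_mul, one_mul] at this
      rw [integral_add j1 j2, e1] at this
      rw [← this, ← integral_indicator hA]
      refine integral_congr_ae (Eventually.of_forall fun x => ?_)
      by_cases hx : x ∈ A <;> simp [hx]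
    · rw [← e1]
      refine integral_mono j2 j1 fun x => ?_
      by_cases hx : s x ∈ A <;> simp [hx, (abs_le.1 (hb x)).2]
  have a1 := ae_nonneg_of_forall_setIntegral_nonneg (ir.sub (integrable_const 1)) fun A h _ => by
    simp only [Pi.sub_apply]
    rw [integral_sub ir.integrableOn (integrable_const 1), (hA A h).1]
    simpa using hp A h
  have a2 := ae_nonneg_of_forall_setIntegral_nonneg ((integrable_const 2).sub ir) fun A h _ => by
    simp only [Pi.sub_apply]
    rw [integral_sub (integrable_const 2) ir.integrableOn, (hA A h).1]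
    simp only [integral_const, MeasurableSet.univ, measureReal_restrict_apply, Set.univ_inter,
      smul_eq_mul]
    linarith [(hA A h).2]
  refine ⟨fun x => max 0 (min 1 (r x - 1)), by fun_prop, fun x => le_max_left _ _,
    fun x => max_le zero_le_one (min_le_left _ _), fun h hh => ?_⟩
  obtain ⟨C, hC⟩ := hh.2
  have k1 := key ℂ h hh.1.stronglyMeasurable
  have j1 : Integrable (fun x => (r x : ℂ) * h x) μ :=
    ir.ofReal.mul_bdd hh.1.aestronglyMeasurable (Eventually.of_forall hC)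
  have j2 : Integrable (fun x => (φ x : ℂ) * h (s x)) μ :=
    iφ.ofReal.mul_bdd (hh.1.comp hs.measurable).aestronglyMeasurable
      (Eventually.of_forall fun x => hC _)
  simp only [Complex.real_smul, Complex.ofReal_add, Complex.ofReal_one, add_mul, one_mul] at k1
  rw [integral_add (bm_int (bm_comp hh hs.measurable)) j2, int_comp hs hh.1] at k1
  rw [← sub_eq_iff_eq_add'.2 k1, ← integral_sub j1 (bm_int hh)]
  refine integral_congr_ae ?_
  filter_upwards [a1, a2] with x x1 x2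
  simp only [Pi.zero_apply, Pi.sub_apply] at x1 x2
  rw [min_eq_right (by linarith), max_eq_right x1]
  push_cast
  ring

end Vale.Agent.P032.K
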