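import Vale.Agent.P032.St6

/-! The covering lemma. -/

namespace Vale.Agent.P032

open Set Metric Real

namespace T1

/-- Indicator of the edge with labels zero and one. -/
def g (a b : Fin 3) : ZMod 2 := if (a = 0 ∧ b = 1) ∨ (a = 1 ∧ b = 0) then 1 else 0

/-- A primitive of the indicator. -/
def f (a : Fin 3) : ZMod 2 := if a = 1 then 1 else 0

theorem g_sq : ∀ p q a b c d : Fin 3, (a = p ∨ a = q) → (b = p ∨ b = q) → (c = p ∨ c = q) →
    (d = p ∨ d = q) → g c d - g a b = g b d - g a c := by decide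

theorem g_zero : ∀ a b : Fin 3, a ≠ 0 → b ≠ 0 → g a b = 0 := by decide

theorem g_one : ∀ a b : Fin 3, a ≠ 1 → b ≠ 1 → g a b = 0 := by decide

theorem g_two : ∀ a b : Fin 3, a ≠ 2 → b ≠ 2 → g a b = f b - f a := by decide

theorem f_ne : ∀ a b : Fin 3, a ≠ 2 → b ≠ 2 → a ≠ 0 → b ≠ 1 → f b - f a ≠ 0 := by decide

theorem sperner (n : ℕ) (l : ℕ → ℕ → Fin 3)
    (h : ∀ i < n, ∀ j < n, ∃ p q, ∀ i' j', (i' = i ∨ i' = i + 1) → (j' = j ∨ j' = j + 1) →
      l i' j' = p ∨ l i' j' = q)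
    (h0 : ∀ j ≤ n, l 0 j ≠ 0) (h0' : ∀ i ≤ n, l i n ≠ 0) (h1 : ∀ j ≤ n, l n j ≠ 1)
    (h2 : ∀ i ≤ n, l i 0 ≠ 2) : False := by
  set S : ℕ → ZMod 2 := fun j => ∑ i ∈ Finset.range n, g (l i j) (l (i + 1) j) with hS
  have step : ∀ j < n, S (j + 1) = S j := by
    intro j hj
    rw [← sub_eq_zero, hS]
    simp only
    rw [← Finset.sum_sub_distrib, Finset.sum_congr rfl (g := fun i =>
      g (l (i + 1) j) (l (i + 1) (j + 1)) - g (l i j) (l i (j + 1))),
      Finset.sum_range_sub (fun i => g (l i j) (l i (j + 1))), g_zero _ _ (h0 _ hj.le) (h0 _ hj),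
      g_one _ _ (h1 _ hj.le) (h1 _ hj), sub_zero]
    intro i hi
    obtain ⟨p, q, hp⟩ := h i (Finset.mem_range.1 hi) j hj
    exact g_sq p q _ _ _ _ (hp _ _ (.inl rfl) (.inl rfl)) (hp _ _ (.inr rfl) (.inl rfl))
      (hp _ _ (.inl rfl) (.inr rfl)) (hp _ _ (.inr rfl) (.inr rfl))
  have all : ∀ j ≤ n, S j = S 0 := by
    intro j hj
    induction j with
    | zero => rfl
    | succ j ih => rw [step j hj, ih (by omega)]
  have top : S n = 0 := Finset.sum_eq_zero fun i hi =>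
    g_zero _ _ (h0' _ (Finset.mem_range.1 hi).le) (h0' _ (Finset.mem_range.1 hi))
  have bot : S 0 = f (l n 0) - f (l 0 0) := by
    rw [← Finset.sum_range_sub (fun i => f (l i 0))]
    exact Finset.sum_congr rfl fun i hi =>
      g_two _ _ (h2 _ (Finset.mem_range.1 hi).le) (h2 _ (Finset.mem_range.1 hi))
  refine f_ne _ _ (h2 0 n.zero_le) (h2 n le_rfl) (h0 0 n.zero_le) (h1 0 n.zero_le) ?_
  rw [← bot, ← all n le_rfl, top]

open Classical in
/-- The label of a set. -/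
noncomputable def lab (K : Set ℂ) : Fin 3 :=
  if ∀ y ∈ K, y.re ≠ 0 ∧ y.im ≠ 10 then 0 else if ∀ y ∈ K, y.re ≠ 10 then 1 else 2

theorem lab0 {K : Set ℂ} {v : ℂ} (hv : v ∈ K) (h : v.re = 0 ∨ v.im = 10) : lab K ≠ 0 := by
  unfold lab
  have : ¬∀ y ∈ K, y.re ≠ 0 ∧ y.im ≠ 10 := fun c => by have := c v hv; tauto
  rw [if_neg this]
  split_ifs <;> decide

theorem lab1 {K : Set ℂ} {v : ℂ} (hv : v ∈ K) (h : v.re = 10) : lab K ≠ 1 := by
  unfold lab
  have : ¬∀ y ∈ K, y.re ≠ 10 := fun c => c v hv h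
  rw [if_neg this]
  split_ifs <;> decide

theorem lab2 {K : Set ℂ} {v : ℂ} (hK : ∀ y ∈ K, dist v y < 4) (h : v.im = 0) : lab K ≠ 2 := by
  unfold lab
  split_ifs with h0 h1
  · decide
  · decide
  · exfalso
    push Not at h0 h1
    obtain ⟨y, hy, h0⟩ := h0
    obtain ⟨z, hz, h1⟩ := h1
    have a := hK y hy
    have b := hK z hz
    rw [dist_eq_norm] at a b
    have a1 := abs_lt.1 ((Complex.abs_re_le_norm _).trans_lt a)
    have a2 := abs_lt.1 ((Complex.abs_im_le_norm _).trans_lt a)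
    have b1 := abs_lt.1 ((Complex.abs_re_le_norm _).trans_lt b)
    simp only [Complex.sub_re, Complex.sub_im] at a1 a2 b1
    by_cases c : y.re = 0
    · linarith [a1.1, a1.2, b1.1, b1.2]
    · have := h0 c
      linarith [a2.1, a2.2]

end T1

open T1 in
theorem leb : LebStmt := by
  intro c hc δ hδ
  by_contra! hn
  choose r hr a b hab using hc
  obtain ⟨d, hd, hl⟩ := lebesgue_number_lemma_of_metric (isCompact_closedBall (0 : ℂ) 20)
    (c := fun x : closedBall (0 : ℂ) 20 => ball x.1 (r x.1 x.2)) (fun _ => isOpen_ball)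
    fun x hx => mem_iUnion.2 ⟨⟨x, hx⟩, mem_ball_self (hr x hx)⟩
  obtain ⟨n, hn'⟩ := exists_nat_gt (20 / min δ d)
  have hm : 0 < min δ d := lt_min hδ hd
  have n0 : (0 : ℝ) < n := lt_trans (by positivity) hn'
  set h : ℝ := 10 / n with hh
  have h0 : 0 < h := by positivity
  have hnh : n * h = 10 := by rw [hh]; field_simp
  have h2 : 2 * h < min δ d := by
    rw [div_lt_iff₀ hm] at hn'
    rw [hh, ← mul_div_assoc, div_lt_iff₀ n0]
    linarith
  let P : ℕ → ℕ → ℂ := fun i j => ⟨i * h, j * h⟩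
  let K : ℂ → Set ℂ := fun x => {y | Relation.ReflTransGen
    (fun p q => q ∈ closedBall (0 : ℂ) 20 ∧ c q = c x ∧ dist p q ≤ δ) x y}
  have hP : ∀ i ≤ n, ∀ j ≤ n, P i j ∈ closedBall (0 : ℂ) 20 := by
    intro i hi j hj
    rw [mem_closedBall, dist_zero_right]
    refine (Complex.norm_le_abs_re_add_abs_im _).trans ?_
    have hi' : (i : ℝ) ≤ n := by exact_mod_cast hi
    have hj' : (j : ℝ) ≤ n := by exact_mod_cast hj
    simp only [P]
    rw [abs_of_nonneg (by positivity), abs_of_nonneg (by positivity)]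
    nlinarith
  have hD : ∀ i j i' j' k l : ℕ, (i' = i ∨ i' = i + 1) → (j' = j ∨ j' = j + 1) →
      (k = i ∨ k = i + 1) → (l = j ∨ l = j + 1) → dist (P i' j') (P k l) ≤ 2 * h := by
    intro i j i' j' k l h1 h2 h3 h4
    rw [dist_eq_norm]
    refine (Complex.norm_le_abs_re_add_abs_im _).trans ?_
    simp only [P, Complex.sub_re, Complex.sub_im]
    have e1 : |(i' : ℝ) * h - k * h| ≤ h := by
      rcases h1 with rfl | rfl <;> rcases h3 with rfl | rfl <;> rw [abs_le] <;> push_cast <;>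
        constructor <;> linarith
    have e2 : |(j' : ℝ) * h - l * h| ≤ h := by
      rcases h2 with rfl | rfl <;> rcases h4 with rfl | rfl <;> rw [abs_le] <;> push_cast <;>
        constructor <;> linarith
    linarith
  have hK : ∀ x ∈ closedBall (0 : ℂ) 20, ∀ y ∈ closedBall (0 : ℂ) 20, c x = c y →
      dist x y ≤ δ → K x = K y := by
    have : ∀ x ∈ closedBall (0 : ℂ) 20, ∀ y ∈ closedBall (0 : ℂ) 20, c x = c y →
        dist x y ≤ δ → K y ⊆ K x := fun x _ y hy e hd z hz => by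
      simp only [K, mem_ofPred_eq, e] at hz ⊢
      exact Relation.ReflTransGen.head ⟨hy, rfl, hd⟩ hz
    exact fun x hx y hy e hd =>
      (this y hy x hx e.symm (dist_comm x y ▸ hd)).antisymm (this x hx y hy e hd)
  have self : ∀ x, x ∈ K x := fun x => Relation.ReflTransGen.refl
  refine sperner n (fun i j => lab (K (P i j))) ?_ (fun j _ => lab0 (self _) (.inl (by simp [P])))
    (fun i _ => lab0 (self _) (.inr hnh)) (fun j _ => lab1 (self _) hnh)
    (fun i hi => lab2 (v := P i 0) (fun y hy => ?_) (by simp [P]))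
  · intro i hi j hj
    obtain ⟨x, hx⟩ := hl (P i j) (hP i hi.le j hj.le)
    have key : ∀ s : Fin 5, ∃ p, ∀ i' j', (i' = i ∨ i' = i + 1) → (j' = j ∨ j' = j + 1) →
        c (P i' j') = s → lab (K (P i' j')) = p := by
      intro s
      by_cases h : ∃ k l, (k = i ∨ k = i + 1) ∧ (l = j ∨ l = j + 1) ∧ c (P k l) = s
      · obtain ⟨k, l, h3, h4, e⟩ := h
        refine ⟨lab (K (P k l)), fun i' j' h1 h2' e' => ?_⟩
        rw [hK _ (hP i' (by omega) j' (by omega)) _ (hP k (by omega) l (by omega)) (e'.trans e.symm)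
          ((hD i j _ _ _ _ h1 h2' h3 h4).trans (h2.le.trans (min_le_left _ _)))]
      · exact ⟨0, fun i' j' h1 h2 e => (h ⟨i', j', h1, h2, e⟩).elim⟩
    obtain ⟨p, hp⟩ := key (a x.1 x.2)
    obtain ⟨q, hq⟩ := key (b x.1 x.2)
    refine ⟨p, q, fun i' j' h1 h2' => (hab x.1 x.2 _ (hx ?_)).imp (hp _ _ h1 h2') (hq _ _ h1 h2')⟩
    exact (hD i j _ _ _ _ h1 h2' (.inl rfl) (.inl rfl)).trans_lt (h2.trans_le (min_le_right _ _))
  · by_contra! c4
    exact hn _ _ y c4 (hP i hi 0 n.zero_le) rfl hy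

end Vale.Agent.P032
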