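import Vale.Agent.P032.Mean

/-! Limits of averaged measures. -/

namespace Vale.Agent.P032

open MeasureTheory Filter Topology Finset BoundedContinuousFunction

theorem lim : LimStmt := by
  intro A _ _ X _ _ _ _ _ ρ
  let L : ℕ → ProbabilityMeasure X := fun n =>
    ⟨(Fintype.card (Fin (n + 1) → Fin (n + 1)) : ENNReal)⁻¹ • ∑ j, (ρ (tau A n j) : Measure X), ⟨by
      simp only [Measure.smul_apply, Measure.coe_finsetSum, Finset.sum_apply, measure_univ,
        sum_const, card_univ, nsmul_eq_mul, mul_one, smul_eq_mul]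
      exact ENNReal.inv_mul_cancel (Nat.cast_ne_zero.2 Fintype.card_ne_zero)
        (ENNReal.natCast_ne_top _)⟩⟩
  obtain ⟨Λ, -, hΛ⟩ := isCompact_univ.ultrafilter_le_nhds ((hyperfilter ℕ).map L) (by simp)
  refine ⟨Λ, fun F hF => ?_⟩
  have := (ProbabilityMeasure.tendsto_iff_forall_integral_rclike_tendsto ℂ).1 hΛ
    (mkOfCompact ⟨F, hF⟩)
  refine Tendsto.congr (fun n => ?_) this
  change ∫ x, F x ∂((Fintype.card (Fin (n + 1) → Fin (n + 1)) : ENNReal)⁻¹ •
    ∑ j, (ρ (tau A n j) : Measure X)) = _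
  rw [integral_smul_measure, integral_finsetSum_measure (f := F) fun j _ =>
    (mkOfCompact ⟨F, hF⟩).integrable _, av, ENNReal.toReal_inv, ENNReal.toReal_natCast,
    Complex.real_smul, div_eq_inv_mul]
  push_cast
  rfl

end Vale.Agent.P032
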