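import Vale.Agent.P032.Sel

/-! The maximising measure is ergodic. -/

namespace Vale.Agent.P032

open MeasureTheory Filter Topology Finset Function ComplexConjugate
open scoped BoundedContinuousFunction NNReal ENNReal

/-- Membership does not depend on a single coordinate. -/
def Rep (μ : Measure Om) (D : Set Om) : Prop :=
  ∀ j, ∀ᵐ x ∂μ, update (od x) j (x 0) ∈ D ↔ update (od x) j (x 2) ∈ D

variable {D : Set Om} {μ : Measure Om}

theorem meas_iff {X : Type} [MeasurableSpace X] {φ ψ : X → Om} (hD : MeasurableSet D)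
    (hφ : Measurable φ) (hψ : Measurable ψ) : MeasurableSet {x | φ x ∈ D ↔ ψ x ∈ D} :=
  MeasurableSet.iff (hφ hD) (hψ hD)

theorem cs_inj {σ : ℕ → ℕ} (hσ : Injective σ) {m : ℕ} (hm : ∀ i, σ i ≠ m) :
    Injective fun n : ℕ => (Nat.casesOn n m σ : ℕ) := by
  rintro (_ | a) (_ | b) h
  · rfl
  · exact absurd h.symm (hm b)
  · exact absurd h (hm a)
  · exact congrArg _ (hσ h)

theorem upd_inj {σ : ℕ → ℕ} (hσ : Injective σ) {m : ℕ} (hm : ∀ i, σ i ≠ m) (j : ℕ) :
    Injective (update σ j m) := by
  intro a b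
  simp only [update_apply]
  split_ifs with h1 h2 h2 <;> intro h
  · rw [h1, h2]
  · exact absurd h.symm (hm b)
  · exact absurd h (hm a)
  · exact hσ h

theorem InK.step (h : InK μ) (hD : MeasurableSet D) (hr : Rep μ D) {σ : ℕ → ℕ} (hσ : Injective σ)
    {m : ℕ} (hm : ∀ i, σ i ≠ m) (j : ℕ) : ∀ᵐ x ∂μ, x ∘ σ ∈ D ↔ x ∘ update σ j m ∈ D := by
  have h1 : ∀ᵐ y ∂μ, y ∘ Nat.succ ∈ D ↔ update (y ∘ Nat.succ) j (y 0) ∈ D := by
    refine ae_of_mp (h.inj _ (cs_inj (upd_inj (σ := fun i => 2 * i + 1) (m := 0)
      (fun a b e => by simpa using e) (fun i => by omega) j) (m := 2) fun i => ?_))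
      (meas_iff hD (meas_comp _) (measurable_update'.comp ((meas_comp _).prodMk
        (measurable_pi_apply 0)))) ?_
    · rw [update_apply]
      split_ifs <;> omega
    · filter_upwards [hr j] with x hx
      have e : x ∘ update (fun i => 2 * i + 1) j 0 = update (od x) j (x 0) := comp_update _ _ _ _
      change x ∘ update (fun i => 2 * i + 1) j 0 ∈ D ↔
        update (x ∘ update (fun i => 2 * i + 1) j 0) j (x 2) ∈ D
      rw [e, update_idem]
      exact hx
  filter_upwards [(h.inj _ (cs_inj hσ hm)).quasiMeasurePreserving.ae h1] with x hx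
  rw [comp_update]
  exact hx

theorem InK.swap (h : InK μ) (hD : MeasurableSet D) (hr : Rep μ D) (i j : ℕ) :
    ∀ᵐ x ∂μ, x ∘ Equiv.swap i j ∈ D ↔ x ∈ D := by
  rcases eq_or_ne i j with rfl | hij
  · simp
  have e0 : Injective fun n : ℕ => 2 * n := fun a b e => by simpa using e
  have m1 : ∀ n : ℕ, 2 * n ≠ 1 := fun n => by omega
  have m2 : ∀ n, update (fun n : ℕ => 2 * n) i 1 n ≠ 2 * i := fun n => by
    rw [update_apply]
    split_ifs <;> omega
  have m3 : ∀ n, update (update (fun n : ℕ => 2 * n) i 1) j (2 * i) n ≠ 2 * j := fun n => by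
    simp only [update_apply]
    split_ifs <;> omega
  have e3 : update (update (update (fun n : ℕ => 2 * n) i 1) j (2 * i)) i (2 * j)
      = (fun n : ℕ => 2 * n) ∘ Equiv.swap i j := by
    funext n
    simp only [update_apply, comp_apply, Equiv.swap_apply_def]
    split_ifs <;> omega
  refine ae_of_mp (h.inj _ e0) (meas_iff hD (meas_comp _) measurable_id) ?_
  filter_upwards [h.step hD hr e0 m1 i, h.step hD hr (upd_inj e0 m1 i) m2 j,
    h.step hD hr (upd_inj (upd_inj e0 m1 i) m2 j) m3 i] with x h1 h2 h3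
  rw [e3] at h3
  exact (h1.trans (h2.trans h3)).symm

theorem InK.perm (h : InK μ) (hD : MeasurableSet D) (hr : Rep μ D) {σ : ℕ → ℕ} (hσ : Injective σ)
    (s : Finset ℕ) : ∃ π : Equiv.Perm ℕ, (∀ᵐ x ∂μ, x ∘ π ∈ D ↔ x ∈ D) ∧ ∀ i ∈ s, π i = σ i := by
  induction s using Finset.induction_on with
  | empty => exact ⟨1, by simp, by simp⟩
  | insert a s ha ih =>
    obtain ⟨π, h1, h2⟩ := ih
    refine ⟨Equiv.swap (π a) (σ a) * π, ?_, fun i hi => ?_⟩
    · filter_upwards [h.swap hD hr (π a) (σ a),
        (h.inj _ (Equiv.swap (π a) (σ a)).injective).quasiMeasurePreserving.ae h1] with x h3 h4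
      exact h4.trans h3
    · rcases mem_insert.1 hi with rfl | hi
      · simp
      · have hia : i ≠ a := fun e => ha (e ▸ hi)
        rw [Equiv.Perm.mul_apply, Equiv.swap_apply_of_ne_of_ne (π.injective.ne hia)
          (by rw [h2 i hi]; exact hσ.ne hia), h2 i hi]

theorem InK.restrict [IsFiniteMeasure μ] (h : InK μ) (hD : MeasurableSet D) (hr : Rep μ D)
    (hi : ∀ t : T, (fun x => tE t • x) ⁻¹' D = D) (c : ℝ≥0∞) : InK (c • μ.restrict D) where
  inv t := by
    have := (h.inv t).restrict_preimage hD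
    rw [hi t] at this
    exact this.smul_measure c
  inj σ hσ := by
    refine MeasurePreserving.smul_measure ⟨meas_comp σ, ?_⟩ c
    refine ext_of_generate_finite _ generateFrom_measurableCylinders.symm
      isPiSystem_measurableCylinders (fun C hC => ?_) ?_
    · obtain ⟨s, S, hS, rfl⟩ := (mem_measurableCylinders _).1 hC
      obtain ⟨π, h1, h2⟩ := h.perm hD hr hσ s
      have h3 := (h.inj π π.injective).restrict_preimage hD
      rw [Measure.restrict_congr_set (s := (fun x : Om => x ∘ π) ⁻¹' D) (t := D)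
        (h1.mono fun x hx => propext hx)] at h3
      have hm : MeasurableSet (cylinder s S : Set Om) :=
        MeasurableSet.cylinder (α := fun _ : ℕ => Γ) s hS
      rw [Measure.map_apply (meas_comp σ) hm, ← h3.measure_preimage hm.nullMeasurableSet]
      congr 1
      ext x
      have : s.restrict (x ∘ σ) = s.restrict (x ∘ π) := funext fun i => by
        simp [h2 i.1 i.2]
      simp only [Set.mem_preimage, mem_cylinder, this]
    · rw [Measure.map_apply (meas_comp σ) MeasurableSet.univ, Set.preimage_univ]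
  wild := by
    rw [Measure.smul_apply, Measure.restrict_apply (meas_diff 0 1),
      measure_mono_null Set.inter_subset_left h.wild, smul_zero]

instance : Infinite T := by
  refine not_finite_iff_infinite.1 fun _ => ?_
  obtain ⟨t, ht⟩ := exists_tE (a := -1) (by simp)
  obtain ⟨s, rfl⟩ := pow_surj (Nat.card_pos (α := T)) t
  rw [powMonoidHom_apply, pow_card_eq_one', map_one] at ht
  norm_num at ht

theorem inK_pi (ν : Measure Γ) [IsProbabilityMeasure ν] (hi : Inv ν) (hw : Wild ν) :
    InK (Measure.infinitePi fun _ : ℕ => ν) where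
  inv t := ⟨meas_smul _, by
    have := Measure.infinitePi_map_pi (fun _ : ℕ => ν) (f := fun _ χ => tE t • χ)
      fun _ => (hi t).measurable
    simp only [(hi t).map_eq] at this
    exact this⟩
  inj σ hσ := ⟨meas_comp σ, Measure.map_infinitePi_infinitePi_of_inj hσ⟩
  wild := by
    have hm : MeasurableSet {p : Γ × Γ | p.1 - p.2 ∈ Cont} :=
      (measurable_fst.sub measurable_snd) measurableSet_Cont
    have e := congrArg (fun m => m {p : Γ × Γ | p.1 - p.2 ∈ Cont})
      (Measure.infinitePi_map_eval_prod (P := fun _ : ℕ => ν) (i := 0) (j := 1) (by omega))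
    have hp : Measurable fun x : Om => (x 0, x 1) := by fun_prop
    simp only [Measure.map_apply hp hm] at e
    refine e.trans ((Measure.measure_prod_null hm).2 (Eventually.of_forall fun x => ?_))
    change ν {y | x - y ∈ Cont} = 0
    by_cases hx : x ∈ Cont
    · refine measure_mono_null (fun y hy => ?_) hw
      simpa using Cont.sub_mem hx hy
    have hA : ∀ t : T, MeasurableSet {y | tE t • x - y ∈ Cont} := fun t =>
      (measurable_const.sub measurable_id) measurableSet_Cont
    by_contra H
    refine Set.infinite_univ (α := T) ((Measure.finite_const_le_meas_of_disjoint_iUnion ν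
      (pos_iff_ne_zero.2 H) hA (fun t s hts => ?_) (measure_ne_top _ _)).subset fun t _ => ?_)
    · refine Set.disjoint_left.2 fun y h1 h2 => hx ?_
      have h3 : (tE t - tE s) • x ∈ Cont := by
        have := Cont.sub_mem h1 h2
        rwa [sub_sub_sub_cancel_right, ← sub_smul] at this
      exact (Cont.smul_mem_iff (sub_ne_zero.2 (tE_inj.ne hts))).1 h3
    · refine le_trans (measure_mono fun y hy => ?_)
        ((hi t).measure_preimage (hA t).nullMeasurableSet).le
      change tE t • x - tE t • y ∈ Cont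
      rw [← smul_sub]
      exact Cont.smul_mem _ hy

theorem closed_mp {X : Type} [TopologicalSpace X] [MeasurableSpace X] [BorelSpace X]
    [HasOuterApproxClosed X] {φ : X → X} (hφ : Continuous φ) :
    IsClosed {a : ProbabilityMeasure X | MeasurePreserving φ (a : Measure X) a} := by
  have : {a : ProbabilityMeasure X | MeasurePreserving φ (a : Measure X) a}
      = {a | a.map hφ.measurable.aemeasurable = a} := by
    ext a
    exact ⟨fun h => Subtype.ext h.map_eq, fun h => ⟨hφ.measurable, congrArg Subtype.val h⟩⟩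
  rw [this]
  exact isClosed_eq (ProbabilityMeasure.continuous_map hφ) continuous_id

theorem closed_inK (hc : ClosedStmt) : IsClosed {a : ProbabilityMeasure Om | InK a} := by
  have hd : Continuous fun x : Om => x 0 - x 1 := (continuous_apply 0).sub (continuous_apply 1)
  have : {a : ProbabilityMeasure Om | InK a}
      = (⋂ t : T, {a : ProbabilityMeasure Om |
          MeasurePreserving (fun x : Om => tE t • x) (a : Measure Om) a}) ∩
        ((⋂ σ ∈ {σ : ℕ → ℕ | Injective σ}, {a : ProbabilityMeasure Om |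
          MeasurePreserving (fun x : Om => x ∘ σ) (a : Measure Om) a}) ∩
        (fun a : ProbabilityMeasure Om => a.map hd.measurable.aemeasurable) ⁻¹'
          {ν : ProbabilityMeasure Γ | Inv ν ∧ Wild ν}) := by
    ext a
    have e : ((a : Measure Om).map fun x => x 0 - x 1) Cont
        = (a : Measure Om) {x | x 0 - x 1 ∈ Cont} :=
      Measure.map_apply hd.measurable measurableSet_Cont
    simp only [Set.mem_inter_iff, Set.mem_iInter, Set.mem_ofPred_eq, Set.mem_preimage]
    refine ⟨fun h => ⟨h.inv, h.inj, fun t => ?_, e.trans h.wild⟩,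
      fun h => ⟨h.1, h.2.1, e.symm.trans h.2.2.2⟩⟩
    exact mp_map hd.measurable (continuous_const_smul _).measurable (h.inv t)
      fun x => smul_sub _ _ _
  rw [this]
  exact (isClosed_iInter fun t => closed_mp (continuous_const_smul _)).inter
    ((isClosed_biInter fun σ _ => closed_mp (φ := fun x : Om => x ∘ σ)
      (continuous_pi fun i => continuous_apply (σ i))).inter
      (hc.preimage (ProbabilityMeasure.continuous_map hd)))

/-- Convex decompositions. -/
def R2 (a b : ProbabilityMeasure Om) : Prop := InK b ∧ ∃ c : ProbabilityMeasure Om, InK c ∧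
  ∃ p q : ℝ≥0, 0 < p ∧ 0 < q ∧ p + q = 1 ∧ (a : Measure Om) = p • (b : Measure Om) + q • (c : Measure Om)

/-- Convex decompositions and selections. -/
def R1 (a b : ProbabilityMeasure Om) : Prop := R2 a b ∨ InK a ∧ ∃ D j c, MeasurableSet D ∧
  (∀ t : T, (fun x => tE t • x) ⁻¹' D = D) ∧ (b : Measure Om) = (a : Measure Om).map (sel D j c)

theorem R2.conv {a b : ProbabilityMeasure Om} (h : R2 a b) : ∃ c, R2 a c ∧ ∃ p : ℝ, 0 < p ∧ p ≤ 1 ∧
    ∀ k : Om →ᵇ ℝ, ∫ x, k x ∂(a : Measure Om)
      = p * ∫ x, k x ∂(b : Measure Om) + (1 - p) * ∫ x, k x ∂(c : Measure Om) := by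
  obtain ⟨hb, c, hc, p, q, hp, hq, hpq, e⟩ := h
  have e1 : (p : ℝ) + q = 1 := by exact_mod_cast hpq
  refine ⟨c, ⟨hc, b, hb, q, p, hq, hp, by rw [add_comm, hpq], by rw [e, add_comm]⟩, p, hp,
    by linarith [q.2], fun k => ?_⟩
  rw [e, integral_add_measure (k.integrable _) (k.integrable _), integral_smul_nnreal_measure,
    integral_smul_nnreal_measure, show 1 - (p : ℝ) = q by linarith]
  rfl

/-- The pair function. -/
noncomputable def pr (g : Γ →ᵇ ℝ) : Om →ᵇ ℝ :=
  g.compContinuous ⟨_, continuous_apply 0⟩ * g.compContinuous ⟨_, continuous_apply 1⟩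

theorem L_eq (g : Γ →ᵇ ℝ) (μ : Measure Om) : L g μ = ∫ x, pr g x ∂μ := rfl

theorem cont_int (k : Om →ᵇ ℝ) :
    Continuous fun a : ProbabilityMeasure Om => ∫ x, k x ∂(a : Measure Om) :=
  continuous_iff_continuousAt.2 fun _ =>
    ProbabilityMeasure.tendsto_iff_forall_integral_tendsto.1 tendsto_id k

/-- Push forward under a selection. -/
noncomputable def psel (a : ProbabilityMeasure Om) (hD : MeasurableSet D) (j : ℕ) (c : Prop) :
    ProbabilityMeasure Om := a.map (meas_sel (j := j) (b := c) hD).aemeasurable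

theorem conv_L (g g' : Γ →ᵇ ℝ) : Conv R1 fun a => L g a + L g' a := by
  refine ⟨(cont_int (pr g)).add (cont_int (pr g')), fun a b h => ?_⟩
  rcases h with h | ⟨ha, D, j, c, hD, hi, e⟩
  · obtain ⟨c, hc, p, h0, h1, e⟩ := h.conv
    refine ⟨c, Or.inl hc, p, h0, h1, ?_⟩
    simp only [L_eq, e]
    linarith
  · refine ⟨psel a hD j (¬c), Or.inr ⟨ha, D, j, ¬c, hD, hi, rfl⟩, 1 / 2, by norm_num,
      by norm_num, ?_⟩
    have h1 := ha.L_sel (j := j) (b := c) hD g
    have h2 := ha.L_sel (j := j) (b := c) hD g'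
    have h3 := ha.V_nonneg (j := j) (b := c) hD g
    have h4 := ha.V_nonneg (j := j) (b := c) hD g'
    change L g a + L g' a ≤ 1 / 2 * (L g b + L g' b) + (1 - 1 / 2) *
      (L g ((a : Measure Om).map (sel D j ¬c)) + L g' ((a : Measure Om).map (sel D j ¬c)))
    rw [e]
    linarith

/-- Real part of a character. -/
noncomputable def gre (w : E) : Γ →ᵇ ℝ :=
  BoundedContinuousFunction.mkOfCompact ⟨_, Complex.continuous_re.comp (continuous_f w)⟩

/-- Imaginary part of a character. -/
noncomputable def gim (w : E) : Γ →ᵇ ℝ :=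
  BoundedContinuousFunction.mkOfCompact ⟨_, Complex.continuous_im.comp (continuous_f w)⟩

theorem int_f {X : Type} [MeasurableSpace X] (μ : Measure X) [IsFiniteMeasure μ] {φ : X → Γ}
    (hφ : Measurable φ) (w : E) : Integrable (fun x => f w (φ x)) μ :=
  Integrable.of_bound ((continuous_f w).measurable.comp hφ).aestronglyMeasurable 1
    (Eventually.of_forall fun _ => (norm_f _ _).le)

theorem L_re (a : ProbabilityMeasure Om) (w : E) :
    L (gre w) a + L (gim w) a = (∫ x, f w (x 0 - x 1) ∂(a : Measure Om)).re := by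
  rw [L_eq, L_eq, ← integral_add ((pr _).integrable _) ((pr _).integrable _)]
  refine Eq.trans ?_ (integral_re (int_f (a : Measure Om)
    ((measurable_pi_apply 0).sub (measurable_pi_apply 1)) w))
  refine integral_congr_ae (Eventually.of_forall fun x => ?_)
  change (f w (x 0)).re * (f w (x 1)).re + (f w (x 0)).im * (f w (x 1)).im = (f w (x 0 - x 1)).re
  rw [f_sub_right]
  simp

theorem L_pi (ν : Measure Γ) [IsProbabilityMeasure ν] (g : Γ →ᵇ ℝ) :
    L g (Measure.infinitePi fun _ : ℕ => ν) = (∫ χ, g χ ∂ν) ^ 2 := by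
  rw [sq, ← integral_prod_mul, ← Measure.infinitePi_map_eval_prod (P := fun _ : ℕ => ν) (i := 0)
    (j := 1) (by omega), integral_map ((measurable_pi_apply 0).prodMk
      (measurable_pi_apply 1)).aemeasurable (by fun_prop)]
  rfl

theorem mx (hc : ClosedStmt) : MaxStmt := by
  intro ν _ hi hw w
  let a0 : ProbabilityMeasure Om := ⟨Measure.infinitePi fun _ : ℕ => ν, inferInstance⟩
  have hK : Face R1 {a | InK a} := ⟨closed_inK hc, ⟨a0, inK_pi ν hi hw⟩, fun a _ b h => by
    rcases h with h | ⟨ha, D, j, c, hD, hi, e⟩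
    · exact h.1
    · change InK b
      rw [e]
      exact ha.sel hD hi⟩
  obtain ⟨F1, s1, h1, c1⟩ := (hK.argmax (conv_L (gre w) (gim w))).exists_min
  obtain ⟨F2, s2, h2, c2⟩ := Face.exists_min (R := R2) (F := F1)
    ⟨h1.1, h1.2.1, fun a ha b h => h1.2.2 a ha b (Or.inl h)⟩
  obtain ⟨a, ha⟩ := h2.2.1
  have hk : InK a := (s1 (s2 ha)).1
  refine ⟨a, ⟨hk.inv, hk.inj, hk.wild, fun D hD hi => ?_⟩, ?_⟩
  · have hr : Rep a D := fun j => hk.rep hD fun g => by
      have e : ∀ c, L g ((a : Measure Om).map (sel D j c)) = L g a := fun c => by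
        have := c1 _ (conv_L g g) _ (h1.2.2 a (s2 ha) (psel a hD j c)
          (Or.inr ⟨hk, D, j, c, hD, hi, rfl⟩)) a (s2 ha)
        change L g ((a : Measure Om).map (sel D j c)) + L g ((a : Measure Om).map (sel D j c))
          = _ at this
        linarith
      have := hk.L_sel (j := j) (b := True) hD g
      rw [e, e] at this
      linarith
    have hr' : Rep a Dᶜ := fun j => (hr j).mono fun x hx => not_iff_not.2 hx
    by_contra H
    push Not at H
    have H2 : (a : Measure Om) Dᶜ ≠ 0 := fun e => H.2 ((prob_compl_eq_zero_iff hD).1 e)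
    let b : ProbabilityMeasure Om := ⟨_, ProbabilityTheory.cond_isProbabilityMeasure H.1⟩
    let c : ProbabilityMeasure Om := ⟨_, ProbabilityTheory.cond_isProbabilityMeasure H2⟩
    have hb : InK b := hk.restrict hD hr hi _
    have hc : InK c := hk.restrict hD.compl hr' (fun t => by rw [Set.preimage_compl, hi t]) _
    have e1 : a D + a Dᶜ = 1 := by
      have := prob_add_prob_compl (μ := (a : Measure Om)) hD
      rw [← ProbabilityMeasure.ennreal_coeFn_eq_coeFn_toMeasure,
        ← ProbabilityMeasure.ennreal_coeFn_eq_coeFn_toMeasure] at this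
      exact_mod_cast this
    have e2 : ∀ S, (a : Measure Om) S ≠ 0 →
        a S • ProbabilityTheory.cond (a : Measure Om) S = (a : Measure Om).restrict S :=
      fun S hS => by
        rw [ProbabilityTheory.cond, ENNReal.smul_def, smul_smul,
          ProbabilityMeasure.ennreal_coeFn_eq_coeFn_toMeasure,
          ENNReal.mul_inv_cancel hS (measure_ne_top _ _), one_smul]
    have e3 : (a : Measure Om) = a D • (b : Measure Om) + a Dᶜ • (c : Measure Om) := by
      change _ = a D • ProbabilityTheory.cond (a : Measure Om) D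
        + a Dᶜ • ProbabilityTheory.cond (a : Measure Om) Dᶜ
      rw [e2 _ H.1, e2 _ H2, Measure.restrict_add_restrict_compl hD]
    have p0 : ∀ S, (a : Measure Om) S ≠ 0 → 0 < a S := fun S hS => by
      rw [← ProbabilityMeasure.ennreal_coeFn_eq_coeFn_toMeasure] at hS
      exact pos_iff_ne_zero.2 (by exact_mod_cast hS)
    have mb := h2.2.2 a ha b ⟨hb, c, hc, _, _, p0 _ H.1, p0 _ H2, e1, e3⟩
    have mc := h2.2.2 a ha c ⟨hc, b, hb, _, _, p0 _ H2, p0 _ H.1, by rw [add_comm, e1],
      by rw [add_comm, ← e3]⟩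
    have e4 : (b : Measure Om) = c := ext_of_forall_integral_eq_of_IsFiniteMeasure fun k =>
      c2 _ ⟨cont_int k, fun x y h => by
        obtain ⟨z, hz, p, h0, h1, e⟩ := h.conv
        exact ⟨z, hz, p, h0, h1, (e k).le⟩⟩ b mb c mc
    have e5 := congrArg (fun m => m D) e4
    change ProbabilityTheory.cond (a : Measure Om) D D
      = ProbabilityTheory.cond (a : Measure Om) Dᶜ D at e5
    rw [ProbabilityTheory.cond_apply_self H.1 (measure_ne_top _ _),
      ProbabilityTheory.cond_apply hD.compl] at e5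
    simp at e5
  · rw [← L_re]
    refine le_trans (le_of_eq ?_) ((s1 (s2 ha)).2 a0 (inK_pi ν hi hw))
    change _ = L (gre w) (Measure.infinitePi fun _ : ℕ => ν)
      + L (gim w) (Measure.infinitePi fun _ : ℕ => ν)
    rw [L_pi, L_pi, Complex.sq_norm, Complex.normSq_apply, sq, sq]
    have i := int_f ν measurable_id w
    exact congrArg₂ (· + ·) (congrArg₂ (· * ·) (integral_re i).symm (integral_re i).symm)
      (congrArg₂ (· * ·) (integral_im i).symm (integral_im i).symm)

end Vale.Agent.P032
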