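import Vale.Agent.P032.Stmts

/-! Calculus of means. -/

namespace Vale.Agent.P032

open MeasureTheory Filter Topology ComplexConjugate Finset

variable {A : Type} [CommGroup A] [Countable A]

theorem card_ne (n : ℕ) : (Fintype.card (Fin (n + 1) → Fin (n + 1)) : ℂ) ≠ 0 :=
  Nat.cast_ne_zero.2 Fintype.card_ne_zero

theorem av_add (n : ℕ) (g h : A → ℂ) : av n (fun a => g a + h a) = av n g + av n h := by
  simp only [av, sum_add_distrib, add_div]

theorem av_mul (n : ℕ) (c : ℂ) (g : A → ℂ) : av n (fun a => c * g a) = c * av n g := by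
  simp only [av, ← mul_sum, mul_div_assoc]

theorem av_const (n : ℕ) (c : ℂ) : av n (fun _ : A => c) = c := by
  rw [av, sum_const, card_univ, nsmul_eq_mul, mul_div_cancel_left₀ _ (card_ne n)]

theorem av_conj (n : ℕ) (g : A → ℂ) : av n (fun a => conj (g a)) = conj (av n g) := by
  simp only [av, map_div₀, map_sum, map_natCast]

theorem av_re_le (n : ℕ) {g h : A → ℂ} (H : ∀ a, (g a).re ≤ (h a).re) :
    (av n g).re ≤ (av n h).re := by
  simp only [av, Complex.div_natCast_re, Complex.re_sum]
  exact div_le_div_of_nonneg_right (sum_le_sum fun j _ => H _) (Nat.cast_nonneg _)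

theorem norm_av_le (n : ℕ) {g : A → ℂ} {h : A → ℝ} (H : ∀ a, ‖g a‖ ≤ h a) :
    ‖av n g‖ ≤ (av n fun a => (h a : ℂ)).re := by
  simp only [av, Complex.div_natCast_re, Complex.re_sum, norm_div, Complex.norm_natCast,
    Complex.ofReal_re]
  exact div_le_div_of_nonneg_right ((norm_sum_le _ _).trans (sum_le_sum fun j _ => H _))
    (Nat.cast_nonneg _)

theorem mean_aux (n : ℕ) (i : Fin (n + 1)) (g : A → ℂ) (hg : ∀ a, ‖g a‖ ≤ 1) :
    ‖av n (fun a => g (en A i * a)) - av n g‖ ≤ 2 / ((n : ℝ) + 1) := by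
  classical
  let e := Equiv.piSplitAt i (fun _ : Fin (n + 1) => Fin (n + 1))
  let r : ({j // j ≠ i} → Fin (n + 1)) → A := fun y => ∏ j : {j // j ≠ i}, en A j.1 ^ (y j : ℕ)
  have ht : ∀ p, tau A n (e.symm p) = en A i ^ (p.1 : ℕ) * r p.2 := fun p => by
    rw [tau, Fintype.prod_eq_mul_prod_subtype_ne _ i]
    congr 1
    · simp [e]
    · exact prod_congr rfl fun j _ => by simp [e, j.2]
  have hs : ∀ h : A → ℂ, ∑ j, h (tau A n j)
      = ∑ y, ∑ m ∈ range (n + 1), h (en A i ^ m * r y) := fun h => by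
    rw [← e.symm.sum_comp, Fintype.sum_prod_type_right]
    refine sum_congr rfl fun y _ => ?_
    rw [← Fin.sum_univ_eq_sum_range (fun m => h (en A i ^ m * r y))]
    exact sum_congr rfl fun m _ => by rw [ht]
  have hc : (Fintype.card (Fin (n + 1) → Fin (n + 1)) : ℝ)
      = ((n : ℝ) + 1) * Fintype.card ({j // j ≠ i} → Fin (n + 1)) := by
    rw [Fintype.card_congr e, Fintype.card_prod, Fintype.card_fin]
    push_cast
    rfl
  have hp : (0 : ℝ) < Fintype.card ({j // j ≠ i} → Fin (n + 1)) := by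
    exact_mod_cast Fintype.card_pos
  rw [av, av, ← sub_div, hs (fun a => g (en A i * a)), hs g, ← sum_sub_distrib, norm_div,
    Complex.norm_natCast, hc, div_le_div_iff₀ (by positivity) (by positivity)]
  have h1 : ∀ y, ‖∑ m ∈ range (n + 1), g (en A i * (en A i ^ m * r y))
      - ∑ m ∈ range (n + 1), g (en A i ^ m * r y)‖ ≤ 2 := fun y => by
    rw [← sum_sub_distrib]
    have := sum_range_sub (fun m => g (en A i ^ m * r y)) (n + 1)
    simp only [pow_succ', mul_assoc] at this
    rw [this]
    exact (norm_sub_le _ _).trans (by linarith [hg (en A i * (en A i ^ n * r y)), hg (en A i ^ 0 * r y)])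
  have h2 := (norm_sum_le _ _).trans (sum_le_sum fun y (_ : y ∈ univ) => h1 y)
  rw [sum_const, card_univ, nsmul_eq_mul] at h2
  nlinarith

theorem mean : MeanStmt := by
  intro A _ _ b ε hε
  obtain ⟨m, rfl⟩ := en_surj A b
  obtain ⟨N, hN⟩ := exists_nat_one_div_lt (half_pos hε)
  filter_upwards [eventually_ge_atTop m, eventually_ge_atTop N] with n h1 h2 g hg
  refine (mean_aux n ⟨m, by omega⟩ g hg).trans ?_
  have := Nat.one_div_le_one_div (α := ℝ) h2
  rw [div_eq_mul_one_div]
  linarith

namespace HasM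

variable {g h : A → ℂ} {c d : ℂ}

theorem unique (h1 : HasM g c) (h2 : HasM g d) : c = d := tendsto_nhds_unique h1 h2

theorem const (c : ℂ) : HasM (fun _ : A => c) c := by
  simp only [HasM, av_const]
  exact tendsto_const_nhds

theorem add (h1 : HasM g c) (h2 : HasM h d) : HasM (fun a => g a + h a) (c + d) := by
  simp only [HasM, av_add]
  exact Tendsto.add h1 h2

theorem const_mul (e : ℂ) (h1 : HasM g c) : HasM (fun a => e * g a) (e * c) := by
  simp only [HasM, av_mul]
  exact Tendsto.const_mul e h1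

theorem neg (h1 : HasM g c) : HasM (fun a => -g a) (-c) := by
  simpa using h1.const_mul (-1)

theorem sub (h1 : HasM g c) (h2 : HasM h d) : HasM (fun a => g a - h a) (c - d) := by
  simpa [sub_eq_add_neg] using h1.add h2.neg

theorem star_conj (h1 : HasM g c) : HasM (fun a => conj (g a)) (conj c) := by
  simp only [HasM, av_conj]
  exact (Complex.continuous_conj.tendsto _).comp h1

theorem congr (h1 : HasM g c) (e : ∀ a, g a = h a) : HasM h c := (funext e : g = h) ▸ h1

theorem sum {ι : Type*} (s : Finset ι) {g : ι → A → ℂ} {c : ι → ℂ}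
    (H : ∀ i ∈ s, HasM (g i) (c i)) : HasM (fun a => ∑ i ∈ s, g i a) (∑ i ∈ s, c i) := by
  classical
  induction s using Finset.induction_on with
  | empty => simpa using const (A := A) 0
  | insert i s hi ih =>
    simp only [sum_insert hi]
    exact (H i (mem_insert_self _ _)).add (ih fun j hj => H j (mem_insert_of_mem hj))

theorem re_le (h1 : HasM g c) (h2 : HasM h d) (H : ∀ a, (g a).re ≤ (h a).re) : c.re ≤ d.re :=
  le_of_tendsto_of_tendsto' ((Complex.continuous_re.tendsto _).comp h1)
    ((Complex.continuous_re.tendsto _).comp h2) fun n => av_re_le n H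

theorem norm_le {h : A → ℝ} (h1 : HasM g c) (h2 : HasM (fun a => (h a : ℂ)) d)
    (H : ∀ a, ‖g a‖ ≤ h a) : ‖c‖ ≤ d.re :=
  le_of_tendsto_of_tendsto' (Tendsto.norm h1)
    ((Complex.continuous_re.tendsto _).comp h2) fun n => norm_av_le n H

theorem real_le {g h : A → ℝ} {c d : ℝ} (h1 : HasM (fun a => (g a : ℂ)) c)
    (h2 : HasM (fun a => (h a : ℂ)) d) (H : ∀ a, g a ≤ h a) : c ≤ d := by
  simpa using h1.re_le h2 (by simpa using H)

theorem norm_le_const {C : ℝ} (h1 : HasM g c) (H : ∀ a, ‖g a‖ ≤ C) : ‖c‖ ≤ C := by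
  simpa using h1.norm_le (const (C : ℂ)) H

theorem exists_of_bdd {C : ℝ} (H : ∀ a, ‖g a‖ ≤ C) : ∃ c, HasM g c := by
  obtain ⟨c, -, hc⟩ := (isCompact_closedBall (0 : ℂ) C).ultrafilter_le_nhds
    ((hyperfilter ℕ).map fun n => av n g) (by
      rw [Ultrafilter.coe_map, le_principal_iff, Filter.mem_map]
      refine Eventually.of_forall fun n => ?_
      have := norm_av_le n H
      rw [av_const] at this
      simpa using this)
  exact ⟨c, hc⟩

theorem shift {C : ℝ} (H : ∀ a, ‖g a‖ ≤ C) (h1 : HasM g c) (b : A) :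
    HasM (fun a => g (b * a)) c := by
  have hC : 0 ≤ C := (norm_nonneg _).trans (H 1)
  have h2 : Tendsto (fun n => av n (fun a => g (b * a)) - av n g) atTop (𝓝 0) := by
    rw [NormedAddGroup.tendsto_nhds_zero]
    intro ε hε
    filter_upwards [mean A b (ε / (2 * (C + 1))) (by positivity)] with n hn
    have h3 := hn (fun a => ((C + 1 : ℝ) : ℂ)⁻¹ * g a) fun a => by
      rw [norm_mul, norm_inv, Complex.norm_real, Real.norm_of_nonneg (by positivity),
        inv_mul_le_iff₀ (by positivity)]
      linarith [H a]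
    rw [av_mul, av_mul, ← mul_sub, norm_mul, norm_inv, Complex.norm_real,
      Real.norm_of_nonneg (by positivity), inv_mul_le_iff₀ (by positivity)] at h3
    have : (C + 1) * (ε / (2 * (C + 1))) = ε / 2 := by field_simp
    linarith
  have h3 := (h2.mono_left Nat.hyperfilter_le_atTop).add h1
  simpa [HasM] using h3

theorem exists_lt {g : A → ℝ} {c : ℂ} (h1 : HasM (fun a => (g a : ℂ)) c) {r : ℝ} (hr : c.re < r) :
    ∃ a, g a < r := by
  by_contra H
  push Not at H
  have := (const (A := A) (r : ℂ)).re_le h1 (by simpa using H)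
  simp at this
  linarith

end HasM

end Vale.Agent.P032
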