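import Vale.Agent.P032.EL

/-! No triple continuum. -/

namespace Vale.Agent.P032

open Set Metric Real Filter Topology EL

theorem n3 (hd : DiscStmt) : N3Stmt := by
  intro C B a b c hab hbc hac K hK hs y hy k hk
  by_contra hne
  obtain ⟨d, d', hdd, h⟩ := (by decide +kernel : ∀ a b c : Fin 5, a ≠ b → b ≠ c → a ≠ c →
    ∃ d d' : Fin 5, d ≠ d' ∧ ∀ j, j ≠ a → j ≠ b → j ≠ c → j = d ∨ j = d') a b c hab hbc hac
  have hY : ∀ x ∈ K, x ∈ Y C d d' := fun x hx θ => by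
    obtain ⟨k', hk', hk''⟩ : ∃ k' ∈ K, k' ≠ x := by
      by_cases e : k = x
      · exact ⟨y, hy, e ▸ hne⟩
      · exact ⟨k, hk, e⟩
    obtain ⟨j, hj, hj'⟩ := B.side {a, b, c} K (by
      rintro j (rfl | rfl | rfl)
      exacts [fun z hz => (hs hz).1.1, fun z hz => (hs hz).1.2, fun z hz => (hs hz).2])
      hK x hx k' hk' hk'' θ
    simp only [mem_insert_iff, mem_singleton_iff, not_or] at hj
    rcases h j hj.1 hj.2.1 hj.2.2 with rfl | rfl
    exacts [Or.inl hj', Or.inr hj']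
  obtain ⟨r, hr, h⟩ := hd C B d d' hdd y (hY y hy)
  obtain ⟨x, hx, hx1, hx2⟩ := hK (ball y r) {y}ᶜ isOpen_ball isOpen_compl_singleton
    (fun x _ => by
      by_cases e : x = y
      · exact Or.inl (e ▸ mem_ball_self hr)
      · exact Or.inr e) ⟨y, hy, mem_ball_self hr⟩ ⟨k, hk, fun e => hne (Eq.symm e)⟩
  exact hx2 (h x hx1 (hY x hx))

theorem two (h : N3Stmt) : TwoStmt := by
  intro C B y a b c θ hab hbc hac ha hb hc
  obtain ⟨r, hr, h1⟩ := Metric.eventually_nhds_iff_ball.1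
    (((mem_U.1 ha).and (mem_U.1 hb)).and (mem_U.1 hc))
  have h2 := h C B a b c hab hbc hac ((fun t => y + e t) '' ball θ r)
    ((convex_ball θ r).isPreconnected.image _ (by fun_prop))
    (by rintro _ ⟨t, ht, rfl⟩; exact h1 t ht)
  set t := min (r / 2) 1
  have t0 : 0 < t := by positivity
  have t1 : t ≤ r / 2 := min_le_left _ _
  have t2 : t ≤ 1 := min_le_right _ _
  have h3 : e θ = e (θ + t) := add_left_cancel (h2 ⟨θ, mem_ball_self hr, rfl⟩ ⟨θ + t, by
    rw [mem_ball, Real.dist_eq, add_sub_cancel_left, abs_of_pos t0]; linarith, rfl⟩)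
  have h4 := congrArg Complex.re h3
  have h5 := congrArg Complex.im h3
  rw [e_re, e_re] at h4
  rw [e_im, e_im] at h5
  have h6 : sin (θ + t - θ) = 0 := by rw [sin_sub, ← h4, ← h5]; ring
  rw [add_sub_cancel_left] at h6
  exact (sin_pos_of_pos_of_lt_pi t0 (by linarith [pi_gt_three])).ne' h6

theorem c3 (h : N3Stmt) : C3Stmt := by
  intro C B y v hv h0 h1 h2 θ
  by_contra H0
  push Not at H0
  have ev : ∀ᶠ t in 𝓝 θ, t ∉ H C y (v 3) ∧ t ∉ H C y (v 4) :=
    Eventually.and ((B.closedH y _).isOpen_compl.mem_nhds H0.1)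
      ((B.closedH y _).isOpen_compl.mem_nhds H0.2)
  have key : ∀ a b c : Fin 5, (∀ k, k ≠ a → k ≠ b → k ≠ 3 → k ≠ 4 → k = c) →
      Edge C y (v a) (v b) → θ ∈ U C y (v c) := fun a b c hk he => by
    refine mem_U.2 (ev.mono fun t ht => ?_)
    obtain ⟨j, j1, j2, j3⟩ := he.2.2.2 t
    obtain ⟨k, rfl⟩ := Finite.injective_iff_surjective.1 hv j
    rwa [← hk k (fun e => j1 (e ▸ rfl)) (fun e => j2 (e ▸ rfl)) (fun e => ht.1 (e ▸ j3))
      (fun e => ht.2 (e ▸ j3))]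
  exact two h C B y (v 0) (v 1) (v 2) θ (hv.ne (by decide)) (hv.ne (by decide)) (hv.ne (by decide))
    (key 1 2 0 (by decide) h1) (key 2 0 1 (by decide) h2) (key 0 1 2 (by decide) h0)

end Vale.Agent.P032
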