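import Mathlib

/-! Measure theoretic lemmas on unit circles. -/

namespace Vale.Agent.P032.Op

open MeasureTheory Filter Topology Metric Set
open scoped ENNReal symmDiff

/-- The point of the unit circle with argument `θ`. -/
noncomputable def ex (θ : ℝ) : ℂ := Complex.exp (θ * Complex.I)

theorem ex_cont : Continuous ex := by unfold ex; fun_prop

theorem norm_ex (θ : ℝ) : ‖ex θ‖ = 1 := Complex.norm_exp_ofReal_mul_I θ

theorem ex_pi (θ : ℝ) : ex (θ + Real.pi) = -ex θ := by
  unfold ex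
  push_cast
  rw [add_mul, Complex.exp_add, Complex.exp_pi_mul_I, mul_neg_one]

theorem null_pre {f : ℂ → ℂ} (hf : ContDiff ℝ 1 f) {N : Set ℂ} (hN : MeasurableSet N)
    (h0 : volume N = 0) : ∀ᵐ z : ℂ, f z ∈ N → (fderiv ℝ f z).det = 0 := by
  have hc : Continuous fun z => (fderiv ℝ f z).det :=
    ContinuousLinearMap.continuous_det.comp (hf.continuous_fderiv one_ne_zero)
  rw [ae_iff]
  refine measure_null_of_locally_null _ fun z hz => ?_
  simp only [mem_ofPred_eq, Classical.not_imp] at hz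
  have hs := hf.contDiffAt.hasStrictFDerivAt (x := z) one_ne_zero
  have hs' : HasStrictFDerivAt f
      (((fderiv ℝ f z).toContinuousLinearEquivOfDetNeZero hz.2 : ℂ ≃L[ℝ] ℂ) : ℂ →L[ℝ] ℂ) z := by
    simpa using hs
  let e := hs'.toOpenPartialHomeomorph f
  have hm : MeasurableSet (e.source ∩ (f ⁻¹' N ∩ {w | (fderiv ℝ f w).det ≠ 0})) :=
    e.open_source.measurableSet.inter ((hf.continuous.measurable hN).inter
      (isOpen_ne_fun hc continuous_const).measurableSet)
  refine ⟨e.source ∩ (f ⁻¹' N ∩ {w | (fderiv ℝ f w).det ≠ 0}), ?_, ?_⟩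
  · refine mem_nhdsWithin.2 ⟨e.source, e.open_source, hs'.mem_toOpenPartialHomeomorph_source,
      fun w hw => ⟨hw.1, ?_⟩⟩
    simpa using hw.2
  have hd : ∀ x ∈ e.source ∩ (f ⁻¹' N ∩ {w | (fderiv ℝ f w).det ≠ 0}),
      HasFDerivWithinAt f (fderiv ℝ f x) (e.source ∩ (f ⁻¹' N ∩ {w | (fderiv ℝ f w).det ≠ 0})) x :=
    fun x _ => (hf.differentiable one_ne_zero x).hasFDerivAt.hasFDerivWithinAt
  have h1 := lintegral_abs_det_fderiv_le_addHaar_image volume hm hd
    (e.injOn.mono inter_subset_left)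
  have h2 : volume (f '' (e.source ∩ (f ⁻¹' N ∩ {w | (fderiv ℝ f w).det ≠ 0}))) = 0 :=
    measure_mono_null (by rintro _ ⟨w, hw, rfl⟩; exact hw.2.1) h0
  rw [h2, nonpos_iff_eq_zero, lintegral_eq_zero_iff'
    (aemeasurable_ofReal_abs_det_fderivWithin volume hm hd)] at h1
  have h3 := (ae_restrict_iff' hm).1 h1
  refine measure_mono_null (fun w hw => ?_) (ae_iff.1 h3)
  intro h
  have := h hw
  simp only [Pi.zero_apply, ENNReal.ofReal_eq_zero, abs_nonpos_iff] at this
  exact hw.2.2 this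

theorem ex_deriv (θ : ℝ) : HasDerivAt ex (Complex.I * ex θ) θ := by
  have := ((Complex.ofRealCLM.hasDerivAt (x := θ)).mul_const Complex.I).cexp
  refine HasDerivAt.congr_deriv (f := ex) this ?_
  simp [ex, mul_comm]

theorem two_step {p : ℂ → Prop} (h : ∀ᵐ w : ℂ, p w) : ∀ᵐ φ : ℝ, ∀ᵐ ψ : ℝ, p (ex φ + ex ψ) := by
  obtain ⟨N, h1, h2, h3⟩ := exists_measurable_superset_of_null (ae_iff.1 h)
  let f : ℂ → ℂ := fun z => ex z.re + ex z.im
  have hf : ContDiff ℝ 1 f := by
    have : ContDiff ℝ 1 ex := by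
      unfold ex
      exact (Complex.ofRealCLM.contDiff.mul contDiff_const).cexp
    exact (this.comp Complex.reCLM.contDiff).add (this.comp Complex.imCLM.contDiff)
  have h4 := Measure.ae_ae_of_ae_prod
    (Complex.volume_preserving_equiv_real_prod.symm.quasiMeasurePreserving.ae (null_pre hf h2 h3))
  filter_upwards [h4] with φ hφ
  have h5 : ∀ᵐ ψ : ℝ, ψ ∉ range fun n : ℤ => φ - n * Real.pi :=
    (countable_range _).ae_notMem _
  filter_upwards [hφ, h5] with ψ hψ hn
  by_contra hp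
  have hz := hψ (h1 (by simpa [f] using hp))
  set z : ℂ := Complex.measurableEquivRealProd.symm (φ, ψ)
  have hd : HasFDerivAt f _ z :=
    ((ex_deriv z.re).hasFDerivAt.comp z Complex.reCLM.hasFDerivAt).add
      ((ex_deriv z.im).hasFDerivAt.comp z Complex.imCLM.hasFDerivAt)
  rw [hd.fderiv, ContinuousLinearMap.det, LinearMap.det_eq_zero_iff_ker_ne_bot,
    Submodule.ne_bot_iff] at hz
  obtain ⟨v, hv, v0⟩ := hz
  have e1 : z.re = φ := rfl
  have e2 : z.im = ψ := rfl
  have hv' : v.re • (Complex.I * ex φ) + v.im • (Complex.I * ex ψ) = 0 := by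
    simpa [e1, e2] using hv
  have a1 := congrArg Complex.re hv'
  have a2 := congrArg Complex.im hv'
  simp [ex, Complex.exp_ofReal_mul_I_re, Complex.exp_ofReal_mul_I_im] at a1 a2
  have hs : Real.sin (φ - ψ) ≠ 0 := fun c => by
    obtain ⟨n, hn'⟩ := Real.sin_eq_zero_iff.1 c
    exact hn ⟨n, by linarith⟩
  rw [Real.sin_sub] at hs
  refine v0 (Complex.ext ?_ ?_)
  · exact (mul_eq_zero.1 (show v.re * _ = 0 by
      linear_combination (-Real.cos ψ) * a1 - Real.sin ψ * a2)).resolve_right hs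
  · exact (mul_eq_zero.1 (show v.im * _ = 0 by
      linear_combination Real.cos φ * a1 + Real.sin φ * a2)).resolve_right hs

theorem transl {M : Set ℂ} (hM : MeasurableSet M) (x₀ : ℂ) :
    Tendsto (fun x => volume (((x + ·) ⁻¹' (M ∩ ball x₀ 4)) ∆ ((x₀ + ·) ⁻¹' (M ∩ ball x₀ 4))))
      (𝓝 x₀) (𝓝 0) := by
  let F : C(ℂ, C(ℂ, ℂ)) := ContinuousMap.curry ⟨fun p : ℂ × ℂ => p.1 + p.2, by fun_prop⟩
  have e : ∀ x, ⇑(F x) = (x + ·) := fun x => rfl
  have := tendsto_measure_symmDiff_preimage_nhds_zero (μ := volume) (ν := volume)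
    (s := M ∩ ball x₀ 4) (F.continuous.tendsto x₀)
    (Eventually.of_forall fun x => by rw [e]; exact measurePreserving_add_left volume x)
    (by rw [e]; exact measurePreserving_add_left volume x₀)
    (hM.inter measurableSet_ball).nullMeasurableSet
    ((measure_mono inter_subset_right).trans_lt measure_ball_lt_top).ne
  simpa only [e] using this

end Vale.Agent.P032.Op
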