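import Vale.Agent.P032.Stmts
import Vale.Agent.P032.Open0

/-! From weak measurable colourings to open colour classes with dense union. -/

namespace Vale.Agent.P032

open MeasureTheory Filter Topology Metric Set
open scoped ENNReal symmDiff

/-- Disjoint open sets without unit distances whose union is dense. -/
def OpenCol {k : ℕ} (C : Fin k → Set ℂ) : Prop :=
  (∀ i, IsOpen (C i)) ∧ (∀ i, ∀ x ∈ C i, ∀ y ∈ C i, ‖x - y‖ ≠ 1) ∧
    Pairwise (Function.onFun Disjoint C) ∧ Dense (⋃ i, C i)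

namespace Op

/-- The unit circle around `y` essentially misses `A`. -/
def Mis (A : Set ℂ) (y : ℂ) : Prop := ∀ᵐ θ : ℝ, y + ex θ ∉ A

/-- Almost no unit distances between `A` and `B`. -/
def Sp (A B : Set ℂ) : Prop := ∀ᵐ x : ℂ, x ∈ A → Mis B x

variable {A B : Set ℂ}

theorem Mis.mono {y : ℂ} (h : Mis B y) (h' : A ⊆ B) : Mis A y :=
  Eventually.mono h fun _ c d => c (h' d)

theorem meas_mis (hA : MeasurableSet A) : MeasurableSet {y | Mis A y} := by
  have h : MeasurableSet {p : ℂ × ℝ | p.1 + ex p.2 ∈ A} :=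
    (measurable_fst.add (ex_cont.measurable.comp measurable_snd)) hA
  have := measurable_measure_prodMk_left (ν := volume) h (measurableSet_singleton 0)
  convert this using 1
  ext y
  simp [Mis, ae_iff]

theorem sep_iff (hA : MeasurableSet A) (hB : MeasurableSet B) :
    Sp A B ↔ ∀ᵐ θ : ℝ, ∀ᵐ x : ℂ, ¬(x ∈ A ∧ x + ex θ ∈ B) := by
  rw [← Measure.ae_ae_comm (((measurable_fst hA).inter
    ((measurable_fst.add (ex_cont.measurable.comp measurable_snd)) hB)).compl)]
  refine eventually_congr (Eventually.of_forall fun x => ?_)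
  by_cases h : x ∈ A <;> simp [h, Mis]

theorem Sp.symm (hA : MeasurableSet A) (hB : MeasurableSet B) (h : Sp A B) : Sp B A := by
  rw [sep_iff hA hB] at h
  rw [sep_iff hB hA]
  filter_upwards [(measurePreserving_add_right volume Real.pi).quasiMeasurePreserving.ae h]
    with θ h
  filter_upwards [(measurePreserving_add_right volume (ex θ)).quasiMeasurePreserving.ae h]
    with x h c
  exact h ⟨c.2, by simpa [ex_pi] using c.1⟩

/-- The greedy enlargement. -/
def step (A : Set ℂ) : ℕ → Set ℂ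
  | 0 => A
  | n + 1 => step A n ∪ (ball (TopologicalSpace.denseSeq ℂ n) (1 / 2) ∩ {y | Mis (step A n) y})

theorem exists_max (hA : MeasurableSet A) (h : Sp A A) :
    ∃ M, A ⊆ M ∧ MeasurableSet M ∧ Sp M M ∧ ∀ y, Mis M y → y ∈ M := by
  have m : ∀ n, MeasurableSet (step A n) := fun n => by
    induction n with
    | zero => exact hA
    | succ n ih => exact ih.union (measurableSet_ball.inter (meas_mis ih))
  have mo : Monotone (step A) := monotone_nat_of_le_succ fun n => subset_union_left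
  have s : ∀ n, Sp (step A n) (step A n) := fun n => by
    induction n with
    | zero => exact h
    | succ n ih =>
      have mb := (measurableSet_ball (x := TopologicalSpace.denseSeq ℂ n) (ε := 1 / 2)).inter
        (meas_mis (m n))
      filter_upwards [ih, Sp.symm mb (m n) (Eventually.of_forall fun x hx => hx.2)]
        with x h1 h2 hx
      rcases hx with hx | hx
      · filter_upwards [h1 hx, h2 hx] with θ a b c using c.elim a b
      · filter_upwards [hx.2] with θ a c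
        refine c.elim a fun c => ?_
        have := dist_triangle_right (x + ex θ) x (TopologicalSpace.denseSeq ℂ n)
        rw [dist_self_add_left, norm_ex] at this
        linarith [mem_ball.1 hx.1, mem_ball.1 c.1]
  refine ⟨⋃ n, step A n, subset_iUnion (step A) 0, .iUnion m, ?_, fun y hy => ?_⟩
  · filter_upwards [ae_all_iff.2 s] with x hx c
    obtain ⟨n, hn⟩ := mem_iUnion.1 c
    filter_upwards [ae_all_iff.2 fun l => hx (max n l) (mo (le_max_left _ _) hn)] with θ a b
    obtain ⟨l, hl⟩ := mem_iUnion.1 b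
    exact a l (mo (le_max_right _ _) hl)
  · obtain ⟨n, hn⟩ := (TopologicalSpace.denseRange_denseSeq ℂ).exists_dist_lt y one_half_pos
    exact mem_iUnion.2 ⟨n + 1, .inr ⟨hn, hy.mono (subset_iUnion _ n)⟩⟩

theorem closed {ι : Type} [Fintype ι] {M : ι → Set ℂ} (hM : ∀ i, MeasurableSet (M i))
    {G : Set ℂ} (hG : IsOpen G) : IsClosed {x | Mis {y | y ∈ G ∧ ∀ i, ¬Mis (M i) y} x} := by
  refine isClosed_of_closure_subset fun x₀ hx => ?_
  have h1 : ∀ n : ℕ, ∃ x, Mis {y | y ∈ G ∧ ∀ i, ¬Mis (M i) y} x ∧ dist x x₀ < 1 / (n + 1) ∧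
      ∀ i, volume (((x + ·) ⁻¹' (M i ∩ ball x₀ 4)) ∆ ((x₀ + ·) ⁻¹' (M i ∩ ball x₀ 4))) <
        2⁻¹ ^ n := fun n =>
    ((mem_closure_iff_frequently.1 hx).and_eventually
      (Eventually.and (ball_mem_nhds x₀ Nat.one_div_pos_of_nat)
        (eventually_all.2 fun i => (transl (hM i) x₀).eventually
          (gt_mem_nhds (by simp [pos_iff_ne_zero]))))).exists
  choose x x1 x2 x3 using h1
  have x4 : Tendsto x atTop (𝓝 x₀) := tendsto_iff_dist_tendsto_zero.2
    (squeeze_zero (fun _ => dist_nonneg) (fun n => (x2 n).le)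
      tendsto_one_div_add_atTop_nhds_zero_nat)
  have h2 := two_step (ae_all_iff.2 fun i => ae_eventually_notMem
    ((ENNReal.tsum_le_tsum fun n => (x3 n i).le).trans_lt
      (by rw [ENNReal.tsum_geometric]; simp)).ne)
  filter_upwards [h2, ae_all_iff.2 x1] with φ h3 h4 ⟨g, h5⟩
  have h6 : ∀ᶠ n in atTop, ∃ i, Mis (M i) (x n + ex φ) := by
    filter_upwards [(x4.add_const (ex φ)).eventually (hG.mem_nhds g)] with n hn
    by_contra! c
    exact h4 n ⟨hn, c⟩
  obtain ⟨i, hi⟩ : ∃ i, ∃ᶠ n in atTop, Mis (M i) (x n + ex φ) := by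
    by_contra! c
    obtain ⟨n, ⟨i, a⟩, b⟩ := (h6.and (eventually_all.2 c)).exists
    exact b i a
  refine h5 i ?_
  have h7 : ∀ᵐ ψ : ℝ, ∀ n, Mis (M i) (x n + ex φ) → x n + ex φ + ex ψ ∉ M i :=
    ae_all_iff.2 fun n => by
      by_cases c : Mis (M i) (x n + ex φ)
      · exact Eventually.mono c fun _ a _ => a
      · exact Eventually.of_forall fun _ a => absurd a c
  filter_upwards [h3, h7] with ψ a b c
  obtain ⟨n, n1, n2⟩ := (hi.and_eventually (a i)).exists
  refine n2 (.inr ⟨⟨by rw [add_assoc] at c; exact c, ?_⟩, fun d => b n n1 (by rw [add_assoc]; exact d.1)⟩)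
  have := norm_add_le (ex φ) (ex ψ)
  rw [norm_ex, norm_ex] at this
  rw [mem_ball, dist_self_add_left]
  linarith

/-- Points near which `A` is null. -/
def Z (A : Set ℂ) : Set ℂ := {x | ∃ U ∈ 𝓝 x, volume (A ∩ U) = 0}

theorem Z_open : IsOpen (Z A) := isOpen_iff_mem_nhds.2 fun _ ⟨U, h1, h2⟩ =>
  (eventually_mem_nhds_iff.2 h1).mono fun _ h => ⟨U, h, h2⟩

theorem Z_ae (A : Set ℂ) : ∀ᵐ x : ℂ, x ∈ A → x ∉ Z A := by
  rw [ae_iff]
  refine measure_null_of_locally_null _ fun x hx => ?_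
  simp only [mem_ofPred_eq, Classical.not_imp, not_not] at hx
  obtain ⟨U, h1, h2⟩ := hx.2
  refine ⟨_, ?_, h2⟩
  filter_upwards [mem_nhdsWithin_of_mem_nhds h1, self_mem_nhdsWithin] with y a b
  exact ⟨by_contra fun c => b fun d => absurd d c, a⟩

theorem ex_of {x : ℂ} (hx : x ∉ Z A) {p : ℂ → Prop} (h : ∀ᵐ y : ℂ, y ∈ A → p y) {U : Set ℂ}
    (hU : U ∈ 𝓝 x) : ∃ y ∈ U, y ∈ A ∧ p y := by
  by_contra! c
  exact hx ⟨U, hU, measure_mono_null (t := {y | ¬(y ∈ A → p y)})
    (fun y hy d => c y hy.2 hy.1 (d hy.1)) (ae_iff.1 h)⟩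

end Op

open Op

theorem openS (k : ℕ) (A : Fin k → Set ℂ) (h : Weak A) : ∃ C : Fin k → Set ℂ, OpenCol C := by
  classical
  obtain ⟨hA, hcov, hθ⟩ := h
  choose M M1 M2 M3 M4 using fun i => exists_max (hA i) ((sep_iff (hA i) (hA i)).2 (hθ i))
  let B : Fin k → Set ℂ := fun j => {y | y ∈ M j ∧ ∀ i < j, y ∉ M i}
  have hB : ∀ j, MeasurableSet (B j) := fun j => by
    convert (M2 j).inter (MeasurableSet.iInter fun i : {i // i < j} => (M2 i).compl) using 1
    ext y
    simp [B]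
  have hc : ∀ᵐ x : ℂ, ∃ i, x ∈ B i ∧ x ∉ Z (B i) := by
    filter_upwards [hcov, ae_all_iff.2 fun i => Z_ae (B i)] with x ⟨i, hi⟩ hx
    obtain ⟨j, j1, j2⟩ := wellFounded_lt.has_min {j | x ∈ M j} ⟨i, M1 i hi⟩
    have : x ∈ B j := ⟨j1, fun l a b => j2 l b a⟩
    exact ⟨j, this, hx j this⟩
  let G : Fin k → Set ℂ := fun j => ⋂ m : {m // j < m}, Z (B m)
  have hG : ∀ j, IsOpen (G j) := fun j => isOpen_iInter_of_finite fun _ => Z_open
  let Y : Fin k → Set ℂ := fun j => {y | y ∈ G j ∧ ∀ i : {i // i < j}, ¬Mis (M i) y}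
  have hY : ∀ j, MeasurableSet (Y j) := fun j => by
    convert (hG j).measurableSet.inter
      (MeasurableSet.iInter fun i : {i // i < j} => (meas_mis (M2 i)).compl) using 1
    ext y
    simp [Y]
  have key : ∀ j x, x ∉ Z (B j) → Mis (Y j) x := fun j x hx => by
    have s : Sp (Y j) (B j) := by
      filter_upwards [hc, ae_all_iff.2 M3] with y ⟨i, i1, i2⟩ h1 hy
      rcases lt_trichotomy i j with c | rfl | c
      · exact absurd (h1 i i1.1) (hy.2 ⟨i, c⟩)
      · exact (h1 i i1.1).mono fun _ a => a.1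
      · exact absurd (mem_iInter.1 hy.1 ⟨i, c⟩) i2
    refine (closed (fun i : {i // i < j} => M2 i) (hG j)).closure_subset
      (_root_.mem_closure_iff_nhds.2 fun U hU => ?_)
    obtain ⟨y, y1, -, y2⟩ := ex_of hx (s.symm (hY j) (hB j)) hU
    exact ⟨y, y1, y2⟩
  let C : Fin k → Set ℂ := fun j => interior (Z (B j))ᶜ ∩ G j
  have hC : ∀ j, IsOpen (C j) := fun j => isOpen_interior.inter (hG j)
  refine ⟨C, hC, fun j x hx y hy e => ?_, fun i j e => ?_, ?_⟩
  · have s : Sp (C j) (Y j) := Eventually.of_forall fun z hz => key j z (interior_subset hz.1)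
    rw [Complex.norm_eq_one_iff] at e
    obtain ⟨θ, e⟩ := e
    have u : {z | z + ex θ ∈ C j} ∩ G j ∈ 𝓝 y := inter_mem
      (((hC j).preimage (continuous_add_const _)).mem_nhds
        (show y + ex θ ∈ C j by rw [ex, e]; simpa using hx)) ((hG j).mem_nhds hy.2)
    obtain ⟨z, z1, z2, z3⟩ := ex_of (interior_subset hy.1) (p := fun z => z ∈ Y j → Mis (C j) z)
      (Eventually.mono (s.symm (hC j).measurableSet (hY j)) fun _ a _ => a) u
    obtain ⟨φ, a, b⟩ := (Measure.dense_of_ae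
      (z3 ⟨z1.2, fun i c => z2.2 i i.2 (M4 _ _ c)⟩)).inter_open_nonempty _ ((hC j).preimage (continuous_const.add ex_cont)) ⟨θ, z1.1⟩
    exact b a
  · refine Set.disjoint_left.2 fun z a b => ?_
    rcases lt_or_gt_of_ne e with c | c
    · exact interior_subset b.1 (mem_iInter.1 a.2 ⟨j, c⟩)
    · exact interior_subset a.1 (mem_iInter.1 b.2 ⟨i, c⟩)
  · refine dense_iff_inter_open.2 fun U hU hne => ?_
    obtain ⟨V, ⟨V1, V2, V3⟩, V4⟩ := exists_minimalFor_of_wellFoundedLT
      (fun V : Set ℂ => IsOpen V ∧ V.Nonempty ∧ V ⊆ U)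
      (fun V => Finset.univ.filter fun m => ¬V ⊆ Z (B m)) ⟨U, hU, hne, subset_rfl⟩
    obtain ⟨w, w1, i, -, w2⟩ := (Measure.dense_of_ae hc).inter_open_nonempty V V1 V2
    obtain ⟨j, j1, j2⟩ := wellFounded_gt.has_min {m | ¬V ⊆ Z (B m)} ⟨i, fun c => w2 (c w1)⟩
    have : V ⊆ (Z (B j))ᶜ := fun z hz c => by
      have := V4 (j := V ∩ Z (B j)) ⟨V1.inter Z_open, ⟨z, hz, c⟩, inter_subset_left.trans V3⟩
        (fun m => by
          simp only [Finset.mem_filter, Finset.mem_univ, true_and]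
          exact fun a b => a (inter_subset_left.trans b))
        (Finset.mem_filter.2 ⟨Finset.mem_univ j, j1⟩)
      exact (Finset.mem_filter.1 this).2 inter_subset_right
    exact ⟨w, V3 w1, mem_iUnion.2 ⟨j, interior_maximal this V1 w1,
      mem_iInter.2 fun m => by_contra fun c => j2 m (fun d => c (d w1)) m.2⟩⟩

end Vale.Agent.P032
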