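import Vale.Agent.P032.Stmts

/-! The bound `3 / 4` for wild radial positive definite functions. -/

namespace Vale.Agent.P032

open MeasureTheory Filter Topology ComplexConjugate Finset

namespace QW

/-- Geometric averages of a character. -/
noncomputable def ga (N : ℕ) (y : E) (χ : Γ) : ℂ := (∑ j ∈ range N, f (j * y) χ) / N

theorem f_nat (j : ℕ) (y : E) (χ : Γ) : f (j * y) χ = f y χ ^ j := by
  induction j with
  | zero => simp
  | succ j ih => rw [Nat.cast_succ, add_mul, one_mul, f_add_left, ih, pow_succ]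

theorem ga_cont (N : ℕ) (y : E) : Continuous (ga N y) :=
  (continuous_finsetSum _ fun _ _ => continuous_f _).div_const _

theorem ga_le (N : ℕ) (y : E) (χ : Γ) : ‖ga N y χ‖ ≤ 1 := by
  rw [ga, norm_div, Complex.norm_natCast]
  refine div_le_one_of_le₀ ((norm_sum_le _ _).trans ?_) (Nat.cast_nonneg _)
  simp [norm_f]

theorem f_add_le (a b : E) (χ : Γ) : ‖f (a + b) χ - 1‖ ≤ ‖f a χ - 1‖ + ‖f b χ - 1‖ := by
  have e : f (a + b) χ - 1 = (f a χ - 1) + f a χ * (f b χ - 1) := by rw [f_add_left]; ring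
  have := norm_add_le (f a χ - 1) (f a χ * (f b χ - 1))
  rwa [norm_mul, norm_f, one_mul, ← e] at this

theorem f_int_le (a : ℤ) (y : E) (χ : Γ) : ‖f (a * y) χ - 1‖ ≤ |(a : ℝ)| * ‖f y χ - 1‖ := by
  have h : ∀ j : ℕ, ‖f (j * y) χ - 1‖ ≤ j * ‖f y χ - 1‖ := fun j => by
    induction j with
    | zero => simp
    | succ j ih =>
      rw [Nat.cast_succ, add_mul, one_mul, Nat.cast_succ, add_mul, one_mul]
      linarith [f_add_le (j * y) y χ]
  obtain ⟨j, rfl | rfl⟩ := a.eq_nat_or_neg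
  · simpa using h j
  · have e : f (((-(j : ℤ) : ℤ) : E) * y) χ - 1 = conj (f (j * y) χ - 1) := by
      rw [map_sub, map_one, ← f_neg_left]
      push_cast
      rw [neg_mul]
    rw [e, Complex.norm_conj]
    simpa using h j

theorem ga_small {N : ℕ} (hN : 0 < N) (a : ℤ) (y : E) (χ : Γ) {ε : ℝ}
    (h : ε ≤ ‖f (a * y) χ - 1‖) : ‖ga N y χ‖ * N * ε ≤ 2 * |(a : ℝ)| := by
  have h1 : ‖ga N y χ‖ * N * ‖f y χ - 1‖ ≤ 2 := by
    have : (N : ℝ) ≠ 0 := by positivity
    rw [ga, norm_div, Complex.norm_natCast, div_mul_cancel₀ _ this, ← norm_mul]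
    simp only [f_nat]
    rw [geom_sum_mul]
    refine (norm_sub_le _ _).trans ?_
    rw [norm_pow, norm_f, one_pow, norm_one]
    norm_num
  have h2 := h.trans (f_int_le a y χ)
  calc ‖ga N y χ‖ * N * ε ≤ ‖ga N y χ‖ * N * (|(a : ℝ)| * ‖f y χ - 1‖) :=
        mul_le_mul_of_nonneg_left h2 (by positivity)
    _ = ‖ga N y χ‖ * N * ‖f y χ - 1‖ * |(a : ℝ)| := by ring
    _ ≤ 2 * |(a : ℝ)| := mul_le_mul_of_nonneg_right h1 (abs_nonneg _)

theorem rnd (ζ : ℂ) : ∃ a b : ℤ, ‖ζ - (a + b * Complex.I)‖ ≤ 1 ∧ |(a : ℝ)| ≤ ‖ζ‖ + 1 ∧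
    |(b : ℝ)| ≤ ‖ζ‖ + 1 := by
  have h1 := abs_sub_round ζ.re
  have h2 := abs_sub_round ζ.im
  refine ⟨round ζ.re, round ζ.im, (Complex.norm_le_abs_re_add_abs_im _).trans ?_, ?_, ?_⟩
  · simp only [Complex.sub_re, Complex.add_re, Complex.intCast_re, Complex.mul_re, Complex.I_re,
      Complex.intCast_im, Complex.I_im, Complex.sub_im, Complex.add_im, Complex.mul_im, mul_zero,
      zero_mul, sub_zero, add_zero, zero_add, mul_one]
    linarith
  · have := Complex.abs_re_le_norm ζ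
    have := abs_sub_abs_le_abs_sub (round ζ.re : ℝ) ζ.re
    rw [abs_sub_comm] at h1
    linarith
  · have := Complex.abs_im_le_norm ζ
    have := abs_sub_abs_le_abs_sub (round ζ.im : ℝ) ζ.im
    rw [abs_sub_comm] at h2
    linarith

theorem re_mul_ge {p q : ℂ} (hp : ‖p‖ = 1) (hq : ‖q‖ = 1) :
    2 * p.re + 2 * q.re - 3 ≤ (p * q).re := by
  have h1 : p.re ^ 2 + p.im ^ 2 = 1 := by
    rw [← one_pow 2, ← hp, Complex.sq_norm, Complex.normSq_apply]; ring
  have h2 : q.re ^ 2 + q.im ^ 2 = 1 := by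
    rw [← one_pow 2, ← hq, Complex.sq_norm, Complex.normSq_apply]; ring
  rw [Complex.mul_re]
  nlinarith [sq_nonneg (p.re + q.re - 2), sq_nonneg (p.im - q.im)]

section

variable {X : Type} [MeasurableSpace X] (μ : Measure X) [IsFiniteMeasure μ] (χ : X → Γ)
  (G : X → ℝ)

/-- Admissible multipliers. -/
def Adm (ρ κ r : ℝ) (g : Γ → ℂ) : Prop :=
  Continuous g ∧ (∀ c, ‖g c‖ ≤ 1) ∧
    ∀ z : E, ‖(z : ℂ)‖ + r ≤ ρ → κ ≤ ∫ x, G x * (f z (χ x) * g (χ x)).re ∂μ

variable {χ G} {C : ℝ} (hχ : Measurable χ) (hG : Measurable G) (h0 : ∀ x, 0 ≤ G x)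
  (hC : ∀ x, G x ≤ C)

include hχ hG h0 hC

theorem intg {g : Γ → ℂ} (hc : Continuous g) (hb : ∀ c, ‖g c‖ ≤ 1) :
    Integrable (fun x => G x * (g (χ x)).re) μ := by
  refine Integrable.of_bound (C := C) (hG.mul (Complex.measurable_re.comp
    (hc.measurable.comp hχ))).aestronglyMeasurable (Eventually.of_forall fun x => ?_)
  rw [norm_mul, Real.norm_of_nonneg (h0 x)]
  exact (mul_le_of_le_one_right (h0 x) ((Complex.abs_re_le_norm _).trans (hb _))).trans (hC x)

theorem step {ρ κ r s : ℝ} {g : Γ → ℂ} (h : Adm μ χ G ρ κ r g) {N : ℕ} (hN : 0 < N) (y : E)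
    (hy : N * ‖(y : ℂ)‖ ≤ s) : Adm μ χ G ρ κ (r + s) fun c => g c * ga N y c := by
  refine ⟨h.1.mul (ga_cont N y), fun c => ?_, fun z hz => ?_⟩
  · rw [norm_mul]
    exact mul_le_one₀ (h.2.1 c) (norm_nonneg _) (ga_le _ _ _)
  · have e : ∀ x, G x * (f z (χ x) * (g (χ x) * ga N y (χ x))).re =
        (∑ j ∈ range N, G x * (f (z + j * y) (χ x) * g (χ x)).re) / N := fun x => by
      rw [← mul_sum, mul_div_assoc, ← Complex.re_sum, ← Complex.div_natCast_re]
      congr 2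
      simp only [f_add_left, ga, ← sum_mul, ← mul_sum]
      ring
    simp only [e]
    rw [integral_div, integral_finsetSum _ fun (j : ℕ) _ => intg μ hχ hG h0 hC
      (g := fun c => f (z + j * y) c * g c) ((continuous_f _).mul h.1) fun c => by
        rw [norm_mul, norm_f, one_mul]; exact h.2.1 c, le_div_iff₀ (by positivity)]
    refine le_trans (le_of_eq ?_) (sum_le_sum fun j hj => h.2.2 (z + j * y) ?_)
    · rw [sum_const, card_range, nsmul_eq_mul, mul_comm]
    · have a1 : ‖((z + j * y : E) : ℂ)‖ ≤ ‖(z : ℂ)‖ + j * ‖(y : ℂ)‖ := by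
        push_cast
        refine (norm_add_le _ _).trans ?_
        rw [norm_mul, Complex.norm_natCast]
      have a2 : (j : ℝ) * ‖(y : ℂ)‖ ≤ N * ‖(y : ℂ)‖ :=
        mul_le_mul_of_nonneg_right (by exact_mod_cast (mem_range.1 hj).le) (norm_nonneg _)
      linarith

theorem steps {ρ κ r s : ℝ} {g : Γ → ℂ} (h : Adm μ χ G ρ κ r g) {N : ℕ} (hN : 0 < N) (y : ℕ → E)
    (hy : ∀ i, N * ‖(y i : ℂ)‖ ≤ s) (n : ℕ) :
    Adm μ χ G ρ κ (r + n * s) fun c => g c * ∏ i ∈ range n, ga N (y i) c := by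
  induction n with
  | zero => simpa using h
  | succ n ih =>
    have := step μ hχ hG h0 hC ih hN (y n) (hy n)
    simpa only [prod_range_succ, Nat.cast_succ, add_mul, one_mul, add_assoc, mul_assoc] using this

end

theorem ex_seq {w : E} (hw : w ≠ 0) : ∃ (u : ℕ → E) (y : ℕ → ℕ → E),
    (∀ n, ((n + 1) ^ 2 : ℕ) * ‖(u n : ℂ)‖ ≤ ‖(w : ℂ)‖ / 2) ∧
    (∀ n i, ‖(y n i : ℂ)‖ ≤ ‖(u n : ℂ)‖) ∧ ∀ c, c ∉ Cont →
      Tendsto (fun n => ga ((n + 1) ^ 2) (u n) c * ga ((n + 1) ^ 2) (iE * u n) c *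
        ∏ i ∈ range n, ga (n + 1) (y n i) c) atTop (𝓝 0) := by
  obtain ⟨e, he⟩ := exists_surjective_nat E
  have w0 : 0 < ‖(w : ℂ)‖ := norm_pos_iff.2 fun h => hw (Subtype.ext h)
  let u : ℕ → E := fun n => w / (2 * ((n + 1) ^ 2 : ℕ))
  have nu : ∀ n, ((n + 1) ^ 2 : ℕ) * ‖(u n : ℂ)‖ = ‖(w : ℂ)‖ / 2 := fun n => by
    have : ((u n : E) : ℂ) = w / ((2 * ((n + 1) ^ 2 : ℕ) : ℕ) : ℂ) := by
      simp only [u]; push_cast; rfl
    rw [this, norm_div, Complex.norm_natCast]
    push_cast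
    field_simp
  have u0 : ∀ n, 0 < ‖(u n : ℂ)‖ := fun n =>
    (norm_nonneg _).lt_of_ne fun h => by have := nu n; rw [← h, mul_zero] at this; linarith
  choose a b h1 h2 h3 using fun n i => rnd ((e i : ℂ) / u n)
  refine ⟨u, fun n i => e i - (a n i * u n + b n i * (iE * u n)), fun n => (nu n).le,
    fun n i => ?_, fun c hc => ?_⟩
  · have hu : (u n : ℂ) ≠ 0 := norm_pos_iff.1 (u0 n)
    have : ((e i - (a n i * u n + b n i * (iE * u n)) : E) : ℂ) =
        ((e i : ℂ) / u n - (a n i + b n i * Complex.I)) * u n := by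
      push_cast
      rw [coe_iE]
      field_simp
    rw [this, norm_mul]
    exact mul_le_of_le_one_left (norm_nonneg _) (h1 n i)
  · rw [mem_Cont] at hc
    push Not at hc
    obtain ⟨ε, hε, hc⟩ := hc
    rw [NormedAddGroup.tendsto_nhds_zero]
    intro η hη
    obtain ⟨z, hz, hf⟩ := hc (η * ε * ‖(w : ℂ)‖ / 48) (by positivity)
    obtain ⟨i, rfl⟩ := he z
    obtain ⟨m, hm⟩ := exists_nat_gt (24 / (η * ε))
    filter_upwards [eventually_gt_atTop i, eventually_ge_atTop m] with n n1 n2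
    have n3 : 24 < η * ε * (n + 1) := by
      rw [div_lt_iff₀ (by positivity)] at hm
      have : (m : ℝ) ≤ n := by exact_mod_cast n2
      nlinarith [mul_pos hη hε]
    have p1 : ∀ s : Finset ℕ, ‖∏ j ∈ s, ga (n + 1) (e j - (a n j * u n + b n j * (iE * u n))) c‖
        ≤ 1 := fun s => by
      rw [norm_prod]
      exact prod_le_one (fun _ _ => norm_nonneg _) fun _ _ => ga_le _ _ _
    have grid : ∀ (v : E) (d : ℤ), |(d : ℝ)| ≤ ‖(e i : ℂ) / u n‖ + 1 → ε / 3 ≤ ‖f (d * v) c - 1‖ →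
        ‖ga ((n + 1) ^ 2) v c‖ < η := fun v d hd hv => by
      have g1 := ga_small (N := (n + 1) ^ 2) (by positivity) d v c hv
      have g2 : ‖(e i : ℂ) / u n‖ ≤ η * ε / 24 * ((n + 1) ^ 2 : ℕ) := by
        rw [norm_div, div_le_iff₀ (u0 n), mul_assoc, nu]
        linarith
      by_contra hn
      have g3 : η * ((n + 1) ^ 2 : ℕ) * (ε / 3) ≤ ‖ga ((n + 1) ^ 2) v c‖ * ((n + 1) ^ 2 : ℕ) *
          (ε / 3) := by gcongr; exact not_lt.1 hn
      have g4 : η * ε * (n + 1) ≤ η * ε * ((n + 1) ^ 2 : ℕ) := by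
        refine mul_le_mul_of_nonneg_left ?_ (by positivity)
        push_cast
        nlinarith [(Nat.cast_nonneg n : (0 : ℝ) ≤ n)]
      nlinarith
    have d1 : e i = a n i * u n + (b n i * (iE * u n) +
        (e i - (a n i * u n + b n i * (iE * u n)))) := by ring
    have d2 := f_add_le (a n i * u n) (b n i * (iE * u n) +
        (e i - (a n i * u n + b n i * (iE * u n)))) c
    have d3 := f_add_le (b n i * (iE * u n)) (e i - (a n i * u n + b n i * (iE * u n))) c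
    rw [← d1] at d2
    rw [norm_mul, norm_mul]
    have l1 := ga_le ((n + 1) ^ 2) (u n) c
    have l2 := ga_le ((n + 1) ^ 2) (iE * u n) c
    by_cases c1 : ε / 3 ≤ ‖f (a n i * u n) c - 1‖
    · exact ((mul_le_of_le_one_right (by positivity) (p1 _)).trans
        (mul_le_of_le_one_right (norm_nonneg _) l2)).trans_lt (grid _ _ (h2 n i) c1)
    by_cases c2 : ε / 3 ≤ ‖f (b n i * (iE * u n)) c - 1‖
    · exact ((mul_le_of_le_one_right (by positivity) (p1 _)).trans
        (mul_le_of_le_one_left (norm_nonneg _) l1)).trans_lt (grid _ _ (h3 n i) c2)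
    have g1 := ga_small (N := n + 1) n.succ_pos 1 (e i - (a n i * u n + b n i * (iE * u n))) c
      (ε := ε / 3) (by rw [Int.cast_one, one_mul]; linarith)
    refine (mul_le_of_le_one_left (norm_nonneg _) (mul_le_one₀ l1 (norm_nonneg _) l2)).trans_lt ?_
    rw [← mul_prod_erase _ _ (mem_range.2 n1), norm_mul]
    refine (mul_le_of_le_one_right (norm_nonneg _) (p1 _)).trans_lt ?_
    by_contra hn
    have g3 : η * ((n + 1 : ℕ) : ℝ) * (ε / 3) ≤
        ‖ga (n + 1) (e i - (a n i * u n + b n i * (iE * u n))) c‖ * ((n + 1 : ℕ) : ℝ) * (ε / 3) := by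
      gcongr; exact not_lt.1 hn
    push_cast at g1 g3
    rw [abs_one] at g1
    nlinarith

end QW

open QW in
theorem q : QStmt := by
  intro X _ μ _ χ G C hχ hG h0 hC hμ hr w hw
  have i1 : ∀ z, Integrable (fun x => G x * (f z (χ x)).re) μ := fun z =>
    intg μ hχ hG h0 hC (continuous_f z) fun c => (norm_f _ _).le
  have iG : Integrable G μ := by simpa using i1 0
  have a0 : Adm μ χ G (2 * ‖(w : ℂ)‖)
      (4 * ∫ x, G x * (f w (χ x)).re ∂μ - 3 * ∫ x, G x ∂μ) 0 fun _ => 1 := by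
    refine ⟨continuous_const, fun _ => norm_one.le, fun z hz => ?_⟩
    obtain ⟨t, t', rfl⟩ := two_sum (z := z) (w := w) (by linarith)
    have j1 : Integrable (fun x => 2 * (G x * (f (tE t * w) (χ x)).re)) μ := (i1 _).const_mul 2
    have j2 : Integrable (fun x => 2 * (G x * (f (tE t' * w) (χ x)).re)) μ := (i1 _).const_mul 2
    have j3 : Integrable (fun x => 2 * (G x * (f (tE t * w) (χ x)).re) +
      2 * (G x * (f (tE t' * w) (χ x)).re)) μ := j1.add j2
    have j4 : Integrable (fun x => 3 * G x) μ := iG.const_mul 3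
    have := integral_mono (j3.sub j4) (i1 (tE t * w + tE t' * w)) fun x => by
      have := mul_le_mul_of_nonneg_left
        (re_mul_ge (norm_f (tE t * w) (χ x)) (norm_f (tE t' * w) (χ x))) (h0 x)
      simp only [Pi.sub_apply, f_add_left]
      linarith
    simp only [Pi.sub_apply] at this
    rw [integral_sub j3 j4, integral_add j1 j2, integral_const_mul, integral_const_mul,
      integral_const_mul, hr, hr] at this
    simp only [mul_one]
    linarith
  obtain ⟨u, y, hu, hy, hl⟩ := ex_seq hw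
  have a1 : ∀ n : ℕ, Adm μ χ G _ _ _ _ := fun n => steps μ hχ hG h0 hC (step μ hχ hG h0 hC
    (step μ hχ hG h0 hC a0 (N := (n + 1) ^ 2) (by positivity) (u n) (hu n))
      (N := (n + 1) ^ 2) (by positivity) (iE * u n) (s := ‖(w : ℂ)‖ / 2)
      (by simpa using hu n)) n.succ_pos (y n) (s := (n + 1 : ℕ) * ‖(u n : ℂ)‖)
      (fun i => mul_le_mul_of_nonneg_left (hy n i) (Nat.cast_nonneg _)) n
  have a2 : Tendsto (fun n : ℕ => ∫ x, G x * (f 0 (χ x) * (1 * ga ((n + 1) ^ 2) (u n) (χ x) *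
      ga ((n + 1) ^ 2) (iE * u n) (χ x) * ∏ i ∈ range n, ga (n + 1) (y n i) (χ x))).re ∂μ)
      atTop (𝓝 (∫ _ : X, (0 : ℝ) ∂μ)) := by
    simp only [f_zero_left]
    refine tendsto_integral_of_dominated_convergence G (fun n => ?_) iG
      (fun n => Eventually.of_forall fun x => ?_) ?_
    · simp only [one_mul (M := ℂ) (_ * _)]
      exact (intg μ hχ hG h0 hC (a1 n).1 (a1 n).2.1).aestronglyMeasurable
    · rw [norm_mul, Real.norm_of_nonneg (h0 x), one_mul]
      exact mul_le_of_le_one_right (h0 x) ((Complex.abs_re_le_norm _).trans ((a1 n).2.1 _))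
    · filter_upwards [measure_eq_zero_iff_ae_notMem.1 hμ] with x hx
      have := ((Complex.continuous_re.tendsto 0).comp (hl _ hx)).const_mul (G x)
      simpa using this
  have a3 := ge_of_tendsto' a2 fun n => (a1 n).2.2 0 (by
    have := hu n
    have := norm_nonneg (u n : ℂ)
    push_cast at *
    rw [norm_zero]
    nlinarith [(Nat.cast_nonneg n : (0 : ℝ) ≤ n)])
  rw [integral_zero] at a3
  linarith

end Vale.Agent.P032
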