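import Vale.Agent.P032.Rand1

/-! From a proper colouring to a weak measurable colouring. -/

namespace Vale.Agent.P032

open MeasureTheory Filter Topology ComplexConjugate Finset

namespace Rd

variable {k : ℕ}

/-- The proportion of the points `p j` that have colour `i`. -/
noncomputable def avg (i : Fin k) {N : ℕ} (p : Fin N → E) (ω : E → Fin k) : ℝ :=
  (∑ j, XI i (p j) ω) / N

theorem avg_cont (i : Fin k) {N : ℕ} (p : Fin N → E) : Continuous (avg i p) :=
  (continuous_finsetSum _ fun j _ => XI_cont i (p j)).div_const _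

theorem avg_nonneg (i : Fin k) {N : ℕ} (p : Fin N → E) (ω : E → Fin k) : 0 ≤ avg i p ω :=
  div_nonneg (sum_nonneg fun _ _ => XI_nonneg _ _ _) (Nat.cast_nonneg _)

theorem avg_sum {N : ℕ} (hN : 0 < N) (p : Fin N → E) (ω : E → Fin k) : ∑ i, avg i p ω = 1 := by
  simp only [avg]
  rw [← sum_div, sum_comm]
  simp only [XI_sum, sum_const, card_univ, Fintype.card_fin, nsmul_eq_mul, mul_one]
  exact div_self (by exact_mod_cast hN.ne')

section

variable {P : Measure (E → Fin k)} [IsFiniteMeasure P] {i : Fin k} {φ : E → ℝ}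
  (h : ∀ x y, ∫ ω, XI i x ω * XI i y ω ∂P = φ (x - y))

include h

theorem int_avg {N M : ℕ} (p : Fin N → E) (q : Fin M → E) :
    ∫ ω, avg i p ω * avg i q ω ∂P = (∑ j, ∑ l, φ (p j - q l)) / (N * M) := by
  simp only [avg, div_mul_div_comm, sum_mul_sum]
  have ci : ∀ x y, Integrable (fun ω => XI i x ω * XI i y ω) P := fun x y =>
    int_cont ((XI_cont i x).mul (XI_cont i y))
  rw [integral_div, integral_finsetSum _ fun j _ => integrable_finsetSum _ fun l _ => ci _ _]
  congr 1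
  refine sum_congr rfl fun j _ => ?_
  rw [integral_finsetSum _ fun l _ => ci _ _]
  exact sum_congr rfl fun l _ => h _ _

theorem int_le {N M : ℕ} (hN : 0 < N) (hM : 0 < M) (p : Fin N → E) (q : Fin M → E) {L : ℝ}
    (hL : ∀ j l, φ (p j - q l) ≤ L) : ∫ ω, avg i p ω * avg i q ω ∂P ≤ L := by
  rw [int_avg h, div_le_iff₀ (by positivity)]
  refine (sum_le_sum fun j _ => sum_le_sum fun l _ => hL j l).trans (le_of_eq ?_)
  simp only [sum_const, card_univ, Fintype.card_fin, nsmul_eq_mul]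
  ring

theorem int_ge {N M : ℕ} (hN : 0 < N) (hM : 0 < M) (p : Fin N → E) (q : Fin M → E) {L : ℝ}
    (hL : ∀ j l, L ≤ φ (p j - q l)) : L ≤ ∫ ω, avg i p ω * avg i q ω ∂P := by
  rw [int_avg h, le_div_iff₀ (by positivity)]
  refine (le_of_eq ?_).trans (sum_le_sum fun j _ => sum_le_sum fun l _ => hL j l)
  simp only [sum_const, card_univ, Fintype.card_fin, nsmul_eq_mul]
  ring

theorem int_diag {N : ℕ} (hN : 0 < N) (p : Fin N → E) {L : ℝ} (h0 : 0 ≤ L) (h1 : φ 0 ≤ 1)
    (hL : ∀ j l, j ≠ l → φ (p j - p l) ≤ L) : ∫ ω, avg i p ω * avg i p ω ∂P ≤ L + 1 / N := by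
  rw [int_avg h, div_le_iff₀ (by positivity)]
  have : ∀ j l, φ (p j - p l) ≤ L + if j = l then 1 else 0 := fun j l => by
    split_ifs with e
    · rw [e, sub_self]; linarith
    · linarith [hL j l e]
  refine (sum_le_sum fun j _ => sum_le_sum fun l _ => this j l).trans (le_of_eq ?_)
  simp only [sum_add_distrib, sum_const, card_univ, Fintype.card_fin, nsmul_eq_mul, sum_ite_eq,
    mem_univ, if_true]
  have : (N : ℝ) ≠ 0 := by positivity
  field_simp

theorem phi_nonneg (z : E) : 0 ≤ φ z := by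
  rw [← sub_zero z, ← h]
  exact integral_nonneg fun ω => mul_nonneg (XI_nonneg _ _ _) (XI_nonneg _ _ _)

theorem phi_le (z : E) : φ z ≤ φ 0 := by
  rw [← sub_zero z, ← h, ← sub_self z, ← h]
  refine integral_mono (int_cont ((XI_cont i _).mul (XI_cont i _)))
    (int_cont ((XI_cont i _).mul (XI_cont i _))) fun ω => ?_
  simp only [XI_sq]
  exact mul_le_of_le_one_right (XI_nonneg _ _ _) (XI_le _ _ _)

theorem phi_pd (s : Finset E) (a : E → ℂ) :
    0 ≤ (∑ x ∈ s, ∑ y ∈ s, a x * conj (a y) * φ (x - y)).re := by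
  have ci : ∀ x y, Integrable (fun ω => a x * conj (a y) * ((XI i x ω * XI i y ω : ℝ) : ℂ)) P :=
    fun x y => ((int_cont ((XI_cont i x).mul (XI_cont i y))).ofReal).const_mul _
  have e : ∑ x ∈ s, ∑ y ∈ s, a x * conj (a y) * φ (x - y) =
      ∫ ω, ((‖∑ x ∈ s, a x * (XI i x ω : ℝ)‖ ^ 2 : ℝ) : ℂ) ∂P := by
    have e1 : ∀ ω, ((‖∑ x ∈ s, a x * (XI i x ω : ℝ)‖ ^ 2 : ℝ) : ℂ) =
        ∑ x ∈ s, ∑ y ∈ s, a x * conj (a y) * ((XI i x ω * XI i y ω : ℝ) : ℂ) := fun ω => by
      rw [Complex.ofReal_pow, ← Complex.mul_conj', map_sum, sum_mul_sum]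
      refine sum_congr rfl fun x _ => sum_congr rfl fun y _ => ?_
      rw [map_mul, Complex.conj_ofReal]
      push_cast
      ring
    simp only [e1]
    rw [integral_finsetSum _ fun x _ => integrable_finsetSum _ fun y _ => ci x y]
    refine sum_congr rfl fun x _ => ?_
    rw [integral_finsetSum _ fun y _ => ci x y]
    refine sum_congr rfl fun y _ => ?_
    rw [integral_const_mul, integral_complex_ofReal, h]
  rw [e, integral_complex_ofReal, Complex.ofReal_re]
  exact integral_nonneg fun ω => sq_nonneg _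

theorem int_diff {N M : ℕ} (hN : 0 < N) (hNM : N ≤ M) (p : Fin N → E) (q : Fin M → E)
    (hp : Function.Injective p) (hq : Function.Injective q) (h1 : φ 0 ≤ 1) {x : ℂ} {r ε : ℝ}
    (hr : 0 < r) (hε : 0 ≤ ε) (np : ∀ j, ‖(p j : ℂ) - x‖ < r) (nq : ∀ j, ‖(q j : ℂ) - x‖ < r)
    (hu : ∀ z z' : E, z ≠ 0 → z' ≠ 0 → ‖(z : ℂ) - z'‖ < 4 * r → |φ z - φ z'| ≤ ε) :
    ∫ ω, (avg i q ω - avg i p ω) ^ 2 ∂P ≤ 4 * ε + 2 / N := by
  have hM : 0 < M := hN.trans_le hNM
  obtain ⟨w, hw⟩ := dense_E (r : ℂ) hr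
  have w0 : w ≠ 0 := by
    rintro rfl
    simp [abs_of_pos hr] at hw
  have w1 : ‖(w : ℂ)‖ < 2 * r := by
    have := norm_add_le ((w : ℂ) - r) r
    rw [sub_add_cancel, Complex.norm_real, Real.norm_of_nonneg hr.le] at this
    linarith
  have key : ∀ a b : E, ‖(a : ℂ) - x‖ < r → ‖(b : ℂ) - x‖ < r → a - b ≠ 0 →
      |φ (a - b) - φ w| ≤ ε := fun a b ha hb hab => by
    refine hu _ _ hab w0 ((norm_sub_le _ _).trans_lt ?_)
    have := norm_sub_le ((a : ℂ) - x) (b - x)
    rw [sub_sub_sub_cancel_right] at this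
    push_cast
    linarith
  have L0 : 0 ≤ φ w + ε := add_nonneg (phi_nonneg h w) hε
  have a1 := int_diag h hN p L0 h1 fun j l hjl => by
    linarith [(abs_le.1 (key _ _ (np j) (np l) (sub_ne_zero.2 (hp.ne hjl)))).2]
  have a2 := int_diag h hM q L0 h1 fun j l hjl => by
    linarith [(abs_le.1 (key _ _ (nq j) (nq l) (sub_ne_zero.2 (hq.ne hjl)))).2]
  have a3 := int_ge h hM hN q p (L := φ w - ε) fun j l => by
    by_cases e : q j - p l = 0
    · rw [e]; linarith [phi_le h w]
    · linarith [(abs_le.1 (key _ _ (nq j) (np l) e)).1]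
  have i1 : Integrable (fun ω => avg i p ω * avg i p ω) P :=
    int_cont ((avg_cont i p).mul (avg_cont i p))
  have i2 : Integrable (fun ω => avg i q ω * avg i q ω) P :=
    int_cont ((avg_cont i q).mul (avg_cont i q))
  have i3 : Integrable (fun ω => 2 * (avg i q ω * avg i p ω)) P :=
    (int_cont ((avg_cont i q).mul (avg_cont i p))).const_mul 2
  have i4 : Integrable (fun ω => avg i q ω * avg i q ω + avg i p ω * avg i p ω) P := i2.add i1
  have e : ∀ ω, (avg i q ω - avg i p ω) ^ 2 =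
      avg i q ω * avg i q ω + avg i p ω * avg i p ω - 2 * (avg i q ω * avg i p ω) :=
    fun ω => by ring
  simp only [e]
  rw [integral_sub i4 i3, integral_add i2 i1, integral_const_mul]
  have a4 : (1 : ℝ) / M ≤ 1 / N :=
    one_div_le_one_div_of_le (by exact_mod_cast hN) (by exact_mod_cast hNM)
  have a5 : (2 : ℝ) / N = 1 / N + 1 / N := by ring
  linarith

end

theorem ex_r (φ : Fin k → E → ℝ) (hu : ∀ i, ∀ ε > 0, ∃ δ > 0, ∀ z z' : E, z ≠ 0 → z' ≠ 0 →
    ‖(z : ℂ) - z'‖ < δ → |φ i z - φ i z'| ≤ ε) : ∃ r : ℕ → ℝ, (∀ n, 0 < r n) ∧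
    (∀ n, r n ≤ 1 / 2) ∧ (∀ n, r (n + 1) ≤ r n) ∧ ∀ n i, ∀ z z' : E, z ≠ 0 → z' ≠ 0 →
      ‖(z : ℂ) - z'‖ < 4 * r n → |φ i z - φ i z'| ≤ (1 / 4) ^ n := by
  have h1 : ∀ n : ℕ, ∃ d : ℝ, 0 < d ∧ d < 1 / 2 ∧ ∀ i, ∀ z z' : E, z ≠ 0 → z' ≠ 0 →
      ‖(z : ℂ) - z'‖ < 4 * d → |φ i z - φ i z'| ≤ (1 / 4) ^ n := fun n => by
    have a1 : ∀ i, ∀ᶠ d in 𝓝[>] (0 : ℝ), ∀ z z' : E, z ≠ 0 → z' ≠ 0 →
        ‖(z : ℂ) - z'‖ < 4 * d → |φ i z - φ i z'| ≤ (1 / 4) ^ n := fun i => by
      obtain ⟨δ, hδ, h⟩ := hu i ((1 / 4) ^ n) (by positivity)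
      filter_upwards [Ioo_mem_nhdsGT (show (0 : ℝ) < δ / 4 by positivity)] with d hd z z' b1 b2 b3
      exact h z z' b1 b2 (by linarith [hd.2])
    obtain ⟨d, hd, h⟩ := ((show ∀ᶠ d in 𝓝[>] (0 : ℝ), d ∈ Set.Ioo (0 : ℝ) (1 / 2) from
      Ioo_mem_nhdsGT (by norm_num)).and (eventually_all.2 a1)).exists
    exact ⟨d, hd.1, hd.2, h⟩
  choose d d0 d1 d2 using h1
  let r : ℕ → ℝ := fun n => Nat.rec (d 0) (fun m s => min s (d (m + 1))) n
  have r1 : ∀ n, r n ≤ d n := fun n => by
    cases n with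
    | zero => exact le_rfl
    | succ n => exact min_le_right _ _
  refine ⟨r, fun n => ?_, fun n => (r1 n).trans (d1 n).le, fun n => min_le_left _ _,
    fun n i z z' b1 b2 b3 => d2 n i z z' b1 b2 (by linarith [r1 n])⟩
  induction n with
  | zero => exact d0 0
  | succ n ih => exact lt_min ih (d0 _)

end Rd

open Rd in
theorem rand (hl : LimStmt) (hu : UCStmt) : RandStmt := by
  intro k c hc
  have hk : 0 < k := Fin.pos (c 0)
  obtain ⟨⟨P, hP⟩, φ, h, hrot, hone⟩ := ex_P hl c hc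
  change ∀ i x y, ∫ ω, XI i x ω * XI i y ω ∂P = φ i (x - y) at h
  have h1 : ∀ i, φ i 0 ≤ 1 := fun i => by
    rw [← sub_self (0 : E), ← h]
    simpa using (le_abs_self _).trans
      (norm_integral_le_of_norm_le_const (μ := P) (Eventually.of_forall (norm_XX i 0 0)))
  obtain ⟨r, r0, r1, r2, r3⟩ := ex_r φ fun i => hu (φ i) (hrot i) (phi_pd (h i))
  choose ι p mι pi pn using fun n => pts (r0 n) (4 ^ n)
  let F : ℕ → Fin k → ℂ → (E → Fin k) → ℝ := fun n i x ω => avg i (p n (ι n x)) ω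
  have N0 : ∀ n : ℕ, 0 < 4 ^ n := fun n => by positivity
  have mF : ∀ n i, Measurable fun q : ℂ × (E → Fin k) => F n i q.1 q.2 := fun n i =>
    (measurable_from_prod_countable_right (f := fun q : ℕ × (E → Fin k) => avg i (p n q.1) q.2)
      fun m => (avg_cont i (p n m)).measurable).comp (((mι n).comp measurable_fst).prodMk
        measurable_snd)
  let a : ℝ := 1 / (2 * k)
  have a0 : 0 < a := by positivity
  let B : Fin k → Set (ℂ × (E → Fin k)) := fun i => {q | ∀ᶠ n in atTop, a ≤ F n i q.1 q.2}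
  have mB : ∀ i, MeasurableSet (B i) := fun i => by
    have : B i = ⋃ m : ℕ, ⋂ n : ℕ, ⋂ (_ : m ≤ n), {q | a ≤ F n i q.1 q.2} := by
      ext q
      simp [B, eventually_atTop]
    rw [this]
    exact .iUnion fun m => .iInter fun n => .iInter fun _ =>
      measurableSet_le measurable_const (mF n i)
  have cov : ∀ x, ∀ᵐ ω ∂P, ∃ i, (x, ω) ∈ B i := fun x => by
    have s1 : ∀ i, ∀ᵐ ω ∂P, Summable fun n => 2 ^ n * (F (n + 1) i x ω - F n i x ω) ^ 2 :=
      fun i => by
      have cc : ∀ n, Continuous fun ω => 2 ^ n * (F (n + 1) i x ω - F n i x ω) ^ 2 := fun n =>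
        continuous_const.mul (((avg_cont _ _).sub (avg_cont _ _)).pow 2)
      refine ae_summ P _ (fun n => 6 * (1 / 2) ^ n) (fun n => (cc n).measurable)
        (fun n => int_cont (cc n)) (fun n ω => by positivity) (fun n => ?_)
        (summable_geometric_two.mul_left 6)
      rw [integral_const_mul]
      have := int_diff (h i) (N0 n) (Nat.pow_le_pow_right (by norm_num) n.le_succ)
        (p n (ι n x)) (p (n + 1) (ι (n + 1) x)) (pi _ _) (pi _ _) (h1 i) (r0 n) (by positivity)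
        (pn n x) (fun j => (pn (n + 1) x j).trans_le (r2 n)) (r3 n i)
      refine (mul_le_mul_of_nonneg_left this (by positivity)).trans (le_of_eq ?_)
      have e : (4 : ℝ) ^ n = 2 ^ n * 2 ^ n := by rw [← mul_pow]; norm_num
      push_cast
      rw [one_div_pow, one_div_pow, e]
      field_simp
      norm_num
    filter_upwards [ae_all_iff.2 s1] with ω hω
    have s2 : ∀ i, ∃ l, Tendsto (fun n => F n i x ω) atTop (𝓝 l) := fun i => by
      refine cauchySeq_tendsto_of_complete (cauchySeq_of_summable_dist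
        (((hω i).add summable_geometric_two).of_nonneg_of_le (fun _ => dist_nonneg) fun n => ?_))
      rw [Real.dist_eq, abs_sub_comm, Nat.succ_eq_add_one, ← sq_abs, one_div_pow]
      generalize |F (n + 1) i x ω - F n i x ω| = d
      have t0 : (0 : ℝ) < 2 ^ n := by positivity
      generalize (2 : ℝ) ^ n = t at t0
      have e : t * d ^ 2 + 1 / t - d = ((t * d - 1 / 2) ^ 2 + 3 / 4) / t := by field_simp; ring
      have : 0 ≤ ((t * d - 1 / 2) ^ 2 + 3 / 4) / t := by positivity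
      linarith
    choose l hl using s2
    have s3 : ∑ i, l i = 1 := tendsto_nhds_unique (tendsto_finsetSum univ fun i _ => hl i)
      (by simp only [F, avg_sum (N0 _)]; exact tendsto_const_nhds)
    have s4 : ∃ i, a < l i := by
      by_contra hn
      push Not at hn
      have := sum_le_sum fun i (_ : i ∈ univ) => hn i
      rw [s3, sum_const, card_univ, Fintype.card_fin, nsmul_eq_mul] at this
      have e : (k : ℝ) * a = 1 / 2 := by
        have : (k : ℝ) ≠ 0 := by positivity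
        simp only [a]
        field_simp
      linarith
    obtain ⟨i, hi⟩ := s4
    exact ⟨i, ((hl i).eventually_const_lt hi).mono fun n hn => hn.le⟩
  have dis : ∀ i x y, ‖x - y‖ = 1 → ∀ᵐ ω ∂P, ¬((x, ω) ∈ B i ∧ (y, ω) ∈ B i) := by
    intro i x y hxy
    have cc : ∀ n, Continuous fun ω => F n i x ω * F n i y ω := fun n =>
      (avg_cont _ _).mul (avg_cont _ _)
    have s1 := ae_summ P _ (fun n => (1 / 4) ^ n) (fun n => (cc n).measurable)
      (fun n => int_cont (cc n)) (fun n ω => mul_nonneg (avg_nonneg _ _ _) (avg_nonneg _ _ _))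
      (fun n => int_le (h i) (N0 n) (N0 n) _ _ fun j l => by
        have b1 := pn n x j
        have b2 := pn n y l
        generalize p n (ι n x) j = u at b1
        generalize p n (ι n y) l = v at b2
        have b3 : |‖((u - v : E) : ℂ)‖ - 1| < 2 * r n := by
          rw [← hxy]
          refine (abs_norm_sub_norm_le _ _).trans_lt ?_
          have e : ((u - v : E) : ℂ) - (x - y) = ((u : ℂ) - x) - (v - y) := by push_cast; ring
          rw [e]
          linarith [norm_sub_le ((u : ℂ) - x) (v - y)]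
        obtain ⟨w, hw⟩ := exists_norm (u - v)
        obtain ⟨t, ht⟩ := exists_rot (a := u - v) (b := w) (by rw [hw]; simp)
        have w0 : w ≠ 0 := by
          rintro rfl
          rw [ht] at b3
          simp at b3
          linarith [r1 n]
        have b4 := r3 n i w 1 w0 one_ne_zero (by
          rw [hw, OneMemClass.coe_one, ← Complex.ofReal_one, ← Complex.ofReal_sub,
            Complex.norm_real, Real.norm_eq_abs]
          linarith [r0 n])
        rw [hone, sub_zero] at b4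
        rw [ht, hrot]
        exact (le_abs_self _).trans b4)
      (summable_geometric_of_lt_one (by norm_num) (by norm_num))
    filter_upwards [s1] with ω hω hb
    obtain ⟨n, b1, b2, b3⟩ := ((hω.tendsto_atTop_zero.eventually_lt_const (mul_pos a0 a0)).and
      (Eventually.and hb.1 hb.2)).exists
    exact absurd b1 (not_lt.2 (mul_le_mul b2 b3 a0.le (a0.le.trans b2)))
  have c1 : ∀ᵐ ω ∂P, ∀ᵐ x : ℂ, ∃ i, (x, ω) ∈ B i := by
    refine (Measure.ae_ae_comm (p := fun x ω => ∃ i, (x, ω) ∈ B i) ?_).1 (Eventually.of_forall cov)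
    have : {q : ℂ × (E → Fin k) | ∃ i, (q.1, q.2) ∈ B i} = ⋃ i, B i := by ext; simp
    rw [this]
    exact .iUnion mB
  have c2 : ∀ i, ∀ᵐ ω ∂P, ∀ᵐ q : ℝ × ℂ ∂(volume.prod volume),
      ¬((q.2, ω) ∈ B i ∧ (q.2 + Complex.exp (q.1 * Complex.I), ω) ∈ B i) := fun i => by
    refine (Measure.ae_ae_comm (p := fun (q : ℝ × ℂ) ω =>
      ¬((q.2, ω) ∈ B i ∧ (q.2 + Complex.exp (q.1 * Complex.I), ω) ∈ B i)) ?_).1
      (Eventually.of_forall fun q => dis i _ _ (by
        rw [sub_add_cancel_left, norm_neg, Complex.norm_exp_ofReal_mul_I]))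
    refine MeasurableSet.compl (MeasurableSet.inter ?_ ?_)
    · exact (measurable_fst.snd.prodMk measurable_snd) (mB i)
    · exact ((show Measurable fun q : (ℝ × ℂ) × (E → Fin k) =>
        q.1.2 + Complex.exp (q.1.1 * Complex.I) by fun_prop).prodMk measurable_snd) (mB i)
  obtain ⟨ω, o1, o2⟩ := (c1.and (ae_all_iff.2 c2)).exists
  exact ⟨fun i => {x | (x, ω) ∈ B i}, fun i => measurable_prodMk_right (mB i), o1,
    fun i => Measure.ae_ae_of_ae_prod (o2 i)⟩

end Vale.Agent.P032
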