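import Vale.Agent.P032.Mean

/-! A random colouring of the algebraic plane with invariant pair correlations. -/

namespace Vale.Agent.P032

open MeasureTheory Filter Topology ComplexConjugate Finset

namespace Rd

variable {k : ℕ}

/-- The indicator that the point `z` has colour `i`. -/
def XI (i : Fin k) (z : E) (ω : E → Fin k) : ℝ := if ω z = i then 1 else 0

theorem XI_cont (i : Fin k) (z : E) : Continuous (XI i z) :=
  (continuous_of_discreteTopology (f := fun j : Fin k => if j = i then (1 : ℝ) else 0)).comp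
    (continuous_apply z)

theorem XI_nonneg (i : Fin k) (z : E) (ω : E → Fin k) : 0 ≤ XI i z ω := by
  unfold XI; split_ifs <;> norm_num

theorem XI_le (i : Fin k) (z : E) (ω : E → Fin k) : XI i z ω ≤ 1 := by
  unfold XI; split_ifs <;> norm_num

theorem XI_sq (i : Fin k) (z : E) (ω : E → Fin k) : XI i z ω * XI i z ω = XI i z ω := by
  unfold XI; split_ifs <;> norm_num

theorem XI_sum (z : E) (ω : E → Fin k) : ∑ i, XI i z ω = 1 := by
  simp [XI]

theorem norm_XX (i : Fin k) (x y : E) (ω : E → Fin k) : ‖XI i x ω * XI i y ω‖ ≤ 1 := by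
  rw [Real.norm_of_nonneg (mul_nonneg (XI_nonneg _ _ _) (XI_nonneg _ _ _))]
  exact mul_le_one₀ (XI_le _ _ _) (XI_nonneg _ _ _) (XI_le _ _ _)

theorem cont_XX (i : Fin k) (x y : E) :
    Continuous fun ω : E → Fin k => ((XI i x ω * XI i y ω : ℝ) : ℂ) :=
  Complex.continuous_ofReal.comp ((XI_cont i x).mul (XI_cont i y))

theorem int_cont {P : Measure (E → Fin k)} [IsFiniteMeasure P] {F : (E → Fin k) → ℝ}
    (hF : Continuous F) : Integrable F P :=
  hF.integrable_of_hasCompactSupport (HasCompactSupport.of_compactSpace F)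

theorem ex_P (hl : LimStmt) (c : ℂ → Fin k) (hc : Proper c) :
    ∃ (P : ProbabilityMeasure (E → Fin k)) (φ : Fin k → E → ℝ),
      (∀ i x y, ∫ ω, XI i x ω * XI i y ω ∂(P : Measure (E → Fin k)) = φ i (x - y)) ∧
      (∀ i (u : T) z, φ i (tE u * z) = φ i z) ∧ ∀ i, φ i 1 = 0 := by
  haveI : Countable (Multiplicative E) := inferInstanceAs (Countable E)
  obtain ⟨P1, h1⟩ := hl (Multiplicative E) (E → Fin k)
    fun a => diracProba fun z => c ((z + a.toAdd : E) : ℂ)
  let ψ : Fin k → E → E → ℂ := fun i x y =>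
    ∫ ω, ((XI i x ω * XI i y ω : ℝ) : ℂ) ∂(P1 : Measure (E → Fin k))
  have m1 : ∀ i x y, HasM (fun a : Multiplicative E =>
      ((XI i x (fun z => c ((z + a.toAdd : E) : ℂ)) * XI i y (fun z => c ((z + a.toAdd : E) : ℂ)) : ℝ) : ℂ))
      (ψ i x y) := fun i x y => (h1 _ (cont_XX i x y)).congr fun a => by
    change ∫ ω, _ ∂(Measure.dirac _) = _
    rw [integral_dirac]
  have t1 : ∀ i x y, ψ i x y = ψ i (x - y) 0 := fun i x y => by
    refine ((m1 i x y).shift (C := 1) (fun a => ?_) (Multiplicative.ofAdd (-y))).unique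
      ((m1 i (x - y) 0).congr fun a => ?_)
    · rw [Complex.norm_real]; exact norm_XX _ _ _ _
    · have e1 : x + (Multiplicative.ofAdd (-y) * a).toAdd = x - y + a.toAdd := by
        simp only [toAdd_mul, toAdd_ofAdd]; ring
      have e2 : y + (Multiplicative.ofAdd (-y) * a).toAdd = 0 + a.toAdd := by
        simp only [toAdd_mul, toAdd_ofAdd]; ring
      simp only [XI, e1, e2]
  have z1 : ∀ i (t : T), ψ i (tE t) 0 = 0 := fun i t => by
    refine (m1 i (tE t) 0).unique ((HasM.const 0).congr fun a => ?_)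
    have := hc ((tE t + a.toAdd : E) : ℂ) ((0 + a.toAdd : E) : ℂ) (by
      push_cast
      rw [add_sub_add_right_eq_sub, sub_zero, norm_tE])
    simp only [XI]
    split_ifs with a1 a2
    · exact absurd (a1.trans a2.symm) this
    all_goals simp
  have bψ : ∀ i x y, ‖ψ i x y‖ ≤ 1 := fun i x y => (m1 i x y).norm_le_const fun a => by
    rw [Complex.norm_real]; exact norm_XX _ _ _ _
  have rc : ∀ t : T, Continuous fun (ω : E → Fin k) (z : E) => ω (tE t * z) := fun t => by
    fun_prop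
  obtain ⟨P, h2⟩ := hl T (E → Fin k) fun t => P1.map (rc t).measurable.aemeasurable
  have m2 : ∀ i x y, HasM (fun t : T => ψ i (tE t * (x - y)) 0)
      ((∫ ω, XI i x ω * XI i y ω ∂(P : Measure (E → Fin k)) : ℝ) : ℂ) := fun i x y => by
    rw [← integral_complex_ofReal]
    refine (h2 _ (cont_XX i x y)).congr fun t => ?_
    rw [ProbabilityMeasure.toMeasure_map, integral_map (rc t).measurable.aemeasurable
      (cont_XX i x y).aestronglyMeasurable, mul_sub, ← t1]
    rfl
  refine ⟨P, fun i z => ∫ ω, XI i z ω * XI i 0 ω ∂(P : Measure (E → Fin k)), fun i x y => ?_,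
    fun i u z => ?_, fun i => ?_⟩
  · exact Complex.ofReal_injective ((m2 i x y).unique (by simpa using m2 i (x - y) 0))
  · refine Complex.ofReal_injective ((m2 i (tE u * z) 0).unique ?_)
    refine ((m2 i z 0).shift (fun t => bψ _ _ _) u).congr fun t => ?_
    simp only [map_mul, sub_zero]
    congr 1
    ring
  · refine Complex.ofReal_injective ((m2 i 1 0).unique ?_)
    exact (HasM.const _).congr fun t => by simp [z1]

theorem ae_summ {Ω : Type} [MeasurableSpace Ω] (P : Measure Ω) (g : ℕ → Ω → ℝ) (b : ℕ → ℝ)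
    (hm : ∀ n, Measurable (g n)) (hi : ∀ n, Integrable (g n) P) (h0 : ∀ n ω, 0 ≤ g n ω)
    (hb : ∀ n, ∫ ω, g n ω ∂P ≤ b n) (hs : Summable b) : ∀ᵐ ω ∂P, Summable fun n => g n ω := by
  have b0 : ∀ n, 0 ≤ b n := fun n => (integral_nonneg (h0 n)).trans (hb n)
  have h1 : ∫⁻ ω, ∑' n, ENNReal.ofReal (g n ω) ∂P ≠ ⊤ := by
    rw [lintegral_tsum fun n => (hm n).ennreal_ofReal.aemeasurable]
    refine ne_top_of_le_ne_top (b := ∑' n, ENNReal.ofReal (b n)) ?_
      (ENNReal.tsum_le_tsum fun n => ?_)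
    · rw [← ENNReal.ofReal_tsum_of_nonneg b0 hs]
      exact ENNReal.ofReal_ne_top
    · rw [← ofReal_integral_eq_lintegral_ofReal (hi n) (Eventually.of_forall (h0 n))]
      exact ENNReal.ofReal_le_ofReal (hb n)
  filter_upwards [ae_lt_top (Measurable.ennreal_tsum fun n => (hm n).ennreal_ofReal) h1] with ω hω
  exact (ENNReal.summable_toReal hω.ne).congr fun n => ENNReal.toReal_ofReal (h0 n ω)

theorem dense_E (x : ℂ) {r : ℝ} (hr : 0 < r) : ∃ z : E, ‖(z : ℂ) - x‖ < r := by
  obtain ⟨a, ha⟩ := exists_rat_near x.re (half_pos hr)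
  obtain ⟨b, hb⟩ := exists_rat_near x.im (half_pos hr)
  refine ⟨(a : E) + (b : E) * iE, (Complex.norm_le_abs_re_add_abs_im _).trans_lt ?_⟩
  have e : (((a : E) + (b : E) * iE : E) : ℂ) = (a : ℂ) + (b : ℂ) * Complex.I := by
    push_cast; simp
  rw [e]
  simp only [Complex.sub_re, Complex.add_re, Complex.ratCast_re, Complex.mul_re, Complex.I_re,
    Complex.ratCast_im, Complex.I_im, Complex.sub_im, Complex.add_im, Complex.mul_im, mul_zero,
    zero_mul, sub_zero, add_zero, zero_add, mul_one]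
  rw [abs_sub_comm] at ha hb
  linarith

theorem pts {r : ℝ} (hr : 0 < r) (N : ℕ) : ∃ (ι : ℂ → ℕ) (p : ℕ → Fin N → E), Measurable ι ∧
    (∀ m, Function.Injective (p m)) ∧ ∀ x j, ‖(p (ι x) j : ℂ) - x‖ < r := by
  classical
  obtain ⟨e, he⟩ := exists_surjective_nat E
  have h1 : ∀ x : ℂ, ∃ m, ‖(e m : ℂ) - x‖ < r / 2 := fun x => by
    obtain ⟨z, hz⟩ := dense_E x (half_pos hr)
    obtain ⟨m, rfl⟩ := he z
    exact ⟨m, hz⟩
  obtain ⟨q, q0, q1⟩ := exists_rat_btwn (show (0 : ℝ) < r / 2 / (N + 1) by positivity)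
  refine ⟨fun x => Nat.find (h1 x), fun m j => e m + ((j : ℕ) : E) * (q : E),
    measurable_find h1 fun m => (isOpen_lt (by fun_prop) continuous_const).measurableSet,
    fun m a b hab => ?_, fun x j => ?_⟩
  · have hq : (q : E) ≠ 0 := by
      have : q ≠ 0 := by rintro rfl; simp at q0
      exact_mod_cast this
    have := mul_right_cancel₀ hq (add_left_cancel hab)
    exact Fin.ext (by exact_mod_cast this)
  · have a1 := Nat.find_spec (h1 x)
    have e1 : ((e (Nat.find (h1 x)) + ((j : ℕ) : E) * (q : E) : E) : ℂ) - x =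
        ((e (Nat.find (h1 x)) : ℂ) - x) + (((j : ℕ) * q : ℝ) : ℂ) := by
      push_cast; ring
    rw [e1]
    refine (norm_add_le _ _).trans_lt ?_
    rw [Complex.norm_real, Real.norm_of_nonneg (by positivity)]
    rw [lt_div_iff₀ (by positivity)] at q1
    have : ((j : ℕ) : ℝ) ≤ N := by exact_mod_cast j.2.le
    nlinarith

end Rd

end Vale.Agent.P032
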