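import Vale.Agent.P032.Closed

/-! Rigidity from the work packages. -/

namespace Vale.Agent.P032

open MeasureTheory Filter Topology Finset Function ComplexConjugate

theorem rig (hm : MaxStmt) (hk : KStmt) (hf : FinStmt) (hq : QStmt) : RigStmt := by
  have key : ∀ (ν : Measure Γ) [IsProbabilityMeasure ν], Inv ν → Wild ν →
      ∀ w, w ≠ 0 → ∫ χ, f w χ ∂ν = 0 := fun ν _ hi hw w hw0 => by
    obtain ⟨μ, hμ, h1⟩ := hm ν hi hw w
    obtain ⟨k, hd, h2⟩ := hk μ hμ
    have md : Measurable fun x : Om => x 0 - x 1 := by fun_prop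
    have i1 := int_f (μ : Measure Om) md
    have i4 : ∀ w, Integrable (fun x : Om => (f w (x 0 - x 1)).re) (μ : Measure Om) :=
      fun w => (i1 w).re
    have h3 : ∀ w, ∫ x, (f w (x 0 - x 1)).re ∂(μ : Measure Om) = ∫ x, k w x ∂(μ : Measure Om) :=
      fun w => (integral_re (i1 w)).trans (by rw [h2]; rfl)
    have h4 : ∀ (u : T) w, ∫ x, k (tE u * w) x ∂(μ : Measure Om) = ∫ x, k w x ∂(μ : Measure Om) :=
      fun u w => (integral_congr_ae (hd.equi u w)).trans (mp_int (hμ.inv u) (hd.meas w))
    have h5 := hf Om μ _ k ⟨hμ.inv, fun a b x => by rw [map_mul, mul_smul],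
      fun x => by rw [map_one, one_smul]⟩ hμ.erg hd (fun w hw => by
        have := hq Om μ _ (fun _ => 1) 1 md measurable_const (fun _ => zero_le_one)
          (fun _ => le_rfl) hμ.wild (fun u w => by simp only [one_mul, h3, h4]) w hw
        simpa [h3] using this) (fun w N t => by
        have i2 : Integrable (fun x : Om => ∑ i, f (tE (t i) * w) (x 0 - x 1)) (μ : Measure Om) :=
          integrable_finsetSum _ fun i _ => i1 _
        have e1 : ∀ x : Om, ‖∑ i, f (tE (t i) * w) (x 0 - x 1)‖ ^ 2
            = ∑ i, ∑ j, (f ((tE (t i) - tE (t j)) * w) (x 0 - x 1)).re := fun x => by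
          simp only [sub_mul, f_sub_left, ← Complex.re_sum, ← mul_sum, ← sum_mul, ← map_sum,
            Complex.mul_conj', ← Complex.ofReal_pow, Complex.ofReal_re]
        have e2 : ∫ x, ‖∑ i, f (tE (t i) * w) (x 0 - x 1)‖ ^ 2 ∂(μ : Measure Om)
            = ∑ i, ∑ j, ∫ x, k ((tE (t i) - tE (t j)) * w) x ∂(μ : Measure Om) := by
          simp only [e1]
          rw [integral_finsetSum _ fun i _ => integrable_finsetSum _ fun j _ => i4 _]
          refine sum_congr rfl fun i _ => ?_
          rw [integral_finsetSum _ fun j _ => i4 _]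
          exact sum_congr rfl fun j _ => h3 _
        have e3 : ∫ x, ∑ i, f (tE (t i) * w) (x 0 - x 1) ∂(μ : Measure Om)
            = ((N * ∫ x, k w x ∂(μ : Measure Om) : ℝ) : ℂ) := by
          rw [integral_finsetSum _ fun i _ => i1 _]
          simp [h2, h4]
        have i3 : Integrable (fun x : Om => ‖∑ i, f (tE (t i) * w) (x 0 - x 1)‖ ^ 2)
            (μ : Measure Om) := by
          simp only [e1]
          exact integrable_finsetSum _ fun i _ => integrable_finsetSum _ fun j _ => i4 _
        have h6 := ConvexOn.map_integral_le (convexOn_pow 2) (continuous_pow 2).continuousOn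
          isClosed_Ici (Eventually.of_forall fun x => norm_nonneg _) i2.norm i3
        rw [← e2]
        refine le_trans ?_ h6
        have h7 := norm_integral_le_integral_norm (μ := (μ : Measure Om))
          fun x : Om => ∑ i, f (tE (t i) * w) (x 0 - x 1)
        rw [e3, Complex.norm_real] at h7
        exact sq_le_sq' (abs_le.1 h7).1 (abs_le.1 h7).2) (by rw [← h3]; simp) w hw0
    rw [h2, h5] at h1
    simpa using h1
  intro ν _ hi hw w hw0
  rcases eq_zero_or_neZero ν with rfl | _
  · simp
  have := key ((ν Set.univ)⁻¹ • ν) (fun t => (hi t).smul_measure _) (by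
    rw [Wild, Measure.smul_apply, show ν Cont = 0 from hw, smul_zero]) w hw0
  rw [integral_smul_measure, smul_eq_zero] at this
  refine this.resolve_left ?_
  simp [ENNReal.toReal_eq_zero_iff, NeZero.ne]

end Vale.Agent.P032
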