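import Vale.Agent.P032.Face

/-! Selection maps on exchangeable sequences. -/

namespace Vale.Agent.P032

open MeasureTheory Filter Topology Finset Function
open scoped BoundedContinuousFunction

/-- Sequences of characters. -/
abbrev Om := ℕ → Γ

/-- The class of measures over which we maximise. -/
structure InK (μ : Measure Om) : Prop where
  inv : ∀ t : T, MeasurePreserving (fun x : Om => tE t • x) μ μ
  inj : ∀ σ : ℕ → ℕ, Injective σ → MeasurePreserving (fun x : Om => x ∘ σ) μ μ
  wild : μ {x | x 0 - x 1 ∈ Cont} = 0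

theorem meas_comp (σ : ℕ → ℕ) : Measurable fun x : Om => x ∘ σ :=
  measurable_pi_lambda _ fun _ => measurable_pi_apply _

theorem meas_smul (a : E) : Measurable fun x : Om => a • x := (continuous_const_smul a).measurable

theorem exists_inj2 {a b : ℕ} (h : a ≠ b) : ∃ σ : ℕ → ℕ, Injective σ ∧ σ 0 = a ∧ σ 1 = b :=
  ⟨fun n => if n = 0 then a else if n = 1 then b else n + a + b, by
    intro m n
    dsimp only
    split_ifs <;> omega, by simp, by simp⟩

theorem meas_diff (a b : ℕ) : MeasurableSet {x : Om | x a - x b ∈ Cont} :=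
  ((measurable_pi_apply a).sub (measurable_pi_apply b)) measurableSet_Cont

theorem InK.wild' {μ : Measure Om} (h : InK μ) {a b : ℕ} (hab : a ≠ b) :
    μ {x | x a - x b ∈ Cont} = 0 := by
  obtain ⟨σ, hσ, rfl, rfl⟩ := exists_inj2 hab
  rw [← h.wild]
  exact (h.inj σ hσ).measure_preimage (meas_diff 0 1).nullMeasurableSet

theorem mp_map {X Y : Type} [MeasurableSpace X] [MeasurableSpace Y] {μ : Measure X} {s : X → Y}
    {φ : Y → Y} {ψ : X → X} (hs : Measurable s) (hφ : Measurable φ)
    (hψ : MeasurePreserving ψ μ μ) (e : ∀ x, φ (s x) = s (ψ x)) :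
    MeasurePreserving φ (μ.map s) (μ.map s) :=
  ⟨hφ, by rw [Measure.map_map hφ hs, show φ ∘ s = s ∘ ψ from funext e,
    ← Measure.map_map hs hψ.measurable, hψ.map_eq]⟩

theorem mp_int {X Y : Type} [MeasurableSpace X] [MeasurableSpace Y] {μ : Measure X}
    {ν : Measure Y} {φ : X → Y} (h : MeasurePreserving φ μ ν) {F : Y → ℝ} (hF : Measurable F) :
    ∫ x, F (φ x) ∂μ = ∫ y, F y ∂ν := by
  rw [← h.map_eq, integral_map h.measurable.aemeasurable hF.aestronglyMeasurable]

theorem ae_of_mp {X : Type} [MeasurableSpace X] {μ : Measure X} {φ : X → X}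
    (h : MeasurePreserving φ μ μ) {p : X → Prop} (hp : MeasurableSet {y | p y})
    (H : ∀ᵐ x ∂μ, p (φ x)) : ∀ᵐ y ∂μ, p y := by
  rw [← h.map_eq]
  exact (ae_map_iff h.measurable.aemeasurable hp).2 H

/-- The odd coordinates. -/
def od (x : Om) : Om := fun i => x (2 * i + 1)

theorem meas_od : Measurable od := meas_comp _

/-- An injection acting on blocks. -/
def blk (σ : ℕ → ℕ) (n : ℕ) : ℕ := if n % 2 = 1 then n else 4 * σ (n / 4) + n % 4

theorem blk_inj {σ : ℕ → ℕ} (hσ : Injective σ) : Injective (blk σ) := by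
  intro m n
  simp only [blk]
  split_ifs with h1 h2 h2 <;> intro h
  · exact h
  · omega
  · omega
  · have : m / 4 = n / 4 := hσ (by omega)
    omega

theorem od_blk (σ : ℕ → ℕ) (x : Om) : od (x ∘ blk σ) = od x := by
  funext i
  simp [od, blk]

theorem blk0 (σ : ℕ → ℕ) (i : ℕ) : blk σ (4 * i) = 4 * σ i := by
  rw [blk, if_neg (by omega), show 4 * i / 4 = i by omega]
  omega

theorem blk2 (σ : ℕ → ℕ) (i : ℕ) : blk σ (4 * i + 2) = 4 * σ i + 2 := by
  rw [blk, if_neg (by omega), show (4 * i + 2) / 4 = i by omega]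
  omega

open Classical in
/-- The selection map. -/
noncomputable def sel (D : Set Om) (j : ℕ) (b : Prop) (x : Om) : Om := fun i =>
  if (update (od x) j (x (4 * i)) ∈ D ↔ b) then x (4 * i) else x (4 * i + 2)

theorem meas_upd (j m : ℕ) : Measurable fun x : Om => update (od x) j (x m) :=
  measurable_update'.comp (meas_od.prodMk (measurable_pi_apply m))

variable {D : Set Om} {j : ℕ} {b : Prop} {μ : Measure Om}

theorem meas_sel (hD : MeasurableSet D) : Measurable (sel D j b) := by
  refine measurable_pi_lambda _ fun i => Measurable.ite ?_ (measurable_pi_apply _)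
    (measurable_pi_apply _)
  by_cases hb : b
  · simp only [hb, iff_true]
    exact meas_upd j _ hD
  · simp only [hb, iff_false]
    exact (meas_upd j _ hD).compl

theorem sel_blk (σ : ℕ → ℕ) (x : Om) (i : ℕ) : sel D j b (x ∘ blk σ) i = sel D j b x (σ i) := by
  unfold sel
  rw [od_blk, comp_apply (f := x), comp_apply (f := x), blk0, blk2]

theorem InK.sel (h : InK μ) (hD : MeasurableSet D) (hi : ∀ t : T, (fun x => tE t • x) ⁻¹' D = D) :
    InK (μ.map (sel D j b)) where
  inv t := mp_map (meas_sel hD) (meas_smul _) (h.inv t) fun x => by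
    funext i
    have e : update (od (tE t • x)) j ((tE t • x) (4 * i)) ∈ D ↔ update (od x) j (x (4 * i)) ∈ D := by
      conv_rhs => rw [← hi t]
      rw [Set.mem_preimage, ← update_smul]
      rfl
    change tE t • P032.sel D j b x i = _
    unfold P032.sel
    by_cases h1 : update (od x) j (x (4 * i)) ∈ D ↔ b
    · rw [if_pos h1, if_pos (e.trans h1)]
      rfl
    · rw [if_neg h1, if_neg fun h2 => h1 (e.symm.trans h2)]
      rfl
  inj σ hσ := mp_map (meas_sel hD) (meas_comp σ) (h.inj _ (blk_inj hσ)) fun x =>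
    funext fun i => (sel_blk σ x i).symm
  wild := by
    rw [Measure.map_apply (meas_sel hD) (meas_diff 0 1)]
    refine measure_mono_null (t := ({x | x 0 - x 4 ∈ Cont} ∪ {x | x 0 - x 6 ∈ Cont}) ∪
      ({x | x 2 - x 4 ∈ Cont} ∪ {x | x 2 - x 6 ∈ Cont})) (fun x hx => ?_) ?_
    · simp only [Set.mem_preimage, Set.mem_ofPred_eq, P032.sel] at hx
      split_ifs at hx <;> simp_all
    · simp only [measure_union_null_iff]
      exact ⟨⟨h.wild' (by omega), h.wild' (by omega)⟩, h.wild' (by omega), h.wild' (by omega)⟩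

/-- The pair functional. -/
noncomputable def L (g : Γ →ᵇ ℝ) (μ : Measure Om) : ℝ := ∫ x, g (x 0) * g (x 1) ∂μ

theorem meas_g (g : Γ →ᵇ ℝ) (i : ℕ) : Measurable fun x : Om => g (x i) :=
  g.continuous.measurable.comp (measurable_pi_apply i)

theorem InK.pair (h : InK μ) (g : Γ →ᵇ ℝ) {a c : ℕ} (hab : a ≠ c) :
    ∫ x, g (x a) * g (x c) ∂μ = L g μ := by
  obtain ⟨σ, hσ, rfl, rfl⟩ := exists_inj2 hab
  exact mp_int (h.inj σ hσ) ((meas_g g 0).mul (meas_g g 1))

/-- Difference of the two selections. -/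
noncomputable def V (D : Set Om) (j : ℕ) (b : Prop) (g : Γ →ᵇ ℝ) (i : ℕ) (x : Om) : ℝ :=
  g (sel D j b x i) - g (sel D j (¬b) x i)

theorem meas_V (hD : MeasurableSet D) (g : Γ →ᵇ ℝ) (i : ℕ) : Measurable (V D j b g i) :=
  ((meas_g g i).comp (meas_sel hD)).sub ((meas_g g i).comp (meas_sel hD))

theorem abs_g (g : Γ →ᵇ ℝ) (y : Γ) : |g y| ≤ ‖g‖ := g.norm_coe_le_norm y

theorem abs_V (g : Γ →ᵇ ℝ) (i : ℕ) (x : Om) : |V D j b g i x| ≤ ‖g‖ + ‖g‖ :=
  (abs_sub _ _).trans (add_le_add (abs_g _ _) (abs_g _ _))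

theorem V_blk (g : Γ →ᵇ ℝ) (σ : ℕ → ℕ) (x : Om) (i : ℕ) :
    V D j b g i (x ∘ blk σ) = V D j b g (σ i) x := by
  simp only [V, sel_blk]

theorem sel_sum (g : Γ →ᵇ ℝ) (x : Om) (i : ℕ) :
    g (sel D j b x i) + g (sel D j (¬b) x i) = g (x (4 * i)) + g (x (4 * i + 2)) := by
  simp only [sel]
  by_cases h : update (od x) j (x (4 * i)) ∈ D <;> by_cases hb : b <;> simp [h, hb, add_comm]

variable [IsProbabilityMeasure μ]

theorem InK.L_sel (h : InK μ) (hD : MeasurableSet D) (g : Γ →ᵇ ℝ) :
    L g (μ.map (P032.sel D j b)) + L g (μ.map (P032.sel D j (¬b)))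
      = 2 * L g μ + 1 / 2 * ∫ x, V D j b g 0 x * V D j b g 1 x ∂μ := by
  have m := (meas_g g 0).mul (meas_g g 1)
  have i1 : ∀ c : Prop, Integrable (fun x => g (P032.sel D j c x 0) * g (P032.sel D j c x 1)) μ :=
    fun c => int_bdd μ (m.comp (meas_sel hD)) fun x => abs_mul_le (abs_g _ _) (abs_g _ _)
  have i2 : ∀ a c : ℕ, Integrable (fun x : Om => g (x a) * g (x c)) μ := fun a c =>
    int_bdd μ ((meas_g g a).mul (meas_g g c)) fun x => abs_mul_le (abs_g _ _) (abs_g _ _)
  have i3 : Integrable (fun x => V D j b g 0 x * V D j b g 1 x) μ :=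
    int_bdd μ ((meas_V hD g 0).mul (meas_V hD g 1)) fun x => abs_mul_le (abs_V _ _ _) (abs_V _ _ _)
  have i4 : Integrable (fun x : Om => g (x 0) * g (x 4) + g (x 0) * g (x 6)) μ :=
    (i2 _ _).add (i2 _ _)
  have i5 : Integrable (fun x : Om => g (x 2) * g (x 4) + g (x 2) * g (x 6)) μ :=
    (i2 _ _).add (i2 _ _)
  have i6 : Integrable (fun x : Om => g (x 0) * g (x 4) + g (x 0) * g (x 6)
      + (g (x 2) * g (x 4) + g (x 2) * g (x 6))) μ := i4.add i5
  have e1 : ∀ c : Prop, L g (μ.map (P032.sel D j c))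
      = ∫ x, g (P032.sel D j c x 0) * g (P032.sel D j c x 1) ∂μ := fun c =>
    integral_map (meas_sel hD).aemeasurable m.aestronglyMeasurable
  have e2 : ∀ x, g (P032.sel D j b x 0) * g (P032.sel D j b x 1)
      + g (P032.sel D j (¬b) x 0) * g (P032.sel D j (¬b) x 1)
      = 1 / 2 * (g (x 0) * g (x 4) + g (x 0) * g (x 6) + (g (x 2) * g (x 4) + g (x 2) * g (x 6))
        + V D j b g 0 x * V D j b g 1 x) := fun x => by
    have h0 := sel_sum (D := D) (j := j) (b := b) g x 0
    have h1 := sel_sum (D := D) (j := j) (b := b) g x 1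
    simp only [V, mul_zero, zero_add, mul_one] at h0 h1 ⊢
    linear_combination (1 / 2 * (g (P032.sel D j b x 1) + g (P032.sel D j (¬b) x 1))) * h0
      + (1 / 2 * (g (x 0) + g (x 2))) * h1
  rw [e1, e1, ← integral_add (i1 _) (i1 _)]
  simp only [e2]
  rw [integral_const_mul, integral_add i6 i3, integral_add i4 i5, integral_add (i2 _ _) (i2 _ _),
    integral_add (i2 _ _) (i2 _ _), h.pair g (by omega), h.pair g (by omega), h.pair g (by omega),
    h.pair g (by omega)]
  ring

omit [IsProbabilityMeasure μ] in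
theorem InK.V_corr (h : InK μ) (hD : MeasurableSet D) (g : Γ →ᵇ ℝ) (a c : ℕ) (hac : a ≠ c) :
    ∫ x, V D j b g a x * V D j b g c x ∂μ = ∫ x, V D j b g 0 x * V D j b g 1 x ∂μ := by
  obtain ⟨σ, hσ, rfl, rfl⟩ := exists_inj2 hac
  have := mp_int (h.inj _ (blk_inj hσ)) (F := fun x => V D j b g 0 x * V D j b g 1 x)
    ((meas_V hD g 0).mul (meas_V hD g 1))
  simpa only [V_blk] using this

theorem InK.V_nonneg (h : InK μ) (hD : MeasurableSet D) (g : Γ →ᵇ ℝ) :
    0 ≤ ∫ x, V D j b g 0 x * V D j b g 1 x ∂μ :=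
  psd μ (meas_V hD g) (abs_V g) (h.V_corr hD g)

theorem InK.rep (h : InK μ) (hD : MeasurableSet D)
    (H : ∀ g, ∫ x, V D j True g 0 x * V D j True g 1 x ∂μ = 0) :
    ∀ᵐ x ∂μ, update (od x) j (x 0) ∈ D ↔ update (od x) j (x 2) ∈ D := by
  have m : ∀ c : Prop, Measurable fun x => (P032.sel D j c x 0, od x) := fun c =>
    ((measurable_pi_apply 0).comp (meas_sel hD)).prodMk meas_od
  have e : μ.map (fun x => (P032.sel D j True x 0, od x))
      = μ.map fun x => (P032.sel D j (¬True) x 0, od x) := by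
    refine Measure.ext_of_integral_mul_boundedContinuousFunction fun g k => ?_
    have mk : Measurable fun x => k (od x) := k.continuous.measurable.comp meas_od
    have m2 : Measurable fun p : Γ × Om => g p.1 * k p.2 :=
      (g.continuous.measurable.comp measurable_fst).mul (k.continuous.measurable.comp measurable_snd)
    have i1 : ∀ c : Prop, Integrable (fun x => g (P032.sel D j c x 0) * k (od x)) μ := fun c =>
      int_bdd μ (m2.comp (m c)) fun x => abs_mul_le (abs_g _ _) (k.norm_coe_le_norm _)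
    rw [integral_map (m _).aemeasurable m2.aestronglyMeasurable,
      integral_map (m _).aemeasurable m2.aestronglyMeasurable, ← sub_eq_zero,
      ← integral_sub (i1 _) (i1 _)]
    simp only [← sub_mul]
    refine psd_zero μ (meas_V hD g) (abs_V (j := j) (b := True) g) mk
      (fun x => k.norm_coe_le_norm _) (fun a c hac => (h.V_corr hD g a c hac).trans (H g)) fun a => ?_
    obtain ⟨σ, hσ, h0, -⟩ := exists_inj2 (Nat.succ_ne_self a).symm
    have := mp_int (h.inj _ (blk_inj hσ)) (F := fun x => V D j True g 0 x * k (od x))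
      ((meas_V hD g 0).mul mk)
    simp only [V_blk, od_blk, h0] at this
    exact this
  have mW : MeasurableSet {p : Γ × Om | update p.2 j p.1 ∈ D} :=
    (measurable_update'.comp (measurable_snd.prodMk measurable_fst)) hD
  have e2 := congrArg (fun m => m {p : Γ × Om | update p.2 j p.1 ∈ D}) e
  simp only [Measure.map_apply (m _) mW] at e2
  have h3 := ae_eq_of_subset_of_measure_ge (fun x hx => ?_) e2.le (m _ mW).nullMeasurableSet
    (measure_ne_top _ _)
  · filter_upwards [h3] with x hx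
    have hx' := iff_of_eq hx
    change update (od x) j (P032.sel D j (¬True) x 0) ∈ D ↔
      update (od x) j (P032.sel D j True x 0) ∈ D at hx'
    by_cases h0 : update (od x) j (x 0) ∈ D <;> simp [P032.sel, h0] at hx' <;> simp [h0, hx']
  · change update (od x) j (P032.sel D j (¬True) x 0) ∈ D at hx
    change update (od x) j (P032.sel D j True x 0) ∈ D
    by_cases h0 : update (od x) j (x 0) ∈ D <;> simp [P032.sel, h0] at hx ⊢

end Vale.Agent.P032
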