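import Vale.Agent.P032.St6

/-! The topological extraction. -/

namespace Vale.Agent.P032.Tp

open Set Metric Filter Topology

theorem lab_usc {F : Fin 5 → Set ℂ} (hcl : ∀ j, IsClosed (F j)) (x : ℂ) :
    ∃ r > 0, ∀ z ∈ ball x r, ∀ j, z ∈ F j → x ∈ F j := by
  have : ∀ᶠ z in 𝓝 x, ∀ j, z ∈ F j → x ∈ F j := by
    refine eventually_all.2 fun j => ?_
    by_cases h : x ∈ F j
    · exact Eventually.of_forall fun _ _ => h
    · filter_upwards [(hcl j).isOpen_compl.mem_nhds h] with z hz hz' using absurd hz' hz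
  exact Metric.eventually_nhds_iff_ball.1 this

theorem ev_gt {ι : Type} [Finite ι] {φ : ι → ℂ → ℝ} (hφ : ∀ i, Continuous (φ i)) (x : ℂ) :
    ∀ᶠ z in 𝓝 x, ∀ i, 1 < φ i x → 1 < φ i z := by
  refine eventually_all.2 fun i => ?_
  by_cases h : 1 < φ i x
  · filter_upwards [(hφ i).continuousAt.eventually (lt_mem_nhds h)] with z hz _ using hz
  · exact Eventually.of_forall fun _ h' => absurd h' h

theorem L2.congr {c c' : ℂ → Fin 5} {x : ℂ} (h : L2 c x) (e : ∀ᶠ z in 𝓝 x, c' z = c z) :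
    L2 c' x := by
  obtain ⟨r, hr, a, b, h⟩ := h
  obtain ⟨r', hr', h'⟩ := Metric.eventually_nhds_iff_ball.1 (e.and (ball_mem_nhds x hr))
  exact ⟨r', hr', a, b, fun z hz => (h' z hz).1 ▸ h z (h' z hz).2⟩

theorem acc {c : ℂ → Fin 5} {x : ℂ} {a : Fin 5} (h : x ∈ closure (c ⁻¹' {a})) {r : ℝ}
    (hr : 0 < r) : ∃ z ∈ ball x r, c z = a := by
  obtain ⟨z, h1, h2⟩ := mem_closure_iff_nhds.1 h _ (ball_mem_nhds x hr)
  exact ⟨z, h1, h2⟩

theorem loc_cases {c : ℂ → Fin 5} {x : ℂ} (h : L2 c x) :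
    (∃ r > 0, ∀ z ∈ ball x r, c z = c x) ∨ ∃ a b, a < b ∧ x ∈ closure (c ⁻¹' {a}) ∧
      x ∈ closure (c ⁻¹' {b}) ∧ ∃ r > 0, ∀ z ∈ ball x r, c z = a ∨ c z = b := by
  obtain ⟨r, hr, a, b, h⟩ := h
  have key : ∀ a b : Fin 5, (∀ z ∈ ball x r, c z = a ∨ c z = b) → x ∉ closure (c ⁻¹' {a}) →
      ∃ r > 0, ∀ z ∈ ball x r, c z = c x := fun a b h hx => by
    obtain ⟨r', hr', h'⟩ := Metric.eventually_nhds_iff_ball.1
      ((show ∀ᶠ z in 𝓝 x, z ∉ closure (c ⁻¹' {a}) from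
        isClosed_closure.isOpen_compl.mem_nhds hx).and (ball_mem_nhds x hr))
    have : ∀ z ∈ ball x r', c z = b := fun z hz =>
      (h z (h' z hz).2).resolve_left fun e => (h' z hz).1 (subset_closure e)
    exact ⟨r', hr', fun z hz => by rw [this z hz, this x (mem_ball_self hr')]⟩
  by_cases ha : x ∈ closure (c ⁻¹' {a})
  · by_cases hb : x ∈ closure (c ⁻¹' {b})
    · rcases lt_trichotomy a b with hab | rfl | hab
      · exact Or.inr ⟨a, b, hab, ha, hb, r, hr, h⟩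
      · exact Or.inl ⟨r, hr, fun z hz => by
          rw [(h z hz).elim id id, (h x (mem_ball_self hr)).elim id id]⟩
      · exact Or.inr ⟨b, a, hab, hb, ha, r, hr, fun z hz => (h z hz).symm⟩
    · exact Or.inl (key b a (fun z hz => (h z hz).symm) hb)
  · exact Or.inl (key a b h ha)

/-- First stage: cleaning away from a finite set. -/
theorem stage1 (hp : PieceStmt) (ht : TreeStmt) (hc : CleanStmt) {F : Fin 5 → Set ℂ}
    {G : ℂ → Fin 5 → Fin 5 → Prop} (hcl : ∀ j, IsClosed (F j)) (hcov : ∀ x, ∃ j, x ∈ F j)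
    (hN : ∀ a b c, a ≠ b → b ≠ c → a ≠ c → ∀ K, IsPreconnected K → K ⊆ F a ∩ F b ∩ F c →
      K.Subsingleton)
    (hG : ∀ y a b, G y a b → G y b a ∧ a ≠ b ∧ y ∈ F a)
    (hus : ∀ y, ∃ r > 0, ∀ x ∈ ball y r, ∀ a b, G x a b → G y a b)
    (hZ : ∀ x a b, a ≠ b → x ∈ F a → x ∈ F b → (∀ j, x ∈ F j → j = a ∨ j = b) → G x a b)
    {Ω : Set ℂ} (hΩ : IsCompact Ω) (hΩ' : ∀ y ∈ Ω, ¬Cyc (G y)) {η : ℝ} (hη : 0 < η) :
    ∃ c : ℂ → Fin 5, (∀ x ∈ Ω, L2 c x) ∧
      ∀ x, ∃ x', dist x x' ≤ η ∧ ∃ r > 0, ∀ z ∈ ball x r, x' ∈ F (c z) := by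
  choose c hcF using hcov
  choose r1 hr1 h1 using lab_usc hcl
  choose r2 hr2 h2 using hus
  let ι := {p : Fin 5 × Fin 5 × Fin 5 // p.1 ≠ p.2.1 ∧ p.2.1 ≠ p.2.2 ∧ p.1 ≠ p.2.2}
  let T : ι → Set ℂ := fun p => Ω ∩ (F p.1.1 ∩ F p.1.2.1 ∩ F p.1.2.2)
  obtain ⟨m, y, φ, hy, hφ, hb, hd, hT⟩ := hp ι T
    (fun p => hΩ.inter_right (((hcl _).inter (hcl _)).inter (hcl _)))
    (fun p K hK hK' => hN _ _ _ p.2.1 p.2.2.1 p.2.2.2 K hK' (hK.trans inter_subset_right))
    (fun x => min η (min (r1 x) (r2 x))) fun x => lt_min hη (lt_min (hr1 x) (hr2 x))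
  have hb0 : ∀ i x, x ∈ ball (y i) (min η (min (r1 (y i)) (r2 (y i)))) →
      dist x (y i) ≤ η ∧ x ∈ ball (y i) (r1 (y i)) ∧ x ∈ ball (y i) (r2 (y i)) := fun i x hx => by
    simp only [mem_ball, lt_min_iff] at hx ⊢
    exact ⟨hx.1.le, hx.2⟩
  have hanc : ∀ i, ∃ anc, Anc (G (y i)) {j | y i ∈ F j} anc := fun i => by
    obtain ⟨p, hp⟩ := mem_iUnion.1 (hy i)
    exact ht _ _ (fun a b h => (hG _ a b h).1) (fun a b h => (hG _ a b h).2) (hΩ' _ hp.1)
  choose anc hanc using hanc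
  obtain ⟨c1, e1, e2, e3⟩ := hc (Fin m) c φ (fun i => G (y i)) (fun i => {j | y i ∈ F j}) anc hφ hd
    hanc fun i x hx => h1 _ x (hb0 i x (hb i x hx)).2.1 _ (hcF x)
  have two : ∀ x ∈ Ω, x ∉ ⋃ i, T i → ∃ a b, x ∈ F a ∧ (a = b ∨ G x a b) ∧
      ∀ z ∈ ball x (r1 x), c z = a ∨ c z = b := fun x hx hxT => by
    by_cases h : ∀ j, x ∈ F j → j = c x
    · exact ⟨c x, c x, hcF x, Or.inl rfl, fun z hz => Or.inl (h _ (h1 x z hz _ (hcF z)))⟩
    push Not at h
    obtain ⟨b, hb, hb'⟩ := h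
    have h3 : ∀ j, x ∈ F j → j = c x ∨ j = b := fun j hj => by
      by_contra H
      push Not at H
      exact hxT (mem_iUnion.2 ⟨⟨(j, c x, b), H.1, hb'.symm, H.2⟩, hx, ⟨hj, hcF x⟩, hb⟩)
    exact ⟨c x, b, hcF x, Or.inr (hZ x _ _ hb'.symm (hcF x) hb h3),
      fun z hz => h3 _ (h1 x z hz _ (hcF z))⟩
  refine ⟨c1, fun x hx => ?_, fun x => ?_⟩
  · by_cases h : ∃ i, φ i x ≤ 1
    · obtain ⟨i, hi⟩ := h
      refine e3 i x hi (or_iff_not_imp_left.2 fun h0 => ?_)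
      obtain ⟨a, b, ha, hab, h4⟩ := two x hx fun hxT =>
        ((hT x hxT).2 i).elim h0 (not_lt.2 hi)
      have h5 := hb0 i x (hb i x hi)
      exact ⟨_, hr1 x, a, h1 _ x h5.2.1 _ ha, b, hab.imp id (h2 _ x h5.2.2 a b), h4⟩
    · push Not at h
      obtain ⟨a, b, -, -, h4⟩ := two x hx fun hxT => by
        obtain ⟨i, hi⟩ := (hT x hxT).1
        linarith [h i]
      refine L2.congr ⟨_, hr1 x, a, b, h4⟩ ?_
      filter_upwards [ev_gt hφ x] with z hz using e1 z fun i => (hz i (h i)).le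
  · by_cases h : ∃ i, φ i x ≤ 1
    · obtain ⟨i, hi⟩ := h
      refine ⟨y i, (hb0 i x (hb i x hi)).1, Metric.eventually_nhds_iff_ball.1 ?_⟩
      filter_upwards [ev_gt hφ x, isOpen_ball.mem_nhds (hb i x hi)] with z hz hz'
      by_cases h6 : φ i z ≤ 1
      · exact e2 i z h6
      · rw [e1 z fun j => ?_]
        · exact h1 _ z (hb0 i z hz').2.1 _ (hcF z)
        · by_cases h7 : φ j x ≤ 1
          · rw [← hd i j x hi h7]
            exact (not_le.1 h6).le
          · exact (hz j (not_le.1 h7)).le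
    · push Not at h
      refine ⟨x, by simp [hη.le], Metric.eventually_nhds_iff_ball.1 ?_⟩
      filter_upwards [ev_gt hφ x, ball_mem_nhds x (hr1 x)] with z hz hz'
      rw [e1 z fun i => (hz i (h i)).le]
      exact h1 x z hz' _ (hcF z)

theorem ev_lt {A : Set ℂ} (hA : IsCompact A) {g : ℂ → ℝ} (hg : Continuous g)
    (h : ∀ p ∈ A, 0 < g p) (n : ℝ) : ∀ᶠ η in 𝓝[>] (0 : ℝ), ∀ p ∈ A, n * η < g p := by
  obtain ⟨a, ha, h⟩ := hA.exists_forall_le' hg.continuousOn h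
  have : ∀ᶠ η in 𝓝 (0 : ℝ), n * η < a :=
    (continuous_const.mul continuous_id).continuousAt.eventually (gt_mem_nhds (by simpa using ha))
  filter_upwards [mem_nhdsWithin_of_mem_nhds this] with η hη p hp using hη.trans_le (h p hp)

theorem ev_sep {A B : Set ℂ} (hA : IsCompact A) (hB : IsCompact B) (h : Disjoint A B) :
    ∀ᶠ η in 𝓝[>] (0 : ℝ), ∀ p ∈ A, ∀ q ∈ B, 2 * η < dist p q := by
  obtain ⟨a, ha, h⟩ := (hA.prod hB).exists_forall_le' (f := fun p : ℂ × ℂ => dist p.1 p.2)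
    (by fun_prop) (a := 0) fun p hp => dist_pos.2 fun e =>
      disjoint_left.1 h hp.1 (e ▸ hp.2)
  have : ∀ᶠ η in 𝓝 (0 : ℝ), 2 * η < a :=
    (continuous_const.mul continuous_id).continuousAt.eventually (gt_mem_nhds (by simpa using ha))
  filter_upwards [mem_nhdsWithin_of_mem_nhds this] with η hη p hp q hq
    using hη.trans_le (h (p, q) ⟨hp, hq⟩)

theorem thick {A : Set ℂ} (hA : IsCompact A) {η : ℝ} (hη : 0 ≤ η) {x : ℂ}
    (hx : x ∈ cthickening η A) : ∃ p ∈ A, dist x p ≤ η := by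
  rw [hA.cthickening_eq_biUnion_closedBall hη] at hx
  simpa using hx

theorem lk_symm {F : Fin 5 → Set ℂ} {y : ℂ} {a b : Fin 5} (h : Lk F y a b) : Lk F y b a := by
  obtain ⟨h0, K, h1, h2, h3⟩ := h
  exact ⟨h0.symm, K, h1, inter_comm (F a) _ ▸ h2, h3⟩

theorem lk_mem {F : Fin 5 → Set ℂ} {y : ℂ} {a b : Fin 5} (h : Lk F y a b) : a ≠ b ∧ y ∈ F a := by
  obtain ⟨h0, K, -, h2, h3, -⟩ := h
  exact ⟨h0, (h2 h3).1⟩

end Vale.Agent.P032.Tp

namespace Vale.Agent.P032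

open Set Metric Filter Topology Tp

theorem top (hleb : LebStmt) (hcut : CutStmt) (hch : ChainStmt) (hp : PieceStmt) (ht : TreeStmt)
    (hc : CleanStmt) : TopStmt := by
  intro F G hcl hcov hsm hN hG hus hZ hY
  by_contra hno
  push Not at hno
  choose ε hε hch using fun j => hch (F j ∩ closedBall 0 30)
    ((isCompact_closedBall 0 30).inter_left (hcl j))
    fun K hK => hsm j K (hK.trans inter_subset_left)
  choose r1 hr1 h1 using lab_usc hcl
  choose r3 hr3 h3 using hY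
  have hfin : {y ∈ closedBall (0 : ℂ) 25 | Cyc (G y)}.Finite := by
    obtain ⟨t, -, ht⟩ := (isCompact_closedBall (0 : ℂ) 25).elim_nhds_subcover
      (fun y => ball y (r3 y)) fun y _ => ball_mem_nhds y (hr3 y)
    refine t.finite_toSet.subset fun y hy => ?_
    obtain ⟨x, hx, hyx⟩ := mem_iUnion₂.1 (ht hy.1)
    rw [h3 x y hyx hy.2]
    exact hx
  set Y0 := {y ∈ closedBall (0 : ℂ) 25 | Cyc (G y)} with hY0
  have lt3 : ∀ a : ℝ, 0 < a → ∀ᶠ η in 𝓝[>] (0 : ℝ), 3 * η < a := fun a ha => by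
    filter_upwards [ev_lt (isCompact_singleton (x := (0 : ℂ))) (g := fun _ => a) continuous_const
      (fun _ _ => ha) 3] with η h using h 0 rfl
  obtain ⟨ρ, ⟨⟨hρ1, hρ2⟩, hρ3⟩, hρ⟩ := ((((eventually_all.2 fun j => lt3 _ (hε j)).and
    ((eventually_all_finite hfin).2 fun y _ => (lt3 _ (hr1 y)).and (lt3 _ (hr3 y)))).and
    (lt3 1 one_pos)).and self_mem_nhdsWithin).exists
  replace hρ : 0 < ρ := hρ
  have hA : ∀ (y : ℂ) (a b : Fin 5), ∃ A0 A1, IsCompact A0 ∧ IsCompact A1 ∧ Disjoint A0 A1 ∧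
      (∀ p ∈ A0, 0 < ρ - dist p y) ∧ (∀ p ∈ A1, 0 < dist p y ∧ dist p y ≤ ρ) ∧
      (∀ p ∈ A0 ∪ A1, a < b) ∧
      (a < b → ¬Lk F y a b → F a ∩ F b ∩ closedBall y ρ ⊆ A0 ∪ A1) := fun y a b => by
    by_cases h : a < b ∧ ¬Lk F y a b
    · obtain ⟨A0, A1, c0, c1, d, u, d0, d1⟩ := hcut (F a ∩ F b ∩ closedBall y ρ) {y} (sphere y ρ)
        ((isCompact_closedBall y ρ).inter_left ((hcl a).inter (hcl b))) isClosed_singleton
        isClosed_sphere fun K hK hK' ⟨p, hp, hp'⟩ ⟨k, hk, hk'⟩ => h.2 ⟨h.1.ne, K, hK',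
          hK.trans inter_subset_left, hp' ▸ hp, k, hk, fun e => by
            rw [e, mem_sphere, dist_self] at hk'
            exact hρ.ne hk'⟩
      refine ⟨A0, A1, c0, c1, d, fun p hp => ?_, fun p hp => ⟨dist_pos.2 fun e => ?_, ?_⟩,
        fun _ _ => h.1, fun _ _ => u.ge⟩
      · exact sub_pos.2 (lt_of_le_of_ne (u.le (Or.inl hp)).2 (disjoint_left.1 d0 hp))
      · exact disjoint_left.1 d1 hp e
      · exact (u.le (Or.inr hp)).2
    · exact ⟨∅, ∅, isCompact_empty, isCompact_empty, by simp, by simp, by simp, by simp,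
        fun h1 h2 => absurd ⟨h1, h2⟩ h⟩
  choose A0 A1 c0 c1 dA hA0 hA1 hlt hsub using hA
  obtain ⟨η, ⟨hη1, hη2⟩, hη⟩ := ((((eventually_all_finite hfin).2 fun y _ =>
    eventually_all.2 fun a => eventually_all.2 fun b =>
      (ev_sep (c0 y a b) (c1 y a b) (dA y a b)).and
      ((ev_lt (c0 y a b) (by fun_prop) (hA0 y a b) 2).and
      (ev_lt (c1 y a b) (by fun_prop) (fun p hp => (hA1 y a b p hp).1) 3))).and
    (lt3 _ hρ)).and self_mem_nhdsWithin).exists
  replace hη : 0 < η := hη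
  let Ω : Set ℂ := closedBall 0 25 ∩ ⋂ y ∈ Y0, {x | η ≤ dist x y}
  obtain ⟨c, hL, hP⟩ := stage1 hp ht hc hcl hcov hN hG hus hZ (Ω := Ω)
    ((isCompact_closedBall 0 25).inter_right (isClosed_biInter fun y _ =>
      isClosed_le continuous_const (by fun_prop))) (fun y hy hy' => by
      have := mem_iInter₂.1 hy.2 y ⟨hy.1, hy'⟩
      simp only [mem_ofPred_eq, dist_self] at this
      linarith) hη
  let ι := {y : ℂ // y ∈ Y0 ∧ ‖y‖ ≤ 22}
  have : Finite ι := (hfin.subset fun y (hy : y ∈ Y0 ∧ ‖y‖ ≤ 22) => hy.1).to_subtype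
  have inΩ : ∀ (y : ι) (x : ℂ), η ≤ dist x y.1 → dist x y.1 < 2 * ρ → x ∈ Ω := fun y x h4 h5 => by
    refine ⟨?_, mem_iInter₂.2 fun y' hy' => ?_⟩
    · have := dist_triangle x y.1 0
      simp only [mem_closedBall, dist_zero_right] at this ⊢
      linarith [y.2.2]
    · by_contra H
      have h6 : dist x y' < η := not_le.1 H
      have h7 : y' = y.1 := h3 y.1 y' (by
        have := dist_triangle_left y' y.1 x
        have := (hρ2 y y.2.1).2
        rw [mem_ball]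
        linarith) hy'.2
      rw [h7] at h6
      linarith
  let J : Fin 5 → Set ℂ := fun a => closure (c ⁻¹' {a})
  let Z0 : ℂ → Set ℂ := fun y => closedBall y (2 * η) ∪
    ⋃ a, ⋃ b, J a ∩ J b ∩ cthickening η (A0 y a b)
  let Z1 : ℂ → Set ℂ := fun y => {x | ρ - η ≤ dist x y} ∪
    ⋃ a, ⋃ b, J a ∩ J b ∩ cthickening η (A1 y a b)
  have hf : ∀ y : ι, ∃ f : C(ℂ, ℝ), EqOn f 0 (Z0 y) ∧ EqOn f 1 (Z1 y) ∧
      ∀ x, f x ∈ Icc (0 : ℝ) 1 := fun y => by
    refine exists_continuous_zero_one_of_isClosed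
      (isClosed_closedBall.union (isClosed_iUnion_of_finite fun a => isClosed_iUnion_of_finite
        fun b => (isClosed_closure.inter isClosed_closure).inter isClosed_cthickening))
      ((isClosed_le continuous_const (continuous_id.dist continuous_const)).union
        (isClosed_iUnion_of_finite fun a =>
        isClosed_iUnion_of_finite
        fun b => (isClosed_closure.inter isClosed_closure).inter isClosed_cthickening))
      (disjoint_left.2 fun x hx0 hx1 => ?_)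
    have k0 : ∀ a b, x ∈ cthickening η (A0 y a b) → dist x y < ρ - η := fun a b h => by
      obtain ⟨p, hp, hp'⟩ := thick (c0 _ a b) hη.le h
      linarith [(hη1 y y.2.1 a b).2.1 p hp, dist_triangle x p y]
    have k1 : ∀ a b, x ∈ cthickening η (A1 y a b) → 2 * η < dist x y := fun a b h => by
      obtain ⟨p, hp, hp'⟩ := thick (c1 _ a b) hη.le h
      linarith [(hη1 y y.2.1 a b).2.2 p hp, dist_triangle_left p y x]
    simp only [Z0, Z1, mem_union, mem_iUnion, mem_closedBall, mem_ofPred_eq] at hx0 hx1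
    rcases hx0 with hx0 | ⟨a, b, hx0⟩ <;> rcases hx1 with hx1 | ⟨a', b', hx1⟩
    · linarith
    · linarith [k1 _ _ hx1.2]
    · linarith [k0 _ _ hx0.2]
    · obtain ⟨r, hr, u, v, h⟩ := hL x (inΩ y x (by linarith [k1 _ _ hx1.2])
        (by linarith [k0 _ _ hx0.2]))
      have h4 : ∀ a, x ∈ J a → a = u ∨ a = v := fun a ha => by
        obtain ⟨z, hz, rfl⟩ := acc ha hr
        exact h z hz
      obtain ⟨p, hp, hp'⟩ := thick (c0 _ a b) hη.le hx0.2
      obtain ⟨q, hq, hq'⟩ := thick (c1 _ a' b') hη.le hx1.2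
      have h5 := hlt _ _ _ p (Or.inl hp)
      have h6 := hlt _ _ _ q (Or.inr hq)
      have h7 : a' = a ∧ b' = b := by
        have := h4 a hx0.1.1
        have := h4 b hx0.1.2
        have := h4 a' hx1.1.1
        have := h4 b' hx1.1.2
        omega
      rw [h7.1, h7.2] at hq
      linarith [(hη1 y y.2.1 a b).1 p hp q hq, dist_triangle_left p q x]
  choose f f0 f1 _ using hf
  have sup : ∀ (y : ι) (x : ℂ), 2 * f y x ≤ 1 → x ∉ Z1 y := fun y x h hx => by
    rw [f1 y hx] at h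
    norm_num at h
  have sup' : ∀ (y : ι) (x : ℂ), 2 * f y x ≤ 1 → dist x y.1 < ρ - η := fun y x h =>
    not_le.1 fun h' => sup y x h (Or.inl h')
  have lab : ∀ (y : ι) (x : ℂ), dist x y.1 < ρ - η → ∀ x' : ℂ, dist x x' ≤ η → ∀ j, x' ∈ F j →
      y.1 ∈ F j :=
    fun y x h x' h' j => h1 y.1 x' (by
      have := (hρ2 y y.2.1).1
      rw [mem_ball]
      linarith [dist_triangle_left x' y.1 x]) j
  have labc : ∀ (y : ι) x, 2 * f y x ≤ 1 → y.1 ∈ F (c x) := fun y x h => by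
    obtain ⟨x', h4, r, hr, h5⟩ := hP x
    exact lab y x (sup' y x h) x' h4 _ (h5 x (mem_ball_self hr))
  choose anc hanc using fun y : ι => ht (Lk F y) {j | y.1 ∈ F j} (fun _ _ => lk_symm)
    (fun _ _ => lk_mem) (hno y)
  have hφ : ∀ y : ι, Continuous fun x => 2 * f y x := fun y => by fun_prop
  obtain ⟨c2, e1, e2, e3⟩ := hc ι c (fun y x => 2 * f y x) (fun y => Lk F y)
    (fun y => {j | y.1 ∈ F j}) anc hφ (fun y y' x h h' => Subtype.ext (h3 y' y (by
      have := (hρ2 y' y'.2.1).2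
      rw [mem_ball]
      linarith [sup' y x h, sup' y' x h', dist_triangle_left y.1 y' x]) y.2.1.2)) hanc labc
  have far : ∀ (y : ι) x, ¬2 * f y x ≤ 0 → x ∉ Z0 y := fun y x h hx => by
    rw [f0 y hx] at h
    norm_num at h
  have far' : ∀ (y : ι) (x : ℂ), ¬2 * f y x ≤ 0 → 2 * η < dist x y.1 := fun y x h =>
    not_le.1 fun h' => far y x h (Or.inl h')
  obtain ⟨j, x, x2, h4, h5, h6, h7⟩ := hleb c2 (fun x hx => by
    by_cases h : ∃ y : ι, 2 * f y x ≤ 1
    · obtain ⟨y, hy⟩ := h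
      refine e3 y x hy (or_iff_not_imp_left.2 fun h0 => ?_)
      rcases loc_cases (hL x (inΩ y x (by linarith [far' y x h0]) (by linarith [sup' y x hy])))
        with ⟨r, hr, h⟩ | ⟨a, b, hab, ha, hb, r, hr, h⟩
      · exact ⟨r, hr, c x, labc y x hy, c x, Or.inl rfl, fun z hz => Or.inl (h z hz)⟩
      · have hk : Lk F y a b := by
          by_contra hk
          obtain ⟨x', h4, r', hr', h5⟩ := hP x
          obtain ⟨z, hz, rfl⟩ := acc ha hr'
          obtain ⟨z', hz', rfl⟩ := acc hb hr'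
          rcases hsub y _ _ hab hk ⟨⟨h5 z hz, h5 z' hz'⟩, by
            rw [mem_closedBall]
            linarith [sup' y x hy, dist_triangle_left x' y x]⟩ with h6 | h6
          · exact far y x h0 (Or.inr (mem_iUnion₂.2 ⟨_, _, ⟨ha, hb⟩,
              mem_cthickening_of_dist_le _ _ _ _ h6 h4⟩))
          · exact sup y x hy (Or.inr (mem_iUnion₂.2 ⟨_, _, ⟨ha, hb⟩,
              mem_cthickening_of_dist_le _ _ _ _ h6 h4⟩))
        exact ⟨r, hr, a, (lk_mem hk).2, b, Or.inr hk, h⟩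
    · push Not at h
      refine L2.congr (hL x ⟨closedBall_subset_closedBall (by norm_num) hx,
        mem_iInter₂.2 fun y hy => ?_⟩) ?_
      · by_cases hy' : ‖y‖ ≤ 22
        · have := far' ⟨y, hy, hy'⟩ x (by linarith [h ⟨y, hy, hy'⟩])
          change η ≤ dist x y
          linarith
        · have := dist_triangle_left y 0 x
          simp only [mem_closedBall, dist_zero_right] at this hx
          change η ≤ dist x y
          linarith
      · filter_upwards [ev_gt hφ x] with z hz using e1 z fun i => (hz i (h i)).le) ρ hρ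
  have near : ∀ x ∈ closedBall (0 : ℂ) 20, c2 x = j →
      ∃ x' ∈ F j ∩ closedBall 0 30, dist x x' ≤ ε j := fun x hx e => by
    have key : ∃ x' ∈ F j, dist x x' ≤ ρ := by
      by_cases h : ∃ y : ι, 2 * f y x ≤ 1
      · obtain ⟨y, hy⟩ := h
        exact ⟨y, e ▸ e2 y x hy, by linarith [sup' y x hy]⟩
      · push Not at h
        obtain ⟨x', h4, r, hr, h5⟩ := hP x
        refine ⟨x', ?_, by linarith⟩
        rw [← e, e1 x fun i => (h i).le]
        exact h5 x (mem_ball_self hr)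
    obtain ⟨x', h1, h2⟩ := key
    refine ⟨x', ⟨h1, ?_⟩, by linarith [hρ1 j]⟩
    have := dist_triangle_left x' 0 x
    simp only [mem_closedBall, dist_zero_right] at this hx ⊢
    linarith
  refine (hch j x x2 (near x h5 h6) (Relation.ReflTransGen.mono
    (fun p q h => ⟨near q h.1 h.2.1, ?_⟩) _ _ h7)).not_ge h4
  linarith [h.2.2, hρ1 j]

end Vale.Agent.P032
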