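import Vale.Agent.P032.St6

/-! Vertices of continua. -/

namespace Vale.Agent.P032

open Set Metric Real Filter Topology

namespace Vert

theorem e_eq (θ : ℝ) : e θ = ⟨cos θ, sin θ⟩ :=
  Complex.ext (Complex.exp_ofReal_mul_I_re θ) (Complex.exp_ofReal_mul_I_im θ)

theorem alg {a b c s x y : ℝ} (a1 : a ≠ 1) (a2 : (4 * a ^ 3 - 3 * a) ^ 2 = 1)
    (a3 : a ^ 2 + b ^ 2 = 1) (a4 : c ^ 2 + s ^ 2 = 1)
    (b1 : (c - x) * (c - x) + (s - y) * (s - y) = 1)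
    (b2 : (c * a - s * b - x) * (c * a - s * b - x) +
      (s * a + c * b - y) * (s * a + c * b - y) = 1)
    (b3 : 0 < x * x + y * y) (b4 : x * x + y * y < 1) : False := by
  obtain ⟨p, hp⟩ : ∃ p, p = x * c + y * s := ⟨_, rfl⟩
  obtain ⟨q, hq⟩ : ∃ q, q = y * c - x * s := ⟨_, rfl⟩
  obtain ⟨N, hN⟩ : ∃ N, N = x * x + y * y := ⟨_, rfl⟩
  rw [← hN] at b3 b4
  have c1 : 2 * p = N := by rw [hp, hN]; linear_combination a4 - b1
  have c2 : p * a + q * b = p := by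
    rw [hp, hq]
    linear_combination (b1 - b2 - a4) / 2 + (a ^ 2 + b ^ 2) / 2 * a4 + a3 / 2
  have c3 : p ^ 2 + q ^ 2 = N := by rw [hp, hq, hN]; linear_combination (x * x + y * y) * a4
  have c4 : (1 - a) * (N * (N - 2 - 2 * a)) = 0 := by
    have : q ^ 2 = 2 * p - p ^ 2 := by linarith
    rw [← c1]
    linear_combination (-2) * (p * (1 - a) + q * b) * c2 + 2 * q ^ 2 * a3 +
      2 * (1 - a ^ 2) * this
  have c5 : N - 2 - 2 * a = 0 :=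
    (mul_eq_zero.1 ((mul_eq_zero.1 c4).resolve_left (sub_ne_zero.2 a1.symm))).resolve_left b3.ne'
  have d1 : 0 < (a + 1) * (2 * a - 1) ^ 2 :=
    mul_pos (by linarith) (sq_pos_of_neg (by linarith))
  have d2 : 0 < (1 - a) * (2 * a + 1) ^ 2 :=
    mul_pos (by linarith) (sq_pos_of_neg (by linarith))
  exact (mul_pos d1 d2).ne' (by linear_combination -a2)

theorem hexa {κ : ℂ} {φ : ℝ} {n : ℤ} (n0 : n ≠ 0) (n1 : -6 < n) (n2 : n < 6) (h1 : ‖e φ - κ‖ = 1)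
    (h2 : ‖e (φ + n * (π / 3)) - κ‖ = 1) (k0 : 0 < ‖κ‖) (k1 : ‖κ‖ < 1) : False := by
  have a1 : cos (n * (π / 3)) ≠ 1 := fun c => by
    have b1 : (-6 : ℝ) < n := by exact_mod_cast n1
    have b2 : (n : ℝ) < 6 := by exact_mod_cast n2
    have := (cos_eq_one_iff_of_lt_of_lt (by nlinarith [pi_pos]) (by nlinarith [pi_pos])).1 c
    exact n0 (by exact_mod_cast (mul_eq_zero.1 this).resolve_right (by positivity))
  have a2 := cos_sq_add_sin_sq (n * π)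
  rw [sin_int_mul_pi, show (n : ℝ) * π = 3 * (n * (π / 3)) by ring, cos_three_mul] at a2
  have b1 : ‖e φ - κ‖ ^ 2 = 1 := by rw [h1, one_pow]
  have b2 : ‖e (φ + n * (π / 3)) - κ‖ ^ 2 = 1 := by rw [h2, one_pow]
  have b3 : 0 < ‖κ‖ ^ 2 := by positivity
  have b4 : ‖κ‖ ^ 2 < 1 := pow_lt_one₀ k0.le k1 two_ne_zero
  rw [Complex.sq_norm, Complex.normSq_apply] at b1 b2 b3 b4
  rw [e_eq] at b1
  rw [e_eq, cos_add, sin_add] at b2
  exact alg a1 (by linarith) (cos_sq_add_sin_sq _) (cos_sq_add_sin_sq φ) b1 b2 b3 b4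

variable {C : Fin 5 → Set ℂ} {y : ℂ}

/-- A marked continuum. -/
def Mk (C : Fin 5 → Set ℂ) (y : ℂ) (a : Fin 5) (m : ℂ) : Prop :=
  ∃ K, K ⊆ F C a ∧ IsPreconnected K ∧ y ∈ K ∧ m ∈ K

theorem mark {a b : Fin 5} (h : Lk (F C) y a b) :
    ∃ m, 0 < ‖m - y‖ ∧ ‖m - y‖ < 1 ∧ Mk C y a m ∧ Mk C y b m := by
  obtain ⟨-, K, k1, k2, k3, k, k4, k5⟩ := h
  have k6 : 0 < ‖k - y‖ := norm_pos_iff.2 (sub_ne_zero.2 k5)
  obtain ⟨m, m1, m2⟩ := k1.intermediate_value k3 k4 (f := fun z => ‖z - y‖) (by fun_prop)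
    (show min ‖k - y‖ (1 / 2) ∈ _ from ⟨by simp, min_le_left _ _⟩)
  have m2 : ‖m - y‖ = _ := m2
  exact ⟨m, m2 ▸ lt_min k6 one_half_pos, m2 ▸ (min_le_right _ _).trans_lt one_half_lt_one,
    ⟨K, k2.trans inter_subset_left, k1, k3, m1⟩, K, k2.trans inter_subset_right, k1, k3, m1⟩

theorem edge (h : Bas C) {a b : Fin 5} (l : Lk (F C) y a b) : Edge C y a b := by
  obtain ⟨n, K, k1, k2, k3, k, k4, k5⟩ := l
  refine ⟨n, (k2 k3).1, (k2 k3).2, fun θ => ?_⟩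
  obtain ⟨j, j1, j2⟩ := h.side {a, b} K (by
    rintro _ (rfl | rfl)
    exacts [k2.trans inter_subset_left, k2.trans inter_subset_right]) k1 y k3 k k4 k5 θ
  exact ⟨j, fun c => j1 (.inl c), fun c => j1 (.inr c), j2⟩

theorem sides (h : Bas C) {z : ℂ} {ι : Type} [Finite ι] {m : ι → ℂ} (hm : ∀ i, ‖z - m i‖ ≠ 1)
    (S : Fin 5 → Prop) (hp : ∀ r > 0, ∀ s : ℝ, s = 1 ∨ s = -1 → ∃ p ∈ ball z r,
      0 < s * (‖p - y‖ - 1) ∧ ∀ j, S j → p ∉ F C j) :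
    ∃ c₁ c₂, ¬S c₁ ∧ ¬S c₂ ∧ (∀ i, Mk C y c₁ (m i) → ‖z - m i‖ < 1) ∧
      ∀ i, Mk C y c₂ (m i) → 1 < ‖z - m i‖ := by
  have a : ∀ᶠ p in 𝓝 z, ∀ i, (‖z - m i‖ < 1 → ‖p - m i‖ < 1) ∧ (1 < ‖z - m i‖ → 1 < ‖p - m i‖) :=
    eventually_all.2 fun i => by
      have c : ContinuousAt (fun p => ‖p - m i‖) z := by fun_prop
      rcases (hm i).lt_or_gt with b | b
      · exact (c.eventually_lt continuousAt_const b).mono fun p d =>
          ⟨fun _ => d, fun d => by linarith⟩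
      · exact (continuousAt_const.eventually_lt c b).mono fun p d =>
          ⟨fun d => by linarith, fun _ => d⟩
  obtain ⟨r, r0, hr⟩ := Metric.eventually_nhds_iff.1 a
  have b : ∀ s : ℝ, s = 1 ∨ s = -1 → ∃ c, ¬S c ∧ ∃ q ∈ F C c, q ∈ ball z r ∧
      0 < s * (‖q - y‖ - 1) := fun s hs => by
    obtain ⟨q, q1, q2⟩ := h.ocol.2.2.2.inter_open_nonempty
      (ball z r ∩ ({p | 0 < s * (‖p - y‖ - 1)} ∩ ⋂ j : {j // S j}, (F C j)ᶜ))
      (isOpen_ball.inter ((isOpen_lt continuous_const (by fun_prop)).inter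
        (isOpen_iInter_of_finite fun j => isClosed_closure.isOpen_compl)))
      ((hp r r0 s hs).imp fun p c => ⟨c.1, c.2.1, mem_iInter.2 fun j => c.2.2 j j.2⟩)
    obtain ⟨c, hc⟩ := mem_iUnion.1 q2
    exact ⟨c, fun d => mem_iInter.1 q1.2.2 ⟨c, d⟩ (subset_closure hc), q, subset_closure hc,
      q1.1, q1.2.1⟩
  obtain ⟨c₁, a1, q, q1, q2, q3⟩ := b (-1) (.inr rfl)
  obtain ⟨c₂, a2, q', q1', q2', q3'⟩ := b 1 (.inl rfl)
  refine ⟨c₁, c₂, a1, a2, fun i ⟨K, k1, k2, k3, k4⟩ => ?_, fun i ⟨K, k1, k2, k3, k4⟩ => ?_⟩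
  · exact (hm i).lt_or_gt.resolve_right fun c =>
      h.e1 _ K k1 k2 y k3 _ k4 q (by linarith) ((hr q2 i).2 c) q1
  · exact (hm i).lt_or_gt.resolve_left fun c =>
      h.e1 _ K k1 k2 _ k4 y k3 q' ((hr q2' i).1 c) (by linarith) q1'

theorem count {n : ℕ} (hn : n < 6) {m : Fin n → ℂ} (m0 : ∀ i, 0 < ‖m i - y‖)
    (m1 : ∀ i, ‖m i - y‖ < 1) (θ : ℝ) :
    ∃ k : ℤ, ∀ i, ‖y + e (θ + k * (π / 3)) - m i‖ ≠ 1 := by
  by_contra! c
  choose g hg using c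
  obtain ⟨k, l, n1, n2⟩ := Fintype.exists_ne_map_eq_of_card_lt (fun k : Fin 6 => g (k : ℕ))
    (by simpa using hn)
  have := k.2
  have := l.2
  have : (k : ℕ) ≠ l := fun c => n1 (Fin.ext c)
  refine hexa (φ := θ + ((k : ℕ) : ℤ) * (π / 3)) (n := (l : ℕ) - (k : ℕ)) (by omega) (by omega)
    (by omega) ?_ ?_ (m0 (g (k : ℕ))) (m1 _)
  · convert hg (k : ℕ) using 2
    ring
  · convert hg (l : ℕ) using 2
    rw [n2, show θ + (((k : ℕ) : ℤ) : ℝ) * (π / 3) + (((l : ℕ) - (k : ℕ) : ℤ) : ℝ) * (π / 3) =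
      θ + (((l : ℕ) : ℤ) : ℝ) * (π / 3) by push_cast; ring]
    ring

theorem five {v : Fin 5 → Fin 5} (hv : Function.Injective v) (j : Fin 5) :
    j = v 0 ∨ j = v 1 ∨ j = v 2 ∨ j = v 3 ∨ j = v 4 := by
  obtain ⟨i, rfl⟩ := Finite.injective_iff_surjective.1 hv j
  fin_cases i <;> simp

theorem four (hy : YStmt) (h : Bas C) {v : Fin 5 → Fin 5} (hv : Function.Injective v)
    (l0 : Lk (F C) y (v 0) (v 1)) (l1 : Lk (F C) y (v 3) (v 0))
    (hc : ∀ θ, θ ∈ H C y (v 4) ∨ θ ∈ H C y (v 0) ∩ H C y (v 2)) : False := by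
  obtain ⟨-, y1, -, -, θ, y2⟩ := hy C h (v 4) (v 0) (hv.ne (by decide)) y
    fun θ => (hc θ).imp_right fun c => c.1
  obtain ⟨m0, a0, b0, c0, d0⟩ := mark l0
  obtain ⟨m1, a1, b1, c1, d1⟩ := mark l1
  obtain ⟨k, hk⟩ := count (y := y) (m := ![m0, m1]) (by norm_num) (Fin.forall_fin_two.2 ⟨a0, a1⟩)
    (Fin.forall_fin_two.2 ⟨b0, b1⟩) θ
  obtain ⟨x1, x2, s1, s2, t1, t2⟩ := sides h hk _ (y2 k).2.2
  have u : U C y (v 0) ⊆ U C y (v 2) := interior_maximal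
    (fun φ c => ((hc φ).resolve_left ((y1 φ).1 c)).2) isOpen_interior
  have w : ∀ x, ¬(U C y (v 4) ⊆ U C y x ∨ U C y (v 0) ⊆ U C y x) → x = v 1 ∨ x = v 3 :=
    fun x c => by
      rcases five hv x with rfl | rfl | rfl | rfl | rfl
      exacts [absurd (.inr subset_rfl) c, .inl rfl, absurd (.inr u) c, .inr rfl,
        absurd (.inl subset_rfl) c]
  have z : y + e (θ + k * (π / 3)) ∈ F C (v 0) :=
    (h.closedH y _).closure_subset_iff.2 interior_subset (y2 k).2.1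
  obtain ⟨K, k1, k2, k3, k4⟩ := c0
  obtain ⟨L, l1, l2, l3, l4⟩ := d1
  have j := h.e1 _ _ (union_subset k1 l1) (k2.union y k3 l3 l2)
  rcases w x1 s1 with rfl | rfl <;> rcases w x2 s2 with rfl | rfl
  · exact lt_asymm (t1 0 d0) (t2 0 d0)
  · exact j _ (.inl k4) _ (.inr l4) _ (t1 0 d0) (t2 1 c1) z
  · exact j _ (.inr l4) _ (.inl k4) _ (t1 1 c1) (t2 0 d0) z
  · exact lt_asymm (t1 1 c1) (t2 1 c1)

theorem compl : ∀ a b c : Fin 5, a ≠ b → b ≠ c → a ≠ c →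
    ∃ d f, Function.Injective ![a, b, c, d, f] := by decide +kernel

end Vert

open Vert

theorem vert (hy : YStmt) (h3 : C3Stmt) (h4 : C4Stmt) : VStmt := by
  intro C h y
  constructor
  · rintro ⟨a, b, c, n1, n2, n3, l0, l1, l2⟩
    obtain ⟨d, f, hv⟩ := compl a b c n1 n2 n3
    obtain ⟨-, -, -, -, θ, y2⟩ := hy C h d f (hv.ne (a₁ := 3) (a₂ := 4) (by decide)) y
      (h3 C h y _ hv (edge h l0) (edge h l1) (edge h l2))
    obtain ⟨m0, a0, b0, c0, d0⟩ := mark l0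
    obtain ⟨m1, a1, b1, c1, d1⟩ := mark l1
    obtain ⟨m2, a2, b2, c2, d2⟩ := mark l2
    obtain ⟨k, hk⟩ := count (y := y) (m := ![m0, m1, m2]) (by norm_num)
      (fun i => by fin_cases i <;> assumption) (fun i => by fin_cases i <;> assumption) θ
    obtain ⟨x1, x2, s1, s2, t1, t2⟩ := sides h hk _ (y2 k).2.2
    have w : ∀ x, ¬(U C y d ⊆ U C y x ∨ U C y f ⊆ U C y x) → x = a ∨ x = b ∨ x = c :=
      fun x e => by
        rcases five hv x with rfl | rfl | rfl | rfl | rfl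
        exacts [.inl rfl, .inr (.inl rfl), .inr (.inr rfl), absurd (.inl subset_rfl) e,
          absurd (.inr subset_rfl) e]
    rcases w x1 s1 with rfl | rfl | rfl <;> rcases w x2 s2 with rfl | rfl | rfl
    exacts [lt_asymm (t1 0 c0) (t2 0 c0), lt_asymm (t1 0 c0) (t2 0 d0),
      lt_asymm (t1 2 d2) (t2 2 c2), lt_asymm (t1 0 d0) (t2 0 c0), lt_asymm (t1 0 d0) (t2 0 d0),
      lt_asymm (t1 1 c1) (t2 1 d1), lt_asymm (t1 2 c2) (t2 2 d2), lt_asymm (t1 1 d1) (t2 1 c1),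
      lt_asymm (t1 1 d1) (t2 1 d1)]
  · rintro ⟨v, hv, l0, l1, l2, l3⟩
    rcases h4 C h y v hv (edge h l0) (edge h l1) (edge h l2) (edge h l3) with c | c
    · exact four hy h hv l0 l3 c
    · have : ![v 1, v 2, v 3, v 0, v 4] = v ∘ ![1, 2, 3, 0, 4] := by
        funext i
        fin_cases i <;> rfl
      exact four hy h (v := ![v 1, v 2, v 3, v 0, v 4]) (this ▸ hv.comp (by decide)) l1 l0 c

end Vale.Agent.P032
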