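import Vale.Agent.P032.Bas

/-! Arcs with two disjoint pairs of colours. -/

namespace Vale.Agent.P032

open Set Metric Real Filter Topology BasA

namespace W

variable {C : Fin 5 → Set ℂ} {v : Fin 5 → Fin 5} {y : ℂ}

theorem cnt (c : ℝ) : {β | sin (c - β) = 0}.Countable :=
  (countable_range fun n : ℤ => c - n * π).mono fun β h => by
    obtain ⟨n, hn⟩ := sin_eq_zero_iff.1 h
    exact ⟨n, by linarith⟩

theorem free (hC : Bas C) (hv : Function.Injective v) {a b : ℝ}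
    (ha : a ∈ U C y (v 0) ∩ U C y (v 2)) (hb : b ∈ U C y (v 1) ∩ U C y (v 3))
    (hs : sin (a - b) ≠ 0) (j : Fin 5) (hj : y + e a + e b ∈ F C j) : j = v 4 := by
  obtain ⟨i, rfl⟩ := Finite.injective_iff_surjective.1 hv j
  have hs' : sin (b - a) ≠ 0 := by rwa [← neg_sub, sin_neg, neg_ne_zero]
  have hj' := add_right_comm y _ _ ▸ hj
  fin_cases i
  · exact (hC.arc y _ a b ha.1 hs hj).elim
  · exact (hC.arc y _ b a hb.1 hs' hj').elim
  · exact (hC.arc y _ a b ha.2 hs hj).elim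
  · exact (hC.arc y _ b a hb.2 hs' hj').elim
  · rfl

theorem unit (hC : Bas C) {p q : ℂ} {f : Fin 5} (hp : ∀ j, p ∈ F C j → j = f)
    (hq : ∀ j, q ∈ F C j → j = f) : ‖q - p‖ ≠ 1 := by
  obtain ⟨j, hj⟩ := hC.cover p
  obtain rfl := hp j hj
  obtain ⟨r, hr, h⟩ := hC.usc q
  obtain ⟨p', hp', hd⟩ := Metric.mem_closure_iff.1 hj r hr
  obtain ⟨i, hi⟩ := hC.cover (q + (p' - p))
  obtain rfl := hq i (h _ (by
    rwa [mem_ball, dist_eq_norm, add_sub_cancel_left, ← dist_eq_norm, dist_comm]) i hi)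
  convert hC.e0 i _ hi p' hp' using 2
  ring

theorem gen_add {θ : ℝ} (h : θ ∈ Gen C y) : θ + π / 3 ∈ Gen C y := fun k j => by
  have := h (k + 1) j
  rwa [show θ + ((k + 1 : ℤ) : ℝ) * (π / 3) = θ + π / 3 + k * (π / 3) by push_cast; ring] at this

/-- The distance function. -/
noncomputable def G (β : ℝ) (a : ℝ × ℝ) (b : ℝ) : ℝ := ‖e a.2 - e a.1 + e b - e β‖

theorem c1 (β b : ℝ) : Continuous fun a => G β a b := by
  have := e_cont
  unfold G
  fun_prop

theorem c2 (β : ℝ) (a : ℝ × ℝ) : Continuous (G β a) := by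
  have := e_cont
  unfold G
  fun_prop

theorem both {α β r : ℝ} (h : sin (α + 2 * (π / 3) - β) ≠ 0) (hr : 0 < r) :
    ∃ s ∈ ball β r, ∃ s' ∈ ball β r, G β (α, α + π / 3) s < 1 ∧ 1 < G β (α, α + π / 3) s' := by
  have hG : ∀ b, G β (α, α + π / 3) b = ‖e (α + 2 * (π / 3)) + e b - e β‖ := fun b => by
    simp only [G, (hex α).1, add_sub_cancel_left]
  simp only [hG]
  generalize α + 2 * (π / 3) = γ at h
  have hd : HasDerivAt (fun s => (cos γ + cos s - cos β) ^ 2 + (sin γ + sin s - sin β) ^ 2)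
      (2 * sin (γ - β)) β := by
    have := ((((hasDerivAt_cos β).const_add (cos γ)).sub_const (cos β)).pow 2).add
      ((((hasDerivAt_sin β).const_add (sin γ)).sub_const (sin β)).pow 2)
    refine HasDerivAt.congr_deriv this ?_
    rw [sin_sub]
    push_cast
    ring
  obtain ⟨⟨s, hs1, g1⟩, s', hs2, g2⟩ := sgn hd (mul_ne_zero two_ne_zero h) hr
  simp only [add_sub_cancel_right, cos_sq_add_sin_sq] at g1 g2
  exact ⟨s, hs1, s', hs2, lt_one_of (by simpa [e_re, e_im] using g1),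
    one_lt_of (by simpa [e_re, e_im] using g2)⟩

end W

open W

theorem wf : WFStmt := by
  intro C hC y v hv α β₀ h1 h2 h3
  have ho : IsOpen (U C y (v 1) ∩ U C y (v 3)) := isOpen_interior.inter isOpen_interior
  obtain ⟨β, hB, hβ⟩ := ((((cnt α).union (cnt (α + π / 3))).union
    (cnt (α + 2 * (π / 3)))).dense_compl ℝ).inter_open_nonempty _ ho ⟨β₀, h3⟩
  simp only [mem_compl_iff, mem_union, mem_ofPred_eq, not_or] at hβ
  obtain ⟨ε, hε, hs⟩ := Metric.eventually_nhds_iff.1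
    (continuous_sin.continuousAt.eventually_ne hβ.1.2)
  obtain ⟨r₀, hr₀, hb⟩ := Metric.isOpen_iff.1 ho β hB
  have hr : 0 < min r₀ (ε / 2) := lt_min hr₀ (half_pos hε)
  obtain ⟨s, hs1, s', hs2, g1', g2'⟩ := both hβ.2 hr
  have ev : IsOpen {a : ℝ × ℝ | G β a s < 1 ∧ 1 < G β a s' ∧ sin (a.1 - β) ≠ 0 ∧
      dist a.2 (α + π / 3) < ε / 2} :=
    (isOpen_lt (c1 β s) continuous_const).and ((isOpen_lt continuous_const (c1 β s')).and
      ((isOpen_ne_fun (by fun_prop) continuous_const).and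
        (isOpen_lt (by fun_prop) continuous_const)))
  have hm : (α, α + π / 3) ∈ closure ((U C y (v 0) ∩ U C y (v 2)) ×ˢ
      (U C y (v 0) ∩ U C y (v 2))) := by
    rw [closure_prod_eq]
    exact ⟨h1, h2⟩
  obtain ⟨a, ⟨k1, k2, k3, k4⟩, ha, ha'⟩ := mem_closure_iff.1 hm _ ev
    ⟨g1', g2', hβ.1.1, by simpa using hε⟩
  obtain ⟨b, hb1, gb⟩ := (convex_ball β _).isPreconnected.intermediate_value hs1 hs2
    (c2 β a).continuousOn ⟨k1.le, k2.le⟩
  have hb2 : dist b β < ε / 2 := (mem_ball.1 hb1).trans_le (min_le_right _ _)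
  refine unit hC (free hC hv ha hB k3) (free hC hv ha' (hb (ball_subset_ball (min_le_left _ _) hb1))
    (hs ?_)) ?_
  · rw [Real.dist_eq, abs_lt] at k4 hb2 ⊢
    constructor <;> linarith [k4.1, k4.2, hb2.1, hb2.2]
  · rw [← gb]
    simp only [G]
    congr 1
    ring

theorem ab : ABStmt := by
  intro C hC y v hv α₀ h1 h2 φ
  have hA : IsOpen (U C y (v 0) ∩ U C y (v 2)) := isOpen_interior.inter isOpen_interior
  have hB : IsOpen (U C y (v 1) ∩ U C y (v 3)) := isOpen_interior.inter isOpen_interior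
  obtain ⟨α, ⟨k1, k2⟩, hα⟩ := ((cnt φ).dense_compl ℝ).inter_open_nonempty _
    (hA.inter (hB.preimage (f := (· + π)) (by fun_prop))) ⟨α₀, h1, h2⟩
  have ca := continuous_arcsin
  have ev : ∀ᶠ t : ℝ in 𝓝 0, t ≠ 0 → y + t * (Complex.I * e α) ∈ F C (v 4) := by
    filter_upwards [(by fun_prop : Continuous fun t : ℝ => α + arcsin (t / 2)).continuousAt.eventually
      (hA.mem_nhds (by simpa using k1)),
      (by fun_prop : Continuous fun t : ℝ => α + π - arcsin (t / 2)).continuousAt.eventually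
      (hB.mem_nhds (by simpa using k2)), Ioo_mem_nhds (a := -1) (b := 1) (by norm_num) (by norm_num)]
      with t a1 a2 a3 t0
    have s1 : sin (arcsin (t / 2)) = t / 2 := sin_arcsin (by linarith [a3.1]) (by linarith [a3.2])
    have s2 : 0 < cos (arcsin (t / 2)) := by
      rw [cos_arcsin]
      exact sqrt_pos.2 (by nlinarith [a3.1, a3.2])
    set s := arcsin (t / 2)
    have e1 : y + e (α + s) + e (α + π - s) = y + t * (Complex.I * e α) := by
      apply Complex.ext <;> simp [e_re, e_im, cos_add, cos_sub, sin_add, sin_sub, s1] <;> ring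
    obtain ⟨j, hj⟩ := hC.cover (y + e (α + s) + e (α + π - s))
    obtain rfl := free hC hv a1 a2 (by
      rw [show α + s - (α + π - s) = 2 * s - π by ring, sin_sub_pi, sin_two_mul, s1]
      exact neg_ne_zero.2 (mul_ne_zero (mul_ne_zero two_ne_zero (div_ne_zero t0 two_ne_zero))
        s2.ne')) j hj
    rwa [← e1]
  have h0 : y ∈ F C (v 4) := by
    have c : Continuous fun t : ℝ => y + t * (Complex.I * e α) := by fun_prop
    simpa [F] using isClosed_closure.mem_of_tendsto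
      (c.continuousAt.tendsto.mono_left (nhdsWithin_le_nhds (a := 0) (s := {0}ᶜ)))
      (eventually_nhdsWithin_iff.2 ev)
  obtain ⟨r, hr, hb⟩ := Metric.eventually_nhds_iff.1 ev
  refine hC.seg y (Complex.I * e α) _ r φ hr (fun t ht => ?_) fun h => hα ?_
  · by_cases t0 : t = 0
    · simpa [t0] using h0
    · exact hb (by simpa using ht) t0
  · simp only [mem_ofPred_eq, sin_sub]
    simp [e_re, e_im] at h
    linarith

theorem alt : AltStmt := by
  intro C hC y v hv h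
  have a1 : ∀ θ ∈ U C y (v 0) ∩ U C y (v 2) ∩ Gen C y,
      θ + π / 3 ∈ U C y (v 1) ∩ U C y (v 3) ∩ Gen C y := fun θ hθ =>
    ⟨(h _ (gen_add hθ.2)).resolve_left fun c => (hC.l1 y _ θ hθ.1.1).1 (interior_subset c.1),
      gen_add hθ.2⟩
  have a2 : ∀ θ ∈ U C y (v 1) ∩ U C y (v 3) ∩ Gen C y,
      θ + π / 3 ∈ U C y (v 0) ∩ U C y (v 2) ∩ Gen C y := fun θ hθ =>
    ⟨(h _ (gen_add hθ.2)).resolve_right fun c => (hC.l1 y _ θ hθ.1.1).1 (interior_subset c.1),
      gen_add hθ.2⟩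
  obtain ⟨θ, hθ⟩ := (hC.gen y).nonempty
  obtain ⟨⟨a, ha⟩, b, hb⟩ : (U C y (v 0) ∩ U C y (v 2) ∩ Gen C y).Nonempty ∧
      (U C y (v 1) ∩ U C y (v 3) ∩ Gen C y).Nonempty := by
    rcases h θ hθ with c | c
    · exact ⟨⟨_, c, hθ⟩, _, a1 θ ⟨c, hθ⟩⟩
    · exact ⟨⟨_, a2 θ ⟨c, hθ⟩⟩, _, c, hθ⟩
  obtain ⟨t, -, t1, t2⟩ := isPreconnected_closed_iff.1 (isPreconnected_univ (α := ℝ)) _ _
    isClosed_closure isClosed_closure (fun t _ => by
      rw [← closure_union]
      exact closure_mono (fun s hs => (h s hs).imp (⟨·, hs⟩) (⟨·, hs⟩)) (hC.gen y t))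
    ⟨a, trivial, subset_closure ha⟩ ⟨b, trivial, subset_closure hb⟩
  exact wf C hC y v hv t b (closure_mono inter_subset_left t1)
    (map_mem_closure (f := (· + π / 3)) (by fun_prop) t2 fun s hs => (a2 s hs).1) hb.1

end Vale.Agent.P032
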