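import Vale.Agent.P032.St6

/-! Circles covered by two closed classes. -/

namespace Vale.Agent.P032

open Set Metric Real Filter Topology

namespace Yc

theorem e_eq (θ : ℝ) : e θ = ⟨cos θ, sin θ⟩ :=
  Complex.ext (Complex.exp_ofReal_mul_I_re θ) (Complex.exp_ofReal_mul_I_im θ)

theorem e_cont : Continuous e := by unfold e; fun_prop

theorem e_sq (a b : ℝ) : ‖e a + e b‖ ^ 2 = 2 + 2 * cos (a - b) := by
  rw [Complex.sq_norm, Complex.normSq_apply]
  simp [e_eq, cos_sub]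
  linear_combination cos_sq_add_sin_sq a + cos_sq_add_sin_sq b

theorem e_hex (θ : ℝ) : e (θ + π / 3) + e (θ - π / 3) = e θ := by
  apply Complex.ext <;> simp [e_eq, cos_add, cos_sub, sin_add, sin_sub] <;> ring

variable {C : Fin 5 → Set ℂ} {d d' : Fin 5} {y : ℂ}

theorem symm (hy : y ∈ Y C d d') : y ∈ Y C d' d := fun θ => (hy θ).symm

theorem a1 (h : Bas C) (hy : y ∈ Y C d d') {θ : ℝ} (c : θ ∉ H C y d') : θ ∈ U C y d :=
  interior_maximal (fun φ a => (hy φ).resolve_right a) (h.closedH y d').isOpen_compl c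

theorem a2 (h : Bas C) (hy : y ∈ Y C d d') (θ : ℝ) : θ ∈ U C y d ↔ θ + π / 3 ∈ U C y d' :=
  ⟨fun c => a1 h (symm hy) (h.l1 y d θ c).1,
    fun c => a1 h hy (by simpa using (h.l1 y d' _ c).2)⟩

theorem a3 (h : Bas C) (hy : y ∈ Y C d d') (θ : ℝ) : θ ∈ U C y d ↔ θ ∉ H C y d' :=
  ⟨fun c => by simpa using (h.l1 y d' _ ((a2 h hy θ).1 c)).2, a1 h hy⟩

theorem a4 (h : Bas C) (hy : y ∈ Y C d d') (θ : ℝ) :
    θ ∈ closure (U C y d) ↔ θ + π / 3 ∈ closure (U C y d') :=
  ⟨fun c => map_mem_closure (f := fun t : ℝ => t + π / 3) (by fun_prop) c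
      fun t => (a2 h hy t).1,
    fun c => by
      simpa using map_mem_closure (f := fun t : ℝ => t - π / 3) (t := U C y d) (by fun_prop) c
        fun t a => (a2 h hy _).2 (by simpa using a)⟩

theorem pt (h : Bas C) (hy : y ∈ Y C d d') {a b : ℝ} (ha : a ∈ U C y d) (hb : b ∈ U C y d')
    (hd : |a - b| < 1) (j : Fin 5) (hj : U C y d ⊆ U C y j ∨ U C y d' ⊆ U C y j) :
    y + e a + e (b - 2 * π / 3) ∉ F C j := by
  rw [abs_lt] at hd
  have s : 0 < sin (a - (b - 2 * π / 3)) :=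
    sin_pos_of_pos_of_lt_pi (by linarith [pi_gt_three]) (by linarith [pi_gt_three])
  rcases hj with c | c
  · exact h.arc y j _ _ (c ha) s.ne'
  · rw [add_right_comm]
    refine h.arc y j _ _ (c ((a2 h (symm hy) _).2 ((a2 h hy _).2 ?_))) ?_
    · convert hb using 1
      ring
    · rw [← neg_sub, sin_neg]
      exact neg_ne_zero.2 s.ne'

theorem sgn {a b : ℝ} (hd : |a - b| < 1) (s : ℝ) (hs : s = 1 ∨ s = -1) (h : 0 < s * (b - a)) :
    0 < s * (‖e a + e (b - 2 * π / 3)‖ - 1) := by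
  rw [abs_lt] at hd
  have e1 := e_sq a (b - 2 * π / 3)
  have e2 : cos (2 * π / 3) = -1 / 2 := by
    rw [show 2 * π / 3 = π - π / 3 by ring, cos_pi_sub, cos_pi_div_three]
    ring
  have p := pi_gt_three
  rcases hs with rfl | rfl
  · have := cos_lt_cos_of_nonneg_of_le_pi (x := a - (b - 2 * π / 3)) (y := 2 * π / 3)
      (by linarith) (by linarith) (by linarith)
    have := lt_of_pow_lt_pow_left₀ 2 (norm_nonneg (e a + e (b - 2 * π / 3)))
      (show (1 : ℝ) ^ 2 < _ by linarith)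
    linarith
  · have := cos_lt_cos_of_nonneg_of_le_pi (y := a - (b - 2 * π / 3)) (x := 2 * π / 3)
      (by linarith) (by linarith) (by linarith)
    have := lt_of_pow_lt_pow_left₀ 2 zero_le_one
      (show ‖e a + e (b - 2 * π / 3)‖ ^ 2 < (1 : ℝ) ^ 2 by linarith)
    linarith

end Yc

open Yc

theorem ystr : YStmt := by
  intro C h d d' _ y hy
  have hy' := symm hy
  refine ⟨a3 h hy, a3 h hy', a2 h hy, a2 h hy', ?_⟩
  have cov : ∀ θ, θ ∈ closure (U C y d) ∪ closure (U C y d') := fun θ => by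
    by_contra c
    refine c (.inr (subset_closure ?_))
    by_contra c'
    refine c (.inl ?_)
    rw [show U C y d = (H C y d')ᶜ from Set.ext (a3 h hy), closure_compl]
    exact c'
  obtain ⟨θ, -, t⟩ := isPreconnected_closed_iff.1 isPreconnected_univ _ _ isClosed_closure
    isClosed_closure (fun θ _ => cov θ)
    ((cov 0).elim (fun c => ⟨0, trivial, c⟩) fun c => ⟨_, trivial, (a4 h hy' 0).1 c⟩)
    ((cov 0).elim (fun c => ⟨_, trivial, (a4 h hy 0).1 c⟩) fun c => ⟨0, trivial, c⟩)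
  have all : ∀ k : ℤ, θ + k * (π / 3) ∈ closure (U C y d) ∧
      θ + k * (π / 3) ∈ closure (U C y d') := fun k => by
    induction k using Int.induction_on with
    | zero => simpa using t
    | succ n ih =>
      rw [show θ + ((n + 1 : ℤ) : ℝ) * (π / 3) = θ + ((n : ℤ) : ℝ) * (π / 3) + π / 3 by
        push_cast; ring]
      exact ⟨(a4 h hy' _).1 ih.2, (a4 h hy _).1 ih.1⟩
    | pred n ih =>
      rw [show θ + ((-n : ℤ) : ℝ) * (π / 3) = θ + ((-n - 1 : ℤ) : ℝ) * (π / 3) + π / 3 by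
        push_cast; ring] at ih
      exact ⟨(a4 h hy _).2 ih.2, (a4 h hy' _).2 ih.1⟩
  refine ⟨θ, fun k => ⟨(all k).1, (all k).2, fun r r0 s hs => ?_⟩⟩
  have b := And.intro ((a4 h hy' _).1 (all k).2) ((a4 h hy _).1 (all k).1)
  generalize θ + k * (π / 3) = φ at b
  have c : Continuous fun q : ℝ × ℝ => y + e q.1 + e (q.2 - 2 * π / 3) := by
    have := e_cont
    fun_prop
  obtain ⟨ρ, ρ0, hρ⟩ := Metric.continuous_iff.1 c (φ + π / 3, φ + π / 3) r r0
  rw [show φ + π / 3 - 2 * π / 3 = φ - π / 3 by ring, add_assoc, e_hex] at hρ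
  have m : 0 < min ρ (1 / 2) := lt_min ρ0 one_half_pos
  obtain ⟨a, a1, a2⟩ := Metric.mem_closure_iff.1 b.1 _ m
  obtain ⟨a', a1', a2'⟩ := Metric.mem_closure_iff.1 b.2 _ m
  rw [lt_min_iff, dist_comm] at a2 a2'
  have n : a ≠ a' := fun c => (a3 h hy a).1 a1 (c ▸ interior_subset a1')
  have ab : |a - a'| < 1 := by
    rw [← Real.dist_eq]
    linarith [dist_triangle_right a a' (φ + π / 3)]
  have ab' : |a' - a| < 1 := by rwa [abs_sub_comm]
  have s0 : s * (a' - a) ≠ 0 := mul_ne_zero (by rcases hs with rfl | rfl <;> norm_num)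
    (sub_ne_zero.2 n.symm)
  rcases s0.lt_or_gt with c | c
  · refine ⟨_, hρ (a', a) (max_lt a2'.1 a2.1), ?_, fun j hj => pt h hy' a1' a1 ab' j hj.symm⟩
    rw [add_assoc, add_sub_cancel_left]
    exact sgn ab' s hs (by linarith)
  · refine ⟨_, hρ (a, a') (max_lt a2.1 a2'.1), ?_, pt h hy a1 a1' ab⟩
    rw [add_assoc, add_sub_cancel_left]
    exact sgn ab s hs c

end Vale.Agent.P032
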