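import Vale.Agent.P032.EL

/-! Two labels give an edge. -/

namespace Vale.Agent.P032

open Set Metric Real Filter Topology EL

theorem zed : ZStmt := by
  intro C B x a b hab ha hb hx
  refine ⟨hab, ha, hb, fun θ => ?_⟩
  by_contra H0
  push Not at H0
  obtain ⟨r, hr, h1⟩ := B.usc (x + e θ)
  obtain ⟨r', hr', h2⟩ := B.usc x
  have h3 : ∀ z ∈ ball (x + e θ) r, ∀ j, z ∈ F C j → j = a ∨ j = b := fun z hz j hj => by
    by_contra h
    push Not at h
    exact H0 j h.1 h.2 (h1 z hz j hj)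
  have ev : ∀ (φ : ℝ) (s : ℝ) (ρ : ℝ), 0 < ρ → ∀ᶠ t in 𝓝 (0 : ℝ), ‖e (φ + s * t) - e φ‖ < ρ :=
    fun φ s ρ hρ => (show Continuous fun t : ℝ => ‖e (φ + s * t) - e φ‖ by
      fun_prop).continuousAt.eventually (gt_mem_nhds (by simpa using hρ))
  obtain ⟨δ, ⟨⟨d1, d2⟩, d3⟩, d4⟩ := (Eventually.and (Eventually.filter_mono
    (nhdsWithin_le_nhds (s := Ioi 0))
    (((ev θ 1 (r / 2) (by linarith)).and (ev θ (-1) (r / 2) (by linarith))).and
      (gt_mem_nhds one_pos))) self_mem_nhdsWithin).exists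
  replace d4 : 0 < δ := d4
  set α := θ + 1 * δ
  set β := θ + -1 * δ
  obtain ⟨τ, hτ, h4⟩ := Metric.eventually_nhds_iff.1 (ev α 1 (r' / 2) (by linarith))
  obtain ⟨ε, hε, h5⟩ := cross (α := α) (β := β) (τ := τ / 2)
    (sin_pos_of_pos_of_lt_pi (by simp only [α, β]; linarith)
      (by simp only [α, β]; linarith [pi_gt_three])).ne' (by linarith)
  obtain ⟨μ, hμ, m1, m2, m3⟩ : ∃ μ > 0, μ ≤ ε / 4 ∧ μ ≤ r / 4 ∧ μ ≤ r' / 4 :=
    ⟨min (ε / 4) (min (r / 4) (r' / 4)), by positivity, min_le_left _ _,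
      (min_le_right _ _).trans (min_le_left _ _), (min_le_right _ _).trans (min_le_right _ _)⟩
  have key : ∀ a b φ, x ∈ F C a → (∀ z ∈ ball (x + e θ) r, ∀ j, z ∈ F C j → j = a ∨ j = b) →
      ‖e φ - e θ‖ < r / 2 → ∃ q ∈ C b, ‖q - (x + e φ)‖ < 2 * μ := fun a b φ ha h3 hφ => by
    obtain ⟨u, hu, hu'⟩ := Metric.mem_closure_iff.1 ha μ hμ
    have k1 : u + e φ ∉ F C a := fun h => B.e0 a _ h u hu (by simp [norm_e])
    obtain ⟨j, q, hq, hq1, hq2⟩ := nearO B (inter_mem (F_closed.isOpen_compl.mem_nhds k1)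
      (ball_mem_nhds _ hμ))
    rw [mem_ball, dist_eq_norm] at hq2
    rw [dist_comm, dist_eq_norm] at hu'
    have k2 : ‖q - (x + e φ)‖ < 2 * μ := by
      have := norm_add_le (q - (u + e φ)) (u - x)
      rw [show q - (u + e φ) + (u - x) = q - (x + e φ) by ring] at this
      linarith
    rcases h3 q (by
      have := norm_add_le (q - (x + e φ)) (e φ - e θ)
      rw [show q - (x + e φ) + (e φ - e θ) = q - (x + e θ) by ring] at this
      rw [mem_ball, dist_eq_norm]
      linarith) j (subset_closure hq) with rfl | rfl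
    · exact absurd (subset_closure hq) hq1
    · exact ⟨q, hq, k2⟩
  obtain ⟨q, hq, hq1⟩ := key a b α ha h3 d1
  obtain ⟨q', hq', hq2⟩ := key b a β hb (fun z hz j hj => (h3 z hz j hj).symm) d2
  obtain ⟨t, ht, h6⟩ := h5 (q - q') (by
    have := norm_sub_le (q - (x + e α)) (q' - (x + e β))
    rw [show q - (x + e α) - (q' - (x + e β)) = q - q' - (e α - e β) by ring] at this
    linarith)
  obtain ⟨j, hj⟩ := B.cover (q - e (α + t))
  have h7 := h4 (y := t) (by rw [dist_zero_right, norm_eq_abs]; linarith)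
  rw [one_mul] at h7
  rcases hx j (h2 _ (by
    have := norm_sub_le (q - (x + e α)) (e (α + t) - e α)
    rw [show q - (x + e α) - (e (α + t) - e α) = q - e (α + t) - x by ring] at this
    rw [mem_ball, dist_eq_norm]
    linarith) j hj) with rfl | rfl
  · exact B.e0 _ _ hj q' hq' (by rw [← h6]; congr 1; ring)
  · exact B.e0 _ _ hj q hq (by simp [norm_e])

end Vale.Agent.P032
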