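import Vale.Agent.P032.Trans
import Vale.Agent.P032.Open
import Vale.Agent.P032.Bas
import Vale.Agent.P032.Zed
import Vale.Agent.P032.Ycirc
import Vale.Agent.P032.Disc
import Vale.Agent.P032.N3
import Vale.Agent.P032.WF
import Vale.Agent.P032.C4
import Vale.Agent.P032.C5
import Vale.Agent.P032.Vert
import Vale.Agent.P032.Leb
import Vale.Agent.P032.Cut
import Vale.Agent.P032.Top

/-! Assembly of the lower bound six. -/

namespace Vale.Agent.P032

open Set Metric Filter Topology EL

theorem Y_closed (C : Fin 5 → Set ℂ) (d d' : Fin 5) : IsClosed (Y C d d') := by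
  have : Y C d d' = ⋂ θ, (fun y => y + e θ) ⁻¹' (F C d ∪ F C d') := by
    ext y
    simp [Y, H]
  rw [this]
  exact isClosed_iInter fun θ => (F_closed.union F_closed).preimage (by fun_prop)

theorem no_ocol (ht : TreeStmt) (hc : CleanStmt) (C : Fin 5 → Set ℂ) (hC : OCol C) : False := by
  have B := bas C hC
  have hn := n3 (disc ystr)
  have h4 := c4 zed (two hn) wf ab alt
  have h5 := c5 (two hn) ab alt
  obtain ⟨y, hy⟩ := top leb cut chain piece ht hc (F C) (Edge C) (fun _ => F_closed) B.cover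
    (fun j K hK hK' x hx y hy => not_lt.1 fun h => B.e1 j K hK hK' x hx y hy x (by simp)
      (by rwa [← dist_eq_norm]) (hK hx))
    (hn C B) (fun y a b h => ⟨⟨h.1.symm, h.2.2.1, h.2.1, fun θ => by
      obtain ⟨j, h1, h2, h3⟩ := h.2.2.2 θ
      exact ⟨j, h2, h1, h3⟩⟩, h.1, h.2.1⟩) B.edge_usc (zed C B) fun y => by
    have ev : ∀ᶠ x in 𝓝 y, ∀ d d', d ≠ d' → x ∈ Y C d d' → x = y := by
      refine eventually_all.2 fun d => eventually_all.2 fun d' => ?_
      by_cases hd : d = d'
      · exact Eventually.of_forall fun _ h => absurd hd h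
      by_cases hy : y ∈ Y C d d'
      · obtain ⟨r, hr, h⟩ := disc ystr C B d d' hd y hy
        filter_upwards [ball_mem_nhds y hr] with x hx _ using h x hx
      · filter_upwards [(Y_closed C d d').isOpen_compl.mem_nhds hy] with x hx _ hx'
          using absurd hx' hx
    refine Metric.eventually_nhds_iff_ball.1 (ev.mono fun x hx h => ?_)
    rcases h with ⟨a, b, c, hab, hbc, hac, h0, h1, h2⟩ | ⟨v, hv, h0, h1, h2, h3⟩ | h
    · obtain ⟨v, hv, rfl, rfl, rfl⟩ := (by decide +kernel : ∀ a b c : Fin 5, a ≠ b → b ≠ c →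
        a ≠ c → ∃ v : Fin 5 → Fin 5, Function.Injective v ∧ v 0 = a ∧ v 1 = b ∧ v 2 = c)
        a b c hab hbc hac
      exact hx _ _ (hv.ne (by decide)) (c3 hn C B x v hv h0 h1 h2)
    · rcases h4 C B x v hv h0 h1 h2 h3 with h | h
      · exact hx (v 4) (v 0) (hv.ne (by decide)) fun θ => (h θ).imp id And.left
      · exact hx (v 4) (v 1) (hv.ne (by decide)) fun θ => (h θ).imp id And.left
    · exact absurd h (h5 C B x)
  rcases hy with h | h | ⟨v, hv, h⟩
  · exact (vert ystr (c3 hn) h4 C B y).1 h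
  · exact (vert ystr (c3 hn) h4 C B y).2 h
  · refine h5 C B y ⟨v, hv, fun i => ?_⟩
    obtain ⟨h0, K, h1, h2, h3, k, h6, h7⟩ := h i
    refine ⟨h0, (h2 h3).1, (h2 h3).2, fun θ => ?_⟩
    obtain ⟨j, j1, j2⟩ := B.side {v i, v (i + 1)} K (by
      rintro j (rfl | rfl)
      exacts [fun z hz => (h2 hz).1, fun z hz => (h2 hz).2]) h1 y h3 k h6 h7 θ
    simp only [mem_insert_iff, mem_singleton_iff, not_or] at j1
    exact ⟨j, j1.1, j1.2, j2⟩

theorem six_of (ht : TreeStmt) (hc : CleanStmt) (c : EuclideanSpace ℝ (Fin 2) → Fin 5) :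
    ∃ x y, dist x y = 1 ∧ c x = c y := by
  by_contra h
  push Not at h
  let e := Complex.orthonormalBasisOneI.repr
  obtain ⟨A, hA⟩ := weak 5 (c ∘ e) fun x y h' => h _ _ (by rw [e.dist_map, dist_eq_norm, h'])
  obtain ⟨C, hC⟩ := openS 5 A hA
  exact no_ocol ht hc C hC

end Vale.Agent.P032
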