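import Vale.Agent.P032.Stmts

/-! Statements for the lower bound six. -/

namespace Vale.Agent.P032

open Set Metric Real

/-- Open colourings. -/
def OCol {k : ℕ} (C : Fin k → Set ℂ) : Prop :=
  (∀ i, IsOpen (C i)) ∧ (∀ i, ∀ x ∈ C i, ∀ y ∈ C i, ‖x - y‖ ≠ 1) ∧
    Pairwise (fun i j => Disjoint (C i) (C j)) ∧ Dense (⋃ i, C i)

/-- Unit vector with a given angle. -/
noncomputable def e (θ : ℝ) : ℂ := Complex.exp (θ * Complex.I)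

variable (C : Fin 5 → Set ℂ)

/-- Closed colour classes. -/
def F (j : Fin 5) : Set ℂ := closure (C j)

/-- Angles at which the unit circle about `y` meets a closed class. -/
def H (y : ℂ) (j : Fin 5) : Set ℝ := {θ | y + e θ ∈ F C j}

/-- Interior angles. -/
def U (y : ℂ) (j : Fin 5) : Set ℝ := interior (H C y j)

/-- The adjacency relation at a point. -/
def Edge (y : ℂ) (a b : Fin 5) : Prop :=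
  a ≠ b ∧ y ∈ F C a ∧ y ∈ F C b ∧ ∀ θ, ∃ j, j ≠ a ∧ j ≠ b ∧ θ ∈ H C y j

/-- Centres of two-coloured circles. -/
def Y (d d' : Fin 5) : Set ℂ := {y | ∀ θ, θ ∈ H C y d ∨ θ ∈ H C y d'}

/-- Generic angles. -/
def Gen (y : ℂ) : Set ℝ := {θ | ∀ (k : ℤ) j, θ + k * (π / 3) ∈ H C y j → θ + k * (π / 3) ∈ U C y j}

/-- Basic facts. -/
structure Bas : Prop where
  ocol : OCol C
  cover : ∀ x, ∃ j, x ∈ F C j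
  e0 : ∀ j, ∀ x ∈ F C j, ∀ p ∈ C j, ‖x - p‖ ≠ 1
  disj : ∀ i j, i ≠ j → ∀ x ∈ C i, x ∉ F C j
  near : ∀ x r, 0 < r → ∃ j, ∃ p ∈ C j, p ∈ ball x r
  usc : ∀ x, ∃ r > 0, ∀ z ∈ ball x r, ∀ j, z ∈ F C j → x ∈ F C j
  e1 : ∀ j K, K ⊆ F C j → IsPreconnected K → ∀ k ∈ K, ∀ k' ∈ K, ∀ p, ‖p - k‖ < 1 → 1 < ‖p - k'‖ →
    p ∉ F C j
  closedH : ∀ y j, IsClosed (H C y j)
  arc : ∀ y j α β, α ∈ U C y j → sin (α - β) ≠ 0 → y + e α + e β ∉ F C j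
  l1 : ∀ y j α, α ∈ U C y j → α + π / 3 ∉ H C y j ∧ α - π / 3 ∉ H C y j
  seg : ∀ (y n : ℂ) j (r : ℝ) φ, 0 < r → (∀ t : ℝ, |t| < r → y + t * n ∈ F C j) →
    (n * (starRingEnd ℂ) (e φ)).re ≠ 0 → φ ∉ H C y j
  gen : ∀ y, Dense (Gen C y)
  side : ∀ (S : Set (Fin 5)) K, (∀ j ∈ S, K ⊆ F C j) → IsPreconnected K → ∀ y ∈ K, ∀ k ∈ K, k ≠ y →
    ∀ θ, ∃ j, j ∉ S ∧ θ ∈ H C y j
  edge_usc : ∀ y, ∃ r > 0, ∀ x ∈ ball y r, ∀ a b, Edge C x a b → Edge C y a b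

/-- A nondegenerate continuum of two colours through a point. -/
def Lk (F : Fin 5 → Set ℂ) (y : ℂ) (a b : Fin 5) : Prop :=
  a ≠ b ∧ ∃ K, IsPreconnected K ∧ K ⊆ F a ∩ F b ∧ y ∈ K ∧ ∃ k ∈ K, k ≠ y

/-- Triangles. -/
def Cyc3 (G : Fin 5 → Fin 5 → Prop) : Prop :=
  ∃ a b c, a ≠ b ∧ b ≠ c ∧ a ≠ c ∧ G a b ∧ G b c ∧ G c a

/-- Four-cycles. -/
def Cyc4 (G : Fin 5 → Fin 5 → Prop) : Prop :=
  ∃ v : Fin 5 → Fin 5, Function.Injective v ∧ G (v 0) (v 1) ∧ G (v 1) (v 2) ∧ G (v 2) (v 3) ∧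
    G (v 3) (v 0)

/-- Five-cycles. -/
def Cyc5 (G : Fin 5 → Fin 5 → Prop) : Prop :=
  ∃ v : Fin 5 → Fin 5, Function.Injective v ∧ ∀ i, G (v i) (v (i + 1))

/-- Cycles. -/
def Cyc (G : Fin 5 → Fin 5 → Prop) : Prop := Cyc3 G ∨ Cyc4 G ∨ Cyc5 G

/-- WP O. -/
def OpenStmt : Prop := ∀ (k : ℕ) (A : Fin k → Set ℂ), Weak A → ∃ C : Fin k → Set ℂ, OCol C

/-- WP B. -/
def BasStmt : Prop := ∀ C : Fin 5 → Set ℂ, OCol C → Bas C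

/-- WP Z. -/
def ZStmt : Prop := ∀ C, Bas C → ∀ x a b, a ≠ b → x ∈ F C a → x ∈ F C b →
  (∀ j, x ∈ F C j → j = a ∨ j = b) → Edge C x a b

/-- WP Y, structure of two-coloured circles. -/
def YStmt : Prop := ∀ C, Bas C → ∀ d d', d ≠ d' → ∀ y ∈ Y C d d',
  (∀ θ, θ ∈ U C y d ↔ θ ∉ H C y d') ∧ (∀ θ, θ ∈ U C y d' ↔ θ ∉ H C y d) ∧
  (∀ θ, θ ∈ U C y d ↔ θ + π / 3 ∈ U C y d') ∧ (∀ θ, θ ∈ U C y d' ↔ θ + π / 3 ∈ U C y d) ∧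
  ∃ θ₀, ∀ k : ℤ, θ₀ + k * (π / 3) ∈ closure (U C y d) ∧ θ₀ + k * (π / 3) ∈ closure (U C y d') ∧
    ∀ r > 0, ∀ s : ℝ, s = 1 ∨ s = -1 → ∃ p ∈ ball (y + e (θ₀ + k * (π / 3))) r,
      0 < s * (‖p - y‖ - 1) ∧ ∀ j, (U C y d ⊆ U C y j ∨ U C y d' ⊆ U C y j) → p ∉ F C j

/-- WP D, discreteness. -/
def DiscStmt : Prop := ∀ C, Bas C → ∀ d d', d ≠ d' → ∀ y ∈ Y C d d',
  ∃ r > 0, ∀ x ∈ ball y r, x ∈ Y C d d' → x = y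

/-- WP N, no triple continuum. -/
def N3Stmt : Prop := ∀ C, Bas C → ∀ a b c, a ≠ b → b ≠ c → a ≠ c → ∀ K, IsPreconnected K →
  K ⊆ F C a ∩ F C b ∩ F C c → K.Subsingleton

/-- WP N, triangles. -/
def C3Stmt : Prop := ∀ C, Bas C → ∀ y (v : Fin 5 → Fin 5), Function.Injective v →
  Edge C y (v 0) (v 1) → Edge C y (v 1) (v 2) → Edge C y (v 2) (v 0) → y ∈ Y C (v 3) (v 4)

/-- WP N, at most two labels at an interior angle. -/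
def TwoStmt : Prop := ∀ C, Bas C → ∀ y a b c θ, a ≠ b → b ≠ c → a ≠ c →
  θ ∈ U C y a → θ ∈ U C y b → θ ∈ U C y c → False

/-- WP W, a unit pair in a monochromatic region. -/
def WFStmt : Prop := ∀ C, Bas C → ∀ y (v : Fin 5 → Fin 5), Function.Injective v → ∀ α β,
  α ∈ closure (U C y (v 0) ∩ U C y (v 2)) → α + π / 3 ∈ closure (U C y (v 0) ∩ U C y (v 2)) →
  β ∈ U C y (v 1) ∩ U C y (v 3) → False

/-- WP W, antipodal disjoint pairs. -/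
def ABStmt : Prop := ∀ C, Bas C → ∀ y (v : Fin 5 → Fin 5), Function.Injective v → ∀ α,
  α ∈ U C y (v 0) ∩ U C y (v 2) → α + π ∈ U C y (v 1) ∩ U C y (v 3) → ∀ φ, φ ∉ H C y (v 4)

/-- WP W, alternating pairs. -/
def AltStmt : Prop := ∀ C, Bas C → ∀ y (v : Fin 5 → Fin 5), Function.Injective v →
  (∀ θ ∈ Gen C y, θ ∈ U C y (v 0) ∩ U C y (v 2) ∨ θ ∈ U C y (v 1) ∩ U C y (v 3)) → False

/-- WP C5. -/
def C5Stmt : Prop := ∀ C, Bas C → ∀ y, ¬Cyc5 (Edge C y)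

/-- WP C4. -/
def C4Stmt : Prop := ∀ C, Bas C → ∀ y (v : Fin 5 → Fin 5), Function.Injective v →
  Edge C y (v 0) (v 1) → Edge C y (v 1) (v 2) → Edge C y (v 2) (v 3) → Edge C y (v 3) (v 0) →
  (∀ θ, θ ∈ H C y (v 4) ∨ θ ∈ H C y (v 0) ∩ H C y (v 2)) ∨
    ∀ θ, θ ∈ H C y (v 4) ∨ θ ∈ H C y (v 1) ∩ H C y (v 3)

/-- WP V. -/
def VStmt : Prop := ∀ C, Bas C → ∀ y, ¬Cyc3 (Lk (F C) y) ∧ ¬Cyc4 (Lk (F C) y)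

/-- At most two colours near a point. -/
def L2 (c : ℂ → Fin 5) (x : ℂ) : Prop := ∃ r > 0, ∃ a b, ∀ z ∈ ball x r, c z = a ∨ c z = b

/-- WP T1, covering lemma. -/
def LebStmt : Prop := ∀ c : ℂ → Fin 5, (∀ x ∈ closedBall (0 : ℂ) 20, L2 c x) → ∀ δ > 0,
  ∃ j x y, 4 ≤ dist x y ∧ x ∈ closedBall (0 : ℂ) 20 ∧ c x = j ∧ Relation.ReflTransGen
    (fun p q => q ∈ closedBall (0 : ℂ) 20 ∧ c q = j ∧ dist p q ≤ δ) x y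

/-- WP T2, cut wire theorem. -/
def CutStmt : Prop := ∀ A S S' : Set ℂ, IsCompact A → IsClosed S → IsClosed S' →
  (∀ K ⊆ A, IsPreconnected K → (K ∩ S).Nonempty → (K ∩ S').Nonempty → False) →
  ∃ A₀ A₁, IsCompact A₀ ∧ IsCompact A₁ ∧ Disjoint A₀ A₁ ∧ A₀ ∪ A₁ = A ∧ Disjoint A₀ S' ∧
    Disjoint A₁ S

/-- WP T2, chains near a compact set with small components. -/
def ChainStmt : Prop := ∀ A : Set ℂ, IsCompact A →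
  (∀ K ⊆ A, IsPreconnected K → ∀ x ∈ K, ∀ y ∈ K, dist x y ≤ 1) → ∃ ε > 0, ∀ x y,
    (∃ x' ∈ A, dist x x' ≤ ε) → Relation.ReflTransGen
      (fun p q => (∃ q' ∈ A, dist q q' ≤ ε) ∧ dist p q ≤ ε) x y → dist x y < 4

/-- WP T2, small pieces of a finite union of totally disconnected compact sets. -/
def PieceStmt : Prop := ∀ (ι : Type) [Finite ι] (T : ι → Set ℂ), (∀ i, IsCompact (T i)) →
  (∀ i, ∀ K ⊆ T i, IsPreconnected K → K.Subsingleton) → ∀ r : ℂ → ℝ, (∀ x, 0 < r x) →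
  ∃ (m : ℕ) (y : Fin m → ℂ) (φ : Fin m → ℂ → ℝ), (∀ i, y i ∈ ⋃ i, T i) ∧ (∀ i, Continuous (φ i)) ∧
    (∀ i x, φ i x ≤ 1 → x ∈ ball (y i) (r (y i))) ∧
    (∀ i j x, φ i x ≤ 1 → φ j x ≤ 1 → i = j) ∧
    ∀ x ∈ ⋃ i, T i, (∃ i, φ i x ≤ 0) ∧ ∀ i, φ i x ≤ 0 ∨ 1 < φ i x

/-- Truncation maps of a tree. -/
def Anc (G : Fin 5 → Fin 5 → Prop) (S : Set (Fin 5)) (anc : ℕ → Fin 5 → Fin 5) : Prop :=
  (∀ k, ∀ a ∈ S, anc k a ∈ S) ∧ (∀ a ∈ S, ∀ b ∈ S, anc 0 a = anc 0 b) ∧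
    (∀ k, 4 ≤ k → ∀ a ∈ S, anc k a = a) ∧ ∀ k, ∀ a ∈ S, ∀ b, a = b ∨ G a b →
      ∃ p q, ∀ x, x = anc k a ∨ x = anc k b ∨ x = anc (k + 1) a ∨ x = anc (k + 1) b → x = p ∨ x = q

/-- WP T3. -/
def TreeStmt : Prop := ∀ (G : Fin 5 → Fin 5 → Prop) (S : Set (Fin 5)), (∀ a b, G a b → G b a) →
  (∀ a b, G a b → a ≠ b ∧ a ∈ S) → ¬Cyc G → ∃ anc, Anc G S anc

/-- WP T4, recolouring. -/
def CleanStmt : Prop := ∀ (ι : Type) [Finite ι] (c : ℂ → Fin 5) (φ : ι → ℂ → ℝ)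
  (G : ι → Fin 5 → Fin 5 → Prop) (S : ι → Set (Fin 5)) (anc : ι → ℕ → Fin 5 → Fin 5),
  (∀ i, Continuous (φ i)) → (∀ i j x, φ i x ≤ 1 → φ j x ≤ 1 → i = j) →
  (∀ i, Anc (G i) (S i) (anc i)) → (∀ i x, φ i x ≤ 1 → c x ∈ S i) →
  ∃ c' : ℂ → Fin 5, (∀ z, (∀ i, 1 ≤ φ i z) → c' z = c z) ∧ (∀ i z, φ i z ≤ 1 → c' z ∈ S i) ∧
    ∀ i x, φ i x ≤ 1 → (φ i x ≤ 0 ∨ ∃ r > 0, ∃ a ∈ S i, ∃ b, (a = b ∨ G i a b) ∧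
      ∀ z ∈ ball x r, c z = a ∨ c z = b) → L2 c' x

/-- WP T5, the topological extraction. -/
def TopStmt : Prop := ∀ (F : Fin 5 → Set ℂ) (G : ℂ → Fin 5 → Fin 5 → Prop),
  (∀ j, IsClosed (F j)) → (∀ x, ∃ j, x ∈ F j) →
  (∀ j, ∀ K ⊆ F j, IsPreconnected K → ∀ x ∈ K, ∀ y ∈ K, dist x y ≤ 1) →
  (∀ a b c, a ≠ b → b ≠ c → a ≠ c → ∀ K, IsPreconnected K → K ⊆ F a ∩ F b ∩ F c →
    K.Subsingleton) →
  (∀ y a b, G y a b → G y b a ∧ a ≠ b ∧ y ∈ F a) →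
  (∀ y, ∃ r > 0, ∀ x ∈ ball y r, ∀ a b, G x a b → G y a b) →
  (∀ x a b, a ≠ b → x ∈ F a → x ∈ F b → (∀ j, x ∈ F j → j = a ∨ j = b) → G x a b) →
  (∀ y, ∃ r > 0, ∀ x ∈ ball y r, Cyc (G x) → x = y) → ∃ y, Cyc (Lk F y)

end Vale.Agent.P032
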