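import Vale.Agent.P032.Base

/-! Work package statements. -/

namespace Vale.Agent.P032

open MeasureTheory Filter Topology ComplexConjugate Finset

section Mean

variable (A : Type) [CommGroup A] [Countable A]

/-- An enumeration. -/
noncomputable def en : ℕ → A := (exists_surjective_nat A).choose

theorem en_surj : Function.Surjective (en A) := (exists_surjective_nat A).choose_spec

/-- Points of the `n`-th box. -/
noncomputable def tau (n : ℕ) (j : Fin (n + 1) → Fin (n + 1)) : A :=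
  ∏ i : Fin (n + 1), en A i ^ (j i : ℕ)

variable {A}

/-- Average over the `n`-th box. -/
noncomputable def av (n : ℕ) (g : A → ℂ) : ℂ :=
  (∑ j, g (tau A n j)) / (Fintype.card (Fin (n + 1) → Fin (n + 1)) : ℂ)

/-- `g` has mean `c`. -/
def HasM (g : A → ℂ) (c : ℂ) : Prop :=
  Tendsto (fun n => av n g) (hyperfilter ℕ) (𝓝 c)

end Mean

/-- Bounded measurable functions. -/
def BM {X : Type} [MeasurableSpace X] (F : X → ℂ) : Prop :=
  Measurable F ∧ ∃ C : ℝ, ∀ x, ‖F x‖ ≤ C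

/-- A measure preserving action of the circle. -/
structure Act {X : Type} [MeasurableSpace X] (μ : Measure X) (S : T → X → X) : Prop where
  mp : ∀ t, MeasurePreserving (S t) μ μ
  mul : ∀ a b x, S (a * b) x = S a (S b x)
  one : ∀ x, S 1 x = x

/-- Ergodicity. -/
def Erg {X : Type} [MeasurableSpace X] (μ : Measure X) (S : T → X → X) : Prop :=
  ∀ D, MeasurableSet D → (∀ t, S t ⁻¹' D = D) → μ D = 0 ∨ μ D = 1

/-- Rotation invariant measures on the character group. -/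
def Inv (ν : Measure Γ) : Prop := ∀ t : T, MeasurePreserving (fun χ => tE t • χ) ν ν

/-- Measures that do not charge the continuous characters. -/
def Wild (ν : Measure Γ) : Prop := ν Cont = 0

/-- Exchangeable ergodic sequences of characters with wild differences. -/
structure Ex (μ : Measure (ℕ → Γ)) : Prop where
  inv : ∀ t : T, MeasurePreserving (fun x : ℕ → Γ => tE t • x) μ μ
  inj : ∀ σ : ℕ → ℕ, Function.Injective σ → MeasurePreserving (fun x : ℕ → Γ => x ∘ σ) μ μ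
  wild : μ {x | x 0 - x 1 ∈ Cont} = 0
  erg : Erg μ fun t x => tE t • x

/-- The data of the final counting argument. -/
structure KData {X : Type} [MeasurableSpace X] (μ : Measure X) (S : T → X → X)
    (k : E → X → ℝ) : Prop where
  meas : ∀ w, Measurable (k w)
  nonneg : ∀ w x, 0 ≤ k w x
  le_one : ∀ w x, k w x ≤ 1
  equi : ∀ (u : T) w, k (tE u * w) =ᵐ[μ] fun x => k w (S u x)
  iden : ∀ z α : E, HasM (fun t : T => ((∫ x, k (-(α * z)) x * k ((1 - α * cj α) * z) (S t x) *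
    k (cj α * z) (S (t ^ 2) x) ∂μ : ℝ) : ℂ)) (((∫ x, k z x ∂μ) * ∫ x, k (α ^ 2 * z) x ∂μ : ℝ) : ℂ)

/-- Proper colourings of the complex plane. -/
def Proper {k : ℕ} (c : ℂ → Fin k) : Prop := ∀ x y, ‖x - y‖ = 1 → c x ≠ c y

/-- Weak measurable colourings. -/
def Weak {k : ℕ} (A : Fin k → Set ℂ) : Prop :=
  (∀ i, MeasurableSet (A i)) ∧ (∀ᵐ x : ℂ, ∃ i, x ∈ A i) ∧
    ∀ i, ∀ᵐ θ : ℝ, ∀ᵐ x : ℂ, ¬(x ∈ A i ∧ x + Complex.exp (θ * Complex.I) ∈ A i)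

/-- WP M1. -/
def MeanStmt : Prop := ∀ (A : Type) [CommGroup A] [Countable A] (b : A) (ε : ℝ), 0 < ε →
  ∀ᶠ n in atTop, ∀ g : A → ℂ, (∀ a, ‖g a‖ ≤ 1) → ‖av n (fun a => g (b * a)) - av n g‖ ≤ ε

/-- WP M2. -/
def LimStmt : Prop := ∀ (A : Type) [CommGroup A] [Countable A] (X : Type) [TopologicalSpace X]
  [CompactSpace X] [TopologicalSpace.MetrizableSpace X] [MeasurableSpace X] [BorelSpace X]
  (ρ : A → ProbabilityMeasure X), ∃ Λ : ProbabilityMeasure X, ∀ F : X → ℂ, Continuous F →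
    HasM (fun a => ∫ x, F x ∂(ρ a : Measure X)) (∫ x, F x ∂(Λ : Measure X))

/-- WP M3. -/
def ErgStmt : Prop := ∀ (X : Type) [MeasurableSpace X] (μ : Measure X) [IsProbabilityMeasure μ]
  (S : T → X → X), Act μ S → ∀ F G : X → ℂ, BM F → BM G → ∃ c : ℂ,
    (∀ σ : T →* T, Function.Surjective σ → HasM (fun t => ∫ x, F x * G (S (σ t) x) ∂μ) c) ∧
    (Erg μ S → c = (∫ x, F x ∂μ) * ∫ x, G x ∂μ)

/-- WP Q. -/
def QStmt : Prop := ∀ (X : Type) [MeasurableSpace X] (μ : Measure X) [IsFiniteMeasure μ]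
  (χ : X → Γ) (G : X → ℝ) (C : ℝ), Measurable χ → Measurable G → (∀ x, 0 ≤ G x) →
  (∀ x, G x ≤ C) → μ (χ ⁻¹' Cont) = 0 →
  (∀ (u : T) w, ∫ x, G x * (f (tE u * w) (χ x)).re ∂μ = ∫ x, G x * (f w (χ x)).re ∂μ) →
  ∀ w, w ≠ 0 → ∫ x, G x * (f w (χ x)).re ∂μ ≤ 3 / 4 * ∫ x, G x ∂μ

/-- WP C. -/
def ClosedStmt : Prop := IsClosed {ν : ProbabilityMeasure Γ | Inv ν ∧ Wild ν}

/-- WP X. -/
def MaxStmt : Prop := ∀ (ν : Measure Γ) [IsProbabilityMeasure ν], Inv ν → Wild ν → ∀ w : E,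
  ∃ μ : ProbabilityMeasure (ℕ → Γ), Ex μ ∧
    ‖∫ χ, f w χ ∂ν‖ ^ 2 ≤ (∫ x, f w (x 0 - x 1) ∂(μ : Measure (ℕ → Γ))).re

/-- WP K. -/
def KStmt : Prop := ∀ (μ : Measure (ℕ → Γ)) [IsProbabilityMeasure μ], Ex μ →
  ∃ k : E → (ℕ → Γ) → ℝ, KData μ (fun t x => tE t • x) k ∧
    ∀ w, ∫ x, f w (x 0 - x 1) ∂μ = ((∫ x, k w x ∂μ : ℝ) : ℂ)

/-- WP F. -/
def FinStmt : Prop := ∀ (X : Type) [MeasurableSpace X] (μ : Measure X) [IsProbabilityMeasure μ]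
  (S : T → X → X) (k : E → X → ℝ), Act μ S → Erg μ S → KData μ S k →
  (∀ w, w ≠ 0 → ∫ x, k w x ∂μ ≤ 3 / 4) →
  (∀ w (N : ℕ) (t : Fin N → T), (N * ∫ x, k w x ∂μ) ^ 2 ≤
    ∑ i, ∑ j, ∫ x, k ((tE (t i) - tE (t j)) * w) x ∂μ) →
  (∫ x, k 0 x ∂μ = 1) → ∀ w, w ≠ 0 → ∫ x, k w x ∂μ = 0

/-- Rigidity. -/
def RigStmt : Prop := ∀ (ν : Measure Γ) [IsFiniteMeasure ν], Inv ν → Wild ν →
  ∀ w, w ≠ 0 → ∫ χ, f w χ ∂ν = 0

/-- WP U. -/
def UCStmt : Prop := ∀ φ : E → ℝ, (∀ (u : T) z, φ (tE u * z) = φ z) →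
  (∀ (s : Finset E) (a : E → ℂ), 0 ≤ (∑ x ∈ s, ∑ y ∈ s, a x * conj (a y) * φ (x - y)).re) →
  ∀ ε > 0, ∃ δ > 0, ∀ z z' : E, z ≠ 0 → z' ≠ 0 → ‖(z : ℂ) - z'‖ < δ → |φ z - φ z'| ≤ ε

/-- WP R. -/
def RandStmt : Prop := ∀ (k : ℕ) (c : ℂ → Fin k), Proper c → ∃ A : Fin k → Set ℂ, Weak A

/-- WP D. -/
def DetStmt : Prop := ∀ (k : ℕ) (A : Fin k → Set ℂ), Weak A →
  ∃ c : ℂ → Fin k, Proper c ∧ ∀ i, NullMeasurableSet (c ⁻¹' {i}) volume

end Vale.Agent.P032
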