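import Vale.Agent.P032.Mean

/-! WP U: Bochner's theorem and uniform continuity off the origin. -/

namespace Vale.Agent.P032

open MeasureTheory Filter Topology ComplexConjugate Finset
open scoped BoundedContinuousFunction

namespace Uc

theorem polish : PolishSpace Γ :=
  (Γ.isEmbedding.continuous.isClosedEmbedding Γ.isEmbedding.injective).polishSpace

/-- Characters as bounded continuous functions. -/
noncomputable def fb (w : E) : Γ →ᵇ ℂ :=
  BoundedContinuousFunction.mkOfCompact ⟨f w, continuous_f w⟩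

theorem fb_apply (w : E) (χ : Γ) : fb w χ = f w χ := rfl

theorem intg (μ : Measure Γ) [IsFiniteMeasure μ] (w : E) : Integrable (f w) μ := (fb w).integrable μ

/-- Trigonometric polynomials. -/
noncomputable def trig : StarSubalgebra ℂ (Γ →ᵇ ℂ) where
  carrier := Submodule.span ℂ (Set.range fb)
  add_mem' := fun ha hb => Submodule.add_mem _ ha hb
  mul_mem' := fun {a b} ha hb => by
    have : Submodule.span ℂ (Set.range fb) * Submodule.span ℂ (Set.range fb) ≤
        Submodule.span ℂ (Set.range fb) := by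
      rw [Submodule.span_mul_span]
      refine Submodule.span_mono ?_
      rintro _ ⟨_, ⟨x, rfl⟩, _, ⟨y, rfl⟩, rfl⟩
      exact ⟨x + y, BoundedContinuousFunction.ext fun χ => f_add_left x y χ⟩
    exact this (Submodule.mul_mem_mul ha hb)
  algebraMap_mem' := fun c => by
    rw [Algebra.algebraMap_eq_smul_one]
    exact Submodule.smul_mem _ _ (Submodule.subset_span
      ⟨0, BoundedContinuousFunction.ext fun χ => f_zero_left χ⟩)
  star_mem' := fun {a} ha => by
    refine Submodule.span_induction (p := fun a _ => star a ∈ Submodule.span ℂ (Set.range fb))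
      ?_ ?_ ?_ ?_ ha
    · rintro _ ⟨x, rfl⟩
      exact Submodule.subset_span ⟨-x, BoundedContinuousFunction.ext fun χ => f_neg_left x χ⟩
    · rw [star_zero]
      exact Submodule.zero_mem _
    · intro x y _ _ hx hy
      rw [star_add]
      exact Submodule.add_mem _ hx hy
    · intro c x _ hx
      rw [star_smul]
      exact Submodule.smul_mem _ _ hx

theorem ext_f {P Q : Measure Γ} [IsFiniteMeasure P] [IsFiniteMeasure Q]
    (h : ∀ w, ∫ χ, f w χ ∂P = ∫ χ, f w χ ∂Q) : P = Q := by
  have := polish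
  refine ext_of_forall_mem_subalgebra_integral_eq_of_polish (𝕜 := ℂ) (A := trig) ?_ fun g hg => ?_
  · intro χ χ' hne
    obtain ⟨z, hz⟩ : ∃ z, χ.hom z ≠ χ'.hom z := by
      by_contra H
      push Not at H
      exact hne (Γ.ext H)
    refine ⟨_, ⟨_, ⟨fb z, Submodule.subset_span ⟨z, rfl⟩, rfl⟩, rfl⟩, fun e => hz ?_⟩
    exact AddCircle.injective_toCircle one_ne_zero (Subtype.ext e)
  · refine Submodule.span_induction
      (p := fun g _ => ∫ x, (g : Γ →ᵇ ℂ) x ∂P = ∫ x, (g : Γ →ᵇ ℂ) x ∂Q) ?_ ?_ ?_ ?_ hg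
    · rintro _ ⟨x, rfl⟩
      exact h x
    · simp
    · intro x y _ _ hx hy
      simp only [BoundedContinuousFunction.add_apply]
      rw [integral_add (x.integrable _) (y.integrable _),
        integral_add (x.integrable _) (y.integrable _), hx, hy]
    · intro c x _ hx
      simp only [BoundedContinuousFunction.smul_apply]
      rw [integral_smul, integral_smul, hx]

theorem ex_char {z : E} (hz : z ≠ 0) : ∃ χ : Γ, f z χ ≠ 1 := by
  have hz' : (z : ℂ) ≠ 0 := fun e => hz (Subtype.ext e)
  let l : E →+ ℝ := AddMonoidHom.mk' (fun w => ((w : ℂ) * (2 * (z : ℂ))⁻¹).re) fun a b => by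
    simp [add_mul]
  refine ⟨(QuotientAddGroup.mk' _).comp l, fun h => ?_⟩
  have e : l z = 1 / 2 := by
    change ((z : ℂ) * (2 * (z : ℂ))⁻¹).re = _
    rw [show (z : ℂ) * (2 * (z : ℂ))⁻¹ = ((1 / 2 : ℝ) : ℂ) by push_cast; field_simp, Complex.ofReal_re]
  have h1 : ((l z : ℝ) : UnitAddCircle) = 0 :=
    AddCircle.injective_toCircle one_ne_zero (Subtype.ext (h.trans (by simp)))
  obtain ⟨n, hn⟩ := (AddCircle.coe_eq_zero_iff _).1 h1
  rw [e, zsmul_eq_mul, mul_one] at hn
  have h2 : ((2 * n : ℤ) : ℝ) = ((1 : ℤ) : ℝ) := by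
    push_cast
    linarith
  have := Int.cast_injective h2
  omega

/-- Haar measure. -/
noncomputable def Ha : Measure Γ := Measure.addHaarMeasure ⊤

instance : IsProbabilityMeasure Ha :=
  ⟨Measure.addHaarMeasure_self (G := Γ) (K₀ := ⊤)⟩

instance : Ha.IsAddLeftInvariant := by
  unfold Ha
  infer_instance

open Classical in
theorem int_Ha (z : E) : ∫ χ, f z χ ∂Ha = if z = 0 then 1 else 0 := by
  split_ifs with hz
  · simp [hz]
  · obtain ⟨ψ, hψ⟩ := ex_char hz
    have := integral_add_left_eq_self (μ := Ha) (f z) ψ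
    simp only [f_add_right, integral_const_mul] at this
    by_contra h
    exact hψ ((mul_eq_right₀ h).1 this)

theorem foel : ∃ (s : ℕ → Finset E) (a : ℕ → E → ℝ), (∀ n x, x ∉ s n → a n x = 0) ∧
    (∀ n, ∑ x ∈ s n, a n x * a n x = 1) ∧
    ∀ z, Tendsto (fun n => ∑ x ∈ s n, a n x * a n (x - z)) atTop (𝓝 1) := by
  classical
  have : Countable (Multiplicative E) := inferInstanceAs (Countable E)
  let τ : ∀ n : ℕ, (Fin (n + 1) → Fin (n + 1)) → E := fun n j =>
    (tau (Multiplicative E) n j).toAdd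
  let N : ℕ → ℝ := fun n => Fintype.card (Fin (n + 1) → Fin (n + 1))
  have hN : ∀ n, 0 < N n := fun n => Nat.cast_pos.2 Fintype.card_pos
  let q : ℕ → E → ℝ := fun n x => (∑ j, if τ n j = x then 1 else 0) / N n
  have q0 : ∀ n x, 0 ≤ q n x := fun n x =>
    div_nonneg (sum_nonneg fun j _ => by split_ifs <;> norm_num) (hN n).le
  have cnt : ∀ n (B : Finset E) z, ∑ x ∈ B, q n (x - z) =
      (∑ j, if z + τ n j ∈ B then 1 else 0) / N n := fun n B z => by
    simp only [q]
    rw [← sum_div, sum_comm]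
    congr 1
    refine sum_congr rfl fun j _ => ?_
    rw [← sum_ite_eq B (z + τ n j) fun _ => (1 : ℝ)]
    refine sum_congr rfl fun x _ => ?_
    simp only [eq_sub_iff_add_eq']
  have le1 : ∀ n (B : Finset E) z, ∑ x ∈ B, q n (x - z) ≤ 1 := fun n B z => by
    rw [cnt, div_le_one (hN n)]
    calc _ ≤ ∑ _j : Fin (n + 1) → Fin (n + 1), (1 : ℝ) :=
          sum_le_sum fun j _ => by split_ifs <;> norm_num
      _ = N n := by rw [sum_const, card_univ, nsmul_eq_mul, mul_one]
  have eq1 : ∀ n, ∑ x ∈ univ.image (τ n), q n x = 1 := fun n => by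
    have := cnt n (univ.image (τ n)) 0
    simp only [sub_zero, zero_add, mem_image_of_mem _ (mem_univ _), if_true, sum_const, card_univ,
      nsmul_eq_mul, mul_one] at this
    rw [this]
    exact div_self (hN n).ne'
  refine ⟨fun n => univ.image (τ n), fun n x => √(q n x), fun n x hx => ?_, fun n => ?_,
    fun z => ?_⟩
  · have : q n x = 0 := by
      simp only [q]
      rw [sum_eq_zero, zero_div]
      exact fun j _ => if_neg fun e => hx (mem_image.2 ⟨j, mem_univ j, e⟩)
    simp only [this, Real.sqrt_zero]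
  · simp only [Real.mul_self_sqrt (q0 n _), eq1]
  · rw [Metric.tendsto_atTop]
    intro ε hε
    obtain ⟨M, hM⟩ := eventually_atTop.1
      (mean (Multiplicative E) (Multiplicative.ofAdd z) (ε / 2) (half_pos hε))
    refine ⟨M, fun n hn => ?_⟩
    set s := univ.image (τ n)
    set B := s.filter fun x => q n (x - z) < q n x with hB
    have h1 := hM n hn (fun a => ((if a.toAdd ∈ B then 1 else 0 : ℝ) : ℂ)) fun a => by
      split_ifs <;> simp
    have e : ∀ y : E, av n (fun a : Multiplicative E =>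
        ((if y + a.toAdd ∈ B then 1 else 0 : ℝ) : ℂ)) = ((∑ x ∈ B, q n (x - y) : ℝ) : ℂ) :=
      fun y => by
      rw [cnt, av, Complex.ofReal_div, Complex.ofReal_sum]
      rfl
    have e0 := e 0
    simp only [zero_add, sub_zero] at e0
    simp only [toAdd_mul, toAdd_ofAdd] at h1
    rw [e, e0, ← Complex.ofReal_sub, Complex.norm_real, Real.norm_eq_abs, abs_le] at h1
    have up : ∑ x ∈ s, √(q n x) * √(q n (x - z)) ≤ ∑ x ∈ s, (q n x + q n (x - z)) / 2 :=
      sum_le_sum fun x _ => by
        nlinarith [sq_nonneg (√(q n x) - √(q n (x - z))), Real.mul_self_sqrt (q0 n x),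
          Real.mul_self_sqrt (q0 n (x - z))]
    have lo : ∑ x ∈ s, (q n x - if q n (x - z) < q n x then q n x - q n (x - z) else 0) ≤
        ∑ x ∈ s, √(q n x) * √(q n (x - z)) := sum_le_sum fun x _ => by
      split_ifs with h
      · rw [sub_sub_cancel]
        exact (Real.mul_self_sqrt (q0 n _)).symm.le.trans
          (mul_le_mul_of_nonneg_right (Real.sqrt_le_sqrt h.le) (Real.sqrt_nonneg _))
      · rw [sub_zero]
        exact (Real.mul_self_sqrt (q0 n _)).symm.le.trans
          (mul_le_mul_of_nonneg_left (Real.sqrt_le_sqrt (not_lt.1 h)) (Real.sqrt_nonneg _))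
    rw [← sum_div, sum_add_distrib, eq1] at up
    rw [sum_sub_distrib, ← sum_filter, ← hB, sum_sub_distrib, eq1] at lo
    rw [Real.dist_eq, abs_lt]
    constructor <;> linarith [le1 n s z, h1.1]

theorem bochner (φ : E → ℝ) (hs : ∀ z, φ (-z) = φ z)
    (hp : ∀ (s : Finset E) (a : E → ℂ), 0 ≤ (∑ x ∈ s, ∑ y ∈ s, a x * conj (a y) * φ (x - y)).re) :
    ∃ ν : FiniteMeasure Γ, ∀ z, ∫ χ, f z χ ∂(ν : Measure Γ) = φ z := by
  classical
  obtain ⟨s, a, h0, h1, h2⟩ := foel
  let P : ℕ → Γ → ℂ := fun n χ => ∑ x ∈ s n, ∑ y ∈ s n,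
    ((a n x * a n y * φ (x - y) : ℝ) : ℂ) * f (y - x) χ
  have Pc : ∀ n, Continuous (P n) := fun n => continuous_finsetSum _ fun x _ =>
    continuous_finsetSum _ fun y _ => continuous_const.mul (continuous_f _)
  have P0 : ∀ n χ, 0 ≤ (P n χ).re := fun n χ => by
    refine (hp (s n) fun x => a n x * conj (f x χ)).trans (le_of_eq (congrArg _ ?_))
    refine sum_congr rfl fun x _ => sum_congr rfl fun y _ => ?_
    simp only [f_sub_left, map_mul, Complex.conj_ofReal, Complex.conj_conj]
    push_cast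
    ring
  have Pr : ∀ n χ, (((P n χ).re : ℝ) : ℂ) = P n χ := fun n χ => by
    rw [← Complex.conj_eq_iff_re]
    simp only [P, map_sum, map_mul, Complex.conj_ofReal, ← f_neg_left, neg_sub]
    rw [sum_comm]
    refine sum_congr rfl fun x _ => sum_congr rfl fun y _ => ?_
    rw [← hs (y - x), neg_sub, mul_comm (a n y)]
  have PI : ∀ n z, ∫ χ, P n χ * f z χ ∂Ha =
      ((φ z * ∑ x ∈ s n, a n x * a n (x - z) : ℝ) : ℂ) := fun n z => by
    simp only [P, sum_mul, mul_assoc _ (f _ _), ← f_add_left]
    rw [integral_finsetSum _ fun x _ => integrable_finsetSum _ fun y _ => (intg _ _).const_mul _,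
      mul_sum, Complex.ofReal_sum]
    refine sum_congr rfl fun x _ => ?_
    rw [integral_finsetSum _ fun y _ => (intg _ _).const_mul _]
    simp only [integral_const_mul, int_Ha]
    rw [sum_eq_single (x - z)]
    · rw [if_pos (by abel), sub_sub_cancel, mul_one]
      congr 1
      ring
    · intro y _ hy
      rw [if_neg fun e => hy (by linear_combination e), mul_zero]
    · intro h
      rw [h0 n _ h]
      simp
  have Pi : ∀ n, Integrable (fun χ => (P n χ).re) Ha := fun n =>
    (BoundedContinuousFunction.mkOfCompact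
      ⟨_, Complex.continuous_re.comp (Pc n)⟩).integrable Ha
  let ν : ℕ → FiniteMeasure Γ := fun n => ⟨Ha.withDensity fun χ => ENNReal.ofReal (P n χ).re,
    isFiniteMeasure_withDensity_ofReal (Pi n).2⟩
  have νI : ∀ n z, ∫ χ, f z χ ∂(ν n : Measure Γ) =
      ((φ z * ∑ x ∈ s n, a n x * a n (x - z) : ℝ) : ℂ) := fun n z => by
    rw [← PI]
    refine (integral_withDensity_eq_integral_toReal_smul
      (Complex.continuous_re.comp (Pc n)).measurable.ennreal_ofReal
      (Eventually.of_forall fun _ => ENNReal.ofReal_lt_top) _).trans ?_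
    refine integral_congr_ae (Eventually.of_forall fun χ => ?_)
    simp only [Function.comp_apply]
    rw [ENNReal.toReal_ofReal (P0 n χ), Complex.real_smul, Pr]
  have νm : ∀ n, (ν n).mass ≤ (φ 0).toNNReal := fun n => by
    have := νI n 0
    simp only [f_zero_left, integral_const, sub_zero, h1, mul_one, Complex.real_smul] at this
    have e : ((ν n).mass : ℝ) = φ 0 := Complex.ofReal_injective this
    rw [← e, Real.toNNReal_coe]
  obtain ⟨μ, -, hμ⟩ := (isCompact_setOfPred_finiteMeasure_le_of_compactSpace Γ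
    (φ 0).toNNReal).ultrafilter_le_nhds ((hyperfilter ℕ).map ν) (by
      rw [Ultrafilter.coe_map, le_principal_iff, Filter.mem_map]
      exact Eventually.of_forall νm)
  refine ⟨μ, fun z => ?_⟩
  have l1 := (FiniteMeasure.tendsto_iff_forall_integral_rclike_tendsto ℂ).1
    (show Tendsto ν (hyperfilter ℕ) (𝓝 μ) from hμ) (fb z)
  simp only [fb_apply, νI] at l1
  have l2 := ((Complex.continuous_ofReal.tendsto _).comp ((h2 z).const_mul (φ z))).mono_left
    Nat.hyperfilter_le_atTop
  rw [mul_one] at l2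
  exact tendsto_nhds_unique l1 l2

theorem small (ν : Measure Γ) [IsFiniteMeasure ν] (ε : ℝ) (hε : 0 < ε) :
    ∃ δ > 0, ∀ y : E, ‖(y : ℂ)‖ < δ → ∫ χ in (Cont : Set Γ), ‖f y χ - 1‖ ∂ν ≤ ε := by
  by_contra H
  push Not at H
  choose y h1 h2 using fun n : ℕ => H (1 / ((n : ℝ) + 1)) Nat.one_div_pos_of_nat
  have := tendsto_integral_of_dominated_convergence (μ := ν.restrict (Cont : Set Γ))
    (F := fun n χ => ‖f (y n) χ - 1‖) (f := fun _ => (0 : ℝ)) (fun _ => (2 : ℝ))
    (fun n => ((continuous_f _).sub continuous_const).norm.aestronglyMeasurable)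
    (integrable_const _) (fun n => Eventually.of_forall fun χ => by
      rw [norm_norm]
      refine (norm_sub_le _ _).trans ?_
      rw [norm_f, norm_one]
      norm_num)
    (ae_restrict_of_forall_mem measurableSet_Cont fun χ hχ => by
      rw [Metric.tendsto_atTop]
      intro e he
      obtain ⟨d, hd, h⟩ := mem_Cont.1 hχ (e / 2) (half_pos he)
      obtain ⟨N, hN⟩ := exists_nat_one_div_lt hd
      refine ⟨N, fun n hn => ?_⟩
      rw [Real.dist_eq, sub_zero, abs_norm]
      exact (h _ ((h1 n).trans ((Nat.one_div_le_one_div hn).trans_lt hN))).trans_lt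
        (half_lt_self he))
  rw [integral_zero] at this
  obtain ⟨n, hn⟩ := (this.eventually (gt_mem_nhds hε)).exists
  exact absurd (h2 n) (not_lt.2 hn.le)

end Uc

open Uc in
theorem uc (hr : RigStmt) : UCStmt := by
  intro φ hrad hp ε hε
  obtain ⟨m, hm⟩ := exists_tE (a := -1) (by simp)
  obtain ⟨ν, hν⟩ := bochner φ (fun z => by rw [← hrad m z, hm, neg_one_mul]) hp
  have hc : ∀ t : T, Measurable fun χ : Γ => tE t • χ := fun t =>
    (continuous_const_smul _).measurable
  have hi : Inv ν := fun t => ⟨hc t, ext_f fun w => by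
    rw [integral_map (hc t).aemeasurable (continuous_f w).aestronglyMeasurable]
    simp only [f_smul, hν, hrad]⟩
  have hi2 : Inv ((ν : Measure Γ).restrict (Cont : Set Γ)ᶜ) := fun t => by
    have e : (fun χ : Γ => tE t • χ) ⁻¹' (Cont : Set Γ)ᶜ = (Cont : Set Γ)ᶜ := by
      ext χ
      refine not_congr ⟨fun h => ?_, fun h => Cont.smul_mem _ h⟩
      have := Cont.smul_mem (tE t⁻¹) h
      rwa [smul_smul, ← map_mul, inv_mul_cancel, map_one, one_smul] at this
    have := (hi t).restrict_preimage measurableSet_Cont.compl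
    rwa [e] at this
  have hw : Wild ((ν : Measure Γ).restrict (Cont : Set Γ)ᶜ) := by
    rw [Wild, Measure.restrict_apply measurableSet_Cont, Set.inter_compl_self, measure_empty]
  have key : ∀ z, z ≠ 0 → ∫ χ in (Cont : Set Γ), f z χ ∂(ν : Measure Γ) = φ z := fun z hz => by
    rw [← hν, ← integral_add_compl measurableSet_Cont (intg (ν : Measure Γ) z), hr _ hi2 hw z hz, add_zero]
  obtain ⟨δ, hδ, h⟩ := small ν ε hε
  refine ⟨δ, hδ, fun z z' hz hz' hd => le_trans ?_ (h (z - z') (by simpa using hd))⟩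
  rw [← Real.norm_eq_abs, ← Complex.norm_real, Complex.ofReal_sub, ← key z hz, ← key z' hz',
    ← integral_sub (intg _ _) (intg _ _)]
  refine (norm_integral_le_integral_norm _).trans (le_of_eq ?_)
  refine integral_congr_ae (Eventually.of_forall fun χ => ?_)
  have e : f z χ - f z' χ = f z' χ * (f (z - z') χ - 1) := by
    rw [mul_sub, ← f_add_left, add_sub_cancel, mul_one]
  simp only [e, norm_mul, norm_f, one_mul]

end Vale.Agent.P032
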