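import Vale.Agent.P032.Rig
import Vale.Agent.P032.Lim
import Vale.Agent.P032.Erg
import Vale.Agent.P032.Fin
import Vale.Agent.P032.UC
import Vale.Agent.P032.Rand
import Vale.Agent.P032.Det
import Vale.Agent.P032.K
import Vale.Agent.P032.Q

/-! Assembly, up to two packages. -/

namespace Vale.Agent.P032

open MeasureTheory

theorem weak_of (hq : QStmt) (hk : KStmt) : RandStmt :=
  rand lim (uc (rig (mx (closed lim erg hq)) hk (fin erg) hq))

theorem weak : RandStmt := weak_of q (kk erg)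

theorem trans_of (hr : RandStmt) (k : ℕ) (c : EuclideanSpace ℝ (Fin 2) → Fin k)
    (hc : ∀ x y, dist x y = 1 → c x ≠ c y) :
    ∃ c' : EuclideanSpace ℝ (Fin 2) → Fin k, (∀ x y, dist x y = 1 → c' x ≠ c' y) ∧
      ∀ i, NullMeasurableSet (c' ⁻¹' {i}) volume := by
  let e := Complex.orthonormalBasisOneI.repr
  obtain ⟨A, hA⟩ := hr k (c ∘ e) fun x y h => hc _ _ (by rw [e.dist_map, dist_eq_norm, h])
  obtain ⟨d, h1, h2⟩ := det k A hA
  refine ⟨d ∘ e.symm, fun x y h => h1 _ _ (by rw [← dist_eq_norm, e.symm.dist_map, h]), fun i => ?_⟩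
  exact (h2 i).preimage e.symm.measurePreserving.quasiMeasurePreserving

end Vale.Agent.P032
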