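import Vale.Agent.P032.St6

/-! Truncation of trees and the local recolouring. -/

namespace Vale.Agent.P032

open Set Metric Filter Topology

namespace Tree

theorem inj5 : ∀ a b c d f : Fin 5, a ≠ b → a ≠ c → a ≠ d → a ≠ f → b ≠ c → b ≠ d → b ≠ f →
    c ≠ d → c ≠ f → d ≠ f → Function.Injective ![a, b, c, d, f] ∧
      ∀ x, x = a ∨ x = b ∨ x = c ∨ x = d ∨ x = f := by decide +kernel

theorem inj4 : ∀ a b c d : Fin 5, a ≠ b → a ≠ c → a ≠ d → b ≠ c → b ≠ d → c ≠ d →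
    ∃ f, Function.Injective ![a, b, c, d, f] := by decide +kernel

theorem leaf {G : Fin 5 → Fin 5 → Prop} (s : ∀ a b, G a b → G b a) (n : ∀ a b, G a b → a ≠ b)
    (h : ¬Cyc G) {a b : Fin 5} (ab : G a b) : ∃ v p, G v p ∧ ∀ x, G v x → x = p := by
  by_contra! k
  have t : ∀ a b c, G a b → G b c → G c a → False := fun a b c x y z =>
    h (.inl ⟨a, b, c, n _ _ x, n _ _ y, (n _ _ z).symm, x, y, z⟩)
  have q : ∀ a b c d, G a b → G b c → G c d → G d a → a ≠ c → b ≠ d → False :=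
    fun a b c d x y z w u v => by
      obtain ⟨f, hf⟩ := inj4 a b c d (n _ _ x) u (n _ _ w).symm (n _ _ y) v (n _ _ z)
      exact h (.inr (.inl ⟨_, hf, x, y, z, w⟩))
  obtain ⟨c, bc, ca⟩ := k b a (s _ _ ab)
  obtain ⟨d, cd, db⟩ := k c b (s _ _ bc)
  have da : d ≠ a := fun e => t a b c ab bc (e ▸ cd)
  obtain ⟨f, df, fc⟩ := k d c (s _ _ cd)
  have fa : f ≠ a := fun e => q a b c d ab bc cd (e ▸ df) ca.symm db.symm
  have fb : f ≠ b := fun e => t b c d bc cd (e ▸ df)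
  obtain ⟨x, fx, xd⟩ := k f d (s _ _ df)
  obtain ⟨i, j⟩ := inj5 a b c d f (n _ _ ab) ca.symm da.symm fa.symm (n _ _ bc) db.symm fb.symm
    (n _ _ cd) fc.symm (n _ _ df)
  rcases j x with rfl | rfl | rfl | rfl | rfl
  · exact h (.inr (.inr ⟨_, i, fun l => by fin_cases l <;> assumption⟩))
  · exact q x c d f bc cd df fx db.symm fc.symm
  · exact t x d f cd df fx
  · exact xd rfl
  · exact n _ _ fx rfl

theorem ind (m : ℕ) : ∀ (S : Finset (Fin 5)) (G : Fin 5 → Fin 5 → Prop), S.card = m + 1 →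
    (∀ a b, G a b → G b a) → (∀ a b, G a b → a ≠ b ∧ a ∈ S) → ¬Cyc G →
    ∃ anc : ℕ → Fin 5 → Fin 5, (∀ k, ∀ a ∈ S, anc k a ∈ S) ∧
      (∀ a ∈ S, ∀ b ∈ S, anc 0 a = anc 0 b) ∧ (∀ k, m ≤ k → ∀ a ∈ S, anc k a = a) ∧
      ∀ k, ∀ a ∈ S, ∀ b, a = b ∨ G a b → ∃ p q, ∀ x, x = anc k a ∨ x = anc k b ∨
        x = anc (k + 1) a ∨ x = anc (k + 1) b → x = p ∨ x = q := by
  classical
  induction m with
  | zero =>
    intro S G h _ _ _
    obtain ⟨v, rfl⟩ := Finset.card_eq_one.1 h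
    exact ⟨fun _ _ => v, by simp, by simp, by simp +contextual,
      fun _ _ _ _ _ => ⟨v, v, by simp⟩⟩
  | succ m ih =>
    intro S G h s n c
    obtain ⟨v, p, v1, p1, vp, l⟩ : ∃ v p, v ∈ S ∧ p ∈ S ∧ p ≠ v ∧ ∀ x, G v x → x = p := by
      by_cases e : ∃ a b, G a b
      · obtain ⟨a, b, e⟩ := e
        obtain ⟨v, p, e, l⟩ := leaf s (fun a b e => (n a b e).1) c e
        exact ⟨v, p, (n _ _ e).2, (n _ _ (s _ _ e)).2, (n _ _ e).1.symm, l⟩
      · obtain ⟨v, v1, p, p1, vp⟩ := Finset.one_lt_card.1 (show 1 < S.card by omega)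
        exact ⟨v, p, v1, p1, vp.symm, fun x f => absurd ⟨v, x, f⟩ e⟩
    obtain ⟨A, a1, a2, a3, a4⟩ := ih (S.erase v) (fun a b => G a b ∧ a ≠ v ∧ b ≠ v)
      (by rw [Finset.card_erase_of_mem v1, h]; rfl) (fun a b e => ⟨s _ _ e.1, e.2.2, e.2.1⟩)
      (fun a b e => ⟨(n _ _ e.1).1, Finset.mem_erase.2 ⟨e.2.1, (n _ _ e.1).2⟩⟩) (by
        rintro (⟨a, b, d, e1, e2, e3, f1, f2, f3⟩ | ⟨w, e, f1, f2, f3, f4⟩ | ⟨w, e, f⟩)
        exacts [c (.inl ⟨a, b, d, e1, e2, e3, f1.1, f2.1, f3.1⟩),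
          c (.inr (.inl ⟨w, e, f1.1, f2.1, f3.1, f4.1⟩)), c (.inr (.inr ⟨w, e, fun i => (f i).1⟩))])
    have p2 : p ∈ S.erase v := Finset.mem_erase.2 ⟨vp, p1⟩
    let B : ℕ → Fin 5 → Fin 5 := fun k a =>
      if a = v then if m + 1 ≤ k then v else A k p else A k a
    have b1 : ∀ k a, a ≠ v → B k a = A k a := fun k a e => if_neg e
    have b2 : ∀ k, m + 1 ≤ k → B k v = v := fun k e => (if_pos rfl).trans (if_pos e)
    have b3 : ∀ k, ¬m + 1 ≤ k → B k v = A k p := fun k e => (if_pos rfl).trans (if_neg e)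
    have key : ∀ k, ∃ r q, ∀ x, x = B k v ∨ x = B k p ∨ x = B (k + 1) v ∨ x = B (k + 1) p →
        x = r ∨ x = q := fun k => by
      rw [b1 _ p vp, b1 _ p vp]
      by_cases e : m ≤ k
      · rw [a3 k e p p2, a3 (k + 1) (by omega) p p2, b2 (k + 1) (by omega)]
        refine ⟨v, p, ?_⟩
        by_cases f : m + 1 ≤ k
        · rw [b2 k f]
          tauto
        · rw [b3 k f, a3 k e p p2]
          tauto
      · rw [b3 k (by omega), b3 (k + 1) (by omega)]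
        exact ⟨A k p, A (k + 1) p, by tauto⟩
    have z : ∀ a ∈ S, B 0 a = A 0 p := fun a ha => by
      by_cases e : a = v
      · rw [e, b3 0 (by omega)]
      · rw [b1 0 a e, a2 a (Finset.mem_erase.2 ⟨e, ha⟩) p p2]
    refine ⟨B, fun k a ha => ?_, fun a ha b hb => by rw [z a ha, z b hb], fun k hk a ha => ?_,
      fun k a ha b e => ?_⟩
    · by_cases e : a = v
      · by_cases f : m + 1 ≤ k
        · rwa [e, b2 k f]
        · rw [e, b3 k f]
          exact Finset.mem_of_mem_erase (a1 k p p2)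
      · rw [b1 k a e]
        exact Finset.mem_of_mem_erase (a1 k a (Finset.mem_erase.2 ⟨e, ha⟩))
    · by_cases e : a = v
      · rw [e, b2 k hk]
      · rw [b1 k a e, a3 k (by omega) a (Finset.mem_erase.2 ⟨e, ha⟩)]
    · rcases e with rfl | e
      · exact ⟨B k a, B (k + 1) a, by tauto⟩
      by_cases f : a = v
      · subst f
        rw [l b e]
        exact key k
      by_cases g : b = v
      · subst g
        rw [l a (s _ _ e)]
        obtain ⟨r, q, t⟩ := key k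
        exact ⟨r, q, fun x u => t x (by tauto)⟩
      rw [b1 _ a f, b1 _ a f, b1 _ b g, b1 _ b g]
      exact a4 k a (Finset.mem_erase.2 ⟨f, ha⟩) b (.inr ⟨e, f, g⟩)

end Tree

theorem tree : TreeStmt := by
  classical
  intro G S s n c
  rcases S.eq_empty_or_nonempty with rfl | hS
  · exact ⟨fun _ a => a, by simp [Anc]⟩
  have h1 : 0 < S.toFinset.card := Finset.card_pos.2 (toFinset_nonempty.2 hS)
  have h2 : S.toFinset.card ≤ 5 := by simpa using Finset.card_le_univ S.toFinset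
  obtain ⟨A, a1, a2, a3, a4⟩ := Tree.ind (S.toFinset.card - 1) S.toFinset G (by omega) s
    (by simpa using n) c
  simp only [mem_toFinset] at a1 a2 a3 a4
  exact ⟨A, a1, a2, fun k hk => a3 k (by omega), a4⟩

theorem clean : CleanStmt := by
  classical
  intro ι _ c φ G S anc hc hu ha hS
  let c' : ℂ → Fin 5 := fun z =>
    if h : ∃ i, φ i z ≤ 1 then anc h.choose ⌊5 * φ h.choose z⌋₊ (c z) else c z
  have e1 : ∀ i z, φ i z ≤ 1 → c' z = anc i ⌊5 * φ i z⌋₊ (c z) := fun i z h => by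
    have h' : ∃ i, φ i z ≤ 1 := ⟨i, h⟩
    simp only [c', dif_pos h', hu _ i z h'.choose_spec h]
  have e2 : ∀ z, (∀ i, φ i z ≤ 1 → 4 / 5 ≤ φ i z) → c' z = c z := fun z h => by
    by_cases h' : ∃ i, φ i z ≤ 1
    · obtain ⟨i, hi⟩ := h'
      rw [e1 i z hi]
      exact (ha i).2.2.1 _ (Nat.le_floor (by have := h i hi; push_cast; linarith)) _ (hS i z hi)
    · exact dif_neg h'
  refine ⟨c', fun z h => e2 z fun i _ => by linarith [h i],
    fun i z h => e1 i z h ▸ (ha i).1 _ _ (hS i z h), fun i x hx h => ?_⟩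
  have l : ∀ a b, (∀ᶠ z in 𝓝 x, c' z = a ∨ c' z = b) → L2 c' x := fun a b h => by
    obtain ⟨r, r0, hr⟩ := Metric.eventually_nhds_iff.1 h
    exact ⟨r, r0, a, b, fun z hz => hr hz⟩
  have n : ∀ t, φ i x < t → ∀ᶠ z in 𝓝 x, φ i z < t := fun t h =>
    (hc i).continuousAt.eventually_lt continuousAt_const h
  have n' : ∀ t, t < φ i x → ∀ᶠ z in 𝓝 x, t < φ i z := fun t h =>
    continuousAt_const.eventually_lt (hc i).continuousAt h
  rcases h with h | ⟨r, r0, a, a1, b, ab, h⟩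
  · refine l (anc i 0 (c x)) 0 ((n (1 / 5) (by linarith)).mono fun z hz => .inl ?_)
    rw [e1 i z (by linarith), Nat.floor_eq_zero.2 (by linarith)]
    exact (ha i).2.1 _ (hS i z (by linarith)) _ (hS i x hx)
  have h' : ∀ᶠ z in 𝓝 x, c z = a ∨ c z = b := Metric.eventually_nhds_iff.2 ⟨r, r0, fun z => h z⟩
  by_cases t : 4 / 5 < φ i x
  · have o : ∀ᶠ z in 𝓝 x, ∀ j, φ j z ≤ 1 → 4 / 5 ≤ φ j z := eventually_all.2 fun j => by
      by_cases e : j = i
      · exact (n' _ t).mono fun z hz _ => e ▸ hz.le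
      · exact (continuousAt_const.eventually_lt (hc j).continuousAt
          (not_le.1 fun f => e (hu _ _ x f hx))).mono fun z hz f => absurd f (not_le.2 hz)
    exact l a b ((h'.and o).mono fun z hz => e2 z hz.2 ▸ hz.1)
  obtain ⟨p, q, u⟩ := (ha i).2.2.2 ⌊5 * φ i x - 1 / 2⌋₊ a a1 b ab
  refine l p q ?_
  filter_upwards [h', n (φ i x + 1 / 10) (by linarith), n' (φ i x - 1 / 10) (by linarith)]
    with z z1 z2 z3
  rw [e1 i z (by linarith)]
  have f1 : ⌊5 * φ i x - 1 / 2⌋₊ ≤ ⌊5 * φ i z⌋₊ := Nat.floor_mono (by linarith)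
  have f2 : ⌊5 * φ i z⌋₊ < ⌊5 * φ i x - 1 / 2⌋₊ + 2 := (Nat.floor_lt' (by omega)).2 (by
    push_cast
    linarith [Nat.lt_floor_add_one (5 * φ i x - 1 / 2)])
  refine u _ ?_
  rcases (show ⌊5 * φ i z⌋₊ = ⌊5 * φ i x - 1 / 2⌋₊ ∨ ⌊5 * φ i z⌋₊ = ⌊5 * φ i x - 1 / 2⌋₊ + 1 by
    omega) with e | e <;> rcases z1 with f | f <;> rw [e, f] <;> tauto

end Vale.Agent.P032
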